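import Mathlib

namespace Vale.Agent.Lib.P243

/-- Core arithmetic inequality used in the strip lemma. -/
theorem arith_core (a b l r d t P Q : ℝ) (ha : 0 ≤ a) (hb : b ≤ 1)
    (hl : 0 ≤ l) (hl1 : l ≤ 1) (hr : 0 ≤ r) (hr1 : r ≤ 1)
    (had : a < d) (hdb : d < b) (hat : a < t) (htb : t < b)
    (h1 : P * d ≤ l * (d - a)) (h2 : P * (1 - d) ≤ r * (b - d))
    (h3 : Q * t ≤ (1 - l) * (t - a)) (h4 : Q * (1 - t) ≤ (1 - r) * (b - t)) :
    P + Q ≤ b - a := by
  have hd0 : 0 < d := lt_of_le_of_lt ha had
  have ht0 : 0 < t := lt_of_le_of_lt ha hat
  have hd1 : 0 < 1 - d := by linarith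
  have ht1 : 0 < 1 - t := by linarith
  set s := b - a with hs
  have hs0 : 0 < s := by rw [hs]; linarith
  -- key implications
  have keyP1 : d - a ≤ s * d → P ≤ l * s := by
    intro h
    have : P * d ≤ (l * s) * d := by nlinarith
    exact le_of_mul_le_mul_right this hd0
  have keyP2 : b - d ≤ s * (1 - d) → P ≤ r * s := by
    intro h
    have : P * (1 - d) ≤ (r * s) * (1 - d) := by nlinarith
    exact le_of_mul_le_mul_right this hd1
  have keyQ1 : t - a ≤ s * t → Q ≤ (1 - l) * s := by
    intro h
    have : Q * t ≤ ((1 - l) * s) * t := by nlinarith
    exact le_of_mul_le_mul_right this ht0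
  have keyQ2 : b - t ≤ s * (1 - t) → Q ≤ (1 - r) * s := by
    intro h
    have : Q * (1 - t) ≤ ((1 - r) * s) * (1 - t) := by nlinarith
    exact le_of_mul_le_mul_right this ht1
  -- dichotomies
  have dichD : d - a ≤ s * d ∨ b - d ≤ s * (1 - d) := by
    by_contra hcon
    push Not at hcon
    nlinarith [hcon.1, hcon.2]
  have dichT : t - a ≤ s * t ∨ b - t ≤ s * (1 - t) := by
    by_contra hcon
    push Not at hcon
    nlinarith [hcon.1, hcon.2]
  have hPQ : P = P * d + P * (1 - d) := by ring
  have hQQ : Q = Q * t + Q * (1 - t) := by ring
  by_cases hsign : (r - l) * (t - d) ≤ 0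
  · -- weighted bound
    have : P + Q ≤ s + (r - l) * (t - d) := by
      have e : l * (d - a) + r * (b - d) + ((1 - l) * (t - a) + (1 - r) * (b - t))
          = s + (r - l) * (t - d) := by rw [hs]; ring
      linarith
    linarith
  · push Not at hsign
    -- (r - l) and (t - d) have the same strict sign
    rcases lt_or_ge l r with hlr | hlr
    · -- l < r, hence d < t
      have hdt : d < t := by
        by_contra hcon
        push Not at hcon
        nlinarith
      by_cases hD : d - a ≤ s * d
      · have hP := keyP1 hD
        rcases dichT with hT | hT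
        · have hQ := keyQ1 hT
          nlinarith
        · have hQ := keyQ2 hT
          nlinarith
      · push Not at hD
        have hD2 : b - d ≤ s * (1 - d) := by
          rcases dichD with h | h
          · linarith
          · exact h
        have hP := keyP2 hD2
        -- t - a > s * t since alpha increasing
        have hT1 : s * t < t - a := by
          -- (d - a)/d > s and t > d, a >= 0  => (t - a) > s t
          nlinarith [mul_pos hd0 ht0, mul_nonneg ha (le_of_lt (sub_pos.mpr hdt))]
        have hT2 : b - t ≤ s * (1 - t) := by
          rcases dichT with h | h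
          · linarith
          · exact h
        have hQ := keyQ2 hT2
        nlinarith
    · -- r ≤ l, hence t < d
      have hdt : t < d := by
        by_contra hcon
        push Not at hcon
        nlinarith
      by_cases hD : b - d ≤ s * (1 - d)
      · have hP := keyP2 hD
        rcases dichT with hT | hT
        · have hQ := keyQ1 hT
          nlinarith
        · have hQ := keyQ2 hT
          nlinarith
      · push Not at hD
        have hD2 : d - a ≤ s * d := by
          rcases dichD with h | h
          · exact h
          · linarith
        have hP := keyP1 hD2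
        have hT1 : s * (1 - t) < b - t := by
          nlinarith [mul_pos hd1 ht1, mul_nonneg (sub_nonneg.mpr hb) (le_of_lt (sub_pos.mpr hdt))]
        have hT2 : t - a ≤ s * t := by
          rcases dichT with h | h
          · exact h
          · linarith
        have hQ := keyQ1 hT2
        nlinarith

end Vale.Agent.Lib.P243
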