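import Mathlib

namespace Vale.Agent.Lib.P243

/-- The objective: weighted sum of logarithms of the diagonal of `D * V`. -/
noncomputable def extObj {J : Type*} [Fintype J] (D : Matrix J J ℝ) (w : J → ℝ)
    (V : Matrix J J ℝ) : ℝ := ∑ i, w i * Real.log ((D * V) i i)

/-- `V` is an orthogonal matrix with `D * V` of positive diagonal maximising the objective. -/
def IsExt {J : Type*} [Fintype J] [DecidableEq J] (D : Matrix J J ℝ) (w : J → ℝ)
    (V : Matrix J J ℝ) : Prop :=
  V ∈ Matrix.orthogonalGroup J ℝ ∧ (∀ i, 0 < (D * V) i i) ∧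
    ∀ V' ∈ Matrix.orthogonalGroup J ℝ, (∀ i, 0 < (D * V') i i) →
      extObj D w V' ≤ extObj D w V

end Vale.Agent.Lib.P243
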