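import Mathlib
import Vale.Agent.Lib.P243.BallDefs

namespace Vale.Agent.Lib.P243

/-- The orthogonal group is a compact set of matrices. -/
theorem be_compact {J : Type*} [Fintype J] [DecidableEq J] :
    IsCompact (Matrix.orthogonalGroup J ℝ : Set (Matrix J J ℝ)) := by
  have hK : IsCompact (Set.pi Set.univ
      (fun _ : J => Set.pi Set.univ (fun _ : J => Set.Icc (-1 : ℝ) 1))) :=
    isCompact_univ_pi (fun _ => isCompact_univ_pi (fun _ => isCompact_Icc))
  have hclosed : IsClosed (Matrix.orthogonalGroup J ℝ : Set (Matrix J J ℝ)) := by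
    have hset : (Matrix.orthogonalGroup J ℝ : Set (Matrix J J ℝ)) =
        {V : Matrix J J ℝ | V * V.transpose = 1} := by
      ext V
      exact Matrix.mem_orthogonalGroup_iff J ℝ
    rw [hset]
    exact isClosed_eq (continuous_id.matrix_mul continuous_id.matrix_transpose)
      continuous_const
  refine hK.of_isClosed_subset hclosed ?_
  intro V hV i _ j _
  have hb : ‖V i j‖ ≤ 1 := entry_norm_bound_of_unitary hV i j
  rw [Real.norm_eq_abs] at hb
  exact abs_le.mp hb

/-- On matrices with positive diagonal of `D * V` the product objective is the exponential of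
the logarithmic objective. -/
theorem be_obj_eq {J : Type*} [Fintype J] (D : Matrix J J ℝ) (w : J → ℝ) (V : Matrix J J ℝ)
    (hV : ∀ i, 0 < (D * V) i i) :
    ∏ i, (max ((D * V) i i) 0) ^ (w i) = Real.exp (extObj D w V) := by
  unfold extObj
  rw [Real.exp_sum]
  refine Finset.prod_congr rfl (fun i _ => ?_)
  rw [max_eq_left (hV i).le, Real.rpow_def_of_pos (hV i), mul_comm]

/-- The product objective is continuous. -/
theorem be_cont {J : Type*} [Fintype J] (D : Matrix J J ℝ) (w : J → ℝ) (hw : ∀ i, 0 < w i) :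
    Continuous fun V : Matrix J J ℝ => ∏ i, (max ((D * V) i i) 0) ^ (w i) := by
  refine continuous_finsetProd _ (fun i _ => ?_)
  have h0 : Continuous fun V : Matrix J J ℝ => (D * V) i i :=
    (continuous_const.matrix_mul continuous_id).matrix_elem i i
  have h1 : Continuous fun V : Matrix J J ℝ => max ((D * V) i i) 0 := h0.max continuous_const
  exact h1.rpow_const (fun _ => Or.inr (hw i).le)

/-- Existence of an extremal orthogonal matrix. -/
theorem exists_isExt {J : Type*} [Fintype J] [DecidableEq J] (D : Matrix J J ℝ)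
    (hD : ∀ i, 0 < D i i) (w : J → ℝ) (hw : ∀ i, 0 < w i) : ∃ V, IsExt D w V := by
  have hone : (1 : Matrix J J ℝ) ∈ (Matrix.orthogonalGroup J ℝ : Set (Matrix J J ℝ)) :=
    one_mem (Matrix.orthogonalGroup J ℝ)
  obtain ⟨V, hVmem, hVmax⟩ :=
    be_compact.exists_isMaxOn ⟨1, hone⟩ (be_cont D w hw).continuousOn
  have hmax : ∀ V' ∈ (Matrix.orthogonalGroup J ℝ : Set (Matrix J J ℝ)),
      ∏ i, (max ((D * V') i i) 0) ^ (w i) ≤ ∏ i, (max ((D * V) i i) 0) ^ (w i) :=
    fun V' hV' => isMaxOn_iff.mp hVmax V' hV'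
  have h1pos : 0 < ∏ i, (max ((D * (1 : Matrix J J ℝ)) i i) 0) ^ (w i) := by
    refine Finset.prod_pos (fun i _ => ?_)
    apply Real.rpow_pos_of_pos
    rw [Matrix.mul_one]
    exact lt_max_of_lt_left (hD i)
  have hVpos : 0 < ∏ i, (max ((D * V) i i) 0) ^ (w i) := lt_of_lt_of_le h1pos (hmax 1 hone)
  have hdiag : ∀ i, 0 < (D * V) i i := by
    intro i
    by_contra hneg
    have hle : (D * V) i i ≤ 0 := not_lt.mp hneg
    have hz : ∏ i, (max ((D * V) i i) 0) ^ (w i) = 0 := by
      refine Finset.prod_eq_zero (Finset.mem_univ i) ?_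
      rw [max_eq_right hle, Real.zero_rpow (hw i).ne']
    exact hVpos.ne' hz
  refine ⟨V, hVmem, hdiag, fun V' hV' hdiag' => ?_⟩
  have hle := hmax V' hV'
  rw [be_obj_eq D w V' hdiag', be_obj_eq D w V hdiag] at hle
  exact Real.exp_le_exp.mp hle

end Vale.Agent.Lib.P243
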