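import Mathlib
import Vale.Agent.Lib.P243.BallDefs

namespace Vale.Agent.Lib.P243

open scoped Matrix

/-- The reflection along a unit vector is an orthogonal matrix. -/
private lemma ballPsd_refl_mem {J : Type*} [Fintype J] [DecidableEq J] (y : J → ℝ)
    (hy : y ⬝ᵥ y = 1) :
    (1 - (2 : ℝ) • Matrix.vecMulVec y y) ∈ Matrix.orthogonalGroup J ℝ := by
  rw [Matrix.mem_orthogonalGroup_iff]
  have ht : (1 - (2 : ℝ) • Matrix.vecMulVec y y)ᵀ = 1 - (2 : ℝ) • Matrix.vecMulVec y y := by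
    rw [Matrix.transpose_sub, Matrix.transpose_one, Matrix.transpose_smul,
      Matrix.transpose_vecMulVec]
  rw [ht]
  have hM : Matrix.vecMulVec y y * Matrix.vecMulVec y y = Matrix.vecMulVec y y := by
    rw [Matrix.vecMulVec_mul_vecMulVec, hy, one_smul]
  simp only [sub_mul, mul_sub, one_mul, mul_one, Matrix.smul_mul, Matrix.mul_smul, hM, smul_smul]
  module

/-- At an extremal matrix the rescaled product, once symmetric, is positive semidefinite. -/
theorem isExt_posSemidef {J : Type*} [Fintype J] [DecidableEq J] (D : Matrix J J ℝ)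
    (w : J → ℝ) (hw : ∀ i, 0 < w i) (V : Matrix J J ℝ) (hV : IsExt D w V)
    (hsym : (Matrix.diagonal (fun i => w i / (D * V) i i) * D * V).IsSymm) :
    (Matrix.diagonal (fun i => w i / (D * V) i i) * D * V).PosSemidef := by
  obtain ⟨hVO, hpos, hmax⟩ := hV
  have hHerm : (Matrix.diagonal (fun i => w i / (D * V) i i) * D * V).IsHermitian := by
    unfold Matrix.IsHermitian
    rw [Matrix.conjTranspose_eq_transpose_of_trivial]
    exact hsym
  rw [hHerm.posSemidef_iff_eigenvalues_nonneg]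
  intro j
  by_contra hneg
  have hlam0 : hHerm.eigenvalues j < 0 := by simpa using hneg
  obtain ⟨lam, hlam, y, hyy, hHy⟩ : ∃ lam : ℝ, lam < 0 ∧ ∃ y : J → ℝ, y ⬝ᵥ y = 1 ∧
      (Matrix.diagonal (fun i => w i / (D * V) i i) * D * V) *ᵥ y = lam • y := by
    refine ⟨hHerm.eigenvalues j, hlam0, ⇑(hHerm.eigenvectorBasis j), ?_,
      hHerm.mulVec_eigenvectorBasis j⟩
    have h1 : ‖hHerm.eigenvectorBasis j‖ = 1 := hHerm.eigenvectorBasis.orthonormal.1 j
    rw [EuclideanSpace.norm_eq, Real.sqrt_eq_one] at h1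
    rw [dotProduct, ← h1]
    refine Finset.sum_congr rfl (fun i _ => ?_)
    rw [Real.norm_eq_abs, sq_abs, sq]
  have hRO : (1 - (2 : ℝ) • Matrix.vecMulVec y y) ∈ Matrix.orthogonalGroup J ℝ :=
    ballPsd_refl_mem y hyy
  have hV'O : V * (1 - (2 : ℝ) • Matrix.vecMulVec y y) ∈ Matrix.orthogonalGroup J ℝ :=
    mul_mem hVO hRO
  have hPy : ∀ i, (w i / (D * V) i i) * ((D * V) *ᵥ y) i = lam * y i := by
    intro i
    have h := congrFun hHy i
    rw [Matrix.mul_assoc, ← Matrix.mulVec_mulVec, Matrix.mulVec_diagonal] at h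
    simpa using h
  have hdiag : ∀ i, (D * (V * (1 - (2 : ℝ) • Matrix.vecMulVec y y))) i i
      = (D * V) i i - 2 * (((D * V) *ᵥ y) i * y i) := by
    intro i
    rw [← Matrix.mul_assoc, Matrix.mul_sub, Matrix.mul_one, Matrix.mul_smul,
      Matrix.mul_vecMulVec]
    simp [Matrix.vecMulVec_apply]
  have hdiag2 : ∀ i, (D * (V * (1 - (2 : ℝ) • Matrix.vecMulVec y y))) i i
      = (D * V) i i + 2 * (-lam) * (y i) ^ 2 * ((D * V) i i / w i) := by
    intro i
    rw [hdiag i]
    have h := hPy i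
    have hP' : (D * V) i i ≠ 0 := (hpos i).ne'
    have hw' : w i ≠ 0 := (hw i).ne'
    have h2 : ((D * V) *ᵥ y) i = lam * y i * ((D * V) i i / w i) := by
      calc ((D * V) *ᵥ y) i
          = ((D * V) i i / w i) * ((w i / (D * V) i i) * ((D * V) *ᵥ y) i) := by
            field_simp
        _ = ((D * V) i i / w i) * (lam * y i) := by rw [h]
        _ = lam * y i * ((D * V) i i / w i) := by ring
    rw [h2]
    ring
  have hnl : 0 < -lam := by linarith
  have hge : ∀ i, (D * V) i i ≤ (D * (V * (1 - (2 : ℝ) • Matrix.vecMulVec y y))) i i := by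
    intro i
    rw [hdiag2 i]
    have h2 : 0 ≤ (D * V) i i / w i := (div_pos (hpos i) (hw i)).le
    have h3 : 0 ≤ 2 * (-lam) * (y i) ^ 2 * ((D * V) i i / w i) :=
      mul_nonneg (mul_nonneg (mul_nonneg zero_le_two hnl.le) (sq_nonneg _)) h2
    linarith
  have hpos' : ∀ i, 0 < (D * (V * (1 - (2 : ℝ) • Matrix.vecMulVec y y))) i i :=
    fun i => lt_of_lt_of_le (hpos i) (hge i)
  have hex : ∃ i, y i ≠ 0 := by
    by_contra hno
    push Not at hno
    have h0 : y ⬝ᵥ y = 0 := by simp [dotProduct, hno]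
    rw [hyy] at h0
    exact one_ne_zero h0
  obtain ⟨i0, hi0⟩ := hex
  have hgt : (D * V) i0 i0 < (D * (V * (1 - (2 : ℝ) • Matrix.vecMulVec y y))) i0 i0 := by
    rw [hdiag2 i0]
    have h2 : 0 < (D * V) i0 i0 / w i0 := div_pos (hpos i0) (hw i0)
    have h3 : 0 < (y i0) ^ 2 := lt_of_le_of_ne (sq_nonneg _) (Ne.symm (pow_ne_zero 2 hi0))
    have h4 : 0 < 2 * (-lam) * (y i0) ^ 2 * ((D * V) i0 i0 / w i0) :=
      mul_pos (mul_pos (mul_pos two_pos hnl) h3) h2
    linarith
  have hlt : extObj D w V < extObj D w (V * (1 - (2 : ℝ) • Matrix.vecMulVec y y)) := by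
    unfold extObj
    apply Finset.sum_lt_sum
    · intro i _
      exact mul_le_mul_of_nonneg_left (Real.log_le_log (hpos i) (hge i)) (hw i).le
    · exact ⟨i0, Finset.mem_univ _,
        mul_lt_mul_of_pos_left (Real.log_lt_log (hpos i0) hgt) (hw i0)⟩
  exact absurd (hmax _ hV'O hpos') (not_le.mpr hlt)

end Vale.Agent.Lib.P243
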