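import Mathlib

namespace Vale.Agent.Lib.P243

/-- The quadratic form of a symmetric matrix after a shift of one coordinate. -/
private lemma quad_shift {J : Type*} [Fintype J] [DecidableEq J] (H : Matrix J J ℝ)
    (hH : H.IsSymm) (x : J → ℝ) (i : J) (t : ℝ) :
    ∑ j, ∑ k, H j k * (x j + (Pi.single i t : J → ℝ) j) * (x k + (Pi.single i t : J → ℝ) k)
      = ∑ j, ∑ k, H j k * x j * x k + 2 * t * ∑ k, H i k * x k + t ^ 2 * H i i := by
  have e0 : ∀ j k, H j k * (x j + (Pi.single i t : J → ℝ) j) * (x k + (Pi.single i t : J → ℝ) k)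
      = H j k * x j * x k + H j k * x j * (Pi.single i t : J → ℝ) k + H j k * (Pi.single i t : J → ℝ) j * x k
        + H j k * (Pi.single i t : J → ℝ) j * (Pi.single i t : J → ℝ) k := by
    intro j k
    ring
  simp only [e0, Finset.sum_add_distrib]
  have e1 : ∑ j, ∑ k, H j k * x j * (Pi.single i t : J → ℝ) k = t * ∑ k, H i k * x k := by
    rw [Finset.mul_sum]
    apply Finset.sum_congr rfl
    intro j _
    rw [Finset.sum_eq_single i]
    · rw [Pi.single_eq_same, hH.apply i j]
      ring
    · intro k _ hk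
      rw [Pi.single_eq_of_ne hk, mul_zero]
    · intro h
      exact absurd (Finset.mem_univ i) h
  have e2 : ∑ j, ∑ k, H j k * (Pi.single i t : J → ℝ) j * x k = t * ∑ k, H i k * x k := by
    rw [Finset.sum_eq_single i]
    · rw [Finset.mul_sum]
      apply Finset.sum_congr rfl
      intro k _
      rw [Pi.single_eq_same]
      ring
    · intro j _ hj
      apply Finset.sum_eq_zero
      intro k _
      rw [Pi.single_eq_of_ne hj, mul_zero, zero_mul]
    · intro h
      exact absurd (Finset.mem_univ i) h
  have e3 : ∑ j, ∑ k, H j k * (Pi.single i t : J → ℝ) j * (Pi.single i t : J → ℝ) k = t ^ 2 * H i i := by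
    rw [Finset.sum_eq_single i]
    · rw [Finset.sum_eq_single i]
      · rw [Pi.single_eq_same]
        ring
      · intro k _ hk
        rw [Pi.single_eq_of_ne hk, mul_zero]
      · intro h
        exact absurd (Finset.mem_univ i) h
    · intro j _ hj
      apply Finset.sum_eq_zero
      intro k _
      rw [Pi.single_eq_of_ne hj, mul_zero, zero_mul]
    · intro h
      exact absurd (Finset.mem_univ i) h
  rw [e1, e2, e3]
  ring

/-- Sign lemma for a symmetric matrix: signs `ε` can be chosen so that, for every `i`, the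
number `∑ j, H i j * (ε j * τ j) - μ i` has absolute value at least `H i i * τ i`. -/
theorem bang_sym {J : Type*} [Fintype J] [DecidableEq J] (H : Matrix J J ℝ) (hH : H.IsSymm)
    (τ μ : J → ℝ) (hτ : ∀ i, 0 ≤ τ i) :
    ∃ ε : J → ℝ, (∀ i, ε i = 1 ∨ ε i = -1) ∧
      ∀ i, H i i * τ i ≤ |∑ j, H i j * (ε j * τ j) - μ i| := by
  classical
  let sg : Bool → ℝ := fun b => if b then 1 else -1
  let xx : (J → Bool) → J → ℝ := fun e j => sg (e j) * τ j
  let F : (J → Bool) → ℝ := fun e =>
    ∑ j, ∑ k, H j k * xx e j * xx e k - 2 * ∑ j, μ j * xx e j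
  obtain ⟨e, -, hmax⟩ := Finset.exists_max_image (Finset.univ : Finset (J → Bool)) F
    ⟨fun _ => true, Finset.mem_univ _⟩
  have hsg : ∀ b : Bool, sg b = 1 ∨ sg b = -1 := by
    intro b
    cases b
    · right
      rfl
    · left
      rfl
  have hsgnot : ∀ b : Bool, sg (!b) = - sg b := by
    intro b
    cases b
    · show (1 : ℝ) = - -1
      ring
    · rfl
  refine ⟨fun j => sg (e j), fun i => hsg (e i), fun i => ?_⟩
  have hflip := hmax (Function.update e i (!e i)) (Finset.mem_univ _)
  have hx' : ∀ j, xx (Function.update e i (!e i)) j = xx e j + (Pi.single i (-2 * xx e i) : J → ℝ) j := by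
    intro j
    by_cases hj : j = i
    · subst hj
      show sg (Function.update e j (!e j) j) * τ j = sg (e j) * τ j + (Pi.single j (-2 * (sg (e j) * τ j)) : J → ℝ) j
      rw [Function.update_self, Pi.single_eq_same, hsgnot]
      ring
    · show sg (Function.update e i (!e i) j) * τ j = sg (e j) * τ j + (Pi.single i (-2 * xx e i) : J → ℝ) j
      rw [Function.update_of_ne hj, Pi.single_eq_of_ne hj, add_zero]
  have hF' : F (Function.update e i (!e i))
      = ∑ j, ∑ k, H j k * xx e j * xx e k + 2 * (-2 * xx e i) * ∑ k, H i k * xx e k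
        + (-2 * xx e i) ^ 2 * H i i
        - 2 * (∑ j, μ j * xx e j + μ i * (-2 * xx e i)) := by
    show ∑ j, ∑ k, H j k * xx (Function.update e i (!e i)) j * xx (Function.update e i (!e i)) k
        - 2 * ∑ j, μ j * xx (Function.update e i (!e i)) j = _
    simp only [hx']
    rw [quad_shift H hH (xx e) i (-2 * xx e i)]
    have e4 : ∑ j, μ j * (xx e j + (Pi.single i (-2 * xx e i) : J → ℝ) j)
        = ∑ j, μ j * xx e j + μ i * (-2 * xx e i) := by
      simp only [mul_add, Finset.sum_add_distrib]
      congr 1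
      rw [Finset.sum_eq_single i]
      · rw [Pi.single_eq_same]
      · intro j _ hj
        rw [Pi.single_eq_of_ne hj, mul_zero]
      · intro h
        exact absurd (Finset.mem_univ i) h
    rw [e4]
  have hFe : F e = ∑ j, ∑ k, H j k * xx e j * xx e k - 2 * ∑ j, μ j * xx e j := rfl
  rw [hF', hFe] at hflip
  have hS : (∑ j, H i j * (sg (e j) * τ j) - μ i) = ∑ k, H i k * xx e k - μ i := rfl
  rw [hS]
  have hkey : xx e i ^ 2 * H i i ≤ xx e i * (∑ k, H i k * xx e k - μ i) := by
    nlinarith [hflip]
  have hxi : xx e i = sg (e i) * τ i := rfl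
  rcases (hτ i).lt_or_eq with hpos | hzero
  · rcases hsg (e i) with h1 | h1
    · rw [hxi, h1] at hkey
      have h2 : H i i * τ i ≤ ∑ k, H i k * xx e k - μ i := by
        have h3 : τ i * (H i i * τ i) ≤ τ i * (∑ k, H i k * xx e k - μ i) := by
          nlinarith [hkey]
        exact le_of_mul_le_mul_left h3 hpos
      exact le_trans h2 (le_abs_self _)
    · rw [hxi, h1] at hkey
      have h2 : H i i * τ i ≤ -(∑ k, H i k * xx e k - μ i) := by
        have h3 : τ i * (H i i * τ i) ≤ τ i * (-(∑ k, H i k * xx e k - μ i)) := by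
          nlinarith [hkey]
        exact le_of_mul_le_mul_left h3 hpos
      exact le_trans h2 (neg_le_abs _)
  · rw [← hzero, mul_zero]
    exact abs_nonneg _

end Vale.Agent.Lib.P243
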