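import Mathlib
import Vale.Agent.Lib.P243.BallDefs

namespace Vale.Agent.Lib.P243

/-- The product of a plane rotation and its mirror image, in an abstract algebra. -/
private lemma rot_alg {A : Type*} [Ring A] [Algebra ℝ A] (Pi S : A) (h1 : Pi * Pi = Pi)
    (h2 : Pi * S = S) (h3 : S * Pi = S) (h4 : S * S = -Pi) (c s : ℝ) :
    (1 + (c - 1) • Pi + s • S) * (1 + (c - 1) • Pi - s • S) = 1 + (c ^ 2 + s ^ 2 - 1) • Pi := by
  simp only [mul_add, add_mul, mul_sub, smul_mul_assoc, mul_smul_comm, mul_one, one_mul,
    h1, h2, h3, h4, smul_neg]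
  module

/-- The plane rotation in the coordinates `i`, `j` with cosine `c` and sine `s`. -/
noncomputable def planeRot {J : Type*} [Fintype J] [DecidableEq J] (i j : J) (c s : ℝ) :
    Matrix J J ℝ :=
  1 + (c - 1) • (Matrix.single i i (1 : ℝ) + Matrix.single j j (1 : ℝ))
    + s • (Matrix.single i j (1 : ℝ) - Matrix.single j i (1 : ℝ))

theorem planeRot_mem {J : Type*} [Fintype J] [DecidableEq J] {i j : J} (hij : i ≠ j) (c s : ℝ)
    (hcs : c ^ 2 + s ^ 2 = 1) : planeRot i j c s ∈ Matrix.orthogonalGroup J ℝ := by
  rw [Matrix.mem_orthogonalGroup_iff]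
  have hji : j ≠ i := hij.symm
  have hT : (planeRot i j c s).transpose
      = 1 + (c - 1) • (Matrix.single i i (1 : ℝ) + Matrix.single j j (1 : ℝ))
        - s • (Matrix.single i j (1 : ℝ) - Matrix.single j i (1 : ℝ)) := by
    unfold planeRot
    simp only [Matrix.transpose_add, Matrix.transpose_sub, Matrix.transpose_smul,
      Matrix.transpose_one, Matrix.transpose_single]
    module
  rw [hT]
  unfold planeRot
  have h1 : (Matrix.single i i (1 : ℝ) + Matrix.single j j (1 : ℝ))
      * (Matrix.single i i (1 : ℝ) + Matrix.single j j (1 : ℝ))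
      = Matrix.single i i (1 : ℝ) + Matrix.single j j (1 : ℝ) := by
    simp [Matrix.mul_add, Matrix.add_mul, hij, hji]
  have h2 : (Matrix.single i i (1 : ℝ) + Matrix.single j j (1 : ℝ))
      * (Matrix.single i j (1 : ℝ) - Matrix.single j i (1 : ℝ))
      = Matrix.single i j (1 : ℝ) - Matrix.single j i (1 : ℝ) := by
    simp [Matrix.mul_sub, Matrix.add_mul, hij, hji]
  have h3 : (Matrix.single i j (1 : ℝ) - Matrix.single j i (1 : ℝ))
      * (Matrix.single i i (1 : ℝ) + Matrix.single j j (1 : ℝ))
      = Matrix.single i j (1 : ℝ) - Matrix.single j i (1 : ℝ) := by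
    simp [Matrix.mul_add, Matrix.sub_mul, hij, hji]
    abel
  have h4 : (Matrix.single i j (1 : ℝ) - Matrix.single j i (1 : ℝ))
      * (Matrix.single i j (1 : ℝ) - Matrix.single j i (1 : ℝ))
      = -(Matrix.single i i (1 : ℝ) + Matrix.single j j (1 : ℝ)) := by
    simp [Matrix.mul_sub, Matrix.sub_mul, hij, hji]
    abel
  rw [rot_alg _ _ h1 h2 h3 h4 c s, hcs, sub_self, zero_smul, add_zero]

/-- At an extremal matrix the rescaled product is symmetric. -/
theorem isExt_symm {J : Type*} [Fintype J] [DecidableEq J] (D : Matrix J J ℝ) (w : J → ℝ)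
    (hw : ∀ i, 0 < w i) (V : Matrix J J ℝ) (hV : IsExt D w V) :
    (Matrix.diagonal (fun i => w i / (D * V) i i) * D * V).IsSymm := by
  obtain ⟨hVo, hpos, hmax⟩ := hV
  obtain ⟨P, hPdef⟩ : ∃ P : Matrix J J ℝ, P = D * V := ⟨_, rfl⟩
  rw [← hPdef] at hpos
  have key : ∀ i j : J, i ≠ j → w i / P i i * P i j = w j / P j j * P j i := by
    intro i j hij
    obtain ⟨α, hα⟩ : ∃ α : J → ℝ, α = fun k =>
        (P * (Matrix.single i i (1 : ℝ) + Matrix.single j j (1 : ℝ))) k k := ⟨_, rfl⟩
    obtain ⟨β, hβ⟩ : ∃ β : J → ℝ, β = fun k =>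
        (P * (Matrix.single i j (1 : ℝ) - Matrix.single j i (1 : ℝ))) k k := ⟨_, rfl⟩
    have hdiag : ∀ (c s : ℝ) (k : J),
        (D * (V * planeRot i j c s)) k k = P k k + (c - 1) * α k + s * β k := by
      intro c s k
      rw [← Matrix.mul_assoc, ← hPdef, hα, hβ]
      simp only [planeRot, Matrix.mul_add, Matrix.mul_one, Matrix.mul_smul, Matrix.add_apply,
        Matrix.smul_apply, smul_eq_mul]
    obtain ⟨f, hfdef⟩ : ∃ f : ℝ → ℝ, f = fun t =>
        ∑ k, w k * Real.log (P k k + (Real.cos t - 1) * α k + Real.sin t * β k) := ⟨_, rfl⟩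
    have hf : ∀ t, f t = extObj D w (V * planeRot i j (Real.cos t) (Real.sin t)) := by
      intro t
      rw [hfdef]
      unfold extObj
      refine Finset.sum_congr rfl (fun k _ => ?_)
      rw [hdiag]
    have hf0 : f 0 = extObj D w V := by
      rw [hfdef]
      unfold extObj
      refine Finset.sum_congr rfl (fun k _ => ?_)
      rw [Real.cos_zero, Real.sin_zero, sub_self, zero_mul, zero_mul, add_zero, add_zero, hPdef]
    have hev : ∀ᶠ t in nhds (0 : ℝ),
        ∀ k, 0 < P k k + (Real.cos t - 1) * α k + Real.sin t * β k := by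
      rw [Filter.eventually_all]
      intro k
      have hcont : ContinuousAt
          (fun t : ℝ => P k k + (Real.cos t - 1) * α k + Real.sin t * β k) 0 := by
        fun_prop
      have h0 : (0 : ℝ) < (fun t : ℝ => P k k + (Real.cos t - 1) * α k + Real.sin t * β k) 0 := by
        simpa using hpos k
      exact hcont.tendsto.eventually (lt_mem_nhds h0)
    have hlm : IsLocalMax f 0 := by
      filter_upwards [hev] with t ht
      rw [hf0, hf t]
      apply hmax
      · exact mul_mem hVo (planeRot_mem hij _ _ (Real.cos_sq_add_sin_sq t))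
      · intro k
        rw [hdiag]
        exact ht k
    have hderiv : HasDerivAt f (∑ k, w k * (β k / P k k)) 0 := by
      rw [hfdef]
      apply HasDerivAt.fun_sum
      intro k _
      have h1 : HasDerivAt
          (fun t : ℝ => P k k + (Real.cos t - 1) * α k + Real.sin t * β k) (β k) 0 := by
        have hc := Real.hasDerivAt_cos 0
        have hs := Real.hasDerivAt_sin 0
        have h := (((hc.sub_const 1).mul_const (α k)).const_add (P k k)).fun_add
          (hs.mul_const (β k))
        exact h.congr_deriv (by simp)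
      have hne : (fun t : ℝ => P k k + (Real.cos t - 1) * α k + Real.sin t * β k) 0 ≠ 0 := by
        simpa using (hpos k).ne'
      have h2 := (h1.log hne).const_mul (w k)
      refine h2.congr_deriv ?_
      simp
    have h0 := hlm.hasDerivAt_eq_zero hderiv
    have hβk : ∀ k, β k = (if k = j then P k i else 0) - (if k = i then P k j else 0) := by
      intro k
      rw [hβ]
      simp only [Matrix.mul_sub, Matrix.sub_apply]
      congr 1
      · by_cases hk : k = j
        · subst hk
          simp
        · rw [if_neg hk]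
          exact Matrix.mul_single_apply_of_ne _ _ _ _ _ hk _
      · by_cases hk : k = i
        · subst hk
          simp
        · rw [if_neg hk]
          exact Matrix.mul_single_apply_of_ne _ _ _ _ _ hk _
    have hsum : ∑ k, w k * (β k / P k k) = w j / P j j * P j i - w i / P i i * P i j := by
      have e : ∀ k, w k * (β k / P k k)
          = (if k = j then w k / P k k * P k i else 0) - (if k = i then w k / P k k * P k j else 0) := by
        intro k
        rw [hβk k]
        split_ifs <;> ring
      rw [Finset.sum_congr rfl (fun k _ => e k), Finset.sum_sub_distrib,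
        Finset.sum_ite_eq' Finset.univ j, Finset.sum_ite_eq' Finset.univ i]
      simp
    rw [hsum] at h0
    linarith
  unfold Matrix.IsSymm
  ext i j
  rw [Matrix.transpose_apply, Matrix.mul_assoc, ← hPdef, Matrix.diagonal_mul, Matrix.diagonal_mul]
  by_cases hij : i = j
  · rw [hij]
  · exact key j i (Ne.symm hij)

end Vale.Agent.Lib.P243
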