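import Mathlib

namespace Vale.Agent.Lib.P243

/-- Trace bound: if `diag θ * D * V` is positive semidefinite with diagonal `w`, `V` is
orthogonal and `D i i ^ 2 = w i`, then `∑ θ i ^ 2 ≤ ∑ w i`. -/
theorem theta_sq_sum_le {J : Type*} [Fintype J] [DecidableEq J] (D V : Matrix J J ℝ)
    (w θ : J → ℝ) (hw : ∀ i, 0 < w i) (hV : V ∈ Matrix.orthogonalGroup J ℝ)
    (hD : ∀ i, D i i ^ 2 = w i)
    (hpsd : (Matrix.diagonal θ * D * V).PosSemidef)
    (hdiag : ∀ i, (Matrix.diagonal θ * D * V) i i = w i) :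
    ∑ i, θ i ^ 2 ≤ ∑ i, w i := by
  obtain ⟨H, hH⟩ : ∃ H : Matrix J J ℝ, H = Matrix.diagonal θ * D * V := ⟨_, rfl⟩
  rw [← hH] at hpsd hdiag
  have hV1 : V * V.transpose = 1 := (Matrix.mem_orthogonalGroup_iff J ℝ).mp hV
  have hV2 : V.transpose * V = 1 := (Matrix.mem_orthogonalGroup_iff' J ℝ).mp hV
  have hHT : H.transpose = H := by
    rw [← Matrix.conjTranspose_eq_transpose_of_trivial]
    exact hpsd.isHermitian
  have hc : ∀ i, (H * V.transpose) i i = θ i * D i i := by
    intro i
    rw [hH, Matrix.mul_assoc, hV1, Matrix.mul_one, Matrix.diagonal_mul]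
  have hc' : ∀ i, (V * H) i i = θ i * D i i := by
    intro i
    have e : H * V.transpose = (V * H).transpose := by
      rw [Matrix.transpose_mul, hHT]
    rw [← hc i, e, Matrix.transpose_apply]
  have key : ∀ i, θ i ^ 2 ≤ (V * H * V.transpose) i i := by
    intro i
    obtain ⟨c, hcdef⟩ : ∃ c : ℝ, c = θ i * D i i := ⟨_, rfl⟩
    have hM := (hpsd.mul_mul_conjTranspose_same
      (c • (1 : Matrix J J ℝ) - w i • V)).diag_nonneg (i := i)
    rw [Matrix.conjTranspose_eq_transpose_of_trivial] at hM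
    have hexp : ((c • (1 : Matrix J J ℝ) - w i • V) * H *
          (c • (1 : Matrix J J ℝ) - w i • V).transpose) i i =
        c * c * H i i - c * w i * (H * V.transpose) i i - w i * c * (V * H) i i +
          w i * w i * (V * H * V.transpose) i i := by
      simp only [Matrix.transpose_sub, Matrix.transpose_smul, Matrix.transpose_one,
        Matrix.sub_mul, Matrix.mul_sub, Matrix.smul_mul, Matrix.mul_smul, Matrix.one_mul,
        Matrix.mul_one, Matrix.sub_apply, Matrix.smul_apply, smul_eq_mul]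
      ring
    rw [hexp, hdiag i, hc i, hc' i, ← hcdef] at hM
    have hcsq : c * c = θ i ^ 2 * w i := by
      rw [hcdef, ← hD i]
      ring
    have hwi := hw i
    by_contra hlt
    push Not at hlt
    nlinarith [mul_pos (mul_pos hwi hwi) (sub_pos.mpr hlt)]
  calc ∑ i, θ i ^ 2 ≤ ∑ i, (V * H * V.transpose) i i := Finset.sum_le_sum fun i _ => key i
    _ = (V * H * V.transpose).trace := rfl
    _ = (V.transpose * V * H).trace := Matrix.trace_mul_cycle V H V.transpose
    _ = H.trace := by rw [hV2, Matrix.one_mul]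
    _ = ∑ i, w i := Finset.sum_congr rfl fun i _ => hdiag i

end Vale.Agent.Lib.P243
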