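import Mathlib
import Vale.Agent.Lib.P243.BallDefs
import Vale.Agent.Lib.P243.BallSign
import Vale.Agent.Lib.P243.BallExt
import Vale.Agent.Lib.P243.BallSymm
import Vale.Agent.Lib.P243.BallPsd
import Vale.Agent.Lib.P243.BallTrace

namespace Vale.Agent.Lib.P243

/-- An orthogonal matrix preserves the sum of squares of the coordinates. -/
theorem ballMatrix_orth_sq {J : Type*} [Fintype J] [DecidableEq J] (V : Matrix J J ℝ)
    (hV : V ∈ Matrix.orthogonalGroup J ℝ) (x : J → ℝ) :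
    ∑ k, (V.mulVec x) k ^ 2 = ∑ j, x j ^ 2 := by
  have hVV : V.transpose * V = 1 := (Matrix.mem_orthogonalGroup_iff' J ℝ).mp hV
  have e : dotProduct (V.mulVec x) (V.mulVec x) = dotProduct x x := by
    calc dotProduct (V.mulVec x) (V.mulVec x)
        = dotProduct (Matrix.vecMul x V.transpose) (V.mulVec x) := by
          rw [Matrix.vecMul_transpose]
      _ = dotProduct x (V.transpose.mulVec (V.mulVec x)) :=
          (Matrix.dotProduct_mulVec x V.transpose (V.mulVec x)).symm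
      _ = dotProduct x x := by rw [Matrix.mulVec_mulVec, hVV, Matrix.one_mulVec]
  have e' : ∀ v : J → ℝ, ∑ k, v k ^ 2 = dotProduct v v := by
    intro v
    unfold dotProduct
    exact Finset.sum_congr rfl (fun k _ => sq (v k))
  rw [e', e', e]

/-- The plank theorem for symmetric bodies, matrix form: if `A` has unit diagonal and the
positive weights `w` sum to at most one, there is `lam` with `∑ |lam j| ≤ 1` such that every
`∑ j, A i j * lam j - m i` has absolute value at least `w i`. -/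
theorem ball_matrix {J : Type*} [Fintype J] [DecidableEq J] (A : Matrix J J ℝ)
    (hA : ∀ i, A i i = 1) (m w : J → ℝ) (hw : ∀ i, 0 < w i) (hsum : ∑ i, w i ≤ 1) :
    ∃ lam : J → ℝ, ∑ j, |lam j| ≤ 1 ∧ ∀ i, w i ≤ |∑ j, A i j * lam j - m i| := by
  obtain ⟨s, hs⟩ : ∃ s : J → ℝ, s = fun i => Real.sqrt (w i) := ⟨_, rfl⟩
  have hspos : ∀ i, 0 < s i := fun i => by rw [hs]; exact Real.sqrt_pos.mpr (hw i)
  have hssq : ∀ i, s i ^ 2 = w i := fun i => by rw [hs]; exact Real.sq_sqrt (hw i).le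
  obtain ⟨D, hD⟩ : ∃ D : Matrix J J ℝ, D = A * Matrix.diagonal s := ⟨_, rfl⟩
  have hDij : ∀ i j, D i j = A i j * s j := fun i j => by rw [hD, Matrix.mul_diagonal]
  have hDii : ∀ i, D i i = s i := fun i => by rw [hDij, hA, one_mul]
  have hDpos : ∀ i, 0 < D i i := fun i => by rw [hDii]; exact hspos i
  have hDsq : ∀ i, D i i ^ 2 = w i := fun i => by rw [hDii]; exact hssq i
  obtain ⟨V, hV⟩ := exists_isExt D hDpos w hw
  have hVorth := hV.1
  have hPpos := hV.2.1
  have hsym := isExt_symm D w hw V hV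
  have hpsd := isExt_posSemidef D w hw V hV hsym
  obtain ⟨θ, hθ⟩ : ∃ θ : J → ℝ, θ = fun i => w i / (D * V) i i := ⟨_, rfl⟩
  rw [← hθ] at hsym hpsd
  have hθpos : ∀ i, 0 < θ i := fun i => by rw [hθ]; exact div_pos (hw i) (hPpos i)
  have hHij : ∀ i j, (Matrix.diagonal θ * D * V) i j = θ i * (D * V) i j := fun i j => by
    rw [Matrix.mul_assoc, Matrix.diagonal_mul]
  have hHii : ∀ i, (Matrix.diagonal θ * D * V) i i = w i := fun i => by
    rw [hHij, hθ]
    exact div_mul_cancel₀ _ (hPpos i).ne'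
  have hθsq : ∑ i, θ i ^ 2 ≤ ∑ i, w i := theta_sq_sum_le D V w θ hw hVorth hDsq hpsd hHii
  obtain ⟨ε, hε, hbang⟩ := bang_sym (Matrix.diagonal θ * D * V) hsym θ (fun i => θ i * m i)
    (fun i => (hθpos i).le)
  obtain ⟨x, hx⟩ : ∃ x : J → ℝ, x = fun j => ε j * θ j := ⟨_, rfl⟩
  have hxsq : ∀ j, x j ^ 2 = θ j ^ 2 := by
    intro j
    rw [hx]
    show (ε j * θ j) ^ 2 = θ j ^ 2
    rcases hε j with h | h <;> rw [h] <;> ring
  obtain ⟨y, hy⟩ : ∃ y : J → ℝ, y = V.mulVec x := ⟨_, rfl⟩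
  refine ⟨fun k => s k * y k, ?_, ?_⟩
  · have hy2 : ∑ k, y k ^ 2 = ∑ j, x j ^ 2 := by
      rw [hy]
      exact ballMatrix_orth_sq V hVorth x
    have hcs := Finset.sum_mul_sq_le_sq_mul_sq Finset.univ s (fun k => |y k|)
    have e1 : ∑ k, |s k * y k| = ∑ k, s k * |y k| :=
      Finset.sum_congr rfl (fun k _ => by rw [abs_mul, abs_of_pos (hspos k)])
    have e2 : ∑ k, s k ^ 2 = ∑ k, w k := Finset.sum_congr rfl (fun k _ => hssq k)
    have e3 : ∑ k, |y k| ^ 2 = ∑ k, y k ^ 2 := Finset.sum_congr rfl (fun k _ => sq_abs _)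
    have e4 : ∑ j, x j ^ 2 = ∑ j, θ j ^ 2 := Finset.sum_congr rfl (fun j _ => hxsq j)
    rw [e2, e3, hy2, e4] at hcs
    have hW0 : 0 ≤ ∑ k, w k := Finset.sum_nonneg (fun k _ => (hw k).le)
    have hS0 : 0 ≤ ∑ k, s k * |y k| :=
      Finset.sum_nonneg (fun k _ => mul_nonneg (hspos k).le (abs_nonneg _))
    have h5 : (∑ k, s k * |y k|) ^ 2 ≤ 1 := by
      calc (∑ k, s k * |y k|) ^ 2 ≤ (∑ k, w k) * ∑ j, θ j ^ 2 := hcs
        _ ≤ (∑ k, w k) * ∑ k, w k := mul_le_mul_of_nonneg_left hθsq hW0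
        _ ≤ 1 * 1 := mul_le_mul hsum hsum hW0 zero_le_one
        _ = 1 := one_mul 1
    rw [e1]
    exact (sq_le_one_iff₀ hS0).mp h5
  · intro i
    have h1 : ∑ j, A i j * (s j * y j) = ∑ j, (D * V) i j * x j := by
      have e1 : ∑ j, A i j * (s j * y j) = (D.mulVec y) i := by
        show ∑ j, A i j * (s j * y j) = ∑ j, D i j * y j
        exact Finset.sum_congr rfl (fun j _ => by rw [hDij]; ring)
      rw [e1, hy, Matrix.mulVec_mulVec]
      rfl
    have h2 := hbang i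
    rw [hHii] at h2
    have h3 : ∑ j, (Matrix.diagonal θ * D * V) i j * (ε j * θ j) - θ i * m i
        = θ i * (∑ j, (D * V) i j * x j - m i) := by
      rw [mul_sub, Finset.mul_sum]
      congr 1
      exact Finset.sum_congr rfl (fun j _ => by rw [hHij, hx]; ring)
    rw [h3, abs_mul, abs_of_pos (hθpos i)] at h2
    rw [h1]
    have h4 : θ i * w i ≤ θ i * |∑ j, (D * V) i j * x j - m i| := by
      linarith [mul_comm (w i) (θ i)]
    exact le_of_mul_le_mul_left h4 (hθpos i)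

end Vale.Agent.Lib.P243
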