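import Mathlib
import Vale.Agent.Lib.P243.BallMatrix

namespace Vale.Agent.Lib.P243

/-- The centre of symmetry of a nonempty convex set belongs to it. -/
theorem ballFinite_center_mem {Q : Set (ℝ × ℝ)} (hQconv : Convex ℝ Q) (hQne : Q.Nonempty)
    (c0 : ℝ × ℝ) (hsym : ∀ p ∈ Q, (2 : ℝ) • c0 - p ∈ Q) : c0 ∈ Q := by
  obtain ⟨q, hq⟩ := hQne
  have h1 := hsym q hq
  have h2 : c0 = (1 / 2 : ℝ) • q + (1 / 2 : ℝ) • ((2 : ℝ) • c0 - q) := by
    rw [smul_sub, smul_smul]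
    norm_num
  rw [h2]
  exact hQconv hq h1 (by norm_num) (by norm_num) (by norm_num)

/-- A combination `c0 + ∑ j, lam j • (x j - c0)` with `∑ j, |lam j| ≤ 1` of points of a convex
set symmetric about `c0` stays in the set. -/
theorem ballFinite_comb_mem {J : Type*} [Fintype J] {Q : Set (ℝ × ℝ)} (hQconv : Convex ℝ Q)
    (c0 : ℝ × ℝ) (hc0 : c0 ∈ Q) (hsym : ∀ p ∈ Q, (2 : ℝ) • c0 - p ∈ Q)
    (x : J → ℝ × ℝ) (hx : ∀ j, x j ∈ Q) (lam : J → ℝ) (hlam : ∑ j, |lam j| ≤ 1) :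
    c0 + ∑ j, lam j • (x j - c0) ∈ Q := by
  classical
  obtain ⟨y, hydef⟩ : ∃ y : J → ℝ × ℝ,
      y = fun j => if 0 ≤ lam j then x j else (2 : ℝ) • c0 - x j := ⟨_, rfl⟩
  have hy : ∀ j, y j ∈ Q := by
    intro j
    rw [hydef]
    dsimp only
    split_ifs
    · exact hx j
    · exact hsym _ (hx j)
  have hterm : ∀ j, lam j • (x j - c0) = |lam j| • y j - |lam j| • c0 := by
    intro j
    rw [hydef]
    dsimp only
    split_ifs with hj
    · rw [abs_of_nonneg hj, smul_sub]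
    · rw [abs_of_neg (not_le.mp hj)]
      module
  obtain ⟨L, hL⟩ : ∃ L : ℝ, L = ∑ j, |lam j| := ⟨_, rfl⟩
  have hpe : c0 + ∑ j, lam j • (x j - c0) = ∑ j, |lam j| • y j + (1 - L) • c0 := by
    rw [Finset.sum_congr rfl (fun j _ => hterm j), Finset.sum_sub_distrib, ← Finset.sum_smul,
      ← hL, sub_smul, one_smul]
    abel
  have hL0 : 0 ≤ L := by
    rw [hL]
    exact Finset.sum_nonneg fun j _ => abs_nonneg _
  have hL1 : L ≤ 1 := by
    rw [hL]
    exact hlam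
  rw [hpe]
  rcases hL0.eq_or_lt with h0 | hpos
  · have hz : ∀ j, |lam j| = 0 := by
      intro j
      have h3 : ∑ j, |lam j| = 0 := by rw [← hL, ← h0]
      exact (Finset.sum_eq_zero_iff_of_nonneg (fun j _ => abs_nonneg _)).mp h3 j
        (Finset.mem_univ j)
    have h4 : ∑ j, |lam j| • y j = 0 := by
      refine Finset.sum_eq_zero fun j _ => ?_
      rw [hz j, zero_smul]
    rw [h4, ← h0, sub_zero, one_smul, zero_add]
    exact hc0
  · have hz : ∑ j, (|lam j| / L) • y j ∈ Q := by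
      apply hQconv.sum_mem
      · intro j _
        exact div_nonneg (abs_nonneg _) hL0
      · rw [← Finset.sum_div, ← hL]
        exact div_self hpos.ne'
      · intro j _
        exact hy j
    have h5 : ∑ j, |lam j| • y j = L • ∑ j, (|lam j| / L) • y j := by
      rw [Finset.smul_sum]
      refine Finset.sum_congr rfl fun j _ => ?_
      rw [smul_smul, mul_div_cancel₀ _ hpos.ne']
    rw [h5]
    exact hQconv hz hc0 hL0 (by linarith) (by ring)

/-- Finitely many closed planks covering a planar convex set symmetric about `c0`: the widths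
`w j` divided by the widths `2 * h j` of the set in the same directions sum to at least one. -/
theorem ball_finite {J : Type*} [Fintype J] {Q : Set (ℝ × ℝ)} (hQconv : Convex ℝ Q)
    (hQne : Q.Nonempty) (c0 : ℝ × ℝ) (hsym : ∀ p ∈ Q, (2 : ℝ) • c0 - p ∈ Q)
    (a b m w h : J → ℝ) (hw : ∀ j, 0 ≤ w j) (hh : ∀ j, 0 < h j)
    (x : J → ℝ × ℝ) (hx : ∀ j, x j ∈ Q)
    (hxh : ∀ j, a j * ((x j).1 - c0.1) + b j * ((x j).2 - c0.2) = h j)
    (hcov : ∀ p ∈ Q, ∃ j, |a j * p.1 + b j * p.2 - m j| ≤ w j / 2) :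
    1 ≤ ∑ j, w j / (2 * h j) := by
  classical
  by_contra hlt
  push Not at hlt
  have hc0 : c0 ∈ Q := ballFinite_center_mem hQconv hQne c0 hsym
  obtain ⟨j0, -⟩ := hcov c0 hc0
  have hJ : Nonempty J := ⟨j0⟩
  have hcard : 0 < (Fintype.card J : ℝ) := by exact_mod_cast Fintype.card_pos
  obtain ⟨S, hS⟩ : ∃ S : ℝ, S = ∑ j, w j / (2 * h j) := ⟨_, rfl⟩
  rw [← hS] at hlt
  obtain ⟨δ, hδ⟩ : ∃ δ : ℝ, δ = (1 - S) / Fintype.card J := ⟨_, rfl⟩
  have hδpos : 0 < δ := by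
    rw [hδ]
    exact div_pos (by linarith) hcard
  obtain ⟨ω, hω⟩ : ∃ ω : J → ℝ, ω = fun j => w j / (2 * h j) + δ := ⟨_, rfl⟩
  have hωpos : ∀ j, 0 < ω j := by
    intro j
    rw [hω]
    exact add_pos_of_nonneg_of_pos (div_nonneg (hw j) (by have := hh j; positivity)) hδpos
  have hωsum : ∑ j, ω j ≤ 1 := by
    rw [hω]
    simp only [Finset.sum_add_distrib, Finset.sum_const, Finset.card_univ, nsmul_eq_mul]
    rw [← hS, hδ, mul_div_cancel₀ _ hcard.ne']
    linarith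
  obtain ⟨A, hAdef⟩ : ∃ A : Matrix J J ℝ, A = Matrix.of fun i j =>
      (a i * ((x j).1 - c0.1) + b i * ((x j).2 - c0.2)) / h i := ⟨_, rfl⟩
  have hA : ∀ i, A i i = 1 := by
    intro i
    rw [hAdef, Matrix.of_apply, hxh i, div_self (hh i).ne']
  obtain ⟨m', hm'⟩ : ∃ m' : J → ℝ, m' = fun i => (m i - (a i * c0.1 + b i * c0.2)) / h i :=
    ⟨_, rfl⟩
  obtain ⟨lam, hlam, hbig⟩ := ball_matrix A hA m' ω hωpos hωsum
  obtain ⟨p, hpdef⟩ : ∃ p : ℝ × ℝ, p = c0 + ∑ j, lam j • (x j - c0) := ⟨_, rfl⟩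
  have hp : p ∈ Q := by
    rw [hpdef]
    exact ballFinite_comb_mem hQconv c0 hc0 hsym x hx lam hlam
  have hp1 : p.1 = c0.1 + ∑ j, lam j * ((x j).1 - c0.1) := by
    rw [hpdef]
    simp [Prod.fst_sum]
  have hp2 : p.2 = c0.2 + ∑ j, lam j * ((x j).2 - c0.2) := by
    rw [hpdef]
    simp [Prod.snd_sum]
  obtain ⟨i, hi⟩ := hcov p hp
  have hhi := (hh i).ne'
  have hval : a i * p.1 + b i * p.2 - m i = h i * (∑ j, A i j * lam j - m' i) := by
    rw [hp1, hp2, mul_sub, Finset.mul_sum]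
    have h1 : ∀ j, h i * (A i j * lam j) =
        a i * (lam j * ((x j).1 - c0.1)) + b i * (lam j * ((x j).2 - c0.2)) := by
      intro j
      rw [hAdef, Matrix.of_apply]
      field_simp
    rw [Finset.sum_congr rfl (fun j _ => h1 j), Finset.sum_add_distrib, ← Finset.mul_sum,
      ← Finset.mul_sum, hm']
    field_simp
    ring
  have h2 := hbig i
  rw [hval, abs_mul, abs_of_pos (hh i)] at hi
  have h3 : h i * ω i ≤ w i / 2 := le_trans (mul_le_mul_of_nonneg_left h2 (hh i).le) hi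
  have h4 : h i * ω i = w i / 2 + h i * δ := by
    rw [hω]
    field_simp
  have h5 := mul_pos (hh i) hδpos
  linarith

end Vale.Agent.Lib.P243
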