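import Mathlib

/-!
# Bang's plank theorem in the plane

A compact convex set in the plane that is covered by finitely many sets of the form
`{p | a i * p.1 + b i * p.2 ∈ S i}` (with unit normals `(a i, b i)`) has, for every `ε > 0`,
a directional width at most `∑ i, volume (S i) + ε`.
-/

open MeasureTheory Set
open scoped ENNReal Pointwise

namespace Vale.Agent.Lib.P243

/-- The sign attached to a Boolean. -/
def sgnB (e : Bool) : ℝ := if e then 1 else -1

lemma sgnB_true : sgnB true = 1 := by simp [sgnB]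

lemma sgnB_false : sgnB false = -1 := by simp [sgnB]

lemma sgnB_mul_self (e : Bool) : sgnB e * sgnB e = 1 := by
  cases e <;> simp [sgnB]

lemma sgnB_not (e : Bool) : sgnB (!e) = - sgnB e := by
  cases e <;> simp [sgnB]

lemma sum_update_not {J : Type*} [Fintype J] [DecidableEq J] (e : J → Bool) (i : J)
    (c : J → ℝ) :
    ∑ j, sgnB (Function.update e i (!e i) j) * c j
      = ∑ j, sgnB (e j) * c j - 2 * sgnB (e i) * c i := by
  rw [← Finset.add_sum_erase Finset.univ _ (Finset.mem_univ i),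
    ← Finset.add_sum_erase Finset.univ (fun j => sgnB (e j) * c j) (Finset.mem_univ i)]
  have h1 : ∑ j ∈ Finset.univ.erase i, sgnB (Function.update e i (!e i) j) * c j
      = ∑ j ∈ Finset.univ.erase i, sgnB (e j) * c j := by
    refine Finset.sum_congr rfl (fun j hj => ?_)
    rw [Function.update_of_ne (Finset.ne_of_mem_erase hj)]
  rw [h1, Function.update_self, sgnB_not]
  ring

/-- Bang's lemma: signs can be chosen so that the signed sum of the half-width normals,
based at `x0`, avoids the interior of every plank. -/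
lemma bang_signs {J : Type*} [Fintype J] (a b m w : J → ℝ)
    (hab : ∀ j, a j ^ 2 + b j ^ 2 = 1) (hw : ∀ j, 0 < w j) (x0 : ℝ × ℝ) :
    ∃ e : J → Bool, ∀ i, w i / 2 ≤
      |a i * (x0.1 + ∑ j, sgnB (e j) * (w j / 2 * a j))
        + b i * (x0.2 + ∑ j, sgnB (e j) * (w j / 2 * b j)) - m i| := by
  classical
  let Φ : (J → Bool) → ℝ := fun e =>
    (∑ j, sgnB (e j) * (w j / 2 * a j)) ^ 2 + (∑ j, sgnB (e j) * (w j / 2 * b j)) ^ 2
      - ∑ j, sgnB (e j) * (w j * (m j - (a j * x0.1 + b j * x0.2)))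
  obtain ⟨e, -, he⟩ := Finset.exists_max_image (Finset.univ : Finset (J → Bool)) Φ
    ⟨fun _ => true, Finset.mem_univ _⟩
  refine ⟨e, fun i => ?_⟩
  have hmax := he (Function.update e i (!e i)) (Finset.mem_univ _)
  simp only [Φ] at hmax
  rw [sum_update_not e i, sum_update_not e i, sum_update_not e i] at hmax
  set A := ∑ j, sgnB (e j) * (w j / 2 * a j) with hA
  set B := ∑ j, sgnB (e j) * (w j / 2 * b j) with hB
  set T := ∑ j, sgnB (e j) * (w j * (m j - (a j * x0.1 + b j * x0.2))) with hT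
  have hs := sgnB_mul_self (e i)
  set s := sgnB (e i) with hsdef
  have hwi := hw i
  have habi := hab i
  -- the flip inequality
  have key : w i / 2 ≤ s * (a i * A + b i * B - (m i - (a i * x0.1 + b i * x0.2))) := by
    have h1 : 0 ≤ 2 * w i * (s * (a i * A + b i * B - (m i - (a i * x0.1 + b i * x0.2)))
        - w i / 2) := by
      have hexp : (A - 2 * s * (w i / 2 * a i)) ^ 2 + (B - 2 * s * (w i / 2 * b i)) ^ 2
          - (T - 2 * s * (w i * (m i - (a i * x0.1 + b i * x0.2))))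
          = A ^ 2 + B ^ 2 - T
            - 2 * w i * (s * (a i * A + b i * B - (m i - (a i * x0.1 + b i * x0.2))))
            + (s * s) * w i ^ 2 * (a i ^ 2 + b i ^ 2) := by ring
      rw [hexp, hs, habi] at hmax
      nlinarith
    have h2 : 0 ≤ s * (a i * A + b i * B - (m i - (a i * x0.1 + b i * x0.2))) - w i / 2 := by
      by_contra hneg
      have hneg' := not_le.1 hneg
      have : 2 * w i * (s * (a i * A + b i * B - (m i - (a i * x0.1 + b i * x0.2)))
          - w i / 2) < 0 := mul_neg_of_pos_of_neg (by linarith) hneg'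
      linarith
    linarith
  have habs : s * (a i * A + b i * B - (m i - (a i * x0.1 + b i * x0.2)))
      ≤ |a i * A + b i * B - (m i - (a i * x0.1 + b i * x0.2))| := by
    have h3 : |s| = 1 := by
      have : |s| * |s| = 1 := by rw [← abs_mul, hs, abs_one]
      nlinarith [abs_nonneg s]
    calc s * (a i * A + b i * B - (m i - (a i * x0.1 + b i * x0.2)))
        ≤ |s * (a i * A + b i * B - (m i - (a i * x0.1 + b i * x0.2)))| := le_abs_self _
      _ = |a i * A + b i * B - (m i - (a i * x0.1 + b i * x0.2))| := by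
          rw [abs_mul, h3, one_mul]
  have heq : a i * (x0.1 + A) + b i * (x0.2 + B) - m i
      = a i * A + b i * B - (m i - (a i * x0.1 + b i * x0.2)) := by ring
  rw [heq]
  exact key.trans habs

/-- All directional widths of `Q` are at least `w` (witnessed by pairs of points). -/
def WidthGe (Q : Set (ℝ × ℝ)) (w : ℝ) : Prop :=
  ∀ c d : ℝ, c ^ 2 + d ^ 2 = 1 → ∃ p ∈ Q, ∃ q ∈ Q, w ≤ c * (p.1 - q.1) + d * (p.2 - q.2)

lemma WidthGe.nonempty {Q : Set (ℝ × ℝ)} {w : ℝ} (h : WidthGe Q w) : Q.Nonempty := by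
  obtain ⟨p, hp, -⟩ := h 1 0 (by norm_num)
  exact ⟨p, hp⟩

lemma WidthGe.mono {Q : Set (ℝ × ℝ)} {w w' : ℝ} (h : WidthGe Q w) (hw : w' ≤ w) :
    WidthGe Q w' := by
  intro c d hcd
  obtain ⟨p, hp, q, hq, hpq⟩ := h c d hcd
  exact ⟨p, hp, q, hq, hw.trans hpq⟩

lemma mem_add_singleton_iff {Q : Set (ℝ × ℝ)} {v x : ℝ × ℝ} :
    x ∈ Q + ({v} : Set (ℝ × ℝ)) ↔ (x.1 - v.1, x.2 - v.2) ∈ Q := by
  rw [Set.add_singleton]
  constructor
  · rintro ⟨q, hq, rfl⟩
    simpa using hq
  · intro h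
    exact ⟨(x.1 - v.1, x.2 - v.2), h, by ext <;> simp⟩

lemma conv_mem {Q : Set (ℝ × ℝ)} (hQconv : Convex ℝ Q) {x y : ℝ × ℝ} (hx : x ∈ Q) (hy : y ∈ Q)
    {ρ : ℝ} (h0 : 0 ≤ ρ) (h1 : ρ ≤ 1) :
    (ρ * x.1 + (1 - ρ) * y.1, ρ * x.2 + (1 - ρ) * y.2) ∈ Q := by
  have h := hQconv hx hy h0 (sub_nonneg.2 h1) (by ring)
  have he : ρ • x + (1 - ρ) • y = (ρ * x.1 + (1 - ρ) * y.1, ρ * x.2 + (1 - ρ) * y.2) := by
    ext <;> simp
  rwa [he] at h

lemma cs_plane (v1 v2 α β : ℝ) (hv : v1 ^ 2 + v2 ^ 2 = 1) :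
    v1 * α + v2 * β ≤ Real.sqrt (α ^ 2 + β ^ 2) := by
  refine le_trans (le_abs_self _) (Real.abs_le_sqrt ?_)
  nlinarith [sq_nonneg (v1 * β - v2 * α)]

/-- A compact convex set all of whose widths are at least `w > 0` contains a chord of length
`w` in every direction. -/
lemma exists_chord {Q : Set (ℝ × ℝ)} (hQc : IsCompact Q) (hQconv : Convex ℝ Q) {w : ℝ}
    (hw : 0 < w) (hQ : WidthGe Q w) (v1 v2 : ℝ) (hv : v1 ^ 2 + v2 ^ 2 = 1) :
    ∃ r ∈ Q, (r.1 + w * v1, r.2 + w * v2) ∈ Q := by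
  by_contra hcon
  have hcon' : ∀ r ∈ Q, (r.1 + w * v1, r.2 + w * v2) ∉ Q := fun r hr h => hcon ⟨r, hr, h⟩
  let v0 : ℝ × ℝ := (w * v1, w * v2)
  have hTc : IsCompact (Q + ({v0} : Set (ℝ × ℝ))) := hQc.add isCompact_singleton
  have hTconv : Convex ℝ (Q + ({v0} : Set (ℝ × ℝ))) := hQconv.add (convex_singleton v0)
  have hdisj : Disjoint Q (Q + ({v0} : Set (ℝ × ℝ))) := by
    rw [Set.disjoint_left]
    intro x hx hxT
    rw [mem_add_singleton_iff] at hxT
    have h := hcon' _ hxT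
    apply h
    have he : ((x.1 - v0.1, x.2 - v0.2).1 + w * v1, (x.1 - v0.1, x.2 - v0.2).2 + w * v2) = x := by
      ext <;> simp [v0]
    rw [he]
    exact hx
  obtain ⟨f, u, v', hfQ, huv, hfT⟩ :=
    geometric_hahn_banach_compact_closed hQconv hQc hTconv hTc.isClosed hdisj
  set α := f (1, 0) with hα
  set β := f (0, 1) with hβ
  have hf : ∀ p : ℝ × ℝ, f p = p.1 * α + p.2 * β := by
    intro p
    have hp : p = p.1 • ((1 : ℝ), (0 : ℝ)) + p.2 • ((0 : ℝ), (1 : ℝ)) := by
      ext <;> simp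
    conv_lhs => rw [hp]
    rw [map_add, map_smul, map_smul, smul_eq_mul, smul_eq_mul]
  have hlt : ∀ p ∈ Q, ∀ q ∈ Q, f p - f q < w * (v1 * α + v2 * β) := by
    intro p hp q hq
    have h1 := hfQ p hp
    have h2 : (q.1 + w * v1, q.2 + w * v2) ∈ Q + ({v0} : Set (ℝ × ℝ)) := by
      rw [mem_add_singleton_iff]
      have he : ((q.1 + w * v1, q.2 + w * v2).1 - v0.1, (q.1 + w * v1, q.2 + w * v2).2 - v0.2)
          = q := by
        ext <;> simp [v0]
      rw [he]
      exact hq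
    have h3 := hfT _ h2
    rw [hf] at h3
    rw [hf q]
    simp only at h3
    rw [hf p] at h1 ⊢
    nlinarith
  obtain ⟨q0, hq0⟩ := hQ.nonempty
  have hpos : 0 < v1 * α + v2 * β := by
    have h := hlt q0 hq0 q0 hq0
    rw [sub_self] at h
    by_contra hneg
    have : w * (v1 * α + v2 * β) ≤ 0 := mul_nonpos_of_nonneg_of_nonpos hw.le (not_lt.1 hneg)
    linarith
  have hcs := cs_plane v1 v2 α β hv
  set r := Real.sqrt (α ^ 2 + β ^ 2) with hr
  have hrpos : 0 < r := lt_of_lt_of_le hpos hcs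
  have hrsq : r ^ 2 = α ^ 2 + β ^ 2 := Real.sq_sqrt (by positivity)
  have hunit : (α / r) ^ 2 + (β / r) ^ 2 = 1 := by
    rw [div_pow, div_pow, ← add_div, ← hrsq]
    exact div_self (pow_pos hrpos 2).ne'
  obtain ⟨p, hp, q, hq, hpq⟩ := hQ (α / r) (β / r) hunit
  have h1 := hlt p hp q hq
  rw [hf p, hf q] at h1
  have h2 : w * r ≤ p.1 * α + p.2 * β - (q.1 * α + q.2 * β) := by
    have h3 : α / r * (p.1 - q.1) + β / r * (p.2 - q.2)
        = (p.1 * α + p.2 * β - (q.1 * α + q.2 * β)) / r := by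
      field_simp
      ring
    rw [h3, le_div_iff₀ hrpos] at hpq
    exact hpq
  have h4 : w * (v1 * α + v2 * β) ≤ w * r := mul_le_mul_of_nonneg_left hcs hw.le
  linarith

/-- Width shrinking: intersecting with a translate by a vector of length `t` lowers all
widths by at most `t`. -/
lemma widthGe_inter_shift {Q : Set (ℝ × ℝ)} (hQc : IsCompact Q) (hQconv : Convex ℝ Q)
    {w t : ℝ} (hQ : WidthGe Q w) (v : ℝ × ℝ) (hv : v.1 ^ 2 + v.2 ^ 2 = t ^ 2) (ht0 : 0 ≤ t)
    (htw : t ≤ w) : WidthGe (Q ∩ (Q + ({v} : Set (ℝ × ℝ)))) (w - t) := by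
  rcases ht0.eq_or_lt with ht | ht
  · -- `t = 0`, so `v = 0`
    have hv0 : v.1 ^ 2 + v.2 ^ 2 = 0 := by rw [hv, ← ht]; ring
    have hv1 : v.1 = 0 := by nlinarith [sq_nonneg v.1, sq_nonneg v.2]
    have hv2 : v.2 = 0 := by nlinarith [sq_nonneg v.1, sq_nonneg v.2]
    intro c d hcd
    obtain ⟨p, hp, q, hq, hpq⟩ := hQ c d hcd
    refine ⟨p, ⟨hp, ?_⟩, q, ⟨hq, ?_⟩, by linarith⟩
    · rw [mem_add_singleton_iff, hv1, hv2]
      simpa using hp
    · rw [mem_add_singleton_iff, hv1, hv2]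
      simpa using hq
  · have hwpos : 0 < w := lt_of_lt_of_le ht htw
    have hunit : (v.1 / t) ^ 2 + (v.2 / t) ^ 2 = 1 := by
      rw [div_pow, div_pow, ← add_div, hv]
      exact div_self (pow_pos ht 2).ne'
    obtain ⟨r, hr, hr'⟩ := exists_chord hQc hQconv hwpos hQ (v.1 / t) (v.2 / t) hunit
    set ρ := 1 - t / w with hρ
    have hρ0 : 0 ≤ ρ := by
      rw [hρ, sub_nonneg, div_le_one hwpos]
      exact htw
    have hρ1 : ρ ≤ 1 := by
      rw [hρ]
      have : 0 ≤ t / w := div_nonneg ht.le hwpos.le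
      linarith
    have htw' : (1 - ρ) * w = t := by
      rw [hρ]
      field_simp
      ring
    -- the homothety
    have hmem : ∀ x ∈ Q, (ρ * x.1 + (1 - ρ) * (r.1 + w * (v.1 / t)),
        ρ * x.2 + (1 - ρ) * (r.2 + w * (v.2 / t))) ∈ Q ∩ (Q + ({v} : Set (ℝ × ℝ))) := by
      intro x hx
      refine ⟨conv_mem hQconv hx hr' hρ0 hρ1, ?_⟩
      rw [mem_add_singleton_iff]
      have h := conv_mem hQconv hx hr hρ0 hρ1
      have he : ((ρ * x.1 + (1 - ρ) * (r.1 + w * (v.1 / t)),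
          ρ * x.2 + (1 - ρ) * (r.2 + w * (v.2 / t))).1 - v.1,
          (ρ * x.1 + (1 - ρ) * (r.1 + w * (v.1 / t)),
          ρ * x.2 + (1 - ρ) * (r.2 + w * (v.2 / t))).2 - v.2)
          = (ρ * x.1 + (1 - ρ) * r.1, ρ * x.2 + (1 - ρ) * r.2) := by
        have e1 : (1 - ρ) * (w * (v.1 / t)) = v.1 := by
          rw [← mul_assoc, htw']
          field_simp
        have e2 : (1 - ρ) * (w * (v.2 / t)) = v.2 := by
          rw [← mul_assoc, htw']
          field_simp
        ext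
        · simp only
          linarith
        · simp only
          linarith
      rw [he]
      exact h
    intro c d hcd
    obtain ⟨p, hp, q, hq, hpq⟩ := hQ c d hcd
    refine ⟨_, hmem p hp, _, hmem q hq, ?_⟩
    simp only
    have h1 : c * (ρ * p.1 + (1 - ρ) * (r.1 + w * (v.1 / t))
          - (ρ * q.1 + (1 - ρ) * (r.1 + w * (v.1 / t))))
        + d * (ρ * p.2 + (1 - ρ) * (r.2 + w * (v.2 / t))
          - (ρ * q.2 + (1 - ρ) * (r.2 + w * (v.2 / t))))
        = ρ * (c * (p.1 - q.1) + d * (p.2 - q.2)) := by ring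
    rw [h1]
    have h2 : ρ * w ≤ ρ * (c * (p.1 - q.1) + d * (p.2 - q.2)) :=
      mul_le_mul_of_nonneg_left hpq hρ0
    have h3 : ρ * w = w - t := by
      rw [← htw']
      ring
    linarith

/-- If all widths of a compact convex set are at least `∑ j ∈ s, 2 * h j`, then some translate
of the full configuration of signed sums of the vectors `u j` (of lengths `h j`) fits inside. -/
lemma exists_fit {J : Type*} [DecidableEq J] (u : J → ℝ × ℝ) (h : J → ℝ) (hh : ∀ j, 0 ≤ h j)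
    (hu : ∀ j, (u j).1 ^ 2 + (u j).2 ^ 2 = (h j) ^ 2) (s : Finset J) :
    ∀ Q : Set (ℝ × ℝ), IsCompact Q → Convex ℝ Q → WidthGe Q (∑ j ∈ s, 2 * h j) →
      ∃ x0 : ℝ × ℝ, ∀ e : J → Bool,
        (x0.1 + ∑ j ∈ s, sgnB (e j) * (u j).1, x0.2 + ∑ j ∈ s, sgnB (e j) * (u j).2) ∈ Q := by
  induction s using Finset.induction_on with
  | empty =>
    intro Q _ _ hQ
    obtain ⟨p, hp⟩ := hQ.nonempty
    exact ⟨p, fun e => by simpa using hp⟩
  | insert k s hk ih =>
    intro Q hQc hQconv hQ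
    rw [Finset.sum_insert hk] at hQ
    set v : ℝ × ℝ := (2 * (u k).1, 2 * (u k).2) with hv
    have hvt : v.1 ^ 2 + v.2 ^ 2 = (2 * h k) ^ 2 := by
      simp only [hv]
      nlinarith [hu k]
    have hsum : 0 ≤ ∑ j ∈ s, 2 * h j :=
      Finset.sum_nonneg (fun j _ => by have := hh j; linarith)
    have hhk := hh k
    have hQ1 := widthGe_inter_shift hQc hQconv hQ v hvt (by linarith) (by linarith)
    have hQ1' : WidthGe (Q ∩ (Q + ({v} : Set (ℝ × ℝ)))) (∑ j ∈ s, 2 * h j) :=
      hQ1.mono (by linarith)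
    have hc1 : IsCompact (Q ∩ (Q + ({v} : Set (ℝ × ℝ)))) :=
      hQc.inter (hQc.add isCompact_singleton)
    have hconv1 : Convex ℝ (Q ∩ (Q + ({v} : Set (ℝ × ℝ)))) :=
      hQconv.inter (hQconv.add (convex_singleton v))
    obtain ⟨x1, hx1⟩ := ih _ hc1 hconv1 hQ1'
    refine ⟨(x1.1 - (u k).1, x1.2 - (u k).2), fun e => ?_⟩
    rw [Finset.sum_insert hk, Finset.sum_insert hk]
    have hmem := hx1 e
    cases hek : e k
    · have h2 := hmem.2
      rw [mem_add_singleton_iff] at h2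
      have he : ((x1.1 - (u k).1, x1.2 - (u k).2).1
            + (sgnB false * (u k).1 + ∑ j ∈ s, sgnB (e j) * (u j).1),
          (x1.1 - (u k).1, x1.2 - (u k).2).2
            + (sgnB false * (u k).2 + ∑ j ∈ s, sgnB (e j) * (u j).2))
          = ((x1.1 + ∑ j ∈ s, sgnB (e j) * (u j).1, x1.2 + ∑ j ∈ s, sgnB (e j) * (u j).2).1
              - v.1,
            (x1.1 + ∑ j ∈ s, sgnB (e j) * (u j).1, x1.2 + ∑ j ∈ s, sgnB (e j) * (u j).2).2
              - v.2) := by
        ext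
        · simp only [sgnB_false, hv]
          ring
        · simp only [sgnB_false, hv]
          ring
      rw [he]
      exact h2
    · have h1 := hmem.1
      have he : ((x1.1 - (u k).1, x1.2 - (u k).2).1
            + (sgnB true * (u k).1 + ∑ j ∈ s, sgnB (e j) * (u j).1),
          (x1.1 - (u k).1, x1.2 - (u k).2).2
            + (sgnB true * (u k).2 + ∑ j ∈ s, sgnB (e j) * (u j).2))
          = (x1.1 + ∑ j ∈ s, sgnB (e j) * (u j).1, x1.2 + ∑ j ∈ s, sgnB (e j) * (u j).2) := by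
        ext
        · simp only [sgnB_true]
          ring
        · simp only [sgnB_true]
          ring
      rw [he]
      exact h1

/-- Bang's plank theorem in the plane for finitely many closed planks: a compact convex set
covered by planks of widths `w j` has some directional width at most `∑ j, w j + η`. -/
lemma bang_finite {J : Type*} [Fintype J] {Q : Set (ℝ × ℝ)} (hQc : IsCompact Q)
    (hQconv : Convex ℝ Q) (hQne : Q.Nonempty) (a b m w : J → ℝ)
    (hab : ∀ j, a j ^ 2 + b j ^ 2 = 1) (hw : ∀ j, 0 ≤ w j)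
    (hcov : ∀ p ∈ Q, ∃ j, |a j * p.1 + b j * p.2 - m j| ≤ w j / 2)
    (η : ℝ) (hη : 0 < η) :
    ∃ c d : ℝ, c ^ 2 + d ^ 2 = 1 ∧ ∀ p ∈ Q, ∀ q ∈ Q,
      c * (p.1 - q.1) + d * (p.2 - q.2) ≤ ∑ j, w j + η := by
  classical
  by_contra hcon
  have hW : WidthGe Q (∑ j, w j + η) := by
    intro c d hcd
    by_contra h2
    apply hcon
    refine ⟨c, d, hcd, fun p hp q hq => ?_⟩
    by_contra h3
    exact h2 ⟨p, hp, q, hq, (not_le.1 h3).le⟩
  rcases isEmpty_or_nonempty J with hJ | hJ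
  · obtain ⟨p, hp⟩ := hQne
    obtain ⟨j, -⟩ := hcov p hp
    exact hJ.elim j
  · have hcard : 0 < (Fintype.card J : ℝ) := by exact_mod_cast Fintype.card_pos
    have hpos : 0 < η / Fintype.card J := div_pos hη hcard
    set w' : J → ℝ := fun j => w j + η / Fintype.card J with hw'
    have hw'pos : ∀ j, 0 < w' j := fun j => by
      have := hw j
      simp only [hw']
      linarith
    have hsum : ∑ j, 2 * (w' j / 2) = ∑ j, w j + η := by
      have h1 : ∀ j, 2 * (w' j / 2) = w j + η / Fintype.card J := fun j => by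
        simp only [hw']
        ring
      rw [Finset.sum_congr rfl (fun j _ => h1 j), Finset.sum_add_distrib, Finset.sum_const,
        Finset.card_univ, nsmul_eq_mul]
      congr 1
      field_simp
    obtain ⟨x0, hx0⟩ := exists_fit (fun j => (w' j / 2 * a j, w' j / 2 * b j))
      (fun j => w' j / 2) (fun j => by have := hw'pos j; linarith)
      (fun j => by
        have := hab j
        simp only
        calc (w' j / 2 * a j) ^ 2 + (w' j / 2 * b j) ^ 2
            = (w' j / 2) ^ 2 * (a j ^ 2 + b j ^ 2) := by ring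
          _ = (w' j / 2) ^ 2 := by rw [this, mul_one])
      Finset.univ Q hQc hQconv (by rw [hsum]; exact hW)
    obtain ⟨e, he⟩ := bang_signs a b m w' hab hw'pos x0
    obtain ⟨i, hi⟩ := hcov _ (hx0 e)
    have h1 := he i
    simp only at hi
    have h2 : w i < w' i := by
      simp only [hw']
      linarith
    linarith

/-- If the `δ`-ball around `p` lies in the preimage of `U` under a unit linear form, then the
grid interval of length `δ` containing the value at `p` lies in `U`. -/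
lemma Ico_subset_of_ball {a b δ : ℝ} (hab : a ^ 2 + b ^ 2 = 1) (hδ : 0 < δ) {U : Set ℝ}
    {p : ℝ × ℝ} (hball : Metric.ball p δ ⊆ {q : ℝ × ℝ | a * q.1 + b * q.2 ∈ U}) :
    Set.Ico ((⌊(a * p.1 + b * p.2) / δ⌋ : ℝ) * δ)
        (((⌊(a * p.1 + b * p.2) / δ⌋ : ℝ) + 1) * δ) ⊆ U ∧
      |a * p.1 + b * p.2 - ((⌊(a * p.1 + b * p.2) / δ⌋ : ℝ) + 1 / 2) * δ| ≤ δ / 2 := by
  set ℓ := a * p.1 + b * p.2 with hℓ
  set m := ⌊ℓ / δ⌋ with hm
  have h1 : (m : ℝ) * δ ≤ ℓ := by
    have := Int.floor_le (ℓ / δ)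
    rw [le_div_iff₀ hδ] at this
    exact this
  have h2 : ℓ < ((m : ℝ) + 1) * δ := by
    have := Int.lt_floor_add_one (ℓ / δ)
    rw [div_lt_iff₀ hδ] at this
    exact this
  have ha : |a| ≤ 1 := by
    rw [abs_le]
    constructor <;> nlinarith [sq_nonneg b, sq_nonneg (a + 1), sq_nonneg (a - 1)]
  have hb : |b| ≤ 1 := by
    rw [abs_le]
    constructor <;> nlinarith [sq_nonneg a, sq_nonneg (b + 1), sq_nonneg (b - 1)]
  constructor
  · intro s hs
    have hs1 := hs.1
    have hs2 := hs.2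
    have hsl : |s - ℓ| < δ := by
      rw [abs_lt]
      constructor <;> nlinarith
    have hmem : (p.1 + (s - ℓ) * a, p.2 + (s - ℓ) * b) ∈ Metric.ball p δ := by
      rw [Metric.mem_ball, Prod.dist_eq]
      simp only [Real.dist_eq]
      rw [max_lt_iff]
      constructor
      · have he : p.1 + (s - ℓ) * a - p.1 = (s - ℓ) * a := by ring
        rw [he, abs_mul]
        calc |s - ℓ| * |a| ≤ |s - ℓ| * 1 := mul_le_mul_of_nonneg_left ha (abs_nonneg _)
          _ < δ := by rw [mul_one]; exact hsl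
      · have he : p.2 + (s - ℓ) * b - p.2 = (s - ℓ) * b := by ring
        rw [he, abs_mul]
        calc |s - ℓ| * |b| ≤ |s - ℓ| * 1 := mul_le_mul_of_nonneg_left hb (abs_nonneg _)
          _ < δ := by rw [mul_one]; exact hsl
    have hU : a * (p.1 + (s - ℓ) * a) + b * (p.2 + (s - ℓ) * b) ∈ U := hball hmem
    have he : a * (p.1 + (s - ℓ) * a) + b * (p.2 + (s - ℓ) * b) = s := by
      have h3 : a * (p.1 + (s - ℓ) * a) + b * (p.2 + (s - ℓ) * b)
          = ℓ + (s - ℓ) * (a ^ 2 + b ^ 2) := by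
        rw [hℓ]
        ring
      rw [h3, hab]
      ring
    rwa [he] at hU
  · rw [abs_le]
    constructor <;> nlinarith

/-- **Bang's plank theorem in the plane**, measure form: if a nonempty compact convex set `Q`
in the plane is covered by finitely many sets `{p | a i * p.1 + b i * p.2 ∈ S i}` with unit
normals `(a i, b i)`, then for every `ε > 0` some directional width of `Q` is at most
`∑ i, volume (S i) + ε`. -/
theorem bang_planar {ι : Type*} [Fintype ι] {Q : Set (ℝ × ℝ)} (hQc : IsCompact Q)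
    (hQconv : Convex ℝ Q) (hQne : Q.Nonempty)
    (a b : ι → ℝ) (hab : ∀ i, a i ^ 2 + b i ^ 2 = 1) (S : ι → Set ℝ)
    (hcov : ∀ p ∈ Q, ∃ i, a i * p.1 + b i * p.2 ∈ S i)
    (ε : ℝ) (hε : 0 < ε) :
    ∃ c d : ℝ, c ^ 2 + d ^ 2 = 1 ∧
      ENNReal.ofReal (sSup ((fun p : ℝ × ℝ => c * p.1 + d * p.2) '' Q) -
        sInf ((fun p : ℝ × ℝ => c * p.1 + d * p.2) '' Q)) ≤ ∑ i, volume (S i) + ENNReal.ofReal ε := by
  classical
  by_cases htop : ∑ i, volume (S i) = ⊤
  · exact ⟨1, 0, by norm_num, by rw [htop]; simp⟩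
  obtain ⟨p0, hp0⟩ := hQne
  obtain ⟨i0, -⟩ := hcov p0 hp0
  have hcard : 0 < (Fintype.card ι : ℝ) := by exact_mod_cast Fintype.card_pos_iff.2 ⟨i0⟩
  have hε' : 0 < ε / (2 * (Fintype.card ι : ℝ)) := by positivity
  have hU : ∀ i, ∃ U : Set ℝ, S i ⊆ U ∧ IsOpen U ∧
      volume U ≤ volume (S i) + ENNReal.ofReal (ε / (2 * (Fintype.card ι : ℝ))) := fun i =>
    Set.exists_isOpen_le_add (S i) volume (by simpa using hε')
  choose U hSU hUo hUle using hU
  have hOo : ∀ i, IsOpen {p : ℝ × ℝ | a i * p.1 + b i * p.2 ∈ U i} := fun i =>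
    (hUo i).preimage (by fun_prop)
  have hQO : Q ⊆ ⋃ i, {p : ℝ × ℝ | a i * p.1 + b i * p.2 ∈ U i} := by
    intro p hp
    obtain ⟨i, hi⟩ := hcov p hp
    exact Set.mem_iUnion.2 ⟨i, hSU i hi⟩
  obtain ⟨δ, hδ, hleb⟩ := lebesgue_number_lemma_of_metric hQc hOo hQO
  obtain ⟨R, hR⟩ := hQc.isBounded.exists_norm_le
  set N : ℤ := ⌈2 * R / δ⌉ + 1 with hN
  let T : Finset (ι × ℤ) := (Finset.univ ×ˢ Finset.Icc (-N) N).filter
    (fun x => Set.Ico ((x.2 : ℝ) * δ) (((x.2 : ℝ) + 1) * δ) ⊆ U x.1)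
  have hcovT : ∀ p ∈ Q, ∃ j : T,
      |a j.1.1 * p.1 + b j.1.1 * p.2 - ((j.1.2 : ℝ) + 1 / 2) * δ| ≤ δ / 2 := by
    intro p hp
    obtain ⟨i, hi⟩ := hleb p hp
    obtain ⟨h1, h2⟩ := Ico_subset_of_ball (hab i) hδ hi
    have hpR := hR p hp
    have hp1 : |p.1| ≤ R := (norm_fst_le p).trans hpR
    have hp2 : |p.2| ≤ R := (norm_snd_le p).trans hpR
    have ha : |a i| ≤ 1 := by
      have := hab i
      rw [abs_le]
      constructor <;> nlinarith [sq_nonneg (b i), sq_nonneg (a i + 1), sq_nonneg (a i - 1)]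
    have hb : |b i| ≤ 1 := by
      have := hab i
      rw [abs_le]
      constructor <;> nlinarith [sq_nonneg (a i), sq_nonneg (b i + 1), sq_nonneg (b i - 1)]
    have hR0 : 0 ≤ R := (abs_nonneg _).trans hp1
    have hl : |a i * p.1 + b i * p.2| ≤ 2 * R := by
      calc |a i * p.1 + b i * p.2| ≤ |a i * p.1| + |b i * p.2| := abs_add_le _ _
        _ = |a i| * |p.1| + |b i| * |p.2| := by rw [abs_mul, abs_mul]
        _ ≤ 1 * R + 1 * R := by
            gcongr
        _ = 2 * R := by ring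
    have hl1 := (abs_le.1 hl).1
    have hl2 := (abs_le.1 hl).2
    have hmem : (i, ⌊(a i * p.1 + b i * p.2) / δ⌋) ∈ T := by
      rw [Finset.mem_filter, Finset.mem_product, Finset.mem_Icc]
      refine ⟨⟨Finset.mem_univ _, ?_, ?_⟩, h1⟩
      · rw [Int.le_floor, hN]
        push_cast
        have h3 : 2 * R / δ ≤ (⌈2 * R / δ⌉ : ℝ) := Int.le_ceil _
        have h4 : -(2 * R / δ) ≤ (a i * p.1 + b i * p.2) / δ := by
          rw [← neg_div]
          exact div_le_div_of_nonneg_right (by linarith) hδ.le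
        linarith
      · have h3 : ⌊(a i * p.1 + b i * p.2) / δ⌋ ≤ ⌈2 * R / δ⌉ :=
          (Int.floor_mono (div_le_div_of_nonneg_right hl2 hδ.le)).trans (Int.floor_le_ceil _)
        rw [hN]
        linarith
    exact ⟨⟨_, hmem⟩, h2⟩
  obtain ⟨c, d, hcd, hwid⟩ := bang_finite hQc hQconv ⟨p0, hp0⟩ (fun j : T => a j.1.1)
    (fun j : T => b j.1.1) (fun j : T => ((j.1.2 : ℝ) + 1 / 2) * δ) (fun _ => δ)
    (fun j => hab j.1.1) (fun _ => hδ.le) hcovT (ε / 2) (by positivity)
  refine ⟨c, d, hcd, ?_⟩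
  have hmeas : ENNReal.ofReal (∑ _j : T, δ) ≤ ∑ i, volume (U i) := by
    rw [Finset.sum_const, Finset.card_univ, Fintype.card_coe, nsmul_eq_mul,
      ENNReal.ofReal_mul (by positivity), ENNReal.ofReal_natCast]
    have h1 : (T.card : ℝ≥0∞) * ENNReal.ofReal δ = ∑ x ∈ T, ENNReal.ofReal δ := by
      rw [Finset.sum_const, nsmul_eq_mul]
    rw [h1]
    simp only [T]
    rw [Finset.sum_filter, Finset.sum_product]
    refine Finset.sum_le_sum (fun i _ => ?_)
    rw [← Finset.sum_filter]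
    have h2 : ∀ m : ℤ, volume (Set.Ico ((m : ℝ) * δ) (((m : ℝ) + 1) * δ)) = ENNReal.ofReal δ := by
      intro m
      rw [Real.volume_Ico]
      congr 1
      ring
    rw [← Finset.sum_congr rfl (fun m _ => h2 m), ← measure_biUnion_finset]
    · apply measure_mono
      intro s hs
      simp only [Set.mem_iUnion] at hs
      obtain ⟨m, hm, hs⟩ := hs
      exact (Finset.mem_filter.1 hm).2 hs
    · intro m _ m' _ hne
      simp only [Function.onFun]
      rw [Set.disjoint_left]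
      intro s hs hs'
      apply hne
      have e1 : (m : ℝ) < (m' : ℝ) + 1 :=
        lt_of_mul_lt_mul_right (lt_of_le_of_lt hs.1 hs'.2) hδ.le
      have e2 : (m' : ℝ) < (m : ℝ) + 1 :=
        lt_of_mul_lt_mul_right (lt_of_le_of_lt hs'.1 hs.2) hδ.le
      have e3 : m < m' + 1 := by exact_mod_cast e1
      have e4 : m' < m + 1 := by exact_mod_cast e2
      omega
    · intro m _
      exact measurableSet_Ico
  obtain ⟨pM, hpM, hsup⟩ := hQc.exists_sSup_image_eq ⟨p0, hp0⟩
    (f := fun p : ℝ × ℝ => c * p.1 + d * p.2) (by fun_prop : Continuous _).continuousOn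
  obtain ⟨pm, hpm, hinf⟩ := hQc.exists_sInf_image_eq ⟨p0, hp0⟩
    (f := fun p : ℝ × ℝ => c * p.1 + d * p.2) (by fun_prop : Continuous _).continuousOn
  rw [hsup, hinf]
  have hw := hwid pM hpM pm hpm
  have hle : c * pM.1 + d * pM.2 - (c * pm.1 + d * pm.2) ≤ ∑ _j : T, δ + ε / 2 := by
    linarith
  calc ENNReal.ofReal (c * pM.1 + d * pM.2 - (c * pm.1 + d * pm.2))
      ≤ ENNReal.ofReal (∑ _j : T, δ + ε / 2) := ENNReal.ofReal_le_ofReal hle
    _ = ENNReal.ofReal (∑ _j : T, δ) + ENNReal.ofReal (ε / 2) :=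
        ENNReal.ofReal_add (Finset.sum_nonneg (fun _ _ => hδ.le)) (by positivity)
    _ ≤ ∑ i, volume (U i) + ENNReal.ofReal (ε / 2) := by gcongr
    _ ≤ ∑ i, (volume (S i) + ENNReal.ofReal (ε / (2 * (Fintype.card ι : ℝ))))
          + ENNReal.ofReal (ε / 2) := by
        gcongr with i
        exact hUle i
    _ = ∑ i, volume (S i) + ENNReal.ofReal ε := by
        rw [Finset.sum_add_distrib, Finset.sum_const, Finset.card_univ, nsmul_eq_mul, add_assoc]
        congr 1
        rw [← ENNReal.ofReal_natCast, ← ENNReal.ofReal_mul (by positivity),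
          ← ENNReal.ofReal_add (by positivity) (by positivity)]
        congr 1
        field_simp
        ring

end Vale.Agent.Lib.P243
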