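import Mathlib
import Vale.Agent.Lib.P243.BangPlanar
import Vale.Agent.Lib.P243.BallFinite

open MeasureTheory Set
open scoped ENNReal

namespace Vale.Agent.Lib.P243

/-- For a compact set symmetric about `c0`, a maximiser of a linear form lies at half the
width above the value of the form at `c0`. -/
theorem ballPlanar_width {Q : Set (ℝ × ℝ)} (hQc : IsCompact Q) (hQne : Q.Nonempty)
    (c0 : ℝ × ℝ) (hsym : ∀ p ∈ Q, (2 : ℝ) • c0 - p ∈ Q) (α β : ℝ) :
    ∃ pM ∈ Q, α * (pM.1 - c0.1) + β * (pM.2 - c0.2) =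
      (sSup ((fun p : ℝ × ℝ => α * p.1 + β * p.2) '' Q) -
        sInf ((fun p : ℝ × ℝ => α * p.1 + β * p.2) '' Q)) / 2 := by
  have hf : ContinuousOn (fun p : ℝ × ℝ => α * p.1 + β * p.2) Q :=
    (by fun_prop : Continuous fun p : ℝ × ℝ => α * p.1 + β * p.2).continuousOn
  obtain ⟨pM, hpM, hmax⟩ := hQc.exists_isMaxOn hQne hf
  obtain ⟨pm, hpm, hmin⟩ := hQc.exists_isMinOn hQne hf
  have hmax' := isMaxOn_iff.mp hmax
  have hmin' := isMinOn_iff.mp hmin
  have hsup : sSup ((fun p : ℝ × ℝ => α * p.1 + β * p.2) '' Q) = α * pM.1 + β * pM.2 := by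
    apply IsGreatest.csSup_eq
    refine ⟨⟨pM, hpM, rfl⟩, ?_⟩
    rintro _ ⟨q, hq, rfl⟩
    exact hmax' q hq
  have hinf : sInf ((fun p : ℝ × ℝ => α * p.1 + β * p.2) '' Q) = α * pm.1 + β * pm.2 := by
    apply IsLeast.csInf_eq
    refine ⟨⟨pm, hpm, rfl⟩, ?_⟩
    rintro _ ⟨q, hq, rfl⟩
    exact hmin' q hq
  have h1 := hmax' _ (hsym pm hpm)
  have h2 := hmin' _ (hsym pM hpM)
  simp only [Prod.fst_sub, Prod.snd_sub, Prod.smul_fst, Prod.smul_snd, smul_eq_mul] at h1 h2
  refine ⟨pM, hpM, ?_⟩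
  rw [hsup, hinf]
  linarith

/-- The plank theorem for a symmetric planar set, with abstract widths `W i`. -/
theorem ballPlanar_aux {ι : Type*} [Fintype ι] {Q : Set (ℝ × ℝ)} (hQc : IsCompact Q)
    (hQconv : Convex ℝ Q) (hQne : Q.Nonempty) (c0 : ℝ × ℝ)
    (hsym : ∀ p ∈ Q, (2 : ℝ) • c0 - p ∈ Q)
    (a b : ι → ℝ) (hab : ∀ i, a i ^ 2 + b i ^ 2 = 1) (S : ι → Set ℝ)
    (hcov : ∀ p ∈ Q, ∃ i, a i * p.1 + b i * p.2 ∈ S i)
    (W : ι → ℝ) (hWpos : ∀ i, 0 < W i)
    (hW : ∀ i, ∃ pM ∈ Q, a i * (pM.1 - c0.1) + b i * (pM.2 - c0.2) = W i / 2) :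
    (1 : ℝ≥0∞) ≤ ∑ i, volume (S i) / ENNReal.ofReal (W i) := by
  classical
  by_cases htop : ∃ i, volume (S i) = ⊤
  · obtain ⟨i, hi⟩ := htop
    have h1 : volume (S i) / ENNReal.ofReal (W i) = ⊤ := by
      rw [hi]
      exact ENNReal.top_div_of_ne_top ENNReal.ofReal_ne_top
    calc (1 : ℝ≥0∞) ≤ ⊤ := le_top
      _ = volume (S i) / ENNReal.ofReal (W i) := h1.symm
      _ ≤ ∑ i, volume (S i) / ENNReal.ofReal (W i) :=
          Finset.single_le_sum (f := fun i => volume (S i) / ENNReal.ofReal (W i))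
            (fun _ _ => zero_le) (Finset.mem_univ i)
  push Not at htop
  choose pM hpM hpMW using hW
  have hreal : (1 : ℝ) ≤ ∑ i, (volume (S i)).toReal / W i := by
    apply le_of_forall_pos_le_add
    intro ε hε
    obtain ⟨p0, hp0⟩ := hQne
    obtain ⟨C, hC⟩ : ∃ C : ℝ, C = ∑ i, 1 / W i := ⟨_, rfl⟩
    have hC0 : 0 ≤ C := by
      rw [hC]
      exact Finset.sum_nonneg (fun i _ => by have := hWpos i; positivity)
    obtain ⟨e, he⟩ : ∃ e : ℝ, e = ε / (C + 1) := ⟨_, rfl⟩
    have he0 : 0 < e := by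
      rw [he]
      positivity
    have heC : e * C ≤ ε := by
      rw [he, div_mul_eq_mul_div, div_le_iff₀ (by linarith)]
      nlinarith
    have hU : ∀ i, ∃ U : Set ℝ, S i ⊆ U ∧ IsOpen U ∧
        volume U ≤ volume (S i) + ENNReal.ofReal e := fun i =>
      Set.exists_isOpen_le_add (S i) volume (by simpa using he0)
    choose U hSU hUo hUle using hU
    have hUfin : ∀ i, volume (U i) ≠ ⊤ := fun i =>
      ne_top_of_le_ne_top (ENNReal.add_ne_top.mpr ⟨htop i, ENNReal.ofReal_ne_top⟩) (hUle i)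
    have hUreal : ∀ i, (volume (U i)).toReal ≤ (volume (S i)).toReal + e := by
      intro i
      have h1 := ENNReal.toReal_mono
        (ENNReal.add_ne_top.mpr ⟨htop i, ENNReal.ofReal_ne_top⟩) (hUle i)
      rw [ENNReal.toReal_add (htop i) ENNReal.ofReal_ne_top, ENNReal.toReal_ofReal he0.le] at h1
      exact h1
    have hOo : ∀ i, IsOpen {p : ℝ × ℝ | a i * p.1 + b i * p.2 ∈ U i} := fun i =>
      (hUo i).preimage (by fun_prop)
    have hQO : Q ⊆ ⋃ i, {p : ℝ × ℝ | a i * p.1 + b i * p.2 ∈ U i} := by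
      intro p hp
      obtain ⟨i, hi⟩ := hcov p hp
      exact Set.mem_iUnion.2 ⟨i, hSU i hi⟩
    obtain ⟨δ, hδ, hleb⟩ := lebesgue_number_lemma_of_metric hQc hOo hQO
    obtain ⟨R, hR⟩ := hQc.isBounded.exists_norm_le
    set N : ℤ := ⌈2 * R / δ⌉ + 1 with hN
    let T : Finset (ι × ℤ) := (Finset.univ ×ˢ Finset.Icc (-N) N).filter
      (fun x => Set.Ico ((x.2 : ℝ) * δ) (((x.2 : ℝ) + 1) * δ) ⊆ U x.1)
    have hcovT : ∀ p ∈ Q, ∃ j : T,
        |a j.1.1 * p.1 + b j.1.1 * p.2 - ((j.1.2 : ℝ) + 1 / 2) * δ| ≤ δ / 2 := by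
      intro p hp
      obtain ⟨i, hi⟩ := hleb p hp
      obtain ⟨h1, h2⟩ := Ico_subset_of_ball (hab i) hδ hi
      have hpR := hR p hp
      have hp1 : |p.1| ≤ R := (norm_fst_le p).trans hpR
      have hp2 : |p.2| ≤ R := (norm_snd_le p).trans hpR
      have ha : |a i| ≤ 1 := by
        have := hab i
        rw [abs_le]
        constructor <;> nlinarith [sq_nonneg (b i), sq_nonneg (a i + 1), sq_nonneg (a i - 1)]
      have hb : |b i| ≤ 1 := by
        have := hab i
        rw [abs_le]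
        constructor <;> nlinarith [sq_nonneg (a i), sq_nonneg (b i + 1), sq_nonneg (b i - 1)]
      have hR0 : 0 ≤ R := (abs_nonneg _).trans hp1
      have hl : |a i * p.1 + b i * p.2| ≤ 2 * R := by
        calc |a i * p.1 + b i * p.2| ≤ |a i * p.1| + |b i * p.2| := abs_add_le _ _
          _ = |a i| * |p.1| + |b i| * |p.2| := by rw [abs_mul, abs_mul]
          _ ≤ 1 * R + 1 * R := by
              gcongr
          _ = 2 * R := by ring
      have hl1 := (abs_le.1 hl).1
      have hl2 := (abs_le.1 hl).2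
      have hmem : (i, ⌊(a i * p.1 + b i * p.2) / δ⌋) ∈ T := by
        rw [Finset.mem_filter, Finset.mem_product, Finset.mem_Icc]
        refine ⟨⟨Finset.mem_univ _, ?_, ?_⟩, h1⟩
        · rw [Int.le_floor, hN]
          push_cast
          have h3 : 2 * R / δ ≤ (⌈2 * R / δ⌉ : ℝ) := Int.le_ceil _
          have h4 : -(2 * R / δ) ≤ (a i * p.1 + b i * p.2) / δ := by
            rw [← neg_div]
            exact div_le_div_of_nonneg_right (by linarith) hδ.le
          linarith
        · have h3 : ⌊(a i * p.1 + b i * p.2) / δ⌋ ≤ ⌈2 * R / δ⌉ :=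
            (Int.floor_mono (div_le_div_of_nonneg_right hl2 hδ.le)).trans (Int.floor_le_ceil _)
          rw [hN]
          linarith
      exact ⟨⟨_, hmem⟩, h2⟩
    have hfin := ball_finite hQconv ⟨p0, hp0⟩ c0 hsym (fun j : T => a j.1.1)
      (fun j : T => b j.1.1) (fun j : T => ((j.1.2 : ℝ) + 1 / 2) * δ) (fun _ => δ)
      (fun j : T => W j.1.1 / 2) (fun _ => hδ.le)
      (fun j => by have := hWpos j.1.1; positivity) (fun j : T => pM j.1.1)
      (fun j => hpM j.1.1) (fun j => hpMW j.1.1) hcovT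
    have hcount : ∀ i, (((Finset.Icc (-N) N).filter
        (fun m : ℤ => Set.Ico ((m : ℝ) * δ) (((m : ℝ) + 1) * δ) ⊆ U i)).card : ℝ) * δ ≤
        (volume (U i)).toReal := by
      intro i
      have h2 : ∀ m : ℤ,
          volume (Set.Ico ((m : ℝ) * δ) (((m : ℝ) + 1) * δ)) = ENNReal.ofReal δ := by
        intro m
        rw [Real.volume_Ico]
        congr 1
        ring
      have h3 : ENNReal.ofReal ((((Finset.Icc (-N) N).filter
          (fun m : ℤ => Set.Ico ((m : ℝ) * δ) (((m : ℝ) + 1) * δ) ⊆ U i)).card : ℝ) * δ) ≤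
          volume (U i) := by
        rw [ENNReal.ofReal_mul (by positivity), ENNReal.ofReal_natCast]
        have h1 : (((Finset.Icc (-N) N).filter
            (fun m : ℤ => Set.Ico ((m : ℝ) * δ) (((m : ℝ) + 1) * δ) ⊆ U i)).card : ℝ≥0∞) *
            ENNReal.ofReal δ = ∑ m ∈ (Finset.Icc (-N) N).filter
            (fun m : ℤ => Set.Ico ((m : ℝ) * δ) (((m : ℝ) + 1) * δ) ⊆ U i),
            ENNReal.ofReal δ := by
          rw [Finset.sum_const, nsmul_eq_mul]
        rw [h1, ← Finset.sum_congr rfl (fun m _ => h2 m), ← measure_biUnion_finset]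
        · apply measure_mono
          intro s hs
          simp only [Set.mem_iUnion] at hs
          obtain ⟨m, hm, hs⟩ := hs
          exact (Finset.mem_filter.1 hm).2 hs
        · intro m _ m' _ hne
          simp only [Function.onFun]
          rw [Set.disjoint_left]
          intro s hs hs'
          apply hne
          have e1 : (m : ℝ) < (m' : ℝ) + 1 :=
            lt_of_mul_lt_mul_right (lt_of_le_of_lt hs.1 hs'.2) hδ.le
          have e2 : (m' : ℝ) < (m : ℝ) + 1 :=
            lt_of_mul_lt_mul_right (lt_of_le_of_lt hs'.1 hs.2) hδ.le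
          have e3 : m < m' + 1 := by exact_mod_cast e1
          have e4 : m' < m + 1 := by exact_mod_cast e2
          omega
        · intro m _
          exact measurableSet_Ico
      rw [← ENNReal.ofReal_toReal (hUfin i)] at h3
      exact (ENNReal.ofReal_le_ofReal_iff ENNReal.toReal_nonneg).mp h3
    have hsumT : ∑ j : T, δ / (2 * (W j.1.1 / 2)) ≤ ∑ i, (volume (U i)).toReal / W i := by
      have h1 : ∀ j : T, δ / (2 * (W j.1.1 / 2)) = δ / W j.1.1 := fun j => by
        congr 1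
        ring
      rw [Finset.sum_congr rfl (fun j _ => h1 j), Finset.sum_coe_sort T (fun x => δ / W x.1)]
      simp only [T]
      rw [Finset.sum_filter, Finset.sum_product]
      refine Finset.sum_le_sum (fun i _ => ?_)
      have h4 : ∑ m ∈ Finset.Icc (-N) N,
          (if Set.Ico ((m : ℝ) * δ) (((m : ℝ) + 1) * δ) ⊆ U i then δ / W i else 0) ≤
          (volume (U i)).toReal / W i := by
        rw [← Finset.sum_filter, Finset.sum_const, nsmul_eq_mul, ← mul_div_assoc]
        exact div_le_div_of_nonneg_right (hcount i) (hWpos i).le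
      exact h4
    calc (1 : ℝ) ≤ ∑ j : T, δ / (2 * (W j.1.1 / 2)) := hfin
      _ ≤ ∑ i, (volume (U i)).toReal / W i := hsumT
      _ ≤ ∑ i, ((volume (S i)).toReal + e) / W i :=
          Finset.sum_le_sum (fun i _ => div_le_div_of_nonneg_right (hUreal i) (hWpos i).le)
      _ = ∑ i, (volume (S i)).toReal / W i + e * C := by
          rw [hC, Finset.mul_sum, ← Finset.sum_add_distrib]
          refine Finset.sum_congr rfl (fun i _ => ?_)
          ring
      _ ≤ ∑ i, (volume (S i)).toReal / W i + ε := by linarith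
  calc (1 : ℝ≥0∞) = ENNReal.ofReal 1 := ENNReal.ofReal_one.symm
    _ ≤ ENNReal.ofReal (∑ i, (volume (S i)).toReal / W i) := ENNReal.ofReal_le_ofReal hreal
    _ = ∑ i, ENNReal.ofReal ((volume (S i)).toReal / W i) :=
        ENNReal.ofReal_sum_of_nonneg
          (fun i _ => div_nonneg ENNReal.toReal_nonneg (hWpos i).le)
    _ = ∑ i, volume (S i) / ENNReal.ofReal (W i) :=
        Finset.sum_congr rfl (fun i _ => by
          rw [ENNReal.ofReal_div_of_pos (hWpos i), ENNReal.ofReal_toReal (htop i)])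

/-- Plank theorem for a planar compact convex set `Q` symmetric about `c0`, measure form: if
`Q` is covered by the sets `{p | a i * p.1 + b i * p.2 ∈ S i}`, then the measures of the `S i`
divided by the widths of `Q` in the directions with coefficients `a i`, `b i` sum to at least one. -/
theorem ball_planar {ι : Type*} [Fintype ι] {Q : Set (ℝ × ℝ)} (hQc : IsCompact Q)
    (hQconv : Convex ℝ Q) (hQne : Q.Nonempty) (c0 : ℝ × ℝ)
    (hsym : ∀ p ∈ Q, (2 : ℝ) • c0 - p ∈ Q)
    (a b : ι → ℝ) (hab : ∀ i, a i ^ 2 + b i ^ 2 = 1) (S : ι → Set ℝ)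
    (hcov : ∀ p ∈ Q, ∃ i, a i * p.1 + b i * p.2 ∈ S i)
    (hpos : ∀ i, sInf ((fun p : ℝ × ℝ => a i * p.1 + b i * p.2) '' Q) <
      sSup ((fun p : ℝ × ℝ => a i * p.1 + b i * p.2) '' Q)) :
    (1 : ℝ≥0∞) ≤ ∑ i, volume (S i) /
      ENNReal.ofReal (sSup ((fun p : ℝ × ℝ => a i * p.1 + b i * p.2) '' Q) -
        sInf ((fun p : ℝ × ℝ => a i * p.1 + b i * p.2) '' Q)) :=
  ballPlanar_aux hQc hQconv hQne c0 hsym a b hab S hcov
    (fun i => sSup ((fun p : ℝ × ℝ => a i * p.1 + b i * p.2) '' Q) -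
        sInf ((fun p : ℝ × ℝ => a i * p.1 + b i * p.2) '' Q))
    (fun i => sub_pos.mpr (hpos i))
    (fun i => ballPlanar_width hQc hQne c0 hsym (a i) (b i))

end Vale.Agent.Lib.P243
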