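import Mathlib
import Vale.Agent.Lib.P243.Arith

open MeasureTheory Set

namespace Vale.Agent.Lib.P243

/-- The excluded interval coming from one side of the strip. -/
theorem left_excl (a l d t : ℝ) (ha : 0 < a) (ha1 : a ≤ 1) (hl : 0 ≤ l) (hl1 : l ≤ 1)
    (hd : 0 ≤ d) (hd1 : d ≤ 1) (ht : 0 ≤ t) (ht1 : t ≤ 1) :
    ∃ y₁ y₂ : ℝ, 0 ≤ y₁ ∧ y₁ ≤ y₂ ∧ y₂ ≤ 1 ∧ a ≤ y₂ - y₁ ∧
      (∀ y : ℝ, 0 ≤ y → y ≤ 1 → (y ≤ l → a * l ≤ (l - y) * d) →
        (l ≤ y → a * (1 - l) ≤ (y - l) * t) → y ≤ y₁ ∨ y₂ ≤ y) ∧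
      (d ≤ a → y₁ ≤ 0) ∧ (a < d → y₁ * d = l * (d - a)) ∧
      (t ≤ a → 1 ≤ y₂) ∧ (a < t → (1 - y₂) * t = (1 - l) * (t - a)) := by
  rcases le_or_gt d a with hda | hda
  · rcases le_or_gt t a with hta | hta
    · refine ⟨0, 1, le_refl _, zero_le_one, le_refl _, by linarith, ?_, fun _ => le_refl _,
        fun h => absurd h (not_lt.mpr hda), fun _ => le_refl _, fun h => absurd h (not_lt.mpr hta)⟩
      intro y hy0 hy1 h1 h2
      rcases le_total y l with hyl | hyl
      · left
        have := h1 hyl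
        nlinarith
      · right
        have := h2 hyl
        nlinarith
    · have ht0 : 0 < t := lt_trans ha hta
      refine ⟨0, 1 - (1 - l) * (t - a) / t, le_refl _, ?_, ?_, ?_, ?_, fun _ => le_refl _,
        fun h => absurd h (not_lt.mpr hda), fun h => absurd h (not_le.mpr hta), ?_⟩
      · have : (1 - l) * (t - a) / t ≤ 1 := by
          rw [div_le_one ht0]; nlinarith
        linarith
      · have : 0 ≤ (1 - l) * (t - a) / t := by
          apply div_nonneg _ ht0.le
          nlinarith
        linarith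
      · have : (1 - l) * (t - a) / t ≤ (1 - l) * (1 - a) := by
          rw [div_le_iff₀ ht0]
          nlinarith [mul_nonneg (mul_nonneg (sub_nonneg.mpr hl1) ha.le) (sub_nonneg.mpr ht1)]
        nlinarith
      · intro y hy0 hy1 h1 h2
        rcases le_total y l with hyl | hyl
        · left
          have := h1 hyl
          nlinarith
        · right
          have := h2 hyl
          have : (1 - y) ≤ (1 - l) * (t - a) / t := by
            rw [le_div_iff₀ ht0]; nlinarith
          linarith
      · intro _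
        field_simp
        ring
  · have hd0 : 0 < d := lt_trans ha hda
    rcases le_or_gt t a with hta | hta
    · refine ⟨l * (d - a) / d, 1, ?_, ?_, le_refl _, ?_, ?_, fun h => absurd h (not_le.mpr hda),
        ?_, fun _ => le_refl _, fun h => absurd h (not_lt.mpr hta)⟩
      · apply div_nonneg _ hd0.le
        nlinarith
      · rw [div_le_one hd0]; nlinarith
      · have : l * (d - a) / d ≤ l * (1 - a) := by
          rw [div_le_iff₀ hd0]
          nlinarith [mul_nonneg (mul_nonneg hl ha.le) (sub_nonneg.mpr hd1)]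
        nlinarith
      · intro y hy0 hy1 h1 h2
        rcases le_total y l with hyl | hyl
        · left
          have := h1 hyl
          rw [le_div_iff₀ hd0]; nlinarith
        · right
          have := h2 hyl
          nlinarith
      · intro _
        field_simp
    · have ht0 : 0 < t := lt_trans ha hta
      refine ⟨l * (d - a) / d, 1 - (1 - l) * (t - a) / t, ?_, ?_, ?_, ?_, ?_,
        fun h => absurd h (not_le.mpr hda), ?_, fun h => absurd h (not_le.mpr hta), ?_⟩
      · apply div_nonneg _ hd0.le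
        nlinarith
      · have h1 : l * (d - a) / d ≤ l := by
          rw [div_le_iff₀ hd0]; nlinarith
        have h2 : (1 - l) * (t - a) / t ≤ 1 - l := by
          rw [div_le_iff₀ ht0]; nlinarith
        linarith
      · have : 0 ≤ (1 - l) * (t - a) / t := by
          apply div_nonneg _ ht0.le
          nlinarith
        linarith
      · have h1 : l * (d - a) / d ≤ l * (1 - a) := by
          rw [div_le_iff₀ hd0]
          nlinarith [mul_nonneg (mul_nonneg hl ha.le) (sub_nonneg.mpr hd1)]
        have h2 : (1 - l) * (t - a) / t ≤ (1 - l) * (1 - a) := by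
          rw [div_le_iff₀ ht0]
          nlinarith [mul_nonneg (mul_nonneg (sub_nonneg.mpr hl1) ha.le) (sub_nonneg.mpr ht1)]
        nlinarith
      · intro y hy0 hy1 h1 h2
        rcases le_total y l with hyl | hyl
        · left
          have := h1 hyl
          rw [le_div_iff₀ hd0]; nlinarith
        · right
          have := h2 hyl
          have : (1 - y) ≤ (1 - l) * (t - a) / t := by
            rw [le_div_iff₀ ht0]; nlinarith
          linarith
      · intro _
        field_simp
      · intro _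
        field_simp
        ring

/-- Measure bound for a set avoiding one interval. -/
theorem vol_one_excl (M : Set ℝ) (y₁ y₂ : ℝ) (h1 : 0 ≤ y₁) (h2 : y₂ ≤ 1)
    (hM : ∀ y ∈ M, 0 ≤ y ∧ y ≤ 1 ∧ (y ≤ y₁ ∨ y₂ ≤ y)) :
    volume M ≤ ENNReal.ofReal (1 - (y₂ - y₁)) := by
  have hsub : M ⊆ Icc 0 y₁ ∪ Icc y₂ 1 := by
    intro y hy
    obtain ⟨hy0, hy1, h⟩ := hM y hy
    rcases h with h | h
    · left; exact ⟨hy0, h⟩
    · right; exact ⟨h, hy1⟩
  calc volume M ≤ volume (Icc 0 y₁ ∪ Icc y₂ 1) := measure_mono hsub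
    _ ≤ volume (Icc 0 y₁) + volume (Icc y₂ 1) := measure_union_le _ _
    _ = ENNReal.ofReal (y₁ - 0) + ENNReal.ofReal (1 - y₂) := by
        rw [Real.volume_Icc, Real.volume_Icc]
    _ = ENNReal.ofReal (1 - (y₂ - y₁)) := by
        rw [← ENNReal.ofReal_add (by linarith) (by linarith)]
        congr 1; ring

/-- Measure bound for a set avoiding two intervals. -/
theorem vol_two_excl (M : Set ℝ) (y₁ y₂ y₃ y₄ c : ℝ) (h1 : 0 ≤ y₁) (h2 : y₂ ≤ 1)
    (h3 : 0 ≤ y₃) (h4 : y₄ ≤ 1)
    (hM : ∀ y ∈ M, 0 ≤ y ∧ y ≤ 1 ∧ (y ≤ y₁ ∨ y₂ ≤ y) ∧ (y ≤ y₃ ∨ y₄ ≤ y))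
    (hc1 : 1 - (y₂ - y₁) - (y₄ - y₃) ≤ c) (hc2 : min y₁ y₃ + 1 - max y₂ y₄ ≤ c) :
    volume M ≤ ENNReal.ofReal c := by
  rcases lt_or_ge y₂ y₃ with hA | hA
  · have hsub : M ⊆ Icc 0 y₁ ∪ Icc y₂ y₃ ∪ Icc y₄ 1 := by
      intro y hy
      obtain ⟨hy0, hy1, h, h'⟩ := hM y hy
      rcases h with h | h
      · left; left; exact ⟨hy0, h⟩
      · rcases h' with h' | h'
        · left; right; exact ⟨h, h'⟩
        · right; exact ⟨h', hy1⟩
    calc volume M ≤ volume (Icc 0 y₁ ∪ Icc y₂ y₃ ∪ Icc y₄ 1) := measure_mono hsub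
      _ ≤ volume (Icc 0 y₁ ∪ Icc y₂ y₃) + volume (Icc y₄ 1) := measure_union_le _ _
      _ ≤ volume (Icc 0 y₁) + volume (Icc y₂ y₃) + volume (Icc y₄ 1) := by
          gcongr; exact measure_union_le _ _
      _ = ENNReal.ofReal (y₁ - 0) + ENNReal.ofReal (y₃ - y₂) + ENNReal.ofReal (1 - y₄) := by
          rw [Real.volume_Icc, Real.volume_Icc, Real.volume_Icc]
      _ = ENNReal.ofReal (y₁ - 0 + (y₃ - y₂) + (1 - y₄)) := by
          rw [← ENNReal.ofReal_add (by linarith) (by linarith),
            ← ENNReal.ofReal_add (by linarith) (by linarith)]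
      _ ≤ ENNReal.ofReal c := by
          apply ENNReal.ofReal_le_ofReal; linarith
  · rcases lt_or_ge y₄ y₁ with hB | hB
    · have hsub : M ⊆ Icc 0 y₃ ∪ Icc y₄ y₁ ∪ Icc y₂ 1 := by
        intro y hy
        obtain ⟨hy0, hy1, h, h'⟩ := hM y hy
        rcases h' with h' | h'
        · left; left; exact ⟨hy0, h'⟩
        · rcases h with h | h
          · left; right; exact ⟨h', h⟩
          · right; exact ⟨h, hy1⟩
      calc volume M ≤ volume (Icc 0 y₃ ∪ Icc y₄ y₁ ∪ Icc y₂ 1) := measure_mono hsub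
        _ ≤ volume (Icc 0 y₃ ∪ Icc y₄ y₁) + volume (Icc y₂ 1) := measure_union_le _ _
        _ ≤ volume (Icc 0 y₃) + volume (Icc y₄ y₁) + volume (Icc y₂ 1) := by
            gcongr; exact measure_union_le _ _
        _ = ENNReal.ofReal (y₃ - 0) + ENNReal.ofReal (y₁ - y₄) + ENNReal.ofReal (1 - y₂) := by
            rw [Real.volume_Icc, Real.volume_Icc, Real.volume_Icc]
        _ = ENNReal.ofReal (y₃ - 0 + (y₁ - y₄) + (1 - y₂)) := by
            rw [← ENNReal.ofReal_add (by linarith) (by linarith),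
              ← ENNReal.ofReal_add (by linarith) (by linarith)]
        _ ≤ ENNReal.ofReal c := by
            apply ENNReal.ofReal_le_ofReal; linarith
    · have hsub : M ⊆ Icc 0 (min y₁ y₃) ∪ Icc (max y₂ y₄) 1 ∪ {y₁} ∪ {y₂} := by
        intro y hy
        obtain ⟨hy0, hy1, h, h'⟩ := hM y hy
        rcases h with h | h
        · rcases h' with h' | h'
          · left; left; left; exact ⟨hy0, le_min h h'⟩
          · left; right
            have : y = y₁ := le_antisymm h (le_trans hB h')
            exact this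
        · rcases h' with h' | h'
          · right
            have : y = y₂ := le_antisymm (le_trans h' hA) h
            exact this
          · left; left; right; exact ⟨max_le h h', hy1⟩
      have hmin : 0 ≤ min y₁ y₃ := le_min h1 h3
      have hmax : max y₂ y₄ ≤ 1 := max_le h2 h4
      calc volume M ≤ volume (Icc 0 (min y₁ y₃) ∪ Icc (max y₂ y₄) 1 ∪ {y₁} ∪ {y₂}) :=
            measure_mono hsub
        _ ≤ volume (Icc 0 (min y₁ y₃) ∪ Icc (max y₂ y₄) 1 ∪ {y₁}) + volume ({y₂} : Set ℝ) :=
            measure_union_le _ _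
        _ ≤ volume (Icc 0 (min y₁ y₃) ∪ Icc (max y₂ y₄) 1) + volume ({y₁} : Set ℝ)
              + volume ({y₂} : Set ℝ) := by
            gcongr; exact measure_union_le _ _
        _ ≤ volume (Icc 0 (min y₁ y₃)) + volume (Icc (max y₂ y₄) 1) + volume ({y₁} : Set ℝ)
              + volume ({y₂} : Set ℝ) := by
            gcongr; exact measure_union_le _ _
        _ = ENNReal.ofReal (min y₁ y₃ - 0) + ENNReal.ofReal (1 - max y₂ y₄) := by
            rw [Real.volume_Icc, Real.volume_Icc, Real.volume_singleton, Real.volume_singleton]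
            simp
        _ = ENNReal.ofReal (min y₁ y₃ - 0 + (1 - max y₂ y₄)) := by
            rw [← ENNReal.ofReal_add (by linarith) (by linarith)]
        _ ≤ ENNReal.ofReal c := by
            apply ENNReal.ofReal_le_ofReal; linarith

end Vale.Agent.Lib.P243
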