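import Mathlib
import Vale.Agent.Lib.P243.Excl

open MeasureTheory Set

namespace Vale.Agent.Lib.P243

/-- A convex planar set touching the four sides of the unit square at the given points. -/
structure UnitFrame (K : Set (ℝ × ℝ)) (l r d t : ℝ) : Prop where
  conv : Convex ℝ K
  hL : ((0 : ℝ), l) ∈ K
  hR : ((1 : ℝ), r) ∈ K
  hD : (d, (0 : ℝ)) ∈ K
  hT : (t, (1 : ℝ)) ∈ K
  hl0 : 0 ≤ l
  hl1 : l ≤ 1
  hr0 : 0 ≤ r
  hr1 : r ≤ 1
  hd0 : 0 ≤ d
  hd1 : d ≤ 1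
  ht0 : 0 ≤ t
  ht1 : t ≤ 1

/-- Heights in `[0,1]` whose horizontal section of `K` lies in the open strip `(a,b)`. -/
def secIn (K : Set (ℝ × ℝ)) (a b : ℝ) : Set ℝ :=
  {y | 0 ≤ y ∧ y ≤ 1 ∧ ∀ x, (x, y) ∈ K → a < x ∧ x < b}

theorem seg_mem {K : Set (ℝ × ℝ)} (hK : Convex ℝ K) {p q : ℝ × ℝ} (hp : p ∈ K) (hq : q ∈ K)
    (θ : ℝ) (h0 : 0 ≤ θ) (h1 : θ ≤ 1) :
    ((1 - θ) * p.1 + θ * q.1, (1 - θ) * p.2 + θ * q.2) ∈ K := by
  have := hK hp hq (sub_nonneg.mpr h1) h0 (by ring : (1 - θ) + θ = 1)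
  have e : (1 - θ) • p + θ • q = ((1 - θ) * p.1 + θ * q.1, (1 - θ) * p.2 + θ * q.2) := by
    ext <;> simp
  rwa [e] at this

variable {K : Set (ℝ × ℝ)} {l r d t : ℝ}

theorem UnitFrame.seg_LD (F : UnitFrame K l r d t) (y : ℝ) (hy0 : 0 ≤ y) (hyl : y ≤ l) :
    ∃ x, (x, y) ∈ K ∧ x * l = (l - y) * d ∧ 0 ≤ x ∧ x ≤ 1 := by
  rcases eq_or_lt_of_le F.hl0 with h | h
  · have hy : y = 0 := le_antisymm (by linarith) hy0
    refine ⟨0, ?_, by rw [← h, hy]; ring, le_refl _, zero_le_one⟩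
    rw [hy]; have := F.hL; rwa [← h] at this
  · have hθ0 : 0 ≤ 1 - y / l := by
      have : y / l ≤ 1 := by rw [div_le_one h]; exact hyl
      linarith
    have hθ1 : 1 - y / l ≤ 1 := by
      have : 0 ≤ y / l := div_nonneg hy0 h.le
      linarith
    have hm := seg_mem F.conv F.hL F.hD (1 - y / l) hθ0 hθ1
    simp only [mul_zero, zero_add, add_zero] at hm
    have e : (1 - (1 - y / l)) * l = y := by field_simp; ring
    rw [e] at hm
    refine ⟨(1 - y / l) * d, hm, by field_simp, mul_nonneg hθ0 F.hd0, ?_⟩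
    calc (1 - y / l) * d ≤ 1 * 1 := mul_le_mul hθ1 F.hd1 F.hd0 zero_le_one
      _ = 1 := one_mul 1

theorem UnitFrame.seg_LT (F : UnitFrame K l r d t) (y : ℝ) (hyl : l ≤ y) (hy1 : y ≤ 1) :
    ∃ x, (x, y) ∈ K ∧ x * (1 - l) = (y - l) * t ∧ 0 ≤ x ∧ x ≤ 1 := by
  rcases eq_or_lt_of_le F.hl1 with h | h
  · have hy : y = 1 := le_antisymm hy1 (by linarith)
    refine ⟨0, ?_, by rw [h, hy]; ring, le_refl _, zero_le_one⟩
    rw [hy]; have := F.hL; rwa [h] at this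
  · have h' : 0 < 1 - l := by linarith
    have hθ0 : 0 ≤ (y - l) / (1 - l) := div_nonneg (by linarith) h'.le
    have hθ1 : (y - l) / (1 - l) ≤ 1 := by rw [div_le_one h']; linarith
    have hm := seg_mem F.conv F.hL F.hT ((y - l) / (1 - l)) hθ0 hθ1
    simp only [mul_zero, zero_add, mul_one] at hm
    have e : (1 - (y - l) / (1 - l)) * l + (y - l) / (1 - l) = y := by field_simp; ring
    rw [e] at hm
    refine ⟨(y - l) / (1 - l) * t, hm, by field_simp, mul_nonneg hθ0 F.ht0, ?_⟩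
    calc (y - l) / (1 - l) * t ≤ 1 * 1 := mul_le_mul hθ1 F.ht1 F.ht0 zero_le_one
      _ = 1 := one_mul 1

theorem UnitFrame.seg_RD (F : UnitFrame K l r d t) (y : ℝ) (hy0 : 0 ≤ y) (hyr : y ≤ r) :
    ∃ x, (x, y) ∈ K ∧ (1 - x) * r = (r - y) * (1 - d) ∧ 0 ≤ x ∧ x ≤ 1 := by
  rcases eq_or_lt_of_le F.hr0 with h | h
  · have hy : y = 0 := le_antisymm (by linarith) hy0
    refine ⟨1, ?_, by rw [← h, hy]; ring, zero_le_one, le_refl _⟩
    rw [hy]; have := F.hR; rwa [← h] at this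
  · have hθ0 : 0 ≤ 1 - y / r := by
      have : y / r ≤ 1 := by rw [div_le_one h]; exact hyr
      linarith
    have hθ1 : 1 - y / r ≤ 1 := by
      have : 0 ≤ y / r := div_nonneg hy0 h.le
      linarith
    have hm := seg_mem F.conv F.hR F.hD (1 - y / r) hθ0 hθ1
    simp only [mul_zero, add_zero, mul_one] at hm
    have e : (1 - (1 - y / r)) * r = y := by field_simp; ring
    rw [e] at hm
    have hd' : 0 ≤ 1 - d := by linarith [F.hd1]
    refine ⟨1 - (1 - y / r) + (1 - y / r) * d, hm, by field_simp; ring, ?_, ?_⟩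
    · have := mul_nonneg hθ0 F.hd0
      linarith
    · have : (1 - y / r) * d ≤ (1 - y / r) * 1 := mul_le_mul_of_nonneg_left F.hd1 hθ0
      linarith

theorem UnitFrame.seg_RT (F : UnitFrame K l r d t) (y : ℝ) (hyr : r ≤ y) (hy1 : y ≤ 1) :
    ∃ x, (x, y) ∈ K ∧ (1 - x) * (1 - r) = (y - r) * (1 - t) ∧ 0 ≤ x ∧ x ≤ 1 := by
  rcases eq_or_lt_of_le F.hr1 with h | h
  · have hy : y = 1 := le_antisymm hy1 (by linarith)
    refine ⟨1, ?_, by rw [h, hy]; ring, zero_le_one, le_refl _⟩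
    rw [hy]; have := F.hR; rwa [h] at this
  · have h' : 0 < 1 - r := by linarith
    have hθ0 : 0 ≤ (y - r) / (1 - r) := div_nonneg (by linarith) h'.le
    have hθ1 : (y - r) / (1 - r) ≤ 1 := by rw [div_le_one h']; linarith
    have hm := seg_mem F.conv F.hR F.hT ((y - r) / (1 - r)) hθ0 hθ1
    simp only [mul_one] at hm
    have e : (1 - (y - r) / (1 - r)) * r + (y - r) / (1 - r) = y := by field_simp; ring
    rw [e] at hm
    refine ⟨1 - (y - r) / (1 - r) + (y - r) / (1 - r) * t, hm, by field_simp; ring, ?_, ?_⟩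
    · have := mul_nonneg hθ0 F.ht0
      linarith
    · have : (y - r) / (1 - r) * t ≤ (y - r) / (1 - r) * 1 := mul_le_mul_of_nonneg_left F.ht1 hθ0
      linarith

theorem UnitFrame.seg_DT (F : UnitFrame K l r d t) (y : ℝ) (hy0 : 0 ≤ y) (hy1 : y ≤ 1) :
    ∃ x, (x, y) ∈ K ∧ 0 ≤ x ∧ x ≤ 1 := by
  have hm := seg_mem F.conv F.hD F.hT y hy0 hy1
  simp only [mul_zero, zero_add, mul_one] at hm
  refine ⟨(1 - y) * d + y * t, hm, ?_, ?_⟩
  · have := mul_nonneg (sub_nonneg.mpr hy1) F.hd0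
    have := mul_nonneg hy0 F.ht0
    linarith
  · have h1 : (1 - y) * d ≤ (1 - y) * 1 := mul_le_mul_of_nonneg_left F.hd1 (sub_nonneg.mpr hy1)
    have h2 : y * t ≤ y * 1 := mul_le_mul_of_nonneg_left F.ht1 hy0
    linarith

end Vale.Agent.Lib.P243
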