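import Mathlib
import Vale.Agent.Lib.P243.Strip

open MeasureTheory Set

namespace Vale.Agent.Lib.P243

variable {K : Set (ℝ × ℝ)} {l r d t : ℝ}

/-- constraints from the left end of the strip -/
theorem UnitFrame.left_con (F : UnitFrame K l r d t) {a b y : ℝ} (ha : 0 ≤ a)
    (hy : y ∈ secIn K a b) :
    (y ≤ l → a * l ≤ (l - y) * d) ∧ (l ≤ y → a * (1 - l) ≤ (y - l) * t) := by
  obtain ⟨hy0, hy1, hsec⟩ := hy
  constructor
  · intro hyl
    obtain ⟨x, hx, hxe, -, -⟩ := F.seg_LD y hy0 hyl
    have := (hsec x hx).1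
    rw [← hxe]
    exact mul_le_mul_of_nonneg_right this.le F.hl0
  · intro hyl
    obtain ⟨x, hx, hxe, -, -⟩ := F.seg_LT y hyl hy1
    have := (hsec x hx).1
    rw [← hxe]
    exact mul_le_mul_of_nonneg_right this.le (by linarith [F.hl1])

/-- constraints from the right end of the strip -/
theorem UnitFrame.right_con (F : UnitFrame K l r d t) {a b y : ℝ}
    (hy : y ∈ secIn K a b) :
    (y ≤ r → (1 - b) * r ≤ (r - y) * (1 - d)) ∧ (r ≤ y → (1 - b) * (1 - r) ≤ (y - r) * (1 - t)) := by
  obtain ⟨hy0, hy1, hsec⟩ := hy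
  constructor
  · intro hyr
    obtain ⟨x, hx, hxe, -, -⟩ := F.seg_RD y hy0 hyr
    have := (hsec x hx).2
    rw [← hxe]
    exact mul_le_mul_of_nonneg_right (by linarith) F.hr0
  · intro hyr
    obtain ⟨x, hx, hxe, -, -⟩ := F.seg_RT y hyr hy1
    have := (hsec x hx).2
    rw [← hxe]
    exact mul_le_mul_of_nonneg_right (by linarith) (by linarith [F.hr1])

theorem UnitFrame.vol_secIn_le (F : UnitFrame K l r d t) (a b : ℝ) :
    volume (secIn K a b) ≤ volume (Ioo a b ∩ Icc (0 : ℝ) 1) := by
  by_cases h : a < b ∧ 0 < b ∧ a < 1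
  · obtain ⟨hab, hb0, ha1⟩ := h
    have hsub : Ioo (max a 0) (min b 1) ⊆ Ioo a b ∩ Icc (0 : ℝ) 1 := by
      intro x hx
      have h1 := hx.1
      have h2 := hx.2
      rw [max_lt_iff] at h1
      rw [lt_min_iff] at h2
      exact ⟨⟨h1.1, h2.1⟩, ⟨h1.2.le, h2.2.le⟩⟩
    have hvol : ENNReal.ofReal (min b 1 - max a 0) ≤ volume (Ioo a b ∩ Icc (0 : ℝ) 1) := by
      rw [← Real.volume_Ioo]; exact measure_mono hsub
    refine le_trans ?_ hvol
    have hM01 : ∀ y ∈ secIn K a b, 0 ≤ y ∧ y ≤ 1 := fun y hy => ⟨hy.1, hy.2.1⟩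
    rcases le_or_gt a 0 with ha0 | ha0
    · rcases le_or_gt 1 b with hb1 | hb1
      · -- trivial bound
        rw [max_eq_right ha0, min_eq_right hb1]
        calc volume (secIn K a b) ≤ volume (Icc (0 : ℝ) 1) :=
              measure_mono (fun y hy => hM01 y hy)
          _ = ENNReal.ofReal (1 - 0) := Real.volume_Icc
      · -- right exclusion only
        rw [max_eq_right ha0, min_eq_left hb1.le]
        obtain ⟨y₃, y₄, h3, h34, h4, hlen, hex, -, -, -, -⟩ :=
          left_excl (1 - b) r (1 - d) (1 - t) (by linarith) (by linarith) F.hr0 F.hr1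
            (by linarith [F.hd1]) (by linarith [F.hd0]) (by linarith [F.ht1]) (by linarith [F.ht0])
        have hM : ∀ y ∈ secIn K a b, 0 ≤ y ∧ y ≤ 1 ∧ (y ≤ y₃ ∨ y₄ ≤ y) := by
          intro y hy
          obtain ⟨c1, c2⟩ := F.right_con hy
          exact ⟨hy.1, hy.2.1, hex y hy.1 hy.2.1 c1 c2⟩
        calc volume (secIn K a b) ≤ ENNReal.ofReal (1 - (y₄ - y₃)) :=
              vol_one_excl _ y₃ y₄ h3 h4 hM
          _ ≤ ENNReal.ofReal (b - 0) := by
              apply ENNReal.ofReal_le_ofReal; linarith
    · rcases le_or_gt 1 b with hb1 | hb1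
      · -- left exclusion only
        rw [max_eq_left ha0.le, min_eq_right hb1]
        obtain ⟨y₁, y₂, h1, h12, h2, hlen, hex, -, -, -, -⟩ :=
          left_excl a l d t ha0 ha1.le F.hl0 F.hl1 F.hd0 F.hd1 F.ht0 F.ht1
        have hM : ∀ y ∈ secIn K a b, 0 ≤ y ∧ y ≤ 1 ∧ (y ≤ y₁ ∨ y₂ ≤ y) := by
          intro y hy
          obtain ⟨c1, c2⟩ := F.left_con ha0.le hy
          exact ⟨hy.1, hy.2.1, hex y hy.1 hy.2.1 c1 c2⟩
        calc volume (secIn K a b) ≤ ENNReal.ofReal (1 - (y₂ - y₁)) :=
              vol_one_excl _ y₁ y₂ h1 h2 hM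
          _ ≤ ENNReal.ofReal (1 - a) := by
              apply ENNReal.ofReal_le_ofReal; linarith
      · -- both exclusions
        rw [max_eq_left ha0.le, min_eq_left hb1.le]
        obtain ⟨y₁, y₂, h1, h12, h2, hlen, hex, e1, e1', e2, e2'⟩ :=
          left_excl a l d t ha0 ha1.le F.hl0 F.hl1 F.hd0 F.hd1 F.ht0 F.ht1
        obtain ⟨y₃, y₄, h3, h34, h4, hlen', hex', e3, e3', e4, e4'⟩ :=
          left_excl (1 - b) r (1 - d) (1 - t) (by linarith) (by linarith) F.hr0 F.hr1
            (by linarith [F.hd1]) (by linarith [F.hd0]) (by linarith [F.ht1]) (by linarith [F.ht0])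
        have hM : ∀ y ∈ secIn K a b,
            0 ≤ y ∧ y ≤ 1 ∧ (y ≤ y₁ ∨ y₂ ≤ y) ∧ (y ≤ y₃ ∨ y₄ ≤ y) := by
          intro y hy
          obtain ⟨c1, c2⟩ := F.left_con ha0.le hy
          obtain ⟨c3, c4⟩ := F.right_con hy
          exact ⟨hy.1, hy.2.1, hex y hy.1 hy.2.1 c1 c2, hex' y hy.1 hy.2.1 c3 c4⟩
        refine vol_two_excl _ y₁ y₂ y₃ y₄ (b - a) h1 h2 h3 h4 hM (by linarith) ?_
        -- the arithmetic core
        set P := min y₁ y₃ with hP
        set Q := 1 - max y₂ y₄ with hQ
        have hP1 : P ≤ y₁ := min_le_left _ _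
        have hP3 : P ≤ y₃ := min_le_right _ _
        have hQ2 : Q ≤ 1 - y₂ := by rw [hQ]; linarith [le_max_left y₂ y₄]
        have hQ4 : Q ≤ 1 - y₄ := by rw [hQ]; linarith [le_max_right y₂ y₄]
        have goal : P + Q ≤ b - a := by
          -- P side
          have Pcase : P ≤ 0 ∨ (a < d ∧ d < b ∧ P * d ≤ l * (d - a) ∧ P * (1 - d) ≤ r * (b - d)) := by
            rcases le_or_gt d a with hda | hda
            · left; exact le_trans hP1 (e1 hda)
            · rcases le_or_gt b d with hbd | hbd
              · left; exact le_trans hP3 (e3 (by linarith))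
              · right
                refine ⟨hda, hbd, ?_, ?_⟩
                · rw [← e1' hda]
                  exact mul_le_mul_of_nonneg_right hP1 (by linarith)
                · have := e3' (by linarith)
                  have h' : P * (1 - d) ≤ y₃ * (1 - d) :=
                    mul_le_mul_of_nonneg_right hP3 (by linarith)
                  have e : r * (1 - d - (1 - b)) = r * (b - d) := by ring
                  linarith
          have Qcase : Q ≤ 0 ∨ (a < t ∧ t < b ∧ Q * t ≤ (1 - l) * (t - a)
              ∧ Q * (1 - t) ≤ (1 - r) * (b - t)) := by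
            rcases le_or_gt t a with hta | hta
            · left; have := e2 hta; linarith
            · rcases le_or_gt b t with hbt | hbt
              · left; have := e4 (by linarith); linarith
              · right
                refine ⟨hta, hbt, ?_, ?_⟩
                · rw [← e2' hta]
                  exact mul_le_mul_of_nonneg_right hQ2 (by linarith)
                · have := e4' (by linarith)
                  have h' : Q * (1 - t) ≤ (1 - y₄) * (1 - t) :=
                    mul_le_mul_of_nonneg_right hQ4 (by linarith)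
                  have e : (1 - r) * (1 - t - (1 - b)) = (1 - r) * (b - t) := by ring
                  linarith
          rcases Pcase with hP0 | ⟨had, hdb, p1, p2⟩
          · rcases Qcase with hQ0 | ⟨hat, htb, q1, q2⟩
            · linarith
            · have : Q = Q * t + Q * (1 - t) := by ring
              have b1 : (1 - l) * (t - a) ≤ t - a := by nlinarith [F.hl0, F.hl1]
              have b2 : (1 - r) * (b - t) ≤ b - t := by nlinarith [F.hr0, F.hr1]
              linarith
          · rcases Qcase with hQ0 | ⟨hat, htb, q1, q2⟩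
            · have : P = P * d + P * (1 - d) := by ring
              have b1 : l * (d - a) ≤ d - a := by nlinarith [F.hl0, F.hl1]
              have b2 : r * (b - d) ≤ b - d := by nlinarith [F.hr0, F.hr1]
              linarith
            · exact arith_core a b l r d t P Q ha0.le hb1.le F.hl0 F.hl1 F.hr0 F.hr1
                had hdb hat htb p1 p2 q1 q2
        have : P + 1 - max y₂ y₄ = P + Q := by rw [hQ]; ring
        linarith
  · -- empty
    have hempty : secIn K a b = ∅ := by
      ext y
      simp only [mem_empty_iff_false, iff_false]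
      intro hy
      obtain ⟨x, hx, hx0, hx1⟩ := F.seg_DT y hy.1 hy.2.1
      have := hy.2.2 x hx
      exact h ⟨by linarith [this.1, this.2], by linarith [this.2], by linarith [this.1]⟩
    rw [hempty]; simp

end Vale.Agent.Lib.P243
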