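import Mathlib

open MeasureTheory Set

namespace Vale.Agent.Lib.P243

/-- Vertical slice `{x | (z, x) ∈ P}` of a planar set. -/
def slice (P : Set (ℝ × ℝ)) (z : ℝ) : Set ℝ := Prod.mk z ⁻¹' P

/-- Width of the slice. -/
noncomputable def width (P : Set (ℝ × ℝ)) (z : ℝ) : ℝ := sSup (slice P z) - sInf (slice P z)

variable {P : Set (ℝ × ℝ)}

theorem mem_slice {z x : ℝ} : x ∈ slice P z ↔ (z, x) ∈ P := Iff.rfl

theorem slice_compact (hP : IsCompact P) (z : ℝ) : IsCompact (slice P z) := by
  have e : slice P z = Prod.snd '' (P ∩ (Prod.fst ⁻¹' {z})) := by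
    ext x
    constructor
    · intro hx
      exact ⟨(z, x), ⟨hx, rfl⟩, rfl⟩
    · rintro ⟨⟨z', x'⟩, ⟨hp, hz⟩, rfl⟩
      simp only [mem_preimage, mem_singleton_iff] at hz
      subst hz
      exact hp
  rw [e]
  exact (hP.inter_right (isClosed_singleton.preimage continuous_fst)).image continuous_snd

theorem slice_convex (hP : Convex ℝ P) (z : ℝ) : Convex ℝ (slice P z) := by
  intro x hx x' hx' a b ha hb hab
  have := hP hx hx' ha hb hab
  show (z, a • x + b • x') ∈ P
  have e : (z, a • x + b • x') = a • (z, x) + b • (z, x') := by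
    ext
    · simp only [Prod.fst_add, Prod.smul_fst, smul_eq_mul]
      linear_combination (-z) * hab
    · simp
  rw [e]; exact this

theorem slice_eq_Icc (hPc : IsCompact P) (hPconv : Convex ℝ P) {z : ℝ}
    (hne : (slice P z).Nonempty) :
    slice P z = Icc (sInf (slice P z)) (sSup (slice P z)) := by
  have hc := slice_compact hPc z
  have hconv := slice_convex hPconv z
  apply Subset.antisymm
  · intro x hx
    exact ⟨csInf_le hc.bddBelow hx, le_csSup hc.bddAbove hx⟩
  · intro x hx
    have h1 := hc.sInf_mem hne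
    have h2 := hc.sSup_mem hne
    exact hconv.ordConnected.out h1 h2 hx

theorem sInf_le_sSup_slice (hPc : IsCompact P) (z : ℝ) :
    sInf (slice P z) ≤ sSup (slice P z) := by
  rcases (slice P z).eq_empty_or_nonempty with h | h
  · rw [h]; simp
  · obtain ⟨x, hx⟩ := h
    have hc := slice_compact hPc z
    exact le_trans (csInf_le hc.bddBelow hx) (le_csSup hc.bddAbove hx)

theorem width_nonneg (hPc : IsCompact P) (z : ℝ) : 0 ≤ width P z := by
  unfold width
  linarith [sInf_le_sSup_slice hPc z]

theorem width_empty {z : ℝ} (h : slice P z = ∅) : width P z = 0 := by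
  unfold width
  rw [h]; simp

theorem vol_slice (hPc : IsCompact P) (hPconv : Convex ℝ P) (z : ℝ) :
    volume (slice P z) = ENNReal.ofReal (width P z) := by
  rcases (slice P z).eq_empty_or_nonempty with h | h
  · rw [width_empty h, h]; simp
  · rw [slice_eq_Icc hPc hPconv h, Real.volume_Icc]
    rfl

theorem width_concave (hPc : IsCompact P) (hPconv : Convex ℝ P) {za zb : ℝ}
    (ha : (slice P za).Nonempty) (hb : (slice P zb).Nonempty) {θ : ℝ} (h0 : 0 ≤ θ) (h1 : θ ≤ 1) :
    (1 - θ) * width P za + θ * width P zb ≤ width P ((1 - θ) * za + θ * zb) := by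
  have hca := slice_compact hPc za
  have hcb := slice_compact hPc zb
  have hc := slice_compact hPc ((1 - θ) * za + θ * zb)
  have key : ∀ xa ∈ slice P za, ∀ xb ∈ slice P zb,
      (1 - θ) * xa + θ * xb ∈ slice P ((1 - θ) * za + θ * zb) := by
    intro xa hxa xb hxb
    have := hPconv hxa hxb (sub_nonneg.mpr h1) h0 (by ring : (1 - θ) + θ = 1)
    have e : (1 - θ) • (za, xa) + θ • (zb, xb) = ((1 - θ) * za + θ * zb, (1 - θ) * xa + θ * xb) := by
      ext <;> simp
    rw [e] at this
    exact this
  have hsup := key _ (hca.sSup_mem ha) _ (hcb.sSup_mem hb)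
  have hinf := key _ (hca.sInf_mem ha) _ (hcb.sInf_mem hb)
  have h1' := le_csSup hc.bddAbove hsup
  have h2' := csInf_le hc.bddBelow hinf
  unfold width
  nlinarith

theorem vol_eq_lintegral_slice (hPc : IsCompact P) :
    volume P = ∫⁻ z, volume (slice P z) := by
  rw [Measure.volume_eq_prod, Measure.prod_apply hPc.measurableSet]
  rfl

theorem measurable_vol_slice (hP : MeasurableSet P) :
    Measurable fun z => volume (slice P z) :=
  measurable_measure_prodMk_left hP

/-- A compact convex set of reals is a closed interval. -/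
theorem compact_convex_eq_Icc {I : Set ℝ} (hc : IsCompact I) (hconv : Convex ℝ I)
    (hne : I.Nonempty) : I = Icc (sInf I) (sSup I) := by
  apply Subset.antisymm
  · intro x hx
    exact ⟨csInf_le hc.bddBelow hx, le_csSup hc.bddAbove hx⟩
  · intro x hx
    exact hconv.ordConnected.out (hc.sInf_mem hne) (hc.sSup_mem hne) hx

end Vale.Agent.Lib.P243
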