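import Mathlib
import Vale.Agent.Lib.P243.Planar

open MeasureTheory Set

namespace Vale.Agent.Lib.P243

variable {P : Set (ℝ × ℝ)}

/-- The middle slice is at least as wide as the average. -/
theorem vol_le_mid (hPc : IsCompact P) (hPconv : Convex ℝ P) {z₀ z₁ : ℝ}
    (hI : ∀ z, (slice P z).Nonempty ↔ z ∈ Icc z₀ z₁) :
    (volume P).toReal ≤ width P ((z₀ + z₁) / 2) * (z₁ - z₀) := by
  set mid := (z₀ + z₁) / 2 with hmid
  have hfin : volume P ≠ ⊤ := hPc.measure_lt_top.ne
  by_cases hle : z₀ ≤ z₁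
  swap
  · -- empty projection
    have hempty : ∀ z, slice P z = ∅ := by
      intro z
      by_contra h
      have := (hI z).mp (Set.nonempty_iff_ne_empty.mpr h)
      exact hle (le_trans this.1 this.2)
    have : volume P = 0 := by
      rw [vol_eq_lintegral_slice hPc]
      simp [hempty]
    rw [this]
    simp only [ENNReal.toReal_zero]
    have hw : width P mid = 0 := width_empty (hempty mid)
    rw [hw]; simp
  have hmeas : Measurable fun z => volume (slice P z) :=
    measurable_vol_slice hPc.measurableSet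
  have hrefl : ∫⁻ z, volume (slice P (z₀ + z₁ - z)) = ∫⁻ z, volume (slice P z) :=
    lintegral_sub_left_eq_self (fun z => volume (slice P z)) (z₀ + z₁)
  have hsum : volume P + volume P = ∫⁻ z, (volume (slice P z) + volume (slice P (z₀ + z₁ - z))) := by
    rw [lintegral_add_left hmeas, hrefl, ← vol_eq_lintegral_slice hPc]
  have hpt : ∀ z, volume (slice P z) + volume (slice P (z₀ + z₁ - z)) ≤
      (Icc z₀ z₁).indicator (fun _ => ENNReal.ofReal (2 * width P mid)) z := by
    intro z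
    by_cases hz : z ∈ Icc z₀ z₁
    · rw [indicator_of_mem hz]
      have hz' : z₀ + z₁ - z ∈ Icc z₀ z₁ := ⟨by linarith [hz.2], by linarith [hz.1]⟩
      have h1 := (hI z).mpr hz
      have h2 := (hI _).mpr hz'
      have hc := width_concave hPc hPconv h1 h2 (θ := 1 / 2) (by norm_num) (by norm_num)
      have e : (1 - 1 / 2 : ℝ) * z + 1 / 2 * (z₀ + z₁ - z) = mid := by rw [hmid]; ring
      rw [e] at hc
      rw [vol_slice hPc hPconv, vol_slice hPc hPconv,
        ← ENNReal.ofReal_add (width_nonneg hPc _) (width_nonneg hPc _)]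
      apply ENNReal.ofReal_le_ofReal
      linarith
    · rw [indicator_of_notMem hz]
      have hz' : z₀ + z₁ - z ∉ Icc z₀ z₁ := by
        intro h
        exact hz ⟨by linarith [h.2], by linarith [h.1]⟩
      have h1 : slice P z = ∅ := by
        by_contra h
        exact hz ((hI z).mp (Set.nonempty_iff_ne_empty.mpr h))
      have h2 : slice P (z₀ + z₁ - z) = ∅ := by
        by_contra h
        exact hz' ((hI _).mp (Set.nonempty_iff_ne_empty.mpr h))
      rw [h1, h2]; simp
  have hbound : volume P + volume P ≤ ENNReal.ofReal (2 * width P mid) * ENNReal.ofReal (z₁ - z₀) := by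
    rw [hsum]
    calc ∫⁻ z, (volume (slice P z) + volume (slice P (z₀ + z₁ - z)))
        ≤ ∫⁻ z, (Icc z₀ z₁).indicator (fun _ => ENNReal.ofReal (2 * width P mid)) z :=
          lintegral_mono hpt
      _ = ENNReal.ofReal (2 * width P mid) * ENNReal.ofReal (z₁ - z₀) := by
          rw [lintegral_indicator measurableSet_Icc, setLIntegral_const, Real.volume_Icc]
  have hw := width_nonneg hPc mid
  have hreal : (volume P).toReal + (volume P).toReal ≤ 2 * width P mid * (z₁ - z₀) := by
    have h1 := ENNReal.toReal_mono (by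
      exact ENNReal.mul_ne_top ENNReal.ofReal_ne_top ENNReal.ofReal_ne_top) hbound
    rw [ENNReal.toReal_add hfin hfin, ENNReal.toReal_mul, ENNReal.toReal_ofReal (by linarith),
      ENNReal.toReal_ofReal (by linarith)] at h1
    exact h1
  linarith

/-- Lower bound on the left half. -/
theorem width_ge_left (hPc : IsCompact P) (hPconv : Convex ℝ P) {z₀ z₁ : ℝ} (h01 : z₀ < z₁)
    (hI : ∀ z, (slice P z).Nonempty ↔ z ∈ Icc z₀ z₁) {z : ℝ} (hz0 : z₀ ≤ z)
    (hz1 : z ≤ (z₀ + z₁) / 2) :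
    2 * (z - z₀) / (z₁ - z₀) * width P ((z₀ + z₁) / 2) ≤ width P z := by
  have hl : 0 < z₁ - z₀ := by linarith
  set θ := 2 * (z - z₀) / (z₁ - z₀) with hθ
  have hθ0 : 0 ≤ θ := div_nonneg (by linarith) hl.le
  have hθ1 : θ ≤ 1 := by rw [hθ, div_le_one hl]; linarith
  have h1 := (hI z₀).mpr ⟨le_refl _, h01.le⟩
  have h2 := (hI ((z₀ + z₁) / 2)).mpr ⟨by linarith, by linarith⟩
  have hc := width_concave hPc hPconv h1 h2 hθ0 hθ1
  have e : (1 - θ) * z₀ + θ * ((z₀ + z₁) / 2) = z := by
    rw [hθ]; field_simp; ring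
  rw [e] at hc
  have := mul_nonneg (sub_nonneg.mpr hθ1) (width_nonneg hPc z₀)
  linarith

/-- Lower bound on the right half. -/
theorem width_ge_right (hPc : IsCompact P) (hPconv : Convex ℝ P) {z₀ z₁ : ℝ} (h01 : z₀ < z₁)
    (hI : ∀ z, (slice P z).Nonempty ↔ z ∈ Icc z₀ z₁) {z : ℝ} (hz0 : (z₀ + z₁) / 2 ≤ z)
    (hz1 : z ≤ z₁) :
    2 * (z₁ - z) / (z₁ - z₀) * width P ((z₀ + z₁) / 2) ≤ width P z := by
  have hl : 0 < z₁ - z₀ := by linarith
  set θ := 2 * (z₁ - z) / (z₁ - z₀) with hθ
  have hθ0 : 0 ≤ θ := div_nonneg (by linarith) hl.le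
  have hθ1 : θ ≤ 1 := by rw [hθ, div_le_one hl]; linarith
  have h1 := (hI z₁).mpr ⟨h01.le, le_refl _⟩
  have h2 := (hI ((z₀ + z₁) / 2)).mpr ⟨by linarith, by linarith⟩
  have hc := width_concave hPc hPconv h1 h2 hθ0 hθ1
  have e : (1 - θ) * z₁ + θ * ((z₀ + z₁) / 2) = z := by
    rw [hθ]; field_simp; ring
  rw [e] at hc
  have := mul_nonneg (sub_nonneg.mpr hθ1) (width_nonneg hPc z₁)
  linarith

end Vale.Agent.Lib.P243
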