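import Mathlib
import Vale.Agent.Lib.P243.Integ

open MeasureTheory Set

namespace Vale.Agent.Lib.P243

variable {P Q : Set (ℝ × ℝ)}

theorem ratio_ge_left (hPc : IsCompact P) (hPconv : Convex ℝ P) {z₀ z₁ : ℝ} (h01 : z₀ < z₁)
    (hI : ∀ z, (slice P z).Nonempty ↔ z ∈ Icc z₀ z₁) (hpos : volume P ≠ 0) {z : ℝ}
    (hz0 : z₀ ≤ z) (hz1 : z ≤ (z₀ + z₁) / 2) :
    ENNReal.ofReal (2 * (z - z₀) / (z₁ - z₀) ^ 2) ≤ volume (slice P z) / volume P := by
  have hfin : volume P ≠ ⊤ := hPc.measure_lt_top.ne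
  have hA : 0 < (volume P).toReal := ENNReal.toReal_pos hpos hfin
  have hl : 0 < z₁ - z₀ := by linarith
  have hmid := vol_le_mid hPc hPconv hI
  have hw := width_ge_left hPc hPconv h01 hI hz0 hz1
  have eP : volume P = ENNReal.ofReal (volume P).toReal := (ENNReal.ofReal_toReal hfin).symm
  rw [vol_slice hPc hPconv, eP, ← ENNReal.ofReal_div_of_pos hA]
  apply ENNReal.ofReal_le_ofReal
  rw [le_div_iff₀ hA]
  have h1 : 2 * (z - z₀) / (z₁ - z₀) ^ 2 * (volume P).toReal ≤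
      2 * (z - z₀) / (z₁ - z₀) ^ 2 * (width P ((z₀ + z₁) / 2) * (z₁ - z₀)) := by
    apply mul_le_mul_of_nonneg_left hmid
    apply div_nonneg (by linarith) (by positivity)
  have h2 : 2 * (z - z₀) / (z₁ - z₀) ^ 2 * (width P ((z₀ + z₁) / 2) * (z₁ - z₀)) =
      2 * (z - z₀) / (z₁ - z₀) * width P ((z₀ + z₁) / 2) := by
    field_simp
  linarith

theorem ratio_ge_right (hPc : IsCompact P) (hPconv : Convex ℝ P) {z₀ z₁ : ℝ} (h01 : z₀ < z₁)
    (hI : ∀ z, (slice P z).Nonempty ↔ z ∈ Icc z₀ z₁) (hpos : volume P ≠ 0) {z : ℝ}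
    (hz0 : (z₀ + z₁) / 2 ≤ z) (hz1 : z ≤ z₁) :
    ENNReal.ofReal (2 * (z₁ - z) / (z₁ - z₀) ^ 2) ≤ volume (slice P z) / volume P := by
  have hfin : volume P ≠ ⊤ := hPc.measure_lt_top.ne
  have hA : 0 < (volume P).toReal := ENNReal.toReal_pos hpos hfin
  have hl : 0 < z₁ - z₀ := by linarith
  have hmid := vol_le_mid hPc hPconv hI
  have hw := width_ge_right hPc hPconv h01 hI hz0 hz1
  have eP : volume P = ENNReal.ofReal (volume P).toReal := (ENNReal.ofReal_toReal hfin).symm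
  rw [vol_slice hPc hPconv, eP, ← ENNReal.ofReal_div_of_pos hA]
  apply ENNReal.ofReal_le_ofReal
  rw [le_div_iff₀ hA]
  have h1 : 2 * (z₁ - z) / (z₁ - z₀) ^ 2 * (volume P).toReal ≤
      2 * (z₁ - z) / (z₁ - z₀) ^ 2 * (width P ((z₀ + z₁) / 2) * (z₁ - z₀)) := by
    apply mul_le_mul_of_nonneg_left hmid
    apply div_nonneg (by linarith) (by positivity)
  have h2 : 2 * (z₁ - z) / (z₁ - z₀) ^ 2 * (width P ((z₀ + z₁) / 2) * (z₁ - z₀)) =
      2 * (z₁ - z) / (z₁ - z₀) * width P ((z₀ + z₁) / 2) := by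
    field_simp
  linarith

/-- The integral of the minimum of the two normalised width functions is at least one half. -/
theorem half_le_lintegral_min (hPc : IsCompact P) (hPconv : Convex ℝ P)
    (hQc : IsCompact Q) (hQconv : Convex ℝ Q) {z₀ z₁ : ℝ} (h01 : z₀ < z₁)
    (hIP : ∀ z, (slice P z).Nonempty ↔ z ∈ Icc z₀ z₁)
    (hIQ : ∀ z, (slice Q z).Nonempty ↔ z ∈ Icc z₀ z₁)
    (hP0 : volume P ≠ 0) (hQ0 : volume Q ≠ 0) :
    (1 / 2 : ENNReal) ≤
      ∫⁻ z, min (volume (slice P z) / volume P) (volume (slice Q z) / volume Q) := by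
  set m : ℝ → ENNReal :=
    fun z => min (volume (slice P z) / volume P) (volume (slice Q z) / volume Q) with hm
  have hmeas : Measurable m :=
    ((measurable_vol_slice hPc.measurableSet).div_const _).min
      ((measurable_vol_slice hQc.measurableSet).div_const _)
  set mid := (z₀ + z₁) / 2 with hmid
  set h := (z₁ - z₀) / 2 with hh
  have hl : 0 < z₁ - z₀ := by linarith
  -- lower bounds for m
  have mleft : ∀ z, z₀ ≤ z → z ≤ mid → ENNReal.ofReal (2 * (z - z₀) / (z₁ - z₀) ^ 2) ≤ m z := by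
    intro z hz0 hz1
    exact le_min (ratio_ge_left hPc hPconv h01 hIP hP0 hz0 hz1)
      (ratio_ge_left hQc hQconv h01 hIQ hQ0 hz0 hz1)
  have mright : ∀ z, mid ≤ z → z ≤ z₁ → ENNReal.ofReal (2 * (z₁ - z) / (z₁ - z₀) ^ 2) ≤ m z := by
    intro z hz0 hz1
    exact le_min (ratio_ge_right hPc hPconv h01 hIP hP0 hz0 hz1)
      (ratio_ge_right hQc hQconv h01 hIQ hQ0 hz0 hz1)
  -- split the integral
  have hdisj : Disjoint (Ioc z₀ mid) (Ioc mid z₁) := by
    rw [Set.disjoint_left]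
    intro x hx1 hx2
    exact absurd hx1.2 (not_le.mpr hx2.1)
  have step1 : (∫⁻ z in Ioc z₀ mid, m z) + ∫⁻ z in Ioc mid z₁, m z ≤ ∫⁻ z, m z := by
    have hu := lintegral_union (f := m) (μ := volume) measurableSet_Ioc hdisj
    rw [← hu]
    exact setLIntegral_le_lintegral _ _
  have step2 : ∫⁻ z in Ioc mid z₁, m z = ∫⁻ z in Ioc z₀ mid, m (z + h) := by
    rw [← lintegral_indicator measurableSet_Ioc, ← lintegral_indicator measurableSet_Ioc,
      ← lintegral_add_right_eq_self (fun z => (Ioc mid z₁).indicator m z) h]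
    apply lintegral_congr
    intro z
    by_cases hz : z ∈ Ioc z₀ mid
    · have hz' : z + h ∈ Ioc mid z₁ := by
        constructor
        · rw [hmid, hh]; linarith [hz.1]
        · rw [hh]; have := hz.2; rw [hmid] at this; linarith
      rw [indicator_of_mem hz, indicator_of_mem hz']
    · have hz' : z + h ∉ Ioc mid z₁ := by
        intro hcon
        apply hz
        constructor
        · have := hcon.1; rw [hmid, hh] at this; linarith
        · have := hcon.2; rw [hh] at this; rw [hmid]; linarith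
      rw [indicator_of_notMem hz, indicator_of_notMem hz']
  have step3 : (∫⁻ z in Ioc z₀ mid, m z) + ∫⁻ z in Ioc z₀ mid, m (z + h) =
      ∫⁻ z in Ioc z₀ mid, (m z + m (z + h)) :=
    (lintegral_add_left hmeas _).symm
  have step4 : ∫⁻ _z in Ioc z₀ mid, ENNReal.ofReal (1 / (z₁ - z₀)) ≤
      ∫⁻ z in Ioc z₀ mid, (m z + m (z + h)) := by
    apply setLIntegral_mono' measurableSet_Ioc
    intro z hz
    have h1 := mleft z hz.1.le hz.2
    have h2 := mright (z + h) (by rw [hh]; have := hz.1; rw [hmid]; linarith)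
      (by rw [hh]; have := hz.2; rw [hmid] at this; linarith)
    have e : (1 / (z₁ - z₀) : ℝ) = 2 * (z - z₀) / (z₁ - z₀) ^ 2 + 2 * (z₁ - (z + h)) / (z₁ - z₀) ^ 2 := by
      rw [hh]; field_simp; ring
    rw [e, ENNReal.ofReal_add]
    · exact add_le_add h1 h2
    · apply div_nonneg (by linarith [hz.1]) (by positivity)
    · apply div_nonneg _ (by positivity)
      rw [hh]; have := hz.2; rw [hmid] at this; linarith
  have step5 : ∫⁻ _z in Ioc z₀ mid, ENNReal.ofReal (1 / (z₁ - z₀)) = 1 / 2 := by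
    rw [setLIntegral_const, Real.volume_Ioc, ← ENNReal.ofReal_mul (by positivity)]
    have e : 1 / (z₁ - z₀) * (mid - z₀) = 1 / 2 := by
      rw [hmid]; field_simp; ring
    rw [e]
    rw [ENNReal.ofReal_div_of_pos (by norm_num)]
    simp
  calc (1 / 2 : ENNReal) = ∫⁻ _z in Ioc z₀ mid, ENNReal.ofReal (1 / (z₁ - z₀)) := step5.symm
    _ ≤ ∫⁻ z in Ioc z₀ mid, (m z + m (z + h)) := step4
    _ = (∫⁻ z in Ioc z₀ mid, m z) + ∫⁻ z in Ioc z₀ mid, m (z + h) := step3.symm
    _ = (∫⁻ z in Ioc z₀ mid, m z) + ∫⁻ z in Ioc mid z₁, m z := by rw [step2]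
    _ ≤ ∫⁻ z, m z := step1

end Vale.Agent.Lib.P243
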