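import Mathlib
import Vale.Agent.Lib.P243.Base

open MeasureTheory Set

namespace Vale.Agent.Lib.P243

variable {K : Set (ℝ × ℝ)} {l r d t : ℝ}

/-- Heights whose section lies in the strip `(a,b)` and avoids `U`. -/
def secAvoid (K : Set (ℝ × ℝ)) (a b : ℝ) (U : Set ℝ) : Set ℝ :=
  {y | 0 ≤ y ∧ y ≤ 1 ∧ (∀ x, (x, y) ∈ K → a < x ∧ x < b) ∧ ∀ x, (x, y) ∈ K → x ∉ U}

theorem horiz_mem (hK : Convex ℝ K) {x x' y p : ℝ} (hx : (x, y) ∈ K) (hx' : (x', y) ∈ K)
    (h1 : x ≤ p) (h2 : p ≤ x') : (p, y) ∈ K := by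
  rcases eq_or_lt_of_le (le_trans h1 h2) with h | h
  · have : p = x := le_antisymm (by linarith) h1
    rw [this]; exact hx
  · have hpos : 0 < x' - x := by linarith
    have hm := seg_mem hK hx hx' ((p - x) / (x' - x)) (div_nonneg (by linarith) hpos.le)
      (by rw [div_le_one hpos]; linarith)
    have e1 : (1 - (p - x) / (x' - x)) * x + (p - x) / (x' - x) * x' = p := by
      field_simp; ring
    have e2 : (1 - (p - x) / (x' - x)) * y + (p - x) / (x' - x) * y = y := by ring
    simp only at hm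
    rw [e1, e2] at hm
    exact hm

theorem UnitFrame.vol_secAvoid_le (F : UnitFrame K l r d t) {ι : Type*} (T : Finset ι)
    (p q : ι → ℝ) :
    (∀ i ∈ T, p i ≤ q i) → ∀ a b : ℝ,
    volume (secAvoid K a b (⋃ i ∈ T, Icc (p i) (q i))) ≤
      volume ((Ioo a b ∩ Icc (0 : ℝ) 1) \ ⋃ i ∈ T, Icc (p i) (q i)) := by
  classical
  induction T using Finset.induction_on with
  | empty =>
    intro _ a b
    have e : secAvoid K a b (⋃ i ∈ (∅ : Finset ι), Icc (p i) (q i)) = secIn K a b := by
      ext y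
      simp [secAvoid, secIn]
    rw [e]
    simpa using F.vol_secIn_le a b
  | insert j T hj ih =>
    intro hpq a b
    have hpq' : ∀ i ∈ T, p i ≤ q i := fun i hi => hpq i (Finset.mem_insert_of_mem hi)
    have hj' : p j ≤ q j := hpq j (Finset.mem_insert_self j T)
    set U := ⋃ i ∈ T, Icc (p i) (q i) with hU
    have hUnion : (⋃ i ∈ insert j T, Icc (p i) (q i)) = Icc (p j) (q j) ∪ U := by
      rw [hU]; exact Finset.set_biUnion_insert j T fun i => Icc (p i) (q i)
    rw [hUnion]
    have hUmeas : MeasurableSet U := by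
      rw [hU]; exact Finset.measurableSet_biUnion T fun i _ => measurableSet_Icc
    have hsub : secAvoid K a b (Icc (p j) (q j) ∪ U) ⊆
        secAvoid K a (min b (p j)) U ∪ secAvoid K (max a (q j)) b U := by
      intro y hy
      obtain ⟨hy0, hy1, hwin, hav⟩ := hy
      by_cases hall : ∀ x, (x, y) ∈ K → x < p j
      · left
        refine ⟨hy0, hy1, fun x hx => ⟨(hwin x hx).1, lt_min (hwin x hx).2 (hall x hx)⟩,
          fun x hx hxU => hav x hx (Or.inr hxU)⟩
      · right
        push Not at hall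
        obtain ⟨x₀, hx₀, hx₀p⟩ := hall
        have key : ∀ x, (x, y) ∈ K → q j < x := by
          intro x hx
          by_contra hcon
          push Not at hcon
          have hxnot := hav x hx
          have hxp : x < p j := by
            by_contra h'
            push Not at h'
            exact hxnot (Or.inl ⟨h', hcon⟩)
          have hmem : (p j, y) ∈ K := horiz_mem F.conv hx hx₀ hxp.le hx₀p
          exact hav (p j) hmem (Or.inl ⟨le_refl _, hj'⟩)
        refine ⟨hy0, hy1, fun x hx => ⟨max_lt (hwin x hx).1 (key x hx), (hwin x hx).2⟩,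
          fun x hx hxU => hav x hx (Or.inr hxU)⟩
    have hdisj : Disjoint ((Ioo a (min b (p j)) ∩ Icc (0 : ℝ) 1) \ U)
        ((Ioo (max a (q j)) b ∩ Icc (0 : ℝ) 1) \ U) := by
      rw [Set.disjoint_left]
      intro x hx1 hx2
      have h1 : x < p j := lt_of_lt_of_le hx1.1.1.2 (min_le_right _ _)
      have h2 : q j < x := lt_of_le_of_lt (le_max_right _ _) hx2.1.1.1
      linarith
    have hmeas2 : MeasurableSet ((Ioo (max a (q j)) b ∩ Icc (0 : ℝ) 1) \ U) :=
      (measurableSet_Ioo.inter measurableSet_Icc).diff hUmeas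
    have hsub2 : ((Ioo a (min b (p j)) ∩ Icc (0 : ℝ) 1) \ U) ∪
        ((Ioo (max a (q j)) b ∩ Icc (0 : ℝ) 1) \ U) ⊆
        (Ioo a b ∩ Icc (0 : ℝ) 1) \ (Icc (p j) (q j) ∪ U) := by
      intro x hx
      rcases hx with hx | hx
      · have h1 : x < p j := lt_of_lt_of_le hx.1.1.2 (min_le_right _ _)
        have h2 : x < b := lt_of_lt_of_le hx.1.1.2 (min_le_left _ _)
        refine ⟨⟨⟨hx.1.1.1, h2⟩, hx.1.2⟩, ?_⟩
        rintro (h | h)
        · exact absurd h.1 (not_le.mpr h1)
        · exact hx.2 h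
      · have h1 : q j < x := lt_of_le_of_lt (le_max_right _ _) hx.1.1.1
        have h2 : a < x := lt_of_le_of_lt (le_max_left _ _) hx.1.1.1
        refine ⟨⟨⟨h2, hx.1.1.2⟩, hx.1.2⟩, ?_⟩
        rintro (h | h)
        · exact absurd h.2 (not_le.mpr h1)
        · exact hx.2 h
    calc volume (secAvoid K a b (Icc (p j) (q j) ∪ U))
        ≤ volume (secAvoid K a (min b (p j)) U ∪ secAvoid K (max a (q j)) b U) :=
          measure_mono hsub
      _ ≤ volume (secAvoid K a (min b (p j)) U) + volume (secAvoid K (max a (q j)) b U) :=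
          measure_union_le _ _
      _ ≤ volume ((Ioo a (min b (p j)) ∩ Icc (0 : ℝ) 1) \ U) +
            volume ((Ioo (max a (q j)) b ∩ Icc (0 : ℝ) 1) \ U) :=
          add_le_add (ih hpq' a (min b (p j))) (ih hpq' (max a (q j)) b)
      _ = volume (((Ioo a (min b (p j)) ∩ Icc (0 : ℝ) 1) \ U) ∪
            ((Ioo (max a (q j)) b ∩ Icc (0 : ℝ) 1) \ U)) :=
          (measure_union hdisj hmeas2).symm
      _ ≤ volume ((Ioo a b ∩ Icc (0 : ℝ) 1) \ (Icc (p j) (q j) ∪ U)) := measure_mono hsub2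

end Vale.Agent.Lib.P243
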