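import Mathlib
import Vale.Agent.Lib.P243.Hall

open MeasureTheory Set

namespace Vale.Agent.Lib.P243

variable {K : Set (ℝ × ℝ)} {l r d t : ℝ}

/-- Hall-type inequality for compact sets. -/
theorem UnitFrame.hall_compact (F : UnitFrame K l r d t) (hKc : IsClosed K)
    (hbox : ∀ p ∈ K, 0 ≤ p.1 ∧ p.1 ≤ 1)
    (U W : Set ℝ) (hU : IsCompact U) (hW : IsCompact W)
    (hU01 : U ⊆ Icc 0 1) (hW01 : W ⊆ Icc 0 1)
    (hdisj : ∀ x ∈ U, ∀ y ∈ W, (x, y) ∉ K) :
    volume U + volume W ≤ 1 := by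
  have hdisj' : Disjoint (U ×ˢ W) K := by
    rw [Set.disjoint_left]
    rintro ⟨x, y⟩ ⟨hx, hy⟩ hK
    exact hdisj x hx y hy hK
  obtain ⟨δ, hδ, hthick⟩ := hdisj'.exists_thickenings (hU.prod hW) hKc
  obtain ⟨T, hTU, hTfin, hcover⟩ := hU.finite_cover_balls (half_pos hδ)
  set T' := hTfin.toFinset with hT'
  set U' := ⋃ c ∈ T', Icc (c - δ / 2) (c + δ / 2) with hU'
  have hUU' : U ⊆ U' := by
    intro x hx
    have := hcover hx
    simp only [mem_iUnion, Metric.mem_ball, exists_prop] at this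
    obtain ⟨c, hc, hxc⟩ := this
    rw [hU']
    simp only [mem_iUnion, exists_prop]
    refine ⟨c, by rw [hT']; exact (Set.Finite.mem_toFinset hTfin).mpr hc, ?_⟩
    rw [Real.dist_eq, abs_lt] at hxc
    constructor <;> linarith [hxc.1, hxc.2]
  have hWsub : W ⊆ secAvoid K (-1) 2 U' := by
    intro w hw
    refine ⟨(hW01 hw).1, (hW01 hw).2, fun x hx => ?_, fun x hx hxU => ?_⟩
    · have := hbox (x, w) hx
      constructor <;> linarith [this.1, this.2]
    · rw [hU'] at hxU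
      simp only [mem_iUnion, exists_prop] at hxU
      obtain ⟨c, hc, hxc⟩ := hxU
      have hcU : c ∈ U := hTU ((Set.Finite.mem_toFinset hTfin).mp (by rw [← hT']; exact hc))
      have h1 : (x, w) ∈ Metric.thickening δ (U ×ˢ W) := by
        rw [Metric.mem_thickening_iff]
        refine ⟨(c, w), ⟨hcU, hw⟩, ?_⟩
        rw [Prod.dist_eq]
        simp only [dist_self]
        rw [Real.dist_eq]
        have : |x - c| ≤ δ / 2 := by
          rw [abs_le]; constructor <;> linarith [hxc.1, hxc.2]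
        have h0 : (0 : ℝ) ≤ |x - c| := abs_nonneg _
        rw [max_eq_left h0]
        linarith
      have h2 : (x, w) ∈ Metric.thickening δ K := Metric.self_subset_thickening hδ K hx
      exact (Set.disjoint_left.mp hthick) h1 h2
  have hbound := F.vol_secAvoid_le T' (fun c => c - δ / 2) (fun c => c + δ / 2)
    (fun c _ => by linarith) (-1) 2
  have hUmeas : MeasurableSet U := hU.measurableSet
  calc volume U + volume W ≤ volume U + volume (secAvoid K (-1) 2 U') := by
        gcongr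
    _ ≤ volume U + volume ((Ioo (-1 : ℝ) 2 ∩ Icc (0 : ℝ) 1) \ U') := by
        gcongr
    _ ≤ volume U + volume (Icc (0 : ℝ) 1 \ U) := by
        gcongr
        · exact inter_subset_right
    _ = volume (U ∪ Icc (0 : ℝ) 1) := measure_add_sdiff hUmeas.nullMeasurableSet _
    _ = volume (Icc (0 : ℝ) 1) := by rw [union_eq_self_of_subset_left hU01]
    _ = 1 := by rw [Real.volume_Icc]; simp

/-- Hall-type inequality for measurable sets. -/
theorem UnitFrame.hall (F : UnitFrame K l r d t) (hKc : IsClosed K)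
    (hbox : ∀ p ∈ K, 0 ≤ p.1 ∧ p.1 ≤ 1)
    (U W : Set ℝ) (hU : MeasurableSet U) (hW : MeasurableSet W)
    (hU01 : U ⊆ Icc 0 1) (hW01 : W ⊆ Icc 0 1)
    (hdisj : ∀ x ∈ U, ∀ y ∈ W, (x, y) ∉ K) :
    volume U + volume W ≤ 1 := by
  have hUfin : volume U ≠ ⊤ :=
    ne_top_of_le_ne_top (by rw [Real.volume_Icc]; exact ENNReal.ofReal_ne_top) (measure_mono hU01)
  have hWfin : volume W ≠ ⊤ :=
    ne_top_of_le_ne_top (by rw [Real.volume_Icc]; exact ENNReal.ofReal_ne_top) (measure_mono hW01)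
  apply ENNReal.le_of_forall_pos_le_add
  intro ε hε _
  have hε2 : ((ε / 2 : NNReal) : ENNReal) ≠ 0 := by
    simp only [ne_eq, ENNReal.coe_eq_zero]
    exact (half_pos hε).ne'
  obtain ⟨U₀, hU₀U, hU₀c, hU₀⟩ := hU.exists_isCompact_lt_add hUfin hε2
  obtain ⟨W₀, hW₀W, hW₀c, hW₀⟩ := hW.exists_isCompact_lt_add hWfin hε2
  have hcomp := F.hall_compact hKc hbox U₀ W₀ hU₀c hW₀c (hU₀U.trans hU01) (hW₀W.trans hW01)
    (fun x hx y hy => hdisj x (hU₀U hx) y (hW₀W hy))
  calc volume U + volume W ≤ (volume U₀ + (ε / 2 : NNReal)) + (volume W₀ + (ε / 2 : NNReal)) :=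
        add_le_add hU₀.le hW₀.le
    _ = (volume U₀ + volume W₀) + ((ε / 2 : NNReal) + (ε / 2 : NNReal)) := by ring
    _ ≤ 1 + ε := by
        gcongr
        rw [← ENNReal.coe_add, add_halves]

end Vale.Agent.Lib.P243
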