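import Mathlib
import Vale.Agent.Lib.P243.HallUnit

open MeasureTheory Set

namespace Vale.Agent.Lib.P243

theorem vol_preimage_affine (c s : ℝ) (hs : 0 < s) (S : Set ℝ) :
    volume ((fun x : ℝ => c + s * x) ⁻¹' S) = ENNReal.ofReal s⁻¹ * volume S := by
  have e : (fun x : ℝ => c + s * x) ⁻¹' S = (fun x : ℝ => s * x) ⁻¹' ((fun x : ℝ => c + x) ⁻¹' S) := by
    ext x; simp
  rw [e, Real.volume_preimage_mul_left hs.ne', measure_preimage_add, abs_of_pos (inv_pos.mpr hs)]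

/-- Two-direction covering inequality for a planar convex set in its bounding box. -/
theorem hall_box (K : Set (ℝ × ℝ)) (hK : Convex ℝ K) (hKc : IsClosed K)
    {x₀ x₁ y₀ y₁ l r d t : ℝ} (hx : x₀ < x₁) (hy : y₀ < y₁)
    (hL : (x₀, l) ∈ K) (hR : (x₁, r) ∈ K) (hD : (d, y₀) ∈ K) (hT : (t, y₁) ∈ K)
    (hbox : ∀ p ∈ K, x₀ ≤ p.1 ∧ p.1 ≤ x₁ ∧ y₀ ≤ p.2 ∧ p.2 ≤ y₁)
    (S₁ S₂ : Set ℝ) (hS₁ : MeasurableSet S₁) (hS₂ : MeasurableSet S₂)
    (hcov : ∀ p ∈ K, p.2 ∈ S₁ ∨ p.1 ∈ S₂) :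
    ENNReal.ofReal (x₁ - x₀) * ENNReal.ofReal (y₁ - y₀) ≤
      volume S₁ * ENNReal.ofReal (x₁ - x₀) + volume S₂ * ENNReal.ofReal (y₁ - y₀) := by
  set ξ := x₁ - x₀ with hξ
  set η := y₁ - y₀ with hη
  have hξ0 : 0 < ξ := by rw [hξ]; linarith
  have hη0 : 0 < η := by rw [hη]; linarith
  set K' : Set (ℝ × ℝ) := {q | (x₀ + ξ * q.1, y₀ + η * q.2) ∈ K} with hK'
  have hK'conv : Convex ℝ K' := by
    intro q hq q' hq' a b ha hb hab
    have := hK hq hq' ha hb hab
    rw [hK']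
    show (x₀ + ξ * (a • q + b • q').1, y₀ + η * (a • q + b • q').2) ∈ K
    have e : (x₀ + ξ * (a • q + b • q').1, y₀ + η * (a • q + b • q').2)
        = a • (x₀ + ξ * q.1, y₀ + η * q.2) + b • (x₀ + ξ * q'.1, y₀ + η * q'.2) := by
      ext
      · simp only [Prod.fst_add, Prod.smul_fst, smul_eq_mul]
        linear_combination (-x₀) * hab
      · simp only [Prod.snd_add, Prod.smul_snd, smul_eq_mul]
        linear_combination (-y₀) * hab
    rw [e]; exact this
  have hK'closed : IsClosed K' := by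
    rw [hK']
    exact hKc.preimage (by fun_prop)
  have bL := hbox _ hL
  have bR := hbox _ hR
  have bD := hbox _ hD
  have bT := hbox _ hT
  simp only at bL bR bD bT
  have F : UnitFrame K' ((l - y₀) / η) ((r - y₀) / η) ((d - x₀) / ξ) ((t - x₀) / ξ) := by
    refine ⟨hK'conv, ?_, ?_, ?_, ?_, ?_, ?_, ?_, ?_, ?_, ?_, ?_, ?_⟩
    · show (x₀ + ξ * 0, y₀ + η * ((l - y₀) / η)) ∈ K
      have h1 : x₀ + ξ * 0 = x₀ := by ring
      have h2 : y₀ + η * ((l - y₀) / η) = l := by field_simp; ring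
      rw [h1, h2]; exact hL
    · show (x₀ + ξ * 1, y₀ + η * ((r - y₀) / η)) ∈ K
      have h1 : x₀ + ξ * 1 = x₁ := by rw [hξ]; ring
      have h2 : y₀ + η * ((r - y₀) / η) = r := by field_simp; ring
      rw [h1, h2]; exact hR
    · show (x₀ + ξ * ((d - x₀) / ξ), y₀ + η * 0) ∈ K
      have h1 : x₀ + ξ * ((d - x₀) / ξ) = d := by field_simp; ring
      have h2 : y₀ + η * 0 = y₀ := by ring
      rw [h1, h2]; exact hD
    · show (x₀ + ξ * ((t - x₀) / ξ), y₀ + η * 1) ∈ K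
      have h1 : x₀ + ξ * ((t - x₀) / ξ) = t := by field_simp; ring
      have h2 : y₀ + η * 1 = y₁ := by rw [hη]; ring
      rw [h1, h2]; exact hT
    · exact div_nonneg (by linarith [bL.2.2.1]) hη0.le
    · rw [div_le_one hη0, hη]; linarith [bL.2.2.2]
    · exact div_nonneg (by linarith [bR.2.2.1]) hη0.le
    · rw [div_le_one hη0, hη]; linarith [bR.2.2.2]
    · exact div_nonneg (by linarith [bD.1]) hξ0.le
    · rw [div_le_one hξ0, hξ]; linarith [bD.2.1]
    · exact div_nonneg (by linarith [bT.1]) hξ0.le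
    · rw [div_le_one hξ0, hξ]; linarith [bT.2.1]
  have hbox' : ∀ q ∈ K', 0 ≤ q.1 ∧ q.1 ≤ 1 := by
    intro q hq
    have := hbox _ hq
    simp only at this
    constructor
    · by_contra h
      push Not at h
      nlinarith [this.1]
    · by_contra h
      push Not at h
      nlinarith [this.2.1]
  set fx : ℝ → ℝ := fun x => x₀ + ξ * x with hfx
  set fy : ℝ → ℝ := fun y => y₀ + η * y with hfy
  have hfxm : Measurable fx := by rw [hfx]; fun_prop
  have hfym : Measurable fy := by rw [hfy]; fun_prop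
  set U : Set ℝ := Icc 0 1 \ fx ⁻¹' S₂ with hU
  set W : Set ℝ := Icc 0 1 \ fy ⁻¹' S₁ with hW
  have hUm : MeasurableSet U := measurableSet_Icc.diff (hfxm hS₂)
  have hWm : MeasurableSet W := measurableSet_Icc.diff (hfym hS₁)
  have hdisj : ∀ x ∈ U, ∀ y ∈ W, (x, y) ∉ K' := by
    intro x hxU y hyW hxy
    rcases hcov _ hxy with h | h
    · exact hyW.2 h
    · exact hxU.2 h
  have hhall := F.hall hK'closed hbox' U W hUm hWm sdiff_subset sdiff_subset hdisj
  have h1 : (1 : ENNReal) ≤ volume U + ENNReal.ofReal ξ⁻¹ * volume S₂ := by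
    rw [← vol_preimage_affine x₀ ξ hξ0 S₂]
    calc (1 : ENNReal) = volume (Icc (0 : ℝ) 1) := by rw [Real.volume_Icc]; simp
      _ ≤ volume (U ∪ fx ⁻¹' S₂) := by
          apply measure_mono
          intro x hx
          by_cases h : x ∈ fx ⁻¹' S₂
          · right; exact h
          · left; exact ⟨hx, h⟩
      _ ≤ volume U + volume (fx ⁻¹' S₂) := measure_union_le _ _
  have h2 : (1 : ENNReal) ≤ volume W + ENNReal.ofReal η⁻¹ * volume S₁ := by
    rw [← vol_preimage_affine y₀ η hη0 S₁]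
    calc (1 : ENNReal) = volume (Icc (0 : ℝ) 1) := by rw [Real.volume_Icc]; simp
      _ ≤ volume (W ∪ fy ⁻¹' S₁) := by
          apply measure_mono
          intro x hx
          by_cases h : x ∈ fy ⁻¹' S₁
          · right; exact h
          · left; exact ⟨hx, h⟩
      _ ≤ volume W + volume (fy ⁻¹' S₁) := measure_union_le _ _
  have h3 : (1 : ENNReal) ≤ ENNReal.ofReal η⁻¹ * volume S₁ + ENNReal.ofReal ξ⁻¹ * volume S₂ := by
    have hsum : (1 : ENNReal) + 1 ≤
        1 + (ENNReal.ofReal η⁻¹ * volume S₁ + ENNReal.ofReal ξ⁻¹ * volume S₂) := by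
      calc (1 : ENNReal) + 1 ≤ (volume U + ENNReal.ofReal ξ⁻¹ * volume S₂) +
            (volume W + ENNReal.ofReal η⁻¹ * volume S₁) := add_le_add h1 h2
        _ = (volume U + volume W) +
            (ENNReal.ofReal η⁻¹ * volume S₁ + ENNReal.ofReal ξ⁻¹ * volume S₂) := by ring
        _ ≤ 1 + (ENNReal.ofReal η⁻¹ * volume S₁ + ENNReal.ofReal ξ⁻¹ * volume S₂) := by
            gcongr
    exact (ENNReal.add_le_add_iff_left ENNReal.one_ne_top).mp hsum
  have eξ : ENNReal.ofReal ξ * ENNReal.ofReal ξ⁻¹ = 1 := by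
    rw [← ENNReal.ofReal_mul hξ0.le, mul_inv_cancel₀ hξ0.ne', ENNReal.ofReal_one]
  have eη : ENNReal.ofReal η * ENNReal.ofReal η⁻¹ = 1 := by
    rw [← ENNReal.ofReal_mul hη0.le, mul_inv_cancel₀ hη0.ne', ENNReal.ofReal_one]
  calc ENNReal.ofReal ξ * ENNReal.ofReal η = ENNReal.ofReal ξ * ENNReal.ofReal η * 1 := by
        rw [mul_one]
    _ ≤ ENNReal.ofReal ξ * ENNReal.ofReal η *
          (ENNReal.ofReal η⁻¹ * volume S₁ + ENNReal.ofReal ξ⁻¹ * volume S₂) := by
        gcongr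
    _ = volume S₁ * ENNReal.ofReal ξ * (ENNReal.ofReal η * ENNReal.ofReal η⁻¹) +
          volume S₂ * ENNReal.ofReal η * (ENNReal.ofReal ξ * ENNReal.ofReal ξ⁻¹) := by ring
    _ = volume S₁ * ENNReal.ofReal ξ + volume S₂ * ENNReal.ofReal η := by
        rw [eξ, eη, mul_one, mul_one]

end Vale.Agent.Lib.P243
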