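import Mathlib

namespace Vale.Agent.Lib.P243

theorem real_pointwise (x y S₁ S₂ A B : ℝ) (hA : 0 < A) (hB : 0 < B) (hx : 0 ≤ x) (hy : 0 ≤ y)
    (hS₁ : 0 ≤ S₁) (hS₂ : 0 ≤ S₂) (h : x * y ≤ S₁ * x + S₂ * y) :
    min (x / A) (y / B) ≤ S₁ / B + S₂ / A := by
  have hrhs : S₁ / B + S₂ / A = (S₁ * A + S₂ * B) / (A * B) := by
    field_simp
  rcases le_total (x / A) (y / B) with hc | hc
  · rw [min_eq_left hc]
    have hc' : x * B ≤ y * A := by
      rw [div_le_div_iff₀ hA hB] at hc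
      exact hc
    rcases eq_or_lt_of_le hy with hy0 | hy0
    · have hx0 : x * B ≤ 0 := by rw [← hy0] at hc'; linarith
      have hx' : x = 0 := by nlinarith
      rw [hx']
      simp only [zero_div]
      positivity
    · rw [hrhs, div_le_div_iff₀ hA (mul_pos hA hB)]
      have key : x * B * y ≤ (S₁ * A + S₂ * B) * y := by
        nlinarith [mul_le_mul_of_nonneg_left hc' hS₁, mul_le_mul_of_nonneg_left h hB.le]
      have key2 : x * B ≤ S₁ * A + S₂ * B := le_of_mul_le_mul_right key hy0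
      nlinarith
  · rw [min_eq_right hc]
    have hc' : y * A ≤ x * B := by
      rw [div_le_div_iff₀ hB hA] at hc
      exact hc
    rcases eq_or_lt_of_le hx with hx0 | hx0
    · have hy0 : y * A ≤ 0 := by rw [← hx0] at hc'; linarith
      have hy' : y = 0 := by nlinarith
      rw [hy']
      simp only [zero_div]
      positivity
    · rw [hrhs, div_le_div_iff₀ hB (mul_pos hA hB)]
      have key : y * A * x ≤ (S₁ * A + S₂ * B) * x := by
        nlinarith [mul_le_mul_of_nonneg_left hc' hS₂, mul_le_mul_of_nonneg_left h hA.le]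
      have key2 : y * A ≤ S₁ * A + S₂ * B := le_of_mul_le_mul_right key hx0
      nlinarith

theorem ennreal_pointwise (ξ η s₁ s₂ a b : ENNReal) (ha0 : a ≠ 0) (ha : a ≠ ⊤) (hb0 : b ≠ 0)
    (hb : b ≠ ⊤) (hξ : ξ ≠ ⊤) (hη : η ≠ ⊤) (h : ξ * η ≤ s₁ * ξ + s₂ * η) :
    min (ξ / a) (η / b) ≤ s₁ / b + s₂ / a := by
  by_cases hs₁ : s₁ = ⊤
  · rw [hs₁, ENNReal.top_div_of_ne_top hb]
    simp
  by_cases hs₂ : s₂ = ⊤
  · rw [hs₂, ENNReal.top_div_of_ne_top ha]
    simp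
  have hfin1 : min (ξ / a) (η / b) ≠ ⊤ := by
    apply ne_top_of_le_ne_top _ (min_le_left _ _)
    exact ENNReal.div_ne_top hξ ha0
  have hfin2 : s₁ / b + s₂ / a ≠ ⊤ :=
    ENNReal.add_ne_top.mpr ⟨ENNReal.div_ne_top hs₁ hb0, ENNReal.div_ne_top hs₂ ha0⟩
  rw [← ENNReal.toReal_le_toReal hfin1 hfin2]
  rw [ENNReal.toReal_add (ENNReal.div_ne_top hs₁ hb0) (ENNReal.div_ne_top hs₂ ha0),
    ENNReal.toReal_div, ENNReal.toReal_div]
  have hmin : (min (ξ / a) (η / b)).toReal = min (ξ.toReal / a.toReal) (η.toReal / b.toReal) := by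
    rw [← ENNReal.toReal_div, ← ENNReal.toReal_div]
    exact ENNReal.toReal_min (ENNReal.div_ne_top hξ ha0) (ENNReal.div_ne_top hη hb0)
  rw [hmin]
  apply real_pointwise _ _ _ _ _ _ (ENNReal.toReal_pos ha0 ha) (ENNReal.toReal_pos hb0 hb)
    ENNReal.toReal_nonneg ENNReal.toReal_nonneg ENNReal.toReal_nonneg ENNReal.toReal_nonneg
  have h' := ENNReal.toReal_mono (ENNReal.add_ne_top.mpr
    ⟨ENNReal.mul_ne_top hs₁ hξ, ENNReal.mul_ne_top hs₂ hη⟩) h
  rw [ENNReal.toReal_add (ENNReal.mul_ne_top hs₁ hξ) (ENNReal.mul_ne_top hs₂ hη),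
    ENNReal.toReal_mul, ENNReal.toReal_mul, ENNReal.toReal_mul] at h'
  exact h'

end Vale.Agent.Lib.P243
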