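import Mathlib
import Vale.Agent.Lib.P243.HallBox
import Vale.Agent.Lib.P243.Half
import Vale.Agent.Lib.P243.Pointwise

open MeasureTheory Set

namespace Vale.Agent.Lib.P243

/-- Projection of a set of points `(z, x, y)` to the `(z, x)`-plane. -/
def projA (K : Set (ℝ × ℝ × ℝ)) : Set (ℝ × ℝ) := (fun p : ℝ × ℝ × ℝ => (p.1, p.2.1)) '' K

/-- Projection of a set of points `(z, x, y)` to the `(z, y)`-plane. -/
def projB (K : Set (ℝ × ℝ × ℝ)) : Set (ℝ × ℝ) := (fun p : ℝ × ℝ × ℝ => (p.1, p.2.2)) '' K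

/-- The horizontal fiber `{(x, y) | (z, x, y) ∈ K}`. -/
def fiber (K : Set (ℝ × ℝ × ℝ)) (z : ℝ) : Set (ℝ × ℝ) := Prod.mk z ⁻¹' K

variable {K : Set (ℝ × ℝ × ℝ)}

theorem projA_compact (hK : IsCompact K) : IsCompact (projA K) :=
  hK.image (by fun_prop)

theorem projB_compact (hK : IsCompact K) : IsCompact (projB K) :=
  hK.image (by fun_prop)

theorem projA_convex (hK : Convex ℝ K) : Convex ℝ (projA K) := by
  rintro _ ⟨p, hp, rfl⟩ _ ⟨q, hq, rfl⟩ a b ha hb hab
  refine ⟨a • p + b • q, hK hp hq ha hb hab, ?_⟩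
  ext <;> simp

theorem projB_convex (hK : Convex ℝ K) : Convex ℝ (projB K) := by
  rintro _ ⟨p, hp, rfl⟩ _ ⟨q, hq, rfl⟩ a b ha hb hab
  refine ⟨a • p + b • q, hK hp hq ha hb hab, ?_⟩
  ext <;> simp

theorem fiber_convex (hK : Convex ℝ K) (z : ℝ) : Convex ℝ (fiber K z) := by
  intro p hp q hq a b ha hb hab
  have := hK hp hq ha hb hab
  show (z, a • p + b • q) ∈ K
  have e : (z, a • p + b • q) = a • (z, p) + b • (z, q) := by
    ext
    · simp only [Prod.fst_add, Prod.smul_fst, smul_eq_mul]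
      linear_combination (-z) * hab
    · simp
    · simp
  rw [e]; exact this

theorem fiber_closed (hK : IsCompact K) (z : ℝ) : IsClosed (fiber K z) :=
  hK.isClosed.preimage (by fun_prop)

theorem mem_slice_projA {z x : ℝ} : x ∈ slice (projA K) z ↔ ∃ y, (x, y) ∈ fiber K z := by
  constructor
  · rintro ⟨⟨z', x', y'⟩, hp, he⟩
    simp only [Prod.mk.injEq] at he
    obtain ⟨rfl, rfl⟩ := he
    exact ⟨y', hp⟩
  · rintro ⟨y, hy⟩
    exact ⟨(z, x, y), hy, rfl⟩

theorem mem_slice_projB {z y : ℝ} : y ∈ slice (projB K) z ↔ ∃ x, (x, y) ∈ fiber K z := by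
  constructor
  · rintro ⟨⟨z', x', y'⟩, hp, he⟩
    simp only [Prod.mk.injEq] at he
    obtain ⟨rfl, rfl⟩ := he
    exact ⟨x', hp⟩
  · rintro ⟨x, hx⟩
    exact ⟨(z, x, y), hx, rfl⟩

theorem slice_projA_nonempty {z : ℝ} : (slice (projA K) z).Nonempty ↔ z ∈ Prod.fst '' K := by
  constructor
  · rintro ⟨x, hx⟩
    obtain ⟨y, hy⟩ := mem_slice_projA.mp hx
    exact ⟨(z, x, y), hy, rfl⟩
  · rintro ⟨⟨z', x, y⟩, hp, rfl⟩
    exact ⟨x, mem_slice_projA.mpr ⟨y, hp⟩⟩

theorem slice_projB_nonempty {z : ℝ} : (slice (projB K) z).Nonempty ↔ z ∈ Prod.fst '' K := by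
  constructor
  · rintro ⟨y, hy⟩
    obtain ⟨x, hx⟩ := mem_slice_projB.mp hy
    exact ⟨(z, x, y), hx, rfl⟩
  · rintro ⟨⟨z', x, y⟩, hp, rfl⟩
    exact ⟨y, mem_slice_projB.mpr ⟨x, hp⟩⟩

/-- The slice-wise inequality. -/
theorem slice_ineq (hKc : IsCompact K) (hKconv : Convex ℝ K) (B₁ B₂ : Set (ℝ × ℝ))
    (hB₁ : MeasurableSet B₁) (hB₂ : MeasurableSet B₂)
    (hcov : ∀ p ∈ K, (p.1, p.2.2) ∈ B₁ ∨ (p.1, p.2.1) ∈ B₂) (z : ℝ) :
    volume (slice (projA K) z) * volume (slice (projB K) z) ≤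
      volume (slice B₁ z) * volume (slice (projA K) z) +
        volume (slice B₂ z) * volume (slice (projB K) z) := by
  have hPc := projA_compact hKc
  have hQc := projB_compact hKc
  have hPconv := projA_convex hKconv
  have hQconv := projB_convex hKconv
  by_cases hne : z ∈ Prod.fst '' K
  swap
  · have : slice (projA K) z = ∅ := by
      by_contra h
      exact hne (slice_projA_nonempty.mp (Set.nonempty_iff_ne_empty.mpr h))
    rw [this]; simp
  have hneA := slice_projA_nonempty.mpr hne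
  have hneB := slice_projB_nonempty.mpr hne
  have hcA := slice_compact hPc z
  have hcB := slice_compact hQc z
  set x₀ := sInf (slice (projA K) z) with hx₀
  set x₁ := sSup (slice (projA K) z) with hx₁
  set y₀ := sInf (slice (projB K) z) with hy₀
  set y₁ := sSup (slice (projB K) z) with hy₁
  have eA : volume (slice (projA K) z) = ENNReal.ofReal (x₁ - x₀) := vol_slice hPc hPconv z
  have eB : volume (slice (projB K) z) = ENNReal.ofReal (y₁ - y₀) := vol_slice hQc hQconv z
  rw [eA, eB]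
  by_cases hx : x₀ < x₁
  swap
  · have : ENNReal.ofReal (x₁ - x₀) = 0 := ENNReal.ofReal_of_nonpos (by linarith)
    rw [this]; simp
  by_cases hy : y₀ < y₁
  swap
  · have : ENNReal.ofReal (y₁ - y₀) = 0 := ENNReal.ofReal_of_nonpos (by linarith)
    rw [this]; simp
  obtain ⟨l, hL⟩ := mem_slice_projA.mp (hcA.sInf_mem hneA)
  obtain ⟨r, hR⟩ := mem_slice_projA.mp (hcA.sSup_mem hneA)
  obtain ⟨d, hD⟩ := mem_slice_projB.mp (hcB.sInf_mem hneB)
  obtain ⟨t, hT⟩ := mem_slice_projB.mp (hcB.sSup_mem hneB)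
  have hbox : ∀ p ∈ fiber K z, x₀ ≤ p.1 ∧ p.1 ≤ x₁ ∧ y₀ ≤ p.2 ∧ p.2 ≤ y₁ := by
    rintro ⟨x, y⟩ hp
    have h1 : x ∈ slice (projA K) z := mem_slice_projA.mpr ⟨y, hp⟩
    have h2 : y ∈ slice (projB K) z := mem_slice_projB.mpr ⟨x, hp⟩
    exact ⟨csInf_le hcA.bddBelow h1, le_csSup hcA.bddAbove h1,
      csInf_le hcB.bddBelow h2, le_csSup hcB.bddAbove h2⟩
  have hcov' : ∀ p ∈ fiber K z, p.2 ∈ slice B₁ z ∨ p.1 ∈ slice B₂ z := by
    rintro ⟨x, y⟩ hp
    exact hcov (z, x, y) hp
  exact hall_box (fiber K z) (fiber_convex hKconv z) (fiber_closed hKc z) hx hy hL hR hD hT hbox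
    (slice B₁ z) (slice B₂ z) (measurable_prodMk_left hB₁) (measurable_prodMk_left hB₂) hcov'

theorem vol_eq_lintegral_slice' {B : Set (ℝ × ℝ)} (hB : MeasurableSet B) :
    volume B = ∫⁻ z, volume (slice B z) := by
  rw [Measure.volume_eq_prod, Measure.prod_apply hB]
  rfl

/-- Two cylinders with axes along the second and third coordinate axes covering a compact convex
set: the relative base areas add up to at least one half. -/
theorem two_cyl_coord (hKc : IsCompact K) (hKconv : Convex ℝ K) (B₁ B₂ : Set (ℝ × ℝ))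
    (hB₁ : MeasurableSet B₁) (hB₂ : MeasurableSet B₂)
    (hcov : ∀ p ∈ K, (p.1, p.2.2) ∈ B₁ ∨ (p.1, p.2.1) ∈ B₂)
    (h₁ : volume (projB K) ≠ 0) (h₂ : volume (projA K) ≠ 0) :
    (1 / 2 : ENNReal) ≤ volume B₁ / volume (projB K) + volume B₂ / volume (projA K) := by
  have hPc := projA_compact hKc
  have hQc := projB_compact hKc
  have hPconv := projA_convex hKconv
  have hQconv := projB_convex hKconv
  have hPfin : volume (projA K) ≠ ⊤ := hPc.measure_lt_top.ne
  have hQfin : volume (projB K) ≠ ⊤ := hQc.measure_lt_top.ne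
  -- the z-projection
  set I := Prod.fst '' K with hI
  have hIc : IsCompact I := hKc.image continuous_fst
  have hIconv : Convex ℝ I := by
    rintro _ ⟨p, hp, rfl⟩ _ ⟨q, hq, rfl⟩ a b ha hb hab
    exact ⟨a • p + b • q, hKconv hp hq ha hb hab, by simp⟩
  have hKne : K.Nonempty := by
    by_contra h
    rw [Set.not_nonempty_iff_eq_empty] at h
    apply h₂
    rw [projA, h]; simp
  have hIne : I.Nonempty := hKne.image _
  have hIeq := compact_convex_eq_Icc hIc hIconv hIne
  set z₀ := sInf I with hz₀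
  set z₁ := sSup I with hz₁
  have hIP : ∀ z, (slice (projA K) z).Nonempty ↔ z ∈ Icc z₀ z₁ := by
    intro z; rw [slice_projA_nonempty, ← hIeq]
  have hIQ : ∀ z, (slice (projB K) z).Nonempty ↔ z ∈ Icc z₀ z₁ := by
    intro z; rw [slice_projB_nonempty, ← hIeq]
  have h01 : z₀ < z₁ := by
    by_contra hcon
    push Not at hcon
    have hm := vol_le_mid hPc hPconv hIP
    have hw := width_nonneg hPc ((z₀ + z₁) / 2)
    have hpos := ENNReal.toReal_pos h₂ hPfin
    nlinarith
  have hhalf := half_le_lintegral_min hPc hPconv hQc hQconv h01 hIP hIQ h₂ h₁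
  have hs₁ : Measurable fun z => volume (slice B₁ z) := measurable_vol_slice hB₁
  have hs₂ : Measurable fun z => volume (slice B₂ z) := measurable_vol_slice hB₂
  have hpt : ∀ z, min (volume (slice (projA K) z) / volume (projA K))
      (volume (slice (projB K) z) / volume (projB K)) ≤
      volume (slice B₁ z) / volume (projB K) + volume (slice B₂ z) / volume (projA K) := by
    intro z
    apply ennreal_pointwise _ _ _ _ _ _ h₂ hPfin h₁ hQfin
    · exact (slice_compact hPc z).measure_lt_top.ne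
    · exact (slice_compact hQc z).measure_lt_top.ne
    · exact slice_ineq hKc hKconv B₁ B₂ hB₁ hB₂ hcov z
  calc (1 / 2 : ENNReal) ≤ ∫⁻ z, min (volume (slice (projA K) z) / volume (projA K))
        (volume (slice (projB K) z) / volume (projB K)) := hhalf
    _ ≤ ∫⁻ z, (volume (slice B₁ z) / volume (projB K) + volume (slice B₂ z) / volume (projA K)) :=
        lintegral_mono hpt
    _ = (∫⁻ z, volume (slice B₁ z) / volume (projB K)) +
          ∫⁻ z, volume (slice B₂ z) / volume (projA K) :=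
        lintegral_add_left (hs₁.div_const _) _
    _ = volume B₁ / volume (projB K) + volume B₂ / volume (projA K) := by
        simp only [div_eq_mul_inv]
        rw [lintegral_mul_const _ hs₁, lintegral_mul_const _ hs₂,
          ← vol_eq_lintegral_slice' hB₁, ← vol_eq_lintegral_slice' hB₂]

end Vale.Agent.Lib.P243
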