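import Mathlib

open MeasureTheory Set

namespace Vale.Agent.Lib.P243

/-- In a three-dimensional space two independent vectors can be completed by a third one. -/
theorem exists_third {E : Type*} [AddCommGroup E] [Module ℝ E] [FiniteDimensional ℝ E]
    (hdim : Module.finrank ℝ E = 3) (v w : E) (hli : LinearIndependent ℝ ![v, w]) :
    ∃ n : E, ∀ a b c : ℝ, a • v + b • w + c • n = 0 → a = 0 ∧ b = 0 ∧ c = 0 := by
  classical
  have hne : Submodule.span ℝ ({v, w} : Set E) ≠ ⊤ := by
    intro htop
    have h1 : Module.finrank ℝ (Submodule.span ℝ (({v, w} : Finset E) : Set E)) ≤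
        ({v, w} : Finset E).card := finrank_span_finset_le_card _
    have h2 : ({v, w} : Finset E).card ≤ 2 := Finset.card_le_two
    have h3 : (({v, w} : Finset E) : Set E) = ({v, w} : Set E) := by simp
    rw [h3, htop, finrank_top, hdim] at h1
    omega
  obtain ⟨n, -, hn⟩ := SetLike.exists_of_lt (lt_top_iff_ne_top.mpr hne)
  refine ⟨n, fun a b c h => ?_⟩
  have hc : c = 0 := by
    by_contra hc
    apply hn
    have : n = (-(a / c)) • v + (-(b / c)) • w := by
      have h' : c • n = -(a • v + b • w) := by
        rw [eq_neg_iff_add_eq_zero]; rw [← h]; abel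
      have h'' : n = c⁻¹ • (c • n) := by rw [smul_smul, inv_mul_cancel₀ hc, one_smul]
      rw [h'', h', smul_neg, smul_add, smul_smul, smul_smul, neg_add, ← neg_smul, ← neg_smul]
      congr 2 <;> ring
    rw [this]
    apply Submodule.add_mem
    · exact Submodule.smul_mem _ _ (Submodule.subset_span (by simp))
    · exact Submodule.smul_mem _ _ (Submodule.subset_span (by simp))
  rw [hc, zero_smul, add_zero] at h
  have := LinearIndependent.pair_iff.mp hli a b h
  exact ⟨this.1, this.2, hc⟩

end Vale.Agent.Lib.P243
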