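import Mathlib
import Vale.Agent.Lib.P243.Frame3

open MeasureTheory Set

namespace Vale.Agent.Lib.P243

variable {E : Type*} [NormedAddCommGroup E] [InnerProductSpace ℝ E]

/-- The linear map `(z, x, y) ↦ x • v + y • w + z • n`. -/
def frameMap (v w n : E) : (ℝ × ℝ × ℝ) →ₗ[ℝ] E where
  toFun p := p.2.1 • v + p.2.2 • w + p.1 • n
  map_add' p q := by
    simp only [Prod.fst_add, Prod.snd_add, add_smul]
    abel
  map_smul' c p := by
    simp only [Prod.smul_fst, Prod.smul_snd, smul_eq_mul, mul_smul, RingHom.id_apply, smul_add]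

theorem frameMap_apply (v w n : E) (p : ℝ × ℝ × ℝ) :
    frameMap v w n p = p.2.1 • v + p.2.2 • w + p.1 • n := rfl

theorem frameMap_injective {v w n : E}
    (h : ∀ a b c : ℝ, a • v + b • w + c • n = 0 → a = 0 ∧ b = 0 ∧ c = 0) :
    Function.Injective (frameMap v w n) := by
  rw [injective_iff_map_eq_zero]
  rintro ⟨z, x, y⟩ hp
  obtain ⟨hx, hy, hz⟩ := h x y z hp
  simp [hx, hy, hz]

theorem frameMap_surjective [FiniteDimensional ℝ E] (hdim : Module.finrank ℝ E = 3) {v w n : E}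
    (h : ∀ a b c : ℝ, a • v + b • w + c • n = 0 → a = 0 ∧ b = 0 ∧ c = 0) :
    Function.Surjective (frameMap v w n) :=
  (LinearMap.injective_iff_surjective_of_finrank_eq_finrank (by simp [hdim])).mp
    (frameMap_injective h)

/-- The linear map `(z, s) ↦ π (s • e₁ + z • e₂)` into the plane orthogonal to `u`. -/
noncomputable def planeMap (u e₁ e₂ : E) : (ℝ × ℝ) →ₗ[ℝ] ↥(ℝ ∙ u)ᗮ where
  toFun q := (ℝ ∙ u)ᗮ.orthogonalProjectionOnto (q.2 • e₁ + q.1 • e₂)
  map_add' p q := by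
    rw [← map_add]
    congr 1
    simp only [Prod.fst_add, Prod.snd_add, add_smul]
    abel
  map_smul' c p := by
    rw [RingHom.id_apply, ← map_smul]
    congr 1
    simp only [Prod.smul_fst, Prod.smul_snd, smul_eq_mul, mul_smul, smul_add]

theorem planeMap_apply (u e₁ e₂ : E) (q : ℝ × ℝ) :
    planeMap u e₁ e₂ q = (ℝ ∙ u)ᗮ.orthogonalProjectionOnto (q.2 • e₁ + q.1 • e₂) := rfl

theorem proj_self_eq_zero (u : E) : (ℝ ∙ u)ᗮ.orthogonalProjectionOnto u = 0 :=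
  Submodule.orthogonalProjectionOnto_orthogonalComplement_singleton_eq_zero u

theorem proj_eq_zero_iff [FiniteDimensional ℝ E] (u x : E) :
    (ℝ ∙ u)ᗮ.orthogonalProjectionOnto x = 0 ↔ ∃ c : ℝ, c • u = x := by
  rw [Submodule.orthogonalProjectionOnto_eq_zero_iff, Submodule.orthogonal_orthogonal,
    Submodule.mem_span_singleton]

theorem planeMap_injective [FiniteDimensional ℝ E] {u e₁ e₂ : E}
    (h : ∀ a b c : ℝ, a • u + b • e₁ + c • e₂ = 0 → a = 0 ∧ b = 0 ∧ c = 0) :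
    Function.Injective (planeMap u e₁ e₂) := by
  rw [injective_iff_map_eq_zero]
  rintro ⟨z, s⟩ hq
  rw [planeMap_apply, proj_eq_zero_iff] at hq
  obtain ⟨c, hc⟩ := hq
  have h0 : (-c) • u + s • e₁ + z • e₂ = 0 := by
    simp only at hc
    rw [neg_smul, hc]; abel
  obtain ⟨-, hs, hz⟩ := h (-c) s z h0
  simp [hs, hz]

theorem planeMap_surjective {u e₁ e₂ : E}
    (h : ∀ p : E, ∃ a b c : ℝ, p = a • u + b • e₁ + c • e₂) :
    Function.Surjective (planeMap u e₁ e₂) := by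
  intro q
  obtain ⟨a, b, c, habc⟩ := h (q : E)
  refine ⟨(c, b), ?_⟩
  rw [planeMap_apply]
  have h1 : (ℝ ∙ u)ᗮ.orthogonalProjectionOnto (q : E) = q :=
    Submodule.orthogonalProjectionOnto_mem_subspace_eq_self q
  have h2 : (ℝ ∙ u)ᗮ.orthogonalProjectionOnto (q : E) =
      (ℝ ∙ u)ᗮ.orthogonalProjectionOnto (b • e₁ + c • e₂) := by
    rw [habc, add_assoc, map_add, map_smul, proj_self_eq_zero, smul_zero, zero_add]
  show (ℝ ∙ u)ᗮ.orthogonalProjectionOnto (b • e₁ + c • e₂) = q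
  rw [← h2, h1]

/-- The plane map as a continuous linear equivalence. -/
noncomputable def planeEquiv [FiniteDimensional ℝ E] (u e₁ e₂ : E)
    (hinj : ∀ a b c : ℝ, a • u + b • e₁ + c • e₂ = 0 → a = 0 ∧ b = 0 ∧ c = 0)
    (hsurj : ∀ p : E, ∃ a b c : ℝ, p = a • u + b • e₁ + c • e₂) :
    (ℝ × ℝ) ≃L[ℝ] ↥(ℝ ∙ u)ᗮ :=
  (LinearEquiv.ofBijective (planeMap u e₁ e₂)
    ⟨planeMap_injective hinj, planeMap_surjective hsurj⟩).toContinuousLinearEquiv

theorem planeEquiv_apply [FiniteDimensional ℝ E] (u e₁ e₂ : E)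
    (hinj : ∀ a b c : ℝ, a • u + b • e₁ + c • e₂ = 0 → a = 0 ∧ b = 0 ∧ c = 0)
    (hsurj : ∀ p : E, ∃ a b c : ℝ, p = a • u + b • e₁ + c • e₂) (q : ℝ × ℝ) :
    planeEquiv u e₁ e₂ hinj hsurj q =
      (ℝ ∙ u)ᗮ.orthogonalProjectionOnto (q.2 • e₁ + q.1 • e₂) := rfl

end Vale.Agent.Lib.P243
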