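import Mathlib

open MeasureTheory Set

namespace Vale.Agent.Lib.P243

/-- A linear isomorphism from the coordinate plane scales Lebesgue measure by a constant. -/
theorem exists_scale {F : Type*} [NormedAddCommGroup F] [NormedSpace ℝ F] [MeasurableSpace F]
    [BorelSpace F] [FiniteDimensional ℝ F] (ν : Measure F) [ν.IsAddHaarMeasure]
    (ψ : (ℝ × ℝ) ≃L[ℝ] F) :
    ∃ c : ENNReal, c ≠ 0 ∧ c ≠ ⊤ ∧ ∀ S : Set F, MeasurableSet S →
      volume (ψ ⁻¹' S) = c * ν S := by
  have : (Measure.map ψ (volume : Measure (ℝ × ℝ))).IsAddHaarMeasure :=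
    ψ.isAddHaarMeasure_map volume
  have hsm := Measure.isAddLeftInvariant_eq_smul (Measure.map ψ (volume : Measure (ℝ × ℝ))) ν
  have hpos := Measure.addHaarScalarFactor_pos_of_isAddHaarMeasure
    (Measure.map ψ (volume : Measure (ℝ × ℝ))) ν
  refine ⟨(Measure.addHaarScalarFactor (Measure.map ψ (volume : Measure (ℝ × ℝ))) ν : ENNReal),
    ?_, ENNReal.coe_ne_top, ?_⟩
  · exact_mod_cast hpos.ne'
  · intro S hS
    have h1 : Measure.map ψ (volume : Measure (ℝ × ℝ)) S = volume (ψ ⁻¹' S) :=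
      Measure.map_apply ψ.continuous.measurable hS
    rw [← h1]
    conv_lhs => rw [hsm]
    rfl

end Vale.Agent.Lib.P243
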