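import Mathlib
import Vale.Agent.Lib.P243.Core
import Vale.Agent.Lib.P243.Scale
import Vale.Agent.Lib.P243.PlaneMap

open MeasureTheory Set

namespace Vale.Agent.Lib.P243

variable {E : Type*} [NormedAddCommGroup E] [InnerProductSpace ℝ E] [FiniteDimensional ℝ E]
  [MeasurableSpace E] [BorelSpace E]

/-- The orthogonal projection of a set with nonempty interior onto a plane has positive area. -/
theorem proj_image_pos (u : E) (K : Set E) (hKint : (interior K).Nonempty) :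
    volume ((ℝ ∙ u)ᗮ.orthogonalProjectionOnto '' K) ≠ 0 := by
  have hsurj : Function.Surjective ((ℝ ∙ u)ᗮ.orthogonalProjectionOnto) := by
    intro q
    exact ⟨(q : E), Submodule.orthogonalProjectionOnto_mem_subspace_eq_self q⟩
  have hopen : IsOpenMap ((ℝ ∙ u)ᗮ.orthogonalProjectionOnto) :=
    ContinuousLinearMap.isOpenMap _ hsurj
  have h1 : IsOpen ((ℝ ∙ u)ᗮ.orthogonalProjectionOnto '' interior K) :=
    hopen _ isOpen_interior
  have h2 : ((ℝ ∙ u)ᗮ.orthogonalProjectionOnto '' interior K).Nonempty := hKint.image _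
  have h3 : 0 < volume ((ℝ ∙ u)ᗮ.orthogonalProjectionOnto '' interior K) :=
    h1.measure_pos volume h2
  have h4 : volume ((ℝ ∙ u)ᗮ.orthogonalProjectionOnto '' interior K) ≤
      volume ((ℝ ∙ u)ᗮ.orthogonalProjectionOnto '' K) :=
    measure_mono (image_mono interior_subset)
  exact (lt_of_lt_of_le h3 h4).ne'

/-- Two cylinders with non-parallel axes covering a convex body in a three-dimensional Euclidean
space: the relative base areas add up to at least one half. -/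
theorem two_cyl_general (hdim : Module.finrank ℝ E = 3) (K : Set E) (hKc : IsCompact K)
    (hKconv : Convex ℝ K) (hKint : (interior K).Nonempty) (v w : E)
    (hli : LinearIndependent ℝ ![v, w])
    (B : Set ↥(ℝ ∙ v)ᗮ) (C : Set ↥(ℝ ∙ w)ᗮ) (hB : MeasurableSet B) (hC : MeasurableSet C)
    (hcov : ∀ x ∈ K, (ℝ ∙ v)ᗮ.orthogonalProjectionOnto x ∈ B ∨
      (ℝ ∙ w)ᗮ.orthogonalProjectionOnto x ∈ C) :
    (1 / 2 : ENNReal) ≤ volume B / volume ((ℝ ∙ v)ᗮ.orthogonalProjectionOnto '' K) +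
      volume C / volume ((ℝ ∙ w)ᗮ.orthogonalProjectionOnto '' K) := by
  obtain ⟨n, hn⟩ := exists_third hdim v w hli
  have hinj := frameMap_injective hn
  have hsurj := frameMap_surjective hdim hn
  -- the coordinate change
  let Φ : (ℝ × ℝ × ℝ) ≃L[ℝ] E :=
    (LinearEquiv.ofBijective (frameMap v w n) ⟨hinj, hsurj⟩).toContinuousLinearEquiv
  have hΦ : ∀ p, Φ p = p.2.1 • v + p.2.2 • w + p.1 • n := fun p => rfl
  set K' : Set (ℝ × ℝ × ℝ) := Φ ⁻¹' K with hK'
  have hK'c : IsCompact K' := Φ.toHomeomorph.isCompact_preimage.mpr hKc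
  have hK'conv : Convex ℝ K' := hKconv.linear_preimage (frameMap v w n)
  -- plane maps
  have hinjV : ∀ a b c : ℝ, a • v + b • w + c • n = 0 → a = 0 ∧ b = 0 ∧ c = 0 := hn
  have hsurjV : ∀ p : E, ∃ a b c : ℝ, p = a • v + b • w + c • n := by
    intro p
    obtain ⟨q, hq⟩ := hsurj p
    exact ⟨q.2.1, q.2.2, q.1, hq.symm⟩
  have hinjW : ∀ a b c : ℝ, a • w + b • v + c • n = 0 → a = 0 ∧ b = 0 ∧ c = 0 := by
    intro a b c h
    have h' : b • v + a • w + c • n = 0 := by rw [← h]; abel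
    obtain ⟨hb, ha, hc⟩ := hn b a c h'
    exact ⟨ha, hb, hc⟩
  have hsurjW : ∀ p : E, ∃ a b c : ℝ, p = a • w + b • v + c • n := by
    intro p
    obtain ⟨a, b, c, h⟩ := hsurjV p
    exact ⟨b, a, c, by rw [h]; abel⟩
  let ψv := planeEquiv v w n hinjV hsurjV
  let ψw := planeEquiv w v n hinjW hsurjW
  have hψv : ∀ p : ℝ × ℝ × ℝ, (ℝ ∙ v)ᗮ.orthogonalProjectionOnto (Φ p) = ψv (p.1, p.2.2) := by
    intro p
    rw [hΦ, planeEquiv_apply, add_assoc, map_add, map_smul, proj_self_eq_zero, smul_zero, zero_add]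
  have hψw : ∀ p : ℝ × ℝ × ℝ, (ℝ ∙ w)ᗮ.orthogonalProjectionOnto (Φ p) = ψw (p.1, p.2.1) := by
    intro p
    rw [hΦ, planeEquiv_apply]
    have e : p.2.1 • v + p.2.2 • w + p.1 • n = p.2.2 • w + (p.2.1 • v + p.1 • n) := by abel
    rw [e, map_add, map_smul, proj_self_eq_zero, smul_zero, zero_add]
  -- bases in coordinates
  set B₁ : Set (ℝ × ℝ) := ψv ⁻¹' B with hB₁
  set B₂ : Set (ℝ × ℝ) := ψw ⁻¹' C with hB₂
  have hB₁m : MeasurableSet B₁ := ψv.continuous.measurable hB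
  have hB₂m : MeasurableSet B₂ := ψw.continuous.measurable hC
  have hcov' : ∀ p ∈ K', (p.1, p.2.2) ∈ B₁ ∨ (p.1, p.2.1) ∈ B₂ := by
    intro p hp
    rcases hcov (Φ p) hp with h | h
    · left
      show ψv (p.1, p.2.2) ∈ B
      rw [← hψv]; exact h
    · right
      show ψw (p.1, p.2.1) ∈ C
      rw [← hψw]; exact h
  -- projections in coordinates
  have hprojB : projB K' = ψv ⁻¹' ((ℝ ∙ v)ᗮ.orthogonalProjectionOnto '' K) := by
    ext q
    constructor
    · rintro ⟨p, hp, rfl⟩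
      exact ⟨Φ p, hp, hψv p⟩
    · rintro ⟨k, hk, hkq⟩
      obtain ⟨p, rfl⟩ := Φ.surjective k
      rw [hψv] at hkq
      have := ψv.injective hkq
      refine ⟨p, hk, this⟩
  have hprojA : projA K' = ψw ⁻¹' ((ℝ ∙ w)ᗮ.orthogonalProjectionOnto '' K) := by
    ext q
    constructor
    · rintro ⟨p, hp, rfl⟩
      exact ⟨Φ p, hp, hψw p⟩
    · rintro ⟨k, hk, hkq⟩
      obtain ⟨p, rfl⟩ := Φ.surjective k
      rw [hψw] at hkq
      have := ψw.injective hkq
      refine ⟨p, hk, this⟩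
  -- scaling constants
  obtain ⟨cv, hcv0, hcvt, hcv⟩ := exists_scale (volume : Measure ↥(ℝ ∙ v)ᗮ) ψv
  obtain ⟨cw, hcw0, hcwt, hcw⟩ := exists_scale (volume : Measure ↥(ℝ ∙ w)ᗮ) ψw
  have hPVm : MeasurableSet ((ℝ ∙ v)ᗮ.orthogonalProjectionOnto '' K) :=
    (hKc.image ((ℝ ∙ v)ᗮ.orthogonalProjectionOnto).continuous).measurableSet
  have hPWm : MeasurableSet ((ℝ ∙ w)ᗮ.orthogonalProjectionOnto '' K) :=
    (hKc.image ((ℝ ∙ w)ᗮ.orthogonalProjectionOnto).continuous).measurableSet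
  have e1 : volume B₁ = cv * volume B := hcv B hB
  have e2 : volume B₂ = cw * volume C := hcw C hC
  have e3 : volume (projB K') = cv * volume ((ℝ ∙ v)ᗮ.orthogonalProjectionOnto '' K) := by
    rw [hprojB]; exact hcv _ hPVm
  have e4 : volume (projA K') = cw * volume ((ℝ ∙ w)ᗮ.orthogonalProjectionOnto '' K) := by
    rw [hprojA]; exact hcw _ hPWm
  have hposV := proj_image_pos v K hKint
  have hposW := proj_image_pos w K hKint
  have h₁ : volume (projB K') ≠ 0 := by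
    rw [e3]; exact mul_ne_zero hcv0 hposV
  have h₂ : volume (projA K') ≠ 0 := by
    rw [e4]; exact mul_ne_zero hcw0 hposW
  have hmain := two_cyl_coord hK'c hK'conv B₁ B₂ hB₁m hB₂m hcov' h₁ h₂
  rw [e1, e2, e3, e4, ENNReal.mul_div_mul_left _ _ hcv0 hcvt,
    ENNReal.mul_div_mul_left _ _ hcw0 hcwt] at hmain
  exact hmain

end Vale.Agent.Lib.P243
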