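import Mathlib

open MeasureTheory Set

namespace Vale.Agent.Lib.P243

/-- A bounded convex subset of the real line contains the open interval between its infimum and
its supremum. -/
theorem convex_real_Ioo_subset {I : Set ℝ} (hc : Convex ℝ I) :
    Ioo (sInf I) (sSup I) ⊆ I := by
  intro z hz
  have hne : I.Nonempty := by
    by_contra h
    rw [not_nonempty_iff_eq_empty] at h
    rw [h, Real.sInf_empty, Real.sSup_empty] at hz
    exact lt_irrefl _ (lt_trans hz.1 hz.2)
  obtain ⟨p, hp, hpz⟩ := exists_lt_of_csInf_lt hne hz.1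
  obtain ⟨q, hq, hzq⟩ := exists_lt_of_lt_csSup hne hz.2
  exact hc.ordConnected.out hp hq ⟨hpz.le, hzq.le⟩

/-- The length of a bounded convex subset of the real line. -/
theorem convex_real_volume {I : Set ℝ} (hc : Convex ℝ I) (hb : Bornology.IsBounded I) :
    volume I = ENNReal.ofReal (sSup I - sInf I) := by
  apply le_antisymm
  · have h : I ⊆ Icc (sInf I) (sSup I) :=
      fun z hz => ⟨csInf_le hb.bddBelow hz, le_csSup hb.bddAbove hz⟩
    calc volume I ≤ volume (Icc (sInf I) (sSup I)) := measure_mono h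
      _ = ENNReal.ofReal (sSup I - sInf I) := Real.volume_Icc
  · calc ENNReal.ofReal (sSup I - sInf I) = volume (Ioo (sInf I) (sSup I)) :=
        Real.volume_Ioo.symm
      _ ≤ volume I := measure_mono (convex_real_Ioo_subset hc)

/-- A point of a bounded nonempty convex subset of the line at a prescribed relative position
strictly between its infimum and its supremum. -/
theorem convex_real_mem {I : Set ℝ} (hc : Convex ℝ I) (hb : Bornology.IsBounded I)
    (hne : I.Nonempty) {s : ℝ} (hs0 : 0 < s) (hs1 : s < 1) :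
    sInf I + s * (sSup I - sInf I) ∈ I := by
  have hab : sInf I ≤ sSup I := by
    obtain ⟨p, hp⟩ := hne
    exact le_trans (csInf_le hb.bddBelow hp) (le_csSup hb.bddAbove hp)
  rcases hab.eq_or_lt with h | h
  · obtain ⟨p, hp⟩ := hne
    have hpa : sInf I ≤ p := csInf_le hb.bddBelow hp
    have hpb : p ≤ sSup I := le_csSup hb.bddAbove hp
    have hpe : p = sInf I := le_antisymm (by linarith) hpa
    have : sInf I + s * (sSup I - sInf I) = p := by rw [← h, sub_self, mul_zero, add_zero, hpe]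
    rw [this]; exact hp
  · apply convex_real_Ioo_subset hc
    constructor <;> nlinarith

/-- One-dimensional Brunn-Minkowski inequality for convex sets. -/
theorem bm_one {I J W : Set ℝ} (hI : Convex ℝ I) (hIb : Bornology.IsBounded I) (hIne : I.Nonempty)
    (hJ : Convex ℝ J) (hJb : Bornology.IsBounded J) (hJne : J.Nonempty) {θ : ℝ} (hθ0 : 0 ≤ θ)
    (hθ1 : θ ≤ 1) (hW : ∀ p ∈ I, ∀ q ∈ J, (1 - θ) * p + θ * q ∈ W) :
    ENNReal.ofReal (1 - θ) * volume I + ENNReal.ofReal θ * volume J ≤ volume W := by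
  have hab : sInf I ≤ sSup I := by
    obtain ⟨p, hp⟩ := hIne
    exact le_trans (csInf_le hIb.bddBelow hp) (le_csSup hIb.bddAbove hp)
  have hcd : sInf J ≤ sSup J := by
    obtain ⟨p, hp⟩ := hJne
    exact le_trans (csInf_le hJb.bddBelow hp) (le_csSup hJb.bddAbove hp)
  have h1θ : 0 ≤ 1 - θ := by linarith
  rw [convex_real_volume hI hIb, convex_real_volume hJ hJb, ← ENNReal.ofReal_mul h1θ,
    ← ENNReal.ofReal_mul hθ0, ← ENNReal.ofReal_add (mul_nonneg h1θ (by linarith))
      (mul_nonneg hθ0 (by linarith))]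
  have hsub : Ioo ((1 - θ) * sInf I + θ * sInf J)
      ((1 - θ) * sInf I + θ * sInf J +
        ((1 - θ) * (sSup I - sInf I) + θ * (sSup J - sInf J))) ⊆ W := by
    intro z hz
    have hL : 0 < (1 - θ) * (sSup I - sInf I) + θ * (sSup J - sInf J) := by
      linarith [hz.1, hz.2]
    have hs0 : 0 < (z - ((1 - θ) * sInf I + θ * sInf J)) /
        ((1 - θ) * (sSup I - sInf I) + θ * (sSup J - sInf J)) :=
      div_pos (by linarith [hz.1]) hL
    have hs1 : (z - ((1 - θ) * sInf I + θ * sInf J)) /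
        ((1 - θ) * (sSup I - sInf I) + θ * (sSup J - sInf J)) < 1 := by
      rw [div_lt_one hL]; linarith [hz.2]
    have hpI := convex_real_mem hI hIb hIne hs0 hs1
    have hqJ := convex_real_mem hJ hJb hJne hs0 hs1
    have hmul : (z - ((1 - θ) * sInf I + θ * sInf J)) /
        ((1 - θ) * (sSup I - sInf I) + θ * (sSup J - sInf J)) *
        ((1 - θ) * (sSup I - sInf I) + θ * (sSup J - sInf J)) =
        z - ((1 - θ) * sInf I + θ * sInf J) := div_mul_cancel₀ _ hL.ne'
    have hz' : z = (1 - θ) * (sInf I + (z - ((1 - θ) * sInf I + θ * sInf J)) /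
        ((1 - θ) * (sSup I - sInf I) + θ * (sSup J - sInf J)) * (sSup I - sInf I)) +
        θ * (sInf J + (z - ((1 - θ) * sInf I + θ * sInf J)) /
        ((1 - θ) * (sSup I - sInf I) + θ * (sSup J - sInf J)) * (sSup J - sInf J)) := by
      linear_combination (-1 : ℝ) * hmul
    rw [hz']
    exact hW _ hpI _ hqJ
  calc ENNReal.ofReal ((1 - θ) * (sSup I - sInf I) + θ * (sSup J - sInf J))
      = volume (Ioo ((1 - θ) * sInf I + θ * sInf J)
          ((1 - θ) * sInf I + θ * sInf J +
            ((1 - θ) * (sSup I - sInf I) + θ * (sSup J - sInf J)))) := by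
        rw [Real.volume_Ioo]; congr 1; ring
    _ ≤ volume W := measure_mono hsub

/-- Sections of a convex subset of a product with the real line are convex. -/
theorem convex_section {X : Type*} [AddCommGroup X] [Module ℝ X] {S : Set (X × ℝ)}
    (hS : Convex ℝ S) (x : X) : Convex ℝ (Prod.mk x ⁻¹' S) := by
  intro z hz z' hz' a b ha hb hab
  have h := hS hz hz' ha hb hab
  have e : a • (x, z) + b • (x, z') = (x, a • z + b • z') := by
    ext
    · simp [← add_smul, hab]
    · simp
  rw [e] at h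
  exact h

/-- Brunn-Minkowski inequality for the sections of three sets in a product with the line. -/
theorem section_bm {X : Type*} [AddCommGroup X] [Module ℝ X] {S0 S1 S : Set (X × ℝ)} {θ : ℝ}
    (hθ0 : 0 ≤ θ) (hθ1 : θ ≤ 1)
    (hmix : ∀ p ∈ S0, ∀ q ∈ S1, (1 - θ) • p + θ • q ∈ S)
    (hS0 : Convex ℝ S0) (hS1 : Convex ℝ S1) {x0 x1 : X}
    (hb0 : Bornology.IsBounded (Prod.mk x0 ⁻¹' S0))
    (hb1 : Bornology.IsBounded (Prod.mk x1 ⁻¹' S1))
    (hne0 : (Prod.mk x0 ⁻¹' S0).Nonempty) (hne1 : (Prod.mk x1 ⁻¹' S1).Nonempty) :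
    ENNReal.ofReal (1 - θ) * volume (Prod.mk x0 ⁻¹' S0) +
        ENNReal.ofReal θ * volume (Prod.mk x1 ⁻¹' S1) ≤
      volume (Prod.mk ((1 - θ) • x0 + θ • x1) ⁻¹' S) := by
  apply bm_one (convex_section hS0 x0) hb0 hne0 (convex_section hS1 x1) hb1 hne1 hθ0 hθ1
  intro p hp q hq
  have h := hmix (x0, p) hp (x1, q) hq
  have e : (1 - θ) • (x0, p) + θ • (x1, q) = ((1 - θ) • x0 + θ • x1, (1 - θ) * p + θ * q) := by
    ext <;> simp
  rw [e] at h
  exact h

end Vale.Agent.Lib.P243
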