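import Mathlib
import Vale.Agent.Lib.P243.VolBM1

open MeasureTheory Set

namespace Vale.Agent.Lib.P243

/-- The length of the vertical section of a planar set. -/
noncomputable def secLen (T : Set (ℝ × ℝ)) (x : ℝ) : ℝ := (volume (Prod.mk x ⁻¹' T)).toReal

theorem section_bounded {X : Type*} [PseudoMetricSpace X] {T : Set (X × ℝ)}
    (hTb : Bornology.IsBounded T) (x : X) : Bornology.IsBounded (Prod.mk x ⁻¹' T) := by
  apply hTb.image_snd.subset
  intro z hz
  exact ⟨(x, z), hz, rfl⟩

theorem secLen_nonneg (T : Set (ℝ × ℝ)) (x : ℝ) : 0 ≤ secLen T x := ENNReal.toReal_nonneg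

theorem secLen_integrable {T : Set (ℝ × ℝ)} (hT : MeasurableSet T)
    (hTb : Bornology.IsBounded T) : Integrable (secLen T) := by
  have hmeas : Measurable fun x => volume (Prod.mk x ⁻¹' T) := measurable_measure_prodMk_left hT
  have hvol : volume T = ∫⁻ x, volume (Prod.mk x ⁻¹' T) := by
    rw [Measure.volume_eq_prod, Measure.prod_apply hT]
  have hfin : volume T ≠ ⊤ := hTb.measure_lt_top.ne
  rw [hvol] at hfin
  exact integrable_toReal_of_lintegral_ne_top hmeas.aemeasurable hfin

theorem secLen_integral {T : Set (ℝ × ℝ)} (hT : MeasurableSet T)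
    (hTb : Bornology.IsBounded T) : ∫ x, secLen T x = (volume T).toReal := by
  have hmeas : Measurable fun x => volume (Prod.mk x ⁻¹' T) := measurable_measure_prodMk_left hT
  have hvol : volume T = ∫⁻ x, volume (Prod.mk x ⁻¹' T) := by
    rw [Measure.volume_eq_prod, Measure.prod_apply hT]
  rw [hvol]
  exact integral_toReal hmeas.aemeasurable
    (Filter.Eventually.of_forall fun x => (section_bounded hTb x).measure_lt_top)

theorem integral_comp_affine (g : ℝ → ℝ) {a : ℝ} (ha : 0 < a) (b : ℝ) :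
    ∫ x, g (a * x + b) = a⁻¹ * ∫ y, g y := by
  have h1 := MeasureTheory.Measure.integral_comp_mul_left (fun y => g (y + b)) a
  have h2 : ∫ y, g (y + b) = ∫ y, g y := integral_add_right_eq_self g b
  rw [h2, abs_of_pos (inv_pos.mpr ha), smul_eq_mul] at h1
  exact h1

theorem integrable_comp_affine {g : ℝ → ℝ} (hg : Integrable g) {a : ℝ} (ha : 0 < a) (b : ℝ) :
    Integrable fun x => g (a * x + b) :=
  (hg.comp_add_right b).comp_mul_left' ha.ne'

/-- A planar set whose projection to the first axis is a single point is null. -/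
theorem volume_eq_zero_of_fst_subset_singleton {T : Set (ℝ × ℝ)} {c : ℝ}
    (h : Prod.fst '' T ⊆ {c}) : volume T = 0 := by
  have hsub : T ⊆ ({c} : Set ℝ) ×ˢ (univ : Set ℝ) := by
    intro p hp
    exact ⟨h ⟨p, hp, rfl⟩, mem_univ _⟩
  have h0 : volume (({c} : Set ℝ) ×ˢ (univ : Set ℝ)) = 0 := by
    rw [Measure.volume_eq_prod, Measure.prod_prod, Real.volume_singleton, zero_mul]
  exact measure_mono_null hsub h0

/-- Brunn-Minkowski inequality for planar convex sets. -/
theorem bm_planar {S0 S1 S : Set (ℝ × ℝ)} (hS0c : Convex ℝ S0) (hS1c : Convex ℝ S1)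
    (hS0b : Bornology.IsBounded S0) (hS1b : Bornology.IsBounded S1)
    (hSb : Bornology.IsBounded S)
    (hS0m : MeasurableSet S0) (hS1m : MeasurableSet S1) (hSm : MeasurableSet S)
    {θ : ℝ} (hθ0 : 0 ≤ θ) (hθ1 : θ ≤ 1)
    (hmix : ∀ p ∈ S0, ∀ q ∈ S1, (1 - θ) • p + θ • q ∈ S)
    (h0 : volume S0 ≠ 0) (h1 : volume S1 ≠ 0) :
    (1 - θ) * √(volume S0).toReal + θ * √(volume S1).toReal ≤ √(volume S).toReal := by
  have h1θ : 0 ≤ 1 - θ := by linarith
  -- projections
  have hD0c : Convex ℝ (Prod.fst '' S0) := hS0c.linear_image (LinearMap.fst ℝ ℝ ℝ)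
  have hD1c : Convex ℝ (Prod.fst '' S1) := hS1c.linear_image (LinearMap.fst ℝ ℝ ℝ)
  have hD0b : Bornology.IsBounded (Prod.fst '' S0) := hS0b.image_fst
  have hD1b : Bornology.IsBounded (Prod.fst '' S1) := hS1b.image_fst
  have hne0 : S0.Nonempty := by
    by_contra h
    rw [not_nonempty_iff_eq_empty] at h
    exact h0 (by rw [h]; exact measure_empty)
  have hne1 : S1.Nonempty := by
    by_contra h
    rw [not_nonempty_iff_eq_empty] at h
    exact h1 (by rw [h]; exact measure_empty)
  have hle0 : sInf (Prod.fst '' S0) ≤ sSup (Prod.fst '' S0) := by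
    obtain ⟨p, hp⟩ := hne0
    exact le_trans (csInf_le hD0b.bddBelow ⟨p, hp, rfl⟩) (le_csSup hD0b.bddAbove ⟨p, hp, rfl⟩)
  have hle1 : sInf (Prod.fst '' S1) ≤ sSup (Prod.fst '' S1) := by
    obtain ⟨p, hp⟩ := hne1
    exact le_trans (csInf_le hD1b.bddBelow ⟨p, hp, rfl⟩) (le_csSup hD1b.bddAbove ⟨p, hp, rfl⟩)
  have hlt0 : sInf (Prod.fst '' S0) < sSup (Prod.fst '' S0) := by
    rcases hle0.eq_or_lt with h | h
    · exfalso
      apply h0
      apply volume_eq_zero_of_fst_subset_singleton (c := sInf (Prod.fst '' S0))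
      intro x hx
      have h1' : sInf (Prod.fst '' S0) ≤ x := csInf_le hD0b.bddBelow hx
      have h2' : x ≤ sSup (Prod.fst '' S0) := le_csSup hD0b.bddAbove hx
      exact le_antisymm (by linarith) h1'
    · exact h
  have hlt1 : sInf (Prod.fst '' S1) < sSup (Prod.fst '' S1) := by
    rcases hle1.eq_or_lt with h | h
    · exfalso
      apply h1
      apply volume_eq_zero_of_fst_subset_singleton (c := sInf (Prod.fst '' S1))
      intro x hx
      have h1' : sInf (Prod.fst '' S1) ≤ x := csInf_le hD1b.bddBelow hx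
      have h2' : x ≤ sSup (Prod.fst '' S1) := le_csSup hD1b.bddAbove hx
      exact le_antisymm (by linarith) h1'
    · exact h
  set α0 := sInf (Prod.fst '' S0) with hα0
  set β0 := sSup (Prod.fst '' S0) with hβ0
  set α1 := sInf (Prod.fst '' S1) with hα1
  set β1 := sSup (Prod.fst '' S1) with hβ1
  set ρ := (β1 - α1) / (β0 - α0) with hρ
  have hρpos : 0 < ρ := div_pos (by linarith) (by linarith)
  have hκpos : 0 < (1 - θ) + θ * ρ := by
    rcases hθ0.eq_or_lt with h | h
    · rw [← h]; norm_num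
    · have : 0 < θ * ρ := mul_pos h hρpos
      linarith
  -- integrals
  have hI0 := secLen_integral hS0m hS0b
  have hI1 := secLen_integral hS1m hS1b
  have hI := secLen_integral hSm hSb
  have hf := secLen_integrable hS0m hS0b
  have hg := secLen_integrable hS1m hS1b
  have hh := secLen_integrable hSm hSb
  -- pointwise inequality
  have hpt : ∀ x, x ≠ α0 → x ≠ β0 →
      (1 - θ) * secLen S0 x + θ * secLen S1 (ρ * x + (α1 - ρ * α0)) ≤
        secLen S (((1 - θ) + θ * ρ) * x + θ * (α1 - ρ * α0)) := by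
    intro x hxa hxb
    by_cases hx : x ∈ Ioo α0 β0
    · have hxD : x ∈ Prod.fst '' S0 := convex_real_Ioo_subset hD0c hx
      have hTx : ρ * x + (α1 - ρ * α0) ∈ Ioo α1 β1 := by
        have e1 : ρ * x + (α1 - ρ * α0) = α1 + ρ * (x - α0) := by ring
        have e2 : ρ * (β0 - α0) = β1 - α1 := by
          rw [hρ]; exact div_mul_cancel₀ _ (sub_pos.mpr hlt0).ne'
        rw [e1]
        constructor
        · have : 0 < ρ * (x - α0) := mul_pos hρpos (by linarith [hx.1])
          linarith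
        · have : ρ * (x - α0) < ρ * (β0 - α0) :=
            mul_lt_mul_of_pos_left (by linarith [hx.2]) hρpos
          linarith
      have hTxD : ρ * x + (α1 - ρ * α0) ∈ Prod.fst '' S1 := convex_real_Ioo_subset hD1c hTx
      have hne0' : (Prod.mk x ⁻¹' S0).Nonempty := by
        obtain ⟨p, hp, hpx⟩ := hxD
        refine ⟨p.2, ?_⟩
        show (x, p.2) ∈ S0
        rw [← hpx]; exact hp
      have hne1' : (Prod.mk (ρ * x + (α1 - ρ * α0)) ⁻¹' S1).Nonempty := by
        obtain ⟨p, hp, hpx⟩ := hTxD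
        refine ⟨p.2, ?_⟩
        show (ρ * x + (α1 - ρ * α0), p.2) ∈ S1
        rw [← hpx]; exact hp
      have hbm := section_bm hθ0 hθ1 hmix hS0c hS1c (section_bounded hS0b x)
        (section_bounded hS1b _) hne0' hne1'
      have e3 : (1 - θ) • x + θ • (ρ * x + (α1 - ρ * α0)) =
          ((1 - θ) + θ * ρ) * x + θ * (α1 - ρ * α0) := by
        simp only [smul_eq_mul]; ring
      rw [e3] at hbm
      have hfin : volume (Prod.mk (((1 - θ) + θ * ρ) * x + θ * (α1 - ρ * α0)) ⁻¹' S) ≠ ⊤ :=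
        (section_bounded hSb _).measure_lt_top.ne
      have hfin0 : volume (Prod.mk x ⁻¹' S0) ≠ ⊤ := (section_bounded hS0b _).measure_lt_top.ne
      have hfin1 : volume (Prod.mk (ρ * x + (α1 - ρ * α0)) ⁻¹' S1) ≠ ⊤ :=
        (section_bounded hS1b _).measure_lt_top.ne
      have := ENNReal.toReal_mono hfin hbm
      rw [ENNReal.toReal_add (ENNReal.mul_ne_top ENNReal.ofReal_ne_top hfin0)
        (ENNReal.mul_ne_top ENNReal.ofReal_ne_top hfin1), ENNReal.toReal_mul, ENNReal.toReal_mul,
        ENNReal.toReal_ofReal h1θ, ENNReal.toReal_ofReal hθ0] at this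
      exact this
    · have hx0 : x ∉ Prod.fst '' S0 := by
        intro hxD
        have h1' : α0 ≤ x := csInf_le hD0b.bddBelow hxD
        have h2' : x ≤ β0 := le_csSup hD0b.bddAbove hxD
        exact hx ⟨lt_of_le_of_ne h1' (Ne.symm hxa), lt_of_le_of_ne h2' hxb⟩
      have hTx : ρ * x + (α1 - ρ * α0) ∉ Prod.fst '' S1 := by
        intro hxD
        have h1' : α1 ≤ ρ * x + (α1 - ρ * α0) := csInf_le hD1b.bddBelow hxD
        have h2' : ρ * x + (α1 - ρ * α0) ≤ β1 := le_csSup hD1b.bddAbove hxD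
        have e2 : ρ * (β0 - α0) = β1 - α1 := by
          rw [hρ]; exact div_mul_cancel₀ _ (sub_pos.mpr hlt0).ne'
        have h3 : α0 ≤ x := by
          by_contra hlt
          push Not at hlt
          have : ρ * x < ρ * α0 := mul_lt_mul_of_pos_left hlt hρpos
          linarith
        have h4 : x ≤ β0 := by
          by_contra hlt
          push Not at hlt
          have : ρ * β0 < ρ * x := mul_lt_mul_of_pos_left hlt hρpos
          nlinarith
        exact hx ⟨lt_of_le_of_ne h3 (Ne.symm hxa), lt_of_le_of_ne h4 hxb⟩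
      have hz0 : secLen S0 x = 0 := by
        have : Prod.mk x ⁻¹' S0 = ∅ := by
          ext z
          simp only [mem_preimage, mem_empty_iff_false, iff_false]
          intro hz
          exact hx0 ⟨(x, z), hz, rfl⟩
        simp [secLen, this]
      have hz1 : secLen S1 (ρ * x + (α1 - ρ * α0)) = 0 := by
        have : Prod.mk (ρ * x + (α1 - ρ * α0)) ⁻¹' S1 = ∅ := by
          ext z
          simp only [mem_preimage, mem_empty_iff_false, iff_false]
          intro hz
          exact hTx ⟨(ρ * x + (α1 - ρ * α0), z), hz, rfl⟩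
        simp [secLen, this]
      rw [hz0, hz1, mul_zero, mul_zero, add_zero]
      exact secLen_nonneg _ _
  have hae : ∀ᵐ x ∂(volume : Measure ℝ),
      (1 - θ) * secLen S0 x + θ * secLen S1 (ρ * x + (α1 - ρ * α0)) ≤
        secLen S (((1 - θ) + θ * ρ) * x + θ * (α1 - ρ * α0)) := by
    have hcount : (({α0, β0} : Set ℝ)).Countable := (Set.toFinite _).countable
    filter_upwards [hcount.ae_notMem (volume : Measure ℝ)] with x hx
    apply hpt x
    · intro h; exact hx (by simp [h])
    · intro h; exact hx (by simp [h])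
  have hgT : Integrable fun x => secLen S1 (ρ * x + (α1 - ρ * α0)) :=
    integrable_comp_affine hg hρpos _
  have hhΦ : Integrable fun x => secLen S (((1 - θ) + θ * ρ) * x + θ * (α1 - ρ * α0)) :=
    integrable_comp_affine hh hκpos _
  have hint : ∫ x, ((1 - θ) * secLen S0 x + θ * secLen S1 (ρ * x + (α1 - ρ * α0))) ≤
      ∫ x, secLen S (((1 - θ) + θ * ρ) * x + θ * (α1 - ρ * α0)) :=
    integral_mono_ae ((hf.const_mul (1 - θ)).add (hgT.const_mul θ)) hhΦ hae
  rw [integral_add (hf.const_mul (1 - θ)) (hgT.const_mul θ), integral_const_mul,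
    integral_const_mul, integral_comp_affine _ hρpos, integral_comp_affine _ hκpos,
    hI0, hI1, hI] at hint
  -- algebra
  set I0 := (volume S0).toReal with hI0def
  set I1 := (volume S1).toReal with hI1def
  set I := (volume S).toReal with hIdef
  have hI0nn : 0 ≤ I0 := ENNReal.toReal_nonneg
  have hI1nn : 0 ≤ I1 := ENNReal.toReal_nonneg
  have hu : √I0 ^ 2 = I0 := Real.sq_sqrt hI0nn
  have hv : √I1 ^ 2 = I1 := Real.sq_sqrt hI1nn
  have hkey : ((1 - θ) * √I0 + θ * √I1) ^ 2 ≤ I := by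
    have h2 : ((1 - θ) + θ * ρ) * ((1 - θ) * I0 + θ * (ρ⁻¹ * I1)) ≤ I := by
      calc ((1 - θ) + θ * ρ) * ((1 - θ) * I0 + θ * (ρ⁻¹ * I1))
          ≤ ((1 - θ) + θ * ρ) * (((1 - θ) + θ * ρ)⁻¹ * I) :=
            mul_le_mul_of_nonneg_left hint hκpos.le
        _ = I := mul_inv_cancel_left₀ hκpos.ne' I
    have halg : ∀ u v : ℝ, ((1 - θ) + θ * ρ) * ((1 - θ) * u ^ 2 + θ * (ρ⁻¹ * v ^ 2)) -
        ((1 - θ) * u + θ * v) ^ 2 = θ * (1 - θ) * (ρ * u - v) ^ 2 / ρ := by
      intro u v
      field_simp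
      ring
    have h3 : ((1 - θ) + θ * ρ) * ((1 - θ) * I0 + θ * (ρ⁻¹ * I1)) -
        ((1 - θ) * √I0 + θ * √I1) ^ 2 = θ * (1 - θ) * (ρ * √I0 - √I1) ^ 2 / ρ := by
      have := halg (√I0) (√I1)
      rw [hu, hv] at this
      exact this
    have h4 : 0 ≤ θ * (1 - θ) * (ρ * √I0 - √I1) ^ 2 / ρ :=
      div_nonneg (mul_nonneg (mul_nonneg hθ0 h1θ) (sq_nonneg _)) hρpos.le
    linarith
  exact Real.le_sqrt_of_sq_le hkey

end Vale.Agent.Lib.P243
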