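import Mathlib
import Vale.Agent.Lib.P243.VolBM2

open MeasureTheory Set

namespace Vale.Agent.Lib.P243

/-- The length of the chord of `K` over the point `y` of the base plane. -/
noncomputable def chordLen (K : Set ((ℝ × ℝ) × ℝ)) (y : ℝ × ℝ) : ℝ :=
  (volume (Prod.mk y ⁻¹' K)).toReal

/-- The set of base points of the shadow of `K` whose chord is longer than `t`. -/
def supLevel (K : Set ((ℝ × ℝ) × ℝ)) (t : ℝ) : Set (ℝ × ℝ) :=
  {y | y ∈ Prod.fst '' K ∧ t < chordLen K y}

/-- The area of the superlevel set. -/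
noncomputable def levelArea (K : Set ((ℝ × ℝ) × ℝ)) (t : ℝ) : ℝ :=
  (volume (supLevel K t)).toReal

variable {K : Set ((ℝ × ℝ) × ℝ)}

theorem chordLen_nonneg (K : Set ((ℝ × ℝ) × ℝ)) (y : ℝ × ℝ) : 0 ≤ chordLen K y :=
  ENNReal.toReal_nonneg

theorem chordLen_measurable (hKc : IsCompact K) : Measurable (chordLen K) :=
  (measurable_measure_prodMk_left hKc.measurableSet).ennreal_toReal

theorem chord_section_ne_top (hKc : IsCompact K) (y : ℝ × ℝ) :
    volume (Prod.mk y ⁻¹' K) ≠ ⊤ :=
  (section_bounded hKc.isBounded y).measure_lt_top.ne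

theorem ofReal_chordLen (hKc : IsCompact K) (y : ℝ × ℝ) :
    ENNReal.ofReal (chordLen K y) = volume (Prod.mk y ⁻¹' K) :=
  ENNReal.ofReal_toReal (chord_section_ne_top hKc y)

theorem chordLen_eq_zero_of_notMem {y : ℝ × ℝ} (hy : y ∉ Prod.fst '' K) : chordLen K y = 0 := by
  have : Prod.mk y ⁻¹' K = ∅ := by
    ext z
    simp only [mem_preimage, mem_empty_iff_false, iff_false]
    intro hz
    exact hy ⟨(y, z), hz, rfl⟩
  simp [chordLen, this]

theorem section_nonempty_of_mem {y : ℝ × ℝ} (hy : y ∈ Prod.fst '' K) :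
    (Prod.mk y ⁻¹' K).Nonempty := by
  obtain ⟨p, hp, hpy⟩ := hy
  refine ⟨p.2, ?_⟩
  show (y, p.2) ∈ K
  rw [← hpy]; exact hp

theorem chordLen_concave (hKc : IsCompact K) (hKconv : Convex ℝ K) {y0 y1 : ℝ × ℝ}
    (hy0 : y0 ∈ Prod.fst '' K) (hy1 : y1 ∈ Prod.fst '' K) {θ : ℝ} (hθ0 : 0 ≤ θ) (hθ1 : θ ≤ 1) :
    (1 - θ) * chordLen K y0 + θ * chordLen K y1 ≤ chordLen K ((1 - θ) • y0 + θ • y1) := by
  have hmix : ∀ p ∈ K, ∀ q ∈ K, (1 - θ) • p + θ • q ∈ K := fun p hp q hq =>
    hKconv hp hq (by linarith) hθ0 (by ring)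
  have hbm := section_bm hθ0 hθ1 hmix hKconv hKconv (section_bounded hKc.isBounded y0)
    (section_bounded hKc.isBounded y1) (section_nonempty_of_mem hy0) (section_nonempty_of_mem hy1)
  have := ENNReal.toReal_mono (chord_section_ne_top hKc _) hbm
  rw [ENNReal.toReal_add (ENNReal.mul_ne_top ENNReal.ofReal_ne_top (chord_section_ne_top hKc _))
    (ENNReal.mul_ne_top ENNReal.ofReal_ne_top (chord_section_ne_top hKc _)), ENNReal.toReal_mul,
    ENNReal.toReal_mul, ENNReal.toReal_ofReal (by linarith), ENNReal.toReal_ofReal hθ0] at this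
  exact this

theorem chordLen_lt (hKc : IsCompact K) :
    ∃ M : ℝ, 0 < M ∧ ∀ y, chordLen K y < M := by
  have hZ : IsCompact (Prod.snd '' K) := hKc.image continuous_snd
  refine ⟨(volume (Prod.snd '' K)).toReal + 1, by positivity, fun y => ?_⟩
  have hsub : Prod.mk y ⁻¹' K ⊆ Prod.snd '' K := fun z hz => ⟨(y, z), hz, rfl⟩
  have : chordLen K y ≤ (volume (Prod.snd '' K)).toReal :=
    ENNReal.toReal_mono hZ.measure_lt_top.ne (measure_mono hsub)
  linarith

theorem proj_convex (hKconv : Convex ℝ K) : Convex ℝ (Prod.fst '' K) :=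
  hKconv.linear_image (LinearMap.fst ℝ (ℝ × ℝ) ℝ)

theorem supLevel_subset (K : Set ((ℝ × ℝ) × ℝ)) (t : ℝ) : supLevel K t ⊆ Prod.fst '' K :=
  fun _ hy => hy.1

theorem supLevel_measurable (hKc : IsCompact K) (t : ℝ) : MeasurableSet (supLevel K t) :=
  (hKc.image continuous_fst).measurableSet.inter
    (measurableSet_lt measurable_const (chordLen_measurable hKc))

theorem supLevel_bounded (hKc : IsCompact K) (t : ℝ) : Bornology.IsBounded (supLevel K t) :=
  (hKc.image continuous_fst).isBounded.subset (supLevel_subset K t)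

theorem supLevel_ne_top (hKc : IsCompact K) (t : ℝ) : volume (supLevel K t) ≠ ⊤ :=
  (supLevel_bounded hKc t).measure_lt_top.ne

theorem supLevel_mix (hKc : IsCompact K) (hKconv : Convex ℝ K) {t0 t1 θ : ℝ} (hθ0 : 0 ≤ θ)
    (hθ1 : θ ≤ 1) {p q : ℝ × ℝ} (hp : p ∈ supLevel K t0) (hq : q ∈ supLevel K t1) :
    (1 - θ) • p + θ • q ∈ supLevel K ((1 - θ) * t0 + θ * t1) := by
  refine ⟨proj_convex hKconv hp.1 hq.1 (by linarith) hθ0 (by ring), ?_⟩
  have hc := chordLen_concave hKc hKconv hp.1 hq.1 hθ0 hθ1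
  have h1 : (1 - θ) * t0 ≤ (1 - θ) * chordLen K p :=
    mul_le_mul_of_nonneg_left hp.2.le (by linarith)
  have h2 : θ * t1 ≤ θ * chordLen K q := mul_le_mul_of_nonneg_left hq.2.le hθ0
  rcases hθ0.eq_or_lt with h | h
  · subst h
    have : (1 - 0) * t0 < (1 - 0) * chordLen K p := by simpa using hp.2
    linarith
  · have : θ * t1 < θ * chordLen K q := mul_lt_mul_of_pos_left hq.2 h
    linarith

theorem supLevel_convex (hKc : IsCompact K) (hKconv : Convex ℝ K) (t : ℝ) :
    Convex ℝ (supLevel K t) := by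
  intro p hp q hq a b ha hb hab
  have ha' : a = 1 - b := by linarith
  have := supLevel_mix hKc hKconv hb (by linarith) hp hq
  rw [ha']
  have e : (1 - b) * t + b * t = t := by ring
  rw [e] at this
  exact this

theorem supLevel_antitone (K : Set ((ℝ × ℝ) × ℝ)) {s t : ℝ} (hst : s ≤ t) :
    supLevel K t ⊆ supLevel K s :=
  fun _ hy => ⟨hy.1, lt_of_le_of_lt hst hy.2⟩

theorem supLevel_eq (K : Set ((ℝ × ℝ) × ℝ)) {t : ℝ} (ht : 0 ≤ t) :
    supLevel K t = {y | t < chordLen K y} := by
  ext y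
  constructor
  · exact fun hy => hy.2
  · intro hy
    refine ⟨?_, hy⟩
    by_contra hno
    have h0 := chordLen_eq_zero_of_notMem hno
    have hy' : t < chordLen K y := hy
    rw [h0] at hy'
    linarith

theorem levelArea_nonneg (K : Set ((ℝ × ℝ) × ℝ)) (t : ℝ) : 0 ≤ levelArea K t :=
  ENNReal.toReal_nonneg

theorem levelArea_antitone (hKc : IsCompact K) : Antitone (levelArea K) :=
  fun _ _ hst => ENNReal.toReal_mono (supLevel_ne_top hKc _)
    (measure_mono (supLevel_antitone K hst))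

theorem ofReal_levelArea (hKc : IsCompact K) (t : ℝ) :
    ENNReal.ofReal (levelArea K t) = volume (supLevel K t) :=
  ENNReal.ofReal_toReal (supLevel_ne_top hKc t)

theorem levelArea_eq_zero {M : ℝ} (hM : ∀ y, chordLen K y < M) {t : ℝ} (ht : M ≤ t) :
    levelArea K t = 0 := by
  have : supLevel K t = ∅ := by
    ext y
    simp only [mem_empty_iff_false, iff_false]
    intro hy
    have := hM y
    have := hy.2
    linarith
  simp [levelArea, this]

/-- Concavity of the square root of the level area along chords from level zero. -/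
theorem levelArea_chord (hKc : IsCompact K) (hKconv : Convex ℝ K) (h0 : 0 < levelArea K 0)
    {t' : ℝ} (ht' : 0 < levelArea K t') {lam : ℝ} (hl0 : 0 ≤ lam) (hl1 : lam ≤ 1) :
    (1 - lam) * √(levelArea K 0) + lam * √(levelArea K t') ≤ √(levelArea K (lam * t')) := by
  have hmix : ∀ p ∈ supLevel K 0, ∀ q ∈ supLevel K t', (1 - lam) • p + lam • q ∈
      supLevel K (lam * t') := by
    intro p hp q hq
    have := supLevel_mix hKc hKconv hl0 hl1 hp hq
    have e : (1 - lam) * 0 + lam * t' = lam * t' := by ring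
    rw [e] at this
    exact this
  have hne0 : volume (supLevel K 0) ≠ 0 := by
    intro h
    simp [levelArea, h] at h0
  have hne1 : volume (supLevel K t') ≠ 0 := by
    intro h
    simp [levelArea, h] at ht'
  exact bm_planar (supLevel_convex hKc hKconv 0) (supLevel_convex hKc hKconv t')
    (supLevel_bounded hKc 0) (supLevel_bounded hKc t') (supLevel_bounded hKc _)
    (supLevel_measurable hKc 0) (supLevel_measurable hKc t') (supLevel_measurable hKc _)
    hl0 hl1 hmix hne0 hne1

end Vale.Agent.Lib.P243
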