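import Mathlib

open MeasureTheory Set

namespace Vale.Agent.Lib.P243

/-- The integral of the squared cone profile. -/
theorem integral_cone (P h x : ℝ) (hh : h ≠ 0) :
    ∫ t in x..h, P * (1 - t / h) ^ 2 = P * h / 3 * (1 - x / h) ^ 3 := by
  have hderiv : ∀ t ∈ uIcc x h,
      HasDerivAt (fun t : ℝ => -(P * h / 3) * (1 - t / h) ^ 3) (P * (1 - t / h) ^ 2) t := by
    intro t _
    have h1 : HasDerivAt (fun t : ℝ => 1 - t / h) (-(1 / h)) t :=
      ((hasDerivAt_id t).div_const h).const_sub 1
    have h2 : HasDerivAt (fun t : ℝ => -(P * h / 3) * (1 - t / h) ^ 3)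
        (-(P * h / 3) * (((3 : ℕ) : ℝ) * (1 - t / h) ^ (3 - 1) * -(1 / h))) t :=
      (h1.pow 3).const_mul (-(P * h / 3))
    refine h2.congr_deriv ?_
    push_cast
    field_simp
  have hcont : Continuous fun t : ℝ => P * (1 - t / h) ^ 2 := by fun_prop
  rw [intervalIntegral.integral_eq_sub_of_hasDerivAt hderiv (hcont.intervalIntegrable _ _)]
  rw [div_self hh]
  ring

/-- Single crossing comparison of a profile whose square root is concave along chords from the
origin with the cone profile of the same integral. -/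
theorem profile_bound {a : ℝ → ℝ} {P M : ℝ} (hP : 0 < P) (ha0 : a 0 = P)
    (hanti : Antitone a) (hzero : ∀ t, M ≤ t → a t = 0)
    (hnn : ∀ t, 0 ≤ a t)
    (hchord : ∀ t', 0 < t' → 0 < a t' → ∀ lam, 0 ≤ lam → lam ≤ 1 →
      (1 - lam) * √P + lam * √(a t') ≤ √(a (lam * t')))
    {V : ℝ} (hV : V = ∫ t in (0 : ℝ)..M, a t) (hVpos : 0 < V) {κ : ℝ} (hκ0 : 0 ≤ κ)
    (hκ : κ ≤ 3 * V / P) :
    ∫ t in κ..(max M (3 * V / P)), a t ≤ V * (1 - κ * P / (3 * V)) ^ 3 := by
  set h := 3 * V / P with hh
  have hhpos : 0 < h := by positivity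
  set T := max M h with hT
  have hMT : M ≤ T := le_max_left _ _
  have hhT : h ≤ T := le_max_right _ _
  set g : ℝ → ℝ := fun t => P * (max 0 (1 - t / h)) ^ 2 with hg
  have hgnn : ∀ t, 0 ≤ g t := fun t => mul_nonneg hP.le (sq_nonneg _)
  have hsqP : 0 < √P := Real.sqrt_pos.mpr hP
  -- single crossing
  have hcross : ∃ c, 0 ≤ c ∧ (∀ t, 0 ≤ t → t < c → g t ≤ a t) ∧ (∀ t, c < t → a t ≤ g t) := by
    set Good : Set ℝ := {t | 0 ≤ t ∧ 0 < a t ∧ √P * (1 - t / h) ≤ √(a t)} with hGood
    have h0G : (0 : ℝ) ∈ Good := by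
      refine ⟨le_rfl, by rw [ha0]; exact hP, ?_⟩
      rw [ha0]; simp
    have hbdd : BddAbove Good := by
      refine ⟨M, fun t ht => ?_⟩
      by_contra hlt
      push Not at hlt
      have := hzero t hlt.le
      linarith [ht.2.1]
    have hdown : ∀ t' ∈ Good, ∀ t, 0 ≤ t → t ≤ t' → t ∈ Good := by
      intro t' ht' t ht0 htt'
      rcases ht'.1.eq_or_lt with h0 | hpos
      · have : t = 0 := le_antisymm (by linarith) ht0
        rw [this]; exact h0G
      · have hat : 0 < a t := lt_of_lt_of_le ht'.2.1 (hanti htt')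
        refine ⟨ht0, hat, ?_⟩
        have hlam0 : 0 ≤ t / t' := div_nonneg ht0 hpos.le
        have hlam1 : t / t' ≤ 1 := (div_le_one hpos).mpr htt'
        have hc := hchord t' hpos ht'.2.1 (t / t') hlam0 hlam1
        rw [div_mul_cancel₀ _ hpos.ne'] at hc
        have e : √P * (1 - t / h) = (1 - t / t') * √P + t / t' * (√P * (1 - t' / h)) := by
          field_simp
          ring
        rw [e]
        have := mul_le_mul_of_nonneg_left ht'.2.2 hlam0
        linarith
    refine ⟨sSup Good, le_csSup hbdd h0G, ?_, ?_⟩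
    · intro t ht0 htc
      obtain ⟨t', ht', htt'⟩ := exists_lt_of_lt_csSup ⟨0, h0G⟩ htc
      have htG := hdown t' ht' t ht0 htt'.le
      show P * (max 0 (1 - t / h)) ^ 2 ≤ a t
      rcases le_or_gt (1 - t / h) 0 with hneg | hpos
      · rw [max_eq_left hneg]; simpa using hnn t
      · rw [max_eq_right hpos.le]
        have h1 : (√P * (1 - t / h)) ^ 2 ≤ √(a t) ^ 2 :=
          pow_le_pow_left₀ (mul_nonneg hsqP.le hpos.le) htG.2.2 2
        rw [Real.sq_sqrt (hnn t), mul_pow, Real.sq_sqrt hP.le] at h1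
        exact h1
    · intro t htc
      have htG : t ∉ Good := fun hG => absurd (le_csSup hbdd hG) (not_le.mpr htc)
      have ht0 : 0 ≤ t := le_trans (le_csSup hbdd h0G) htc.le
      show a t ≤ P * (max 0 (1 - t / h)) ^ 2
      by_cases hat : 0 < a t
      · have hlt : √(a t) < √P * (1 - t / h) := by
          by_contra hge
          push Not at hge
          exact htG ⟨ht0, hat, hge⟩
        have hpos : 0 < 1 - t / h := by
          by_contra hle
          push Not at hle
          have : √P * (1 - t / h) ≤ 0 := mul_nonpos_of_nonneg_of_nonpos hsqP.le hle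
          linarith [Real.sqrt_nonneg (a t)]
        rw [max_eq_right hpos.le]
        have h1 : √(a t) ^ 2 ≤ (√P * (1 - t / h)) ^ 2 :=
          pow_le_pow_left₀ (Real.sqrt_nonneg _) hlt.le 2
        rw [Real.sq_sqrt (hnn t), mul_pow, Real.sq_sqrt hP.le] at h1
        exact h1
      · have : a t = 0 := le_antisymm (not_lt.mp hat) (hnn t)
        rw [this]; exact hgnn t
  obtain ⟨c, hc0, hcl, hcr⟩ := hcross
  -- integrability
  have hai : ∀ x y : ℝ, IntervalIntegrable a volume x y := fun x y => hanti.intervalIntegrable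
  have hgc : Continuous g := by
    show Continuous fun t => P * (max 0 (1 - t / h)) ^ 2
    fun_prop
  have hgi : ∀ x y : ℝ, IntervalIntegrable g volume x y := fun x y => hgc.intervalIntegrable _ _
  -- integral of g from x to T for 0 ≤ x ≤ h
  have hgint : ∀ x, 0 ≤ x → x ≤ h → ∫ t in x..T, g t = P * h / 3 * (1 - x / h) ^ 3 := by
    intro x hx0 hxh
    rw [← intervalIntegral.integral_add_adjacent_intervals (hgi x h) (hgi h T)]
    have e1 : ∫ t in x..h, g t = ∫ t in x..h, P * (1 - t / h) ^ 2 := by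
      apply intervalIntegral.integral_congr
      intro t ht
      rw [uIcc_of_le hxh] at ht
      have : 0 ≤ 1 - t / h := by
        rw [sub_nonneg, div_le_one hhpos]; exact ht.2
      show P * (max 0 (1 - t / h)) ^ 2 = P * (1 - t / h) ^ 2
      rw [max_eq_right this]
    have e2 : ∫ t in h..T, g t = ∫ t in h..T, (0 : ℝ) := by
      apply intervalIntegral.integral_congr
      intro t ht
      rw [uIcc_of_le hhT] at ht
      have : 1 - t / h ≤ 0 := by
        rw [sub_nonpos, le_div_iff₀ hhpos]; linarith [ht.1]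
      show P * (max 0 (1 - t / h)) ^ 2 = 0
      rw [max_eq_left this]; ring
    rw [e1, e2, integral_cone P h x hhpos.ne', intervalIntegral.integral_zero, add_zero]
  have hPh : P * h / 3 = V := by
    rw [hh]; field_simp
  have hg0 : ∫ t in (0 : ℝ)..T, g t = V := by
    rw [hgint 0 le_rfl hhpos.le, hPh]; simp
  have ha0T : ∫ t in (0 : ℝ)..T, a t = V := by
    rw [← intervalIntegral.integral_add_adjacent_intervals (hai 0 M) (hai M T)]
    have e2 : ∫ t in M..T, a t = ∫ t in M..T, (0 : ℝ) := by
      apply intervalIntegral.integral_congr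
      intro t ht
      rw [uIcc_of_le hMT] at ht
      exact hzero t ht.1
    rw [e2, intervalIntegral.integral_zero, add_zero, hV]
  have hκT : κ ≤ T := le_trans hκ hhT
  have hmain : ∫ t in κ..T, a t ≤ ∫ t in κ..T, g t := by
    rcases le_or_gt c κ with hcκ | hκc
    · apply intervalIntegral.integral_mono_on_of_le_Ioo hκT (hai κ T) (hgi κ T)
      intro t ht
      exact hcr t (lt_of_le_of_lt hcκ ht.1)
    · have h1 : ∫ t in (0 : ℝ)..κ, g t ≤ ∫ t in (0 : ℝ)..κ, a t := by
        apply intervalIntegral.integral_mono_on_of_le_Ioo hκ0 (hgi 0 κ) (hai 0 κ)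
        intro t ht
        exact hcl t ht.1.le (lt_trans ht.2 hκc)
      have h2 := intervalIntegral.integral_add_adjacent_intervals (hai 0 κ) (hai κ T)
      have h3 := intervalIntegral.integral_add_adjacent_intervals (hgi 0 κ) (hgi κ T)
      linarith
  have hfin : ∫ t in κ..T, g t = V * (1 - κ * P / (3 * V)) ^ 3 := by
    rw [hgint κ hκ0 hκ, hPh]
    have : κ / h = κ * P / (3 * V) := by
      rw [hh]; field_simp
    rw [this]
  linarith

end Vale.Agent.Lib.P243
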