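import Mathlib
import Vale.Agent.Lib.P243.VolLevel
import Vale.Agent.Lib.P243.VolProfile

open MeasureTheory Set

namespace Vale.Agent.Lib.P243

variable {K : Set ((ℝ × ℝ) × ℝ)}

theorem proj_volume_ne_top (hKc : IsCompact K) : volume (Prod.fst '' K) ≠ ⊤ :=
  (hKc.image continuous_fst).measure_lt_top.ne

theorem chordLen_pos_of_interior (hKc : IsCompact K) {y : ℝ × ℝ}
    (hy : y ∈ Prod.fst '' interior K) : 0 < chordLen K y := by
  obtain ⟨p, hp, rfl⟩ := hy
  obtain ⟨ε, hε, hball⟩ := Metric.isOpen_iff.mp isOpen_interior p hp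
  have hsub : Ioo (p.2 - ε) (p.2 + ε) ⊆ Prod.mk p.1 ⁻¹' K := by
    intro z hz
    show (p.1, z) ∈ K
    apply interior_subset
    apply hball
    rw [Metric.mem_ball, Prod.dist_eq, dist_self, Real.dist_eq]
    simp only [max_lt_iff]
    refine ⟨hε, ?_⟩
    rw [abs_lt]
    constructor <;> linarith [hz.1, hz.2]
  have hpos : 0 < volume (Prod.mk p.1 ⁻¹' K) := by
    have h1 : volume (Ioo (p.2 - ε) (p.2 + ε)) = ENNReal.ofReal (2 * ε) := by
      rw [Real.volume_Ioo]; congr 1; ring
    have h2 : 0 < ENNReal.ofReal (2 * ε) := ENNReal.ofReal_pos.mpr (by linarith)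
    exact lt_of_lt_of_le (h1 ▸ h2) (measure_mono hsub)
  exact ENNReal.toReal_pos hpos.ne' (chord_section_ne_top hKc _)

theorem proj_volume_pos (hKint : (interior K).Nonempty) : 0 < volume (Prod.fst '' K) := by
  have hopen : IsOpen (Prod.fst '' interior K) := isOpenMap_fst _ isOpen_interior
  have h1 : 0 < volume (Prod.fst '' interior K) := hopen.measure_pos volume (hKint.image _)
  exact lt_of_lt_of_le h1 (measure_mono (image_mono interior_subset))

theorem volume_pos_of_interior (hKint : (interior K).Nonempty) : 0 < volume K :=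
  lt_of_lt_of_le (isOpen_interior.measure_pos volume hKint) (measure_mono interior_subset)

theorem levelArea_zero (hKc : IsCompact K) (hKconv : Convex ℝ K)
    (hKint : (interior K).Nonempty) : levelArea K 0 = (volume (Prod.fst '' K)).toReal := by
  have hle : volume (supLevel K 0) ≤ volume (Prod.fst '' K) := measure_mono (supLevel_subset K 0)
  have hopen : IsOpen (Prod.fst '' interior K) := isOpenMap_fst _ isOpen_interior
  have hconv : Convex ℝ (Prod.fst '' interior K) :=
    hKconv.interior.linear_image (LinearMap.fst ℝ (ℝ × ℝ) ℝ)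
  have hnull : volume (frontier (Prod.fst '' interior K)) = 0 := hconv.addHaar_frontier volume
  have hsub : Prod.fst '' K ⊆ supLevel K 0 ∪ frontier (Prod.fst '' interior K) := by
    intro y hy
    by_cases hyU : y ∈ Prod.fst '' interior K
    · left
      exact ⟨hy, chordLen_pos_of_interior hKc hyU⟩
    · right
      rw [hopen.frontier_eq]
      refine ⟨?_, hyU⟩
      have h1 : K ⊆ closure (interior K) := by
        rw [hKconv.closure_interior_eq_closure_of_nonempty_interior hKint]
        exact subset_closure
      have h2 : Prod.fst '' closure (interior K) ⊆ closure (Prod.fst '' interior K) :=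
        image_closure_subset_closure_image continuous_fst
      exact h2 (image_mono h1 hy)
  have hge : volume (Prod.fst '' K) ≤ volume (supLevel K 0) := by
    calc volume (Prod.fst '' K) ≤ volume (supLevel K 0 ∪ frontier (Prod.fst '' interior K)) :=
        measure_mono hsub
      _ ≤ volume (supLevel K 0) + volume (frontier (Prod.fst '' interior K)) :=
        measure_union_le _ _
      _ = volume (supLevel K 0) := by rw [hnull, add_zero]
  show (volume (supLevel K 0)).toReal = (volume (Prod.fst '' K)).toReal
  rw [le_antisymm hle hge]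

theorem volume_inter_eq (hKc : IsCompact K) {B : Set (ℝ × ℝ)} (hB : MeasurableSet B) :
    volume (K ∩ Prod.fst ⁻¹' B) = ∫⁻ y in B, ENNReal.ofReal (chordLen K y) := by
  rw [Measure.volume_eq_prod, Measure.prod_apply (hKc.measurableSet.inter (measurable_fst hB)),
    ← lintegral_indicator hB]
  apply lintegral_congr
  intro y
  by_cases hy : y ∈ B
  · rw [indicator_of_mem hy, ofReal_chordLen hKc]
    congr 1
    ext z
    simp [hy]
  · rw [indicator_of_notMem hy]
    have : Prod.mk y ⁻¹' (K ∩ Prod.fst ⁻¹' B) = ∅ := by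
      ext z
      simp [hy]
    rw [this, measure_empty]

theorem volume_eq_lintegral_chord (hKc : IsCompact K) :
    volume K = ∫⁻ y, ENNReal.ofReal (chordLen K y) := by
  have := volume_inter_eq hKc (B := univ) MeasurableSet.univ
  simpa using this

theorem lintegral_chord_layer (hKc : IsCompact K) (μ : Measure (ℝ × ℝ)) :
    ∫⁻ y, ENNReal.ofReal (chordLen K y) ∂μ = ∫⁻ t in Ioi 0, μ {y | t < chordLen K y} :=
  lintegral_eq_lintegral_meas_lt μ (Filter.Eventually.of_forall (chordLen_nonneg K))
    (chordLen_measurable hKc).aemeasurable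

theorem lintegral_Ioi_levelArea (hKc : IsCompact K) {M : ℝ} (hM : ∀ y, chordLen K y < M)
    {κ T : ℝ} (hκT : κ ≤ T) (hMT : M ≤ T) :
    ∫⁻ t in Ioi κ, ENNReal.ofReal (levelArea K t) =
      ENNReal.ofReal (∫ t in κ..T, levelArea K t) := by
  rw [← Ioc_union_Ioi_eq_Ioi hκT, lintegral_union measurableSet_Ioi
    (Set.disjoint_left.mpr fun t ht1 ht2 => absurd ht1.2 (not_le.mpr ht2))]
  have h2 : ∫⁻ t in Ioi T, ENNReal.ofReal (levelArea K t) = 0 := by
    have : ∀ t ∈ Ioi T, ENNReal.ofReal (levelArea K t) = 0 := by
      intro t ht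
      rw [levelArea_eq_zero hM (hMT.trans (le_of_lt ht)), ENNReal.ofReal_zero]
    rw [setLIntegral_congr_fun measurableSet_Ioi this, lintegral_zero]
  rw [h2, add_zero, intervalIntegral.integral_of_le hκT]
  exact (ofReal_integral_eq_lintegral_ofReal
    ((levelArea_antitone hKc).intervalIntegrable (μ := volume) (a := κ) (b := T)).1
    (Filter.Eventually.of_forall (levelArea_nonneg K))).symm

/-- The sharp volume bound for one cylinder, in coordinates: the part of a convex body lying
over a base set `B` has volume at most `3 (1 - σ) |B| / |proj K| + σ ^ 3` times the volume of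
the body, for every `σ` between `0` and `1`. -/
theorem lorenz_coord (hKc : IsCompact K) (hKconv : Convex ℝ K) (hKint : (interior K).Nonempty)
    {B : Set (ℝ × ℝ)} (hB : MeasurableSet B) {σ : ℝ} (hσ0 : 0 ≤ σ) (hσ1 : σ ≤ 1) :
    volume (K ∩ Prod.fst ⁻¹' B) ≤
      (ENNReal.ofReal (3 * (1 - σ)) * (volume B / volume (Prod.fst '' K)) +
        ENNReal.ofReal (σ ^ 3)) * volume K := by
  obtain ⟨M, hMpos, hM⟩ := chordLen_lt hKc
  have hVfin : volume K ≠ ⊤ := hKc.measure_lt_top.ne
  have hPpos : 0 < (volume (Prod.fst '' K)).toReal :=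
    ENNReal.toReal_pos (proj_volume_pos hKint).ne' (proj_volume_ne_top hKc)
  have hVpos : 0 < (volume K).toReal :=
    ENNReal.toReal_pos (volume_pos_of_interior hKint).ne' hVfin
  have ha0 : levelArea K 0 = (volume (Prod.fst '' K)).toReal := levelArea_zero hKc hKconv hKint
  set P := (volume (Prod.fst '' K)).toReal with hP
  set V := (volume K).toReal with hV
  have h1σ : 0 ≤ 1 - σ := by linarith
  -- the volume as the integral of the level areas
  have hVint : V = ∫ t in (0 : ℝ)..M, levelArea K t := by
    have h1 : volume K = ∫⁻ t in Ioi 0, ENNReal.ofReal (levelArea K t) := by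
      rw [volume_eq_lintegral_chord hKc, lintegral_chord_layer hKc volume]
      apply setLIntegral_congr_fun measurableSet_Ioi
      intro t ht
      show volume {y | t < chordLen K y} = ENNReal.ofReal (levelArea K t)
      rw [ofReal_levelArea hKc, supLevel_eq K (le_of_lt ht)]
    rw [lintegral_Ioi_levelArea hKc hM hMpos.le le_rfl] at h1
    rw [hV, h1, ENNReal.toReal_ofReal]
    exact intervalIntegral.integral_nonneg hMpos.le (fun t _ => levelArea_nonneg K t)
  set κ := 3 * (1 - σ) * V / P with hκ
  have hκ0 : 0 ≤ κ := by positivity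
  have hκle : κ ≤ 3 * V / P := by
    rw [hκ]
    apply div_le_div_of_nonneg_right _ hPpos.le
    nlinarith
  have hprof := profile_bound hPpos ha0 (levelArea_antitone hKc)
    (fun t ht => levelArea_eq_zero hM ht) (levelArea_nonneg K)
    (fun t' _ hat' lam hl0 hl1 => by
      have := levelArea_chord hKc hKconv (by rw [ha0]; exact hPpos) hat' hl0 hl1
      rw [ha0] at this
      exact this) hVint hVpos hκ0 hκle
  have hσ3 : V * (1 - κ * P / (3 * V)) ^ 3 = σ ^ 3 * V := by
    have : κ * P / (3 * V) = 1 - σ := by
      rw [hκ]; field_simp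
    rw [this]; ring
  rw [hσ3] at hprof
  -- layer cake for the cylinder part
  have hstep1 : volume (K ∩ Prod.fst ⁻¹' B) =
      ∫⁻ t in Ioi 0, (volume.restrict B) {y | t < chordLen K y} := by
    rw [volume_inter_eq hKc hB, lintegral_chord_layer hKc (volume.restrict B)]
  rw [hstep1, ← Ioc_union_Ioi_eq_Ioi hκ0, lintegral_union measurableSet_Ioi
    (Set.disjoint_left.mpr fun t ht1 ht2 => absurd ht1.2 (not_le.mpr ht2))]
  have hA : ∫⁻ t in Ioc 0 κ, (volume.restrict B) {y | t < chordLen K y} ≤
      volume B * ENNReal.ofReal κ := by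
    calc ∫⁻ t in Ioc 0 κ, (volume.restrict B) {y | t < chordLen K y}
        ≤ ∫⁻ _ in Ioc 0 κ, volume B := by
          apply lintegral_mono
          intro t
          calc (volume.restrict B) {y | t < chordLen K y} ≤ (volume.restrict B) univ :=
              measure_mono (subset_univ _)
            _ = volume B := Measure.restrict_apply_univ B
      _ = volume B * ENNReal.ofReal κ := by
          rw [setLIntegral_const, Real.volume_Ioc, sub_zero]
  have hBd : ∫⁻ t in Ioi κ, (volume.restrict B) {y | t < chordLen K y} ≤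
      ENNReal.ofReal (σ ^ 3 * V) := by
    calc ∫⁻ t in Ioi κ, (volume.restrict B) {y | t < chordLen K y}
        ≤ ∫⁻ t in Ioi κ, ENNReal.ofReal (levelArea K t) := by
          apply setLIntegral_mono' measurableSet_Ioi
          intro t ht
          rw [ofReal_levelArea hKc, supLevel_eq K (le_trans hκ0 (le_of_lt ht))]
          exact Measure.restrict_apply_le _ _
      _ = ENNReal.ofReal (∫ t in κ..max M (3 * V / P), levelArea K t) :=
          lintegral_Ioi_levelArea hKc hM (hκle.trans (le_max_right _ _)) (le_max_left _ _)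
      _ ≤ ENNReal.ofReal (σ ^ 3 * V) := ENNReal.ofReal_le_ofReal hprof
  have hPe : volume (Prod.fst '' K) = ENNReal.ofReal P :=
    (ENNReal.ofReal_toReal (proj_volume_ne_top hKc)).symm
  have hVe : volume K = ENNReal.ofReal V := (ENNReal.ofReal_toReal hVfin).symm
  calc (∫⁻ t in Ioc 0 κ, (volume.restrict B) {y | t < chordLen K y}) +
        ∫⁻ t in Ioi κ, (volume.restrict B) {y | t < chordLen K y}
      ≤ volume B * ENNReal.ofReal κ + ENNReal.ofReal (σ ^ 3 * V) := add_le_add hA hBd
    _ = (ENNReal.ofReal (3 * (1 - σ)) * (volume B / volume (Prod.fst '' K)) +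
        ENNReal.ofReal (σ ^ 3)) * volume K := by
      rw [hPe, hVe, hκ, ENNReal.ofReal_div_of_pos hPpos,
        ENNReal.ofReal_mul (by positivity : (0 : ℝ) ≤ 3 * (1 - σ)),
        ENNReal.ofReal_mul (by positivity : (0 : ℝ) ≤ σ ^ 3), add_mul]
      congr 1
      simp only [div_eq_mul_inv]
      ring

end Vale.Agent.Lib.P243
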