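import Mathlib
import Vale.Agent.Lib.P243.VolLorenz
import Vale.Agent.Lib.P243.General

open MeasureTheory Set

namespace Vale.Agent.Lib.P243

/-- A continuous linear isomorphism scales Haar measures by a constant. -/
theorem exists_scale_gen {D F : Type*} [NormedAddCommGroup D] [NormedSpace ℝ D]
    [MeasurableSpace D] [BorelSpace D] [FiniteDimensional ℝ D]
    [NormedAddCommGroup F] [NormedSpace ℝ F] [MeasurableSpace F]
    [BorelSpace F] [FiniteDimensional ℝ F] (μ : Measure D) [μ.IsAddHaarMeasure]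
    (ν : Measure F) [ν.IsAddHaarMeasure] (ψ : D ≃L[ℝ] F) :
    ∃ c : ENNReal, c ≠ 0 ∧ c ≠ ⊤ ∧ ∀ S : Set F, MeasurableSet S → μ (ψ ⁻¹' S) = c * ν S := by
  have : (Measure.map ψ μ).IsAddHaarMeasure := ψ.isAddHaarMeasure_map μ
  have hsm := Measure.isAddLeftInvariant_eq_smul (Measure.map ψ μ) ν
  have hpos := Measure.addHaarScalarFactor_pos_of_isAddHaarMeasure (Measure.map ψ μ) ν
  refine ⟨(Measure.addHaarScalarFactor (Measure.map ψ μ) ν : ENNReal), ?_, ENNReal.coe_ne_top, ?_⟩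
  · exact_mod_cast hpos.ne'
  · intro S hS
    have h1 : Measure.map ψ μ S = μ (ψ ⁻¹' S) := Measure.map_apply ψ.continuous.measurable hS
    rw [← h1]
    conv_lhs => rw [hsm]
    rfl

variable {E : Type*} [NormedAddCommGroup E] [InnerProductSpace ℝ E]

/-- The linear map `(y, z) ↦ ψ y + z • u`. -/
noncomputable def cylMap (u : E) (ψ : (ℝ × ℝ) →ₗ[ℝ] ↥(ℝ ∙ u)ᗮ) : ((ℝ × ℝ) × ℝ) →ₗ[ℝ] E where
  toFun p := (ψ p.1 : E) + p.2 • u
  map_add' p q := by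
    simp only [Prod.fst_add, Prod.snd_add, map_add, Submodule.coe_add, add_smul]
    abel
  map_smul' c p := by
    simp only [Prod.smul_fst, Prod.smul_snd, map_smul, Submodule.coe_smul, smul_eq_mul, mul_smul,
      RingHom.id_apply, smul_add]

theorem cylMap_apply (u : E) (ψ : (ℝ × ℝ) →ₗ[ℝ] ↥(ℝ ∙ u)ᗮ) (p : (ℝ × ℝ) × ℝ) :
    cylMap u ψ p = (ψ p.1 : E) + p.2 • u := rfl

theorem cylMap_proj (u : E) (ψ : (ℝ × ℝ) →ₗ[ℝ] ↥(ℝ ∙ u)ᗮ) (p : (ℝ × ℝ) × ℝ) :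
    (ℝ ∙ u)ᗮ.orthogonalProjectionOnto (cylMap u ψ p) = ψ p.1 := by
  rw [cylMap_apply, map_add, map_smul, proj_self_eq_zero, smul_zero, add_zero]
  exact Submodule.orthogonalProjectionOnto_mem_subspace_eq_self (ψ p.1)

theorem cylMap_injective {u : E} (hu : u ≠ 0) {ψ : (ℝ × ℝ) →ₗ[ℝ] ↥(ℝ ∙ u)ᗮ}
    (hψ : Function.Injective ψ) : Function.Injective (cylMap u ψ) := by
  rw [injective_iff_map_eq_zero]
  intro p hp
  have h1 : ψ p.1 = 0 := by
    rw [← cylMap_proj u ψ p, hp, map_zero]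
  have h2 : p.1 = 0 := by
    apply hψ
    rw [h1, map_zero]
  have h3 : p.2 • u = 0 := by
    have := hp
    rw [cylMap_apply, h1] at this
    simpa using this
  have h4 : p.2 = 0 := by
    rcases smul_eq_zero.mp h3 with h | h
    · exact h
    · exact absurd h hu
  exact Prod.ext h2 h4

variable [FiniteDimensional ℝ E] [MeasurableSpace E] [BorelSpace E]

/-- The sharp volume bound for one cylinder: the part of a convex body `K` inside the cylinder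
with axis direction `u` and base `B` has volume at most
`(3 (1 - σ) |B| / |proj K| + σ ^ 3) vol K`, for every `σ` between `0` and `1`. -/
theorem lorenz_general (hdim : Module.finrank ℝ E = 3) (K : Set E) (hKc : IsCompact K)
    (hKconv : Convex ℝ K) (hKint : (interior K).Nonempty) (u : E) (hu : u ≠ 0)
    (B : Set ↥(ℝ ∙ u)ᗮ) (hB : MeasurableSet B) {σ : ℝ} (hσ0 : 0 ≤ σ) (hσ1 : σ ≤ 1) :
    volume (K ∩ (ℝ ∙ u)ᗮ.orthogonalProjectionOnto ⁻¹' B) ≤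
      (ENNReal.ofReal (3 * (1 - σ)) *
          (volume B / volume ((ℝ ∙ u)ᗮ.orthogonalProjectionOnto '' K)) +
        ENNReal.ofReal (σ ^ 3)) * volume K := by
  have hfact : Fact (Module.finrank ℝ E = 2 + 1) := ⟨hdim⟩
  have hfr : Module.finrank ℝ ↥(ℝ ∙ u)ᗮ = 2 := Submodule.finrank_orthogonal_span_singleton hu
  have hfr2 : Module.finrank ℝ (ℝ × ℝ) = Module.finrank ℝ ↥(ℝ ∙ u)ᗮ := by
    rw [hfr]; simp
  let ψ : (ℝ × ℝ) ≃L[ℝ] ↥(ℝ ∙ u)ᗮ := ContinuousLinearEquiv.ofFinrankEq hfr2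
  have hinj : Function.Injective (cylMap u (ψ : (ℝ × ℝ) →ₗ[ℝ] ↥(ℝ ∙ u)ᗮ)) :=
    cylMap_injective hu ψ.injective
  have hsurj : Function.Surjective (cylMap u (ψ : (ℝ × ℝ) →ₗ[ℝ] ↥(ℝ ∙ u)ᗮ)) :=
    (LinearMap.injective_iff_surjective_of_finrank_eq_finrank (by simp [hdim])).mp hinj
  let Ξ : ((ℝ × ℝ) × ℝ) ≃L[ℝ] E :=
    (LinearEquiv.ofBijective (cylMap u (ψ : (ℝ × ℝ) →ₗ[ℝ] ↥(ℝ ∙ u)ᗮ))
      ⟨hinj, hsurj⟩).toContinuousLinearEquiv
  have hΞ : ∀ p, (ℝ ∙ u)ᗮ.orthogonalProjectionOnto (Ξ p) = ψ p.1 := fun p =>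
    cylMap_proj u (ψ : (ℝ × ℝ) →ₗ[ℝ] ↥(ℝ ∙ u)ᗮ) p
  set K' : Set ((ℝ × ℝ) × ℝ) := Ξ ⁻¹' K with hK'
  have hK'c : IsCompact K' := Ξ.toHomeomorph.isCompact_preimage.mpr hKc
  have hK'conv : Convex ℝ K' :=
    hKconv.linear_preimage (cylMap u (ψ : (ℝ × ℝ) →ₗ[ℝ] ↥(ℝ ∙ u)ᗮ))
  have hK'int : (interior K').Nonempty := by
    have hpi : interior (Ξ ⁻¹' K) = Ξ ⁻¹' interior K :=
      (Ξ.toHomeomorph.preimage_interior K).symm
    rw [hK', hpi]
    obtain ⟨x, hx⟩ := hKint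
    refine ⟨Ξ.symm x, ?_⟩
    show Ξ (Ξ.symm x) ∈ interior K
    rw [Ξ.apply_symm_apply]
    exact hx
  set B' : Set (ℝ × ℝ) := ψ ⁻¹' B with hB'
  have hB'm : MeasurableSet B' := ψ.continuous.measurable hB
  have hmain := lorenz_coord hK'c hK'conv hK'int hB'm hσ0 hσ1
  -- identify the sets
  have hset : K' ∩ Prod.fst ⁻¹' B' = Ξ ⁻¹' (K ∩ (ℝ ∙ u)ᗮ.orthogonalProjectionOnto ⁻¹' B) := by
    ext p
    simp only [mem_inter_iff, mem_preimage, hK', hB', hΞ]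
  have hproj : Prod.fst '' K' = ψ ⁻¹' ((ℝ ∙ u)ᗮ.orthogonalProjectionOnto '' K) := by
    ext q
    constructor
    · rintro ⟨p, hp, rfl⟩
      exact ⟨Ξ p, hp, hΞ p⟩
    · rintro ⟨k, hk, hkq⟩
      obtain ⟨p, rfl⟩ := Ξ.surjective k
      rw [hΞ] at hkq
      exact ⟨p, hk, ψ.injective hkq⟩
  have hHaar : (volume : Measure ((ℝ × ℝ) × ℝ)).IsAddHaarMeasure := by
    rw [Measure.volume_eq_prod]
    infer_instance
  obtain ⟨cE, hcE0, hcEt, hcE⟩ := exists_scale_gen (volume : Measure ((ℝ × ℝ) × ℝ))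
    (volume : Measure E) Ξ
  obtain ⟨cF, hcF0, hcFt, hcF⟩ := exists_scale_gen (volume : Measure (ℝ × ℝ))
    (volume : Measure ↥(ℝ ∙ u)ᗮ) ψ
  have hπm : Measurable ((ℝ ∙ u)ᗮ.orthogonalProjectionOnto : E → ↥(ℝ ∙ u)ᗮ) :=
    ((ℝ ∙ u)ᗮ.orthogonalProjectionOnto).continuous.measurable
  have hPm : MeasurableSet ((ℝ ∙ u)ᗮ.orthogonalProjectionOnto '' K) :=
    (hKc.image ((ℝ ∙ u)ᗮ.orthogonalProjectionOnto).continuous).measurableSet
  have e1 : volume (K' ∩ Prod.fst ⁻¹' B') =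
      cE * volume (K ∩ (ℝ ∙ u)ᗮ.orthogonalProjectionOnto ⁻¹' B) := by
    rw [hset]; exact hcE _ (hKc.measurableSet.inter (hπm hB))
  have e2 : volume K' = cE * volume K := hcE K hKc.measurableSet
  have e3 : volume B' = cF * volume B := hcF B hB
  have e4 : volume (Prod.fst '' K') =
      cF * volume ((ℝ ∙ u)ᗮ.orthogonalProjectionOnto '' K) := by
    rw [hproj]; exact hcF _ hPm
  rw [e1, e2, e3, e4, ENNReal.mul_div_mul_left _ _ hcF0 hcFt, ← mul_assoc,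
    mul_comm _ cE, mul_assoc] at hmain
  exact (ENNReal.mul_le_mul_iff_right hcE0 hcEt).mp hmain

end Vale.Agent.Lib.P243
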