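import Mathlib
import Vale.Agent.Lib.P243.VolTransfer

open MeasureTheory Set

namespace Vale.Agent.Lib.P243

/-- The lower Lebesgue integral of a continuous nonnegative function over a compact interval. -/
theorem lintegral_Icc_ofReal {f : ℝ → ℝ} {a b : ℝ} (hab : a ≤ b) (hf : Continuous f)
    (hnn : ∀ t ∈ Icc a b, 0 ≤ f t) :
    ∫⁻ t in Icc a b, ENNReal.ofReal (f t) = ENNReal.ofReal (∫ t in a..b, f t) := by
  rw [intervalIntegral.integral_of_le hab, ← integral_Icc_eq_integral_Ioc]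
  exact (ofReal_integral_eq_lintegral_ofReal (hf.integrableOn_Icc)
    ((ae_restrict_iff' measurableSet_Icc).mpr (Filter.Eventually.of_forall hnn))).symm

/-- A measurable set all of whose vertical fibres have diameter at most `ℓ` meets the cylinder
over `B` in a set of volume at most `|B| ℓ`. -/
theorem cyl_fibre_bound {S : Set ((ℝ × ℝ) × ℝ)} (hS : MeasurableSet S) {B : Set (ℝ × ℝ)}
    (hB : MeasurableSet B) {ℓ : ℝ}
    (hdiam : ∀ y z z', (y, z) ∈ S → (y, z') ∈ S → |z' - z| ≤ ℓ) :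
    volume (S ∩ Prod.fst ⁻¹' B) ≤ volume B * ENNReal.ofReal ℓ := by
  rw [Measure.volume_eq_prod, Measure.prod_apply (hS.inter (measurable_fst hB))]
  calc ∫⁻ y, volume (Prod.mk y ⁻¹' (S ∩ Prod.fst ⁻¹' B))
      ≤ ∫⁻ y, B.indicator (fun _ => ENNReal.ofReal ℓ) y := by
        apply lintegral_mono
        intro y
        by_cases hy : y ∈ B
        · rw [indicator_of_mem hy]
          show volume (Prod.mk y ⁻¹' (S ∩ Prod.fst ⁻¹' B)) ≤ ENNReal.ofReal ℓ
          refine le_trans (measure_mono (preimage_mono inter_subset_left)) ?_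
          refine le_trans (Real.volume_le_diam _) ?_
          apply Metric.ediam_le
          intro z hz z' hz'
          rw [edist_dist, Real.dist_eq]
          exact ENNReal.ofReal_le_ofReal (hdiam y z' z hz' hz)
        · rw [indicator_of_notMem hy]
          have : Prod.mk y ⁻¹' (S ∩ Prod.fst ⁻¹' B) = ∅ := by
            ext z
            simp [hy]
          show volume (Prod.mk y ⁻¹' (S ∩ Prod.fst ⁻¹' B)) ≤ 0
          rw [this, measure_empty]
    _ = volume B * ENNReal.ofReal ℓ := by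
        rw [lintegral_indicator hB, setLIntegral_const, mul_comm]

theorem homothety_eq_mix {X : Type*} [AddCommGroup X] [Module ℝ X] (c x : X) (r : ℝ) :
    AffineMap.homothety c r x = (1 - r) • c + r • x := by
  rw [AffineMap.homothety_apply, vsub_eq_sub, vadd_eq_add, smul_sub, sub_smul, one_smul]
  abel

/-- A compact convex set containing a vertical chord of length `L` has volume at least one third
of `L` times the area of its shadow. -/
theorem proj_area_chord {K : Set ((ℝ × ℝ) × ℝ)} (hKc : IsCompact K) (hKconv : Convex ℝ K)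
    {L : ℝ} (hL : 0 < L) {y0 : ℝ × ℝ} {z0 : ℝ} (h1 : (y0, z0) ∈ K) (h2 : (y0, z0 + L) ∈ K) :
    volume (Prod.fst '' K) * ENNReal.ofReal L ≤ 3 * volume K := by
  have hy0 : y0 ∈ Prod.fst '' K := ⟨(y0, z0), h1, rfl⟩
  -- the chord over `y0` has length at least `L`
  have hc0 : L ≤ chordLen K y0 := by
    have hsub : Icc z0 (z0 + L) ⊆ Prod.mk y0 ⁻¹' K :=
      (convex_section hKconv y0).ordConnected.out h1 h2
    have h3 : ENNReal.ofReal L ≤ volume (Prod.mk y0 ⁻¹' K) := by
      have : volume (Icc z0 (z0 + L)) = ENNReal.ofReal L := by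
        rw [Real.volume_Icc]; congr 1; ring
      rw [← this]
      exact measure_mono hsub
    have := ENNReal.toReal_mono (chord_section_ne_top hKc y0) h3
    rwa [ENNReal.toReal_ofReal hL.le] at this
  -- superlevel sets contain homothetic copies of the shadow
  have hlevel : ∀ t ∈ Icc (0 : ℝ) L,
      ENNReal.ofReal ((1 - t / L) ^ 2) * volume (Prod.fst '' K) ≤
        volume {y | t ≤ chordLen K y} := by
    intro t ht
    have hr0 : 0 ≤ 1 - t / L := by
      rw [sub_nonneg, div_le_one hL]; exact ht.2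
    have hr1 : 1 - t / L ≤ 1 := by
      have : 0 ≤ t / L := div_nonneg ht.1 hL.le
      linarith
    have hsub : AffineMap.homothety y0 (1 - t / L) '' (Prod.fst '' K) ⊆
        {y | t ≤ chordLen K y} := by
      rintro _ ⟨y, hy, rfl⟩
      have hc := chordLen_concave hKc hKconv hy0 hy hr0 hr1
      have he : AffineMap.homothety y0 (1 - t / L) y =
          (1 - (1 - t / L)) • y0 + (1 - t / L) • y := homothety_eq_mix y0 y _
      show t ≤ chordLen K (AffineMap.homothety y0 (1 - t / L) y)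
      rw [he]
      have h4 : (1 - (1 - t / L)) * L = t := by field_simp; ring
      have h5 : (1 - (1 - t / L)) * L ≤ (1 - (1 - t / L)) * chordLen K y0 :=
        mul_le_mul_of_nonneg_left hc0 (by linarith)
      have h6 : 0 ≤ (1 - t / L) * chordLen K y := mul_nonneg hr0 (chordLen_nonneg K y)
      linarith
    have hvol := Measure.addHaar_image_homothety (volume : Measure (ℝ × ℝ)) y0 (1 - t / L)
      (Prod.fst '' K)
    have hfr : Module.finrank ℝ (ℝ × ℝ) = 2 := by simp
    rw [hfr, abs_of_nonneg (sq_nonneg _)] at hvol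
    rw [← hvol]
    exact measure_mono hsub
  have hcont : Continuous fun t : ℝ => (1 - t / L) ^ 2 := by fun_prop
  have hint : ∫ t in (0 : ℝ)..L, (1 - t / L) ^ 2 = L / 3 := by
    have := integral_cone 1 L 0 hL.ne'
    simp only [one_mul, zero_div, sub_zero, one_pow, mul_one] at this
    exact this
  calc volume (Prod.fst '' K) * ENNReal.ofReal L
      = 3 * (ENNReal.ofReal (L / 3) * volume (Prod.fst '' K)) := by
        have : ENNReal.ofReal L = 3 * ENNReal.ofReal (L / 3) := by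
          rw [show (3 : ENNReal) = ENNReal.ofReal 3 by simp,
            ← ENNReal.ofReal_mul (by norm_num : (0 : ℝ) ≤ 3)]
          congr 1; ring
        rw [this]; ring
    _ = 3 * ∫⁻ t in Icc (0 : ℝ) L, ENNReal.ofReal ((1 - t / L) ^ 2) * volume (Prod.fst '' K) := by
        rw [lintegral_mul_const' _ _ (proj_volume_ne_top hKc),
          lintegral_Icc_ofReal hL.le hcont (fun t _ => sq_nonneg _), hint]
    _ ≤ 3 * ∫⁻ t in Icc (0 : ℝ) L, volume {y | t ≤ chordLen K y} := by
        gcongr 3 * ?_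
        exact setLIntegral_mono' measurableSet_Icc hlevel
    _ ≤ 3 * ∫⁻ t in Ioi (0 : ℝ), volume {y | t ≤ chordLen K y} := by
        gcongr 3 * ?_
        have hnull : volume (Icc (0 : ℝ) L \ Ioi 0) = 0 := by
          have : Icc (0 : ℝ) L \ Ioi 0 ⊆ {0} := by
            intro t ht
            simp only [mem_sdiff, mem_Icc, mem_Ioi, not_lt] at ht
            exact le_antisymm ht.2 ht.1.1
          exact measure_mono_null this (by simp)
        exact lintegral_mono_set' (ae_le_set.mpr hnull)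
    _ = 3 * volume K := by
        rw [volume_eq_lintegral_chord hKc,
          lintegral_eq_lintegral_meas_le volume
            (Filter.Eventually.of_forall (chordLen_nonneg K))
            (chordLen_measurable hKc).aemeasurable]

/-- Coordinate form of the chord comparison bound: if `K` is a convex body containing a vertical
chord of length `L` and all vertical fibres of `S` have diameter at most `ρ L`, then the part
of `S` over `B` has volume at most `3 ρ (|B| / |shadow of K|) vol K`. -/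
theorem chord_cyl_coord {K S : Set ((ℝ × ℝ) × ℝ)} (hKc : IsCompact K) (hKconv : Convex ℝ K)
    (hKint : (interior K).Nonempty) (hS : MeasurableSet S) {B : Set (ℝ × ℝ)}
    (hB : MeasurableSet B) {L ρ : ℝ} (hL : 0 < L) (hρ : 0 ≤ ρ) {y0 : ℝ × ℝ} {z0 : ℝ}
    (h1 : (y0, z0) ∈ K) (h2 : (y0, z0 + L) ∈ K)
    (hdiam : ∀ y z z', (y, z) ∈ S → (y, z') ∈ S → |z' - z| ≤ ρ * L) :
    volume (S ∩ Prod.fst ⁻¹' B) ≤
      ENNReal.ofReal (3 * ρ) * (volume B / volume (Prod.fst '' K)) * volume K := by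
  have hP0 : volume (Prod.fst '' K) ≠ 0 := (proj_volume_pos hKint).ne'
  have hPt : volume (Prod.fst '' K) ≠ ⊤ := proj_volume_ne_top hKc
  have hA := cyl_fibre_bound hS hB hdiam
  have hC := proj_area_chord hKc hKconv hL h1 h2
  calc volume (S ∩ Prod.fst ⁻¹' B) ≤ volume B * ENNReal.ofReal (ρ * L) := hA
    _ = ENNReal.ofReal ρ * (volume B / volume (Prod.fst '' K)) *
          (volume (Prod.fst '' K) * ENNReal.ofReal L) := by
        rw [ENNReal.ofReal_mul hρ]
        have : volume B = volume B / volume (Prod.fst '' K) * volume (Prod.fst '' K) :=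
          (ENNReal.div_mul_cancel hP0 hPt).symm
        conv_lhs => rw [this]
        ring
    _ ≤ ENNReal.ofReal ρ * (volume B / volume (Prod.fst '' K)) * (3 * volume K) := by
        gcongr
    _ = ENNReal.ofReal (3 * ρ) * (volume B / volume (Prod.fst '' K)) * volume K := by
        rw [ENNReal.ofReal_mul (by norm_num : (0 : ℝ) ≤ 3)]
        simp only [ENNReal.ofReal_ofNat]
        ring

variable {E : Type*} [NormedAddCommGroup E] [InnerProductSpace ℝ E] [MeasurableSpace E]
  [BorelSpace E] [FiniteDimensional ℝ E]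

/-- The chord comparison bound for one cylinder: let `K` be a convex body containing a chord
`[x0, x0 + L u]`, and let `S` be a measurable set such that any two points of `S` on a common
line parallel to `u` differ by at most `ρ L` times `u`. Then the part of `S` inside the cylinder
with axis direction `u` and base `B` has volume at most `3 ρ (|B| / |proj K|) vol K`. -/
theorem chord_cyl_general (hdim : Module.finrank ℝ E = 3) (K : Set E) (hKc : IsCompact K)
    (hKconv : Convex ℝ K) (hKint : (interior K).Nonempty) (S : Set E) (hS : MeasurableSet S)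
    (u : E) (hu : u ≠ 0) (B : Set ↥(ℝ ∙ u)ᗮ) (hB : MeasurableSet B) {L ρ : ℝ} (hL : 0 < L)
    (hρ : 0 ≤ ρ) {x0 : E} (hx0 : x0 ∈ K) (hx1 : x0 + L • u ∈ K)
    (hdiam : ∀ x ∈ S, ∀ t : ℝ, x + t • u ∈ S → |t| ≤ ρ * L) :
    volume (S ∩ (ℝ ∙ u)ᗮ.orthogonalProjectionOnto ⁻¹' B) ≤
      ENNReal.ofReal (3 * ρ) * (volume B / volume ((ℝ ∙ u)ᗮ.orthogonalProjectionOnto '' K)) *
        volume K := by
  have hfr : Module.finrank ℝ ↥(ℝ ∙ u)ᗮ = 2 := by
    have hfact : Fact (Module.finrank ℝ E = 2 + 1) := ⟨hdim⟩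
    exact Submodule.finrank_orthogonal_span_singleton hu
  have hfr2 : Module.finrank ℝ (ℝ × ℝ) = Module.finrank ℝ ↥(ℝ ∙ u)ᗮ := by
    rw [hfr]; simp
  let ψ : (ℝ × ℝ) ≃L[ℝ] ↥(ℝ ∙ u)ᗮ := ContinuousLinearEquiv.ofFinrankEq hfr2
  have hinj : Function.Injective (cylMap u (ψ : (ℝ × ℝ) →ₗ[ℝ] ↥(ℝ ∙ u)ᗮ)) :=
    cylMap_injective hu ψ.injective
  have hsurj : Function.Surjective (cylMap u (ψ : (ℝ × ℝ) →ₗ[ℝ] ↥(ℝ ∙ u)ᗮ)) :=
    (LinearMap.injective_iff_surjective_of_finrank_eq_finrank (by simp [hdim])).mp hinj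
  let Ξ : ((ℝ × ℝ) × ℝ) ≃L[ℝ] E :=
    (LinearEquiv.ofBijective (cylMap u (ψ : (ℝ × ℝ) →ₗ[ℝ] ↥(ℝ ∙ u)ᗮ))
      ⟨hinj, hsurj⟩).toContinuousLinearEquiv
  have hΞ : ∀ p, (ℝ ∙ u)ᗮ.orthogonalProjectionOnto (Ξ p) = ψ p.1 := fun p =>
    cylMap_proj u (ψ : (ℝ × ℝ) →ₗ[ℝ] ↥(ℝ ∙ u)ᗮ) p
  have hΞa : ∀ p : (ℝ × ℝ) × ℝ, Ξ p = (ψ p.1 : E) + p.2 • u := fun p => rfl
  set K' : Set ((ℝ × ℝ) × ℝ) := Ξ ⁻¹' K with hK'
  set S' : Set ((ℝ × ℝ) × ℝ) := Ξ ⁻¹' S with hS'
  have hK'c : IsCompact K' := Ξ.toHomeomorph.isCompact_preimage.mpr hKc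
  have hK'conv : Convex ℝ K' :=
    hKconv.linear_preimage (cylMap u (ψ : (ℝ × ℝ) →ₗ[ℝ] ↥(ℝ ∙ u)ᗮ))
  have hK'int : (interior K').Nonempty := by
    have hpi : interior (Ξ ⁻¹' K) = Ξ ⁻¹' interior K :=
      (Ξ.toHomeomorph.preimage_interior K).symm
    rw [hK', hpi]
    obtain ⟨x, hx⟩ := hKint
    refine ⟨Ξ.symm x, ?_⟩
    show Ξ (Ξ.symm x) ∈ interior K
    rw [Ξ.apply_symm_apply]
    exact hx
  have hS'm : MeasurableSet S' := Ξ.continuous.measurable hS
  set B' : Set (ℝ × ℝ) := ψ ⁻¹' B with hB'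
  have hB'm : MeasurableSet B' := ψ.continuous.measurable hB
  obtain ⟨p0, hp0⟩ := Ξ.surjective x0
  have hshift : ∀ (y : ℝ × ℝ) (z t : ℝ), Ξ (y, z + t) = Ξ (y, z) + t • u := by
    intro y z t
    rw [hΞa, hΞa]
    simp only [add_smul]
    abel
  have h1 : (p0.1, p0.2) ∈ K' := by
    show Ξ (p0.1, p0.2) ∈ K
    rw [Prod.mk.eta, hp0]; exact hx0
  have h2 : (p0.1, p0.2 + L) ∈ K' := by
    show Ξ (p0.1, p0.2 + L) ∈ K
    rw [hshift, Prod.mk.eta, hp0]; exact hx1
  have hdiam' : ∀ y z z', (y, z) ∈ S' → (y, z') ∈ S' → |z' - z| ≤ ρ * L := by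
    intro y z z' hz hz'
    refine hdiam (Ξ (y, z)) hz (z' - z) ?_
    rw [← hshift]
    have : z + (z' - z) = z' := by ring
    rw [this]
    exact hz'
  have hmain := chord_cyl_coord hK'c hK'conv hK'int hS'm hB'm hL hρ h1 h2 hdiam'
  -- identify the sets
  have hset : S' ∩ Prod.fst ⁻¹' B' = Ξ ⁻¹' (S ∩ (ℝ ∙ u)ᗮ.orthogonalProjectionOnto ⁻¹' B) := by
    ext p
    simp only [mem_inter_iff, mem_preimage, hS', hB', hΞ]
  have hproj : Prod.fst '' K' = ψ ⁻¹' ((ℝ ∙ u)ᗮ.orthogonalProjectionOnto '' K) := by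
    ext q
    constructor
    · rintro ⟨p, hp, rfl⟩
      exact ⟨Ξ p, hp, hΞ p⟩
    · rintro ⟨k, hk, hkq⟩
      obtain ⟨p, rfl⟩ := Ξ.surjective k
      rw [hΞ] at hkq
      exact ⟨p, hk, ψ.injective hkq⟩
  have hHaar : (volume : Measure ((ℝ × ℝ) × ℝ)).IsAddHaarMeasure := by
    rw [Measure.volume_eq_prod]
    infer_instance
  obtain ⟨cE, hcE0, hcEt, hcE⟩ := exists_scale_gen (volume : Measure ((ℝ × ℝ) × ℝ))
    (volume : Measure E) Ξ
  obtain ⟨cF, hcF0, hcFt, hcF⟩ := exists_scale_gen (volume : Measure (ℝ × ℝ))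
    (volume : Measure ↥(ℝ ∙ u)ᗮ) ψ
  have hπm : Measurable ((ℝ ∙ u)ᗮ.orthogonalProjectionOnto : E → ↥(ℝ ∙ u)ᗮ) :=
    ((ℝ ∙ u)ᗮ.orthogonalProjectionOnto).continuous.measurable
  have hPm : MeasurableSet ((ℝ ∙ u)ᗮ.orthogonalProjectionOnto '' K) :=
    (hKc.image ((ℝ ∙ u)ᗮ.orthogonalProjectionOnto).continuous).measurableSet
  have e1 : volume (S' ∩ Prod.fst ⁻¹' B') =
      cE * volume (S ∩ (ℝ ∙ u)ᗮ.orthogonalProjectionOnto ⁻¹' B) := by
    rw [hset]; exact hcE _ (hS.inter (hπm hB))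
  have e2 : volume K' = cE * volume K := hcE K hKc.measurableSet
  have e3 : volume B' = cF * volume B := hcF B hB
  have e4 : volume (Prod.fst '' K') =
      cF * volume ((ℝ ∙ u)ᗮ.orthogonalProjectionOnto '' K) := by
    rw [hproj]; exact hcF _ hPm
  rw [e1, e2, e3, e4, ENNReal.mul_div_mul_left _ _ hcF0 hcFt, ← mul_assoc,
    mul_comm _ cE, mul_assoc] at hmain
  exact (ENNReal.mul_le_mul_iff_right hcE0 hcEt).mp hmain

/-- The chord comparison principle for cylinder coverings: let `K` be a convex body and `S` a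
measurable set covered by the cylinders with axis directions `u i` and bases `B i`. If for
every `i` the body `K` contains a chord `[x, x + L u i]` while any two points of `S` on a line
parallel to `u i` differ by at most `ρ L` times `u i`, then the volume of `S` is at most
`3 ρ vol K` times the sum of the relative base areas. -/
theorem chord_principle (hdim : Module.finrank ℝ E = 3) (K : Set E) (hKc : IsCompact K)
    (hKconv : Convex ℝ K) (hKint : (interior K).Nonempty) (S : Set E) (hS : MeasurableSet S)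
    {ρ : ℝ} (hρ : 0 ≤ ρ) {m : ℕ} (u : Fin m → E) (hu : ∀ i, u i ≠ 0)
    (B : ∀ i, Set ↥(ℝ ∙ u i)ᗮ)
    (hcov : S ⊆ ⋃ i, (ℝ ∙ u i)ᗮ.orthogonalProjectionOnto ⁻¹' B i)
    (hchord : ∀ i, ∃ L : ℝ, 0 < L ∧ (∃ x ∈ K, x + L • u i ∈ K) ∧
      ∀ x ∈ S, ∀ t : ℝ, x + t • u i ∈ S → |t| ≤ ρ * L) :
    volume S ≤ ENNReal.ofReal (3 * ρ) * volume K *
      ∑ i, volume (B i) / volume ((ℝ ∙ u i)ᗮ.orthogonalProjectionOnto '' K) := by
  have hcov' : S ⊆ ⋃ i, (S ∩ (ℝ ∙ u i)ᗮ.orthogonalProjectionOnto ⁻¹'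
      (toMeasurable volume (B i))) := by
    intro x hx
    obtain ⟨i, hi⟩ := mem_iUnion.mp (hcov hx)
    exact mem_iUnion.mpr ⟨i, hx, subset_toMeasurable _ _ hi⟩
  calc volume S ≤ ∑ i, volume (S ∩ (ℝ ∙ u i)ᗮ.orthogonalProjectionOnto ⁻¹'
        (toMeasurable volume (B i))) :=
        le_trans (measure_mono hcov') (measure_iUnion_fintype_le _ _)
    _ ≤ ∑ i, ENNReal.ofReal (3 * ρ) * volume K *
          (volume (B i) / volume ((ℝ ∙ u i)ᗮ.orthogonalProjectionOnto '' K)) := by
        apply Finset.sum_le_sum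
        intro i _
        obtain ⟨L, hL, ⟨x0, hx0, hx1⟩, hd⟩ := hchord i
        have := chord_cyl_general hdim K hKc hKconv hKint S hS (u i) (hu i)
          (toMeasurable volume (B i)) (measurableSet_toMeasurable _ _) hL hρ hx0 hx1 hd
        rw [measure_toMeasurable] at this
        calc _ ≤ _ := this
          _ = _ := by ring
    _ = ENNReal.ofReal (3 * ρ) * volume K *
          ∑ i, volume (B i) / volume ((ℝ ∙ u i)ᗮ.orthogonalProjectionOnto '' K) := by
        rw [Finset.mul_sum]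

end Vale.Agent.Lib.P243
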