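import Mathlib
import Vale.Agent.Lib.P243.TetraCoord

open MeasureTheory Set

namespace Vale.Agent.Lib.P243

/-- The right triangle with legs of length `s` on the coordinate axes. -/
def triSet (s : ℝ) : Set (ℝ × ℝ) := {q | 0 ≤ q.1 ∧ 0 ≤ q.2 ∧ q.1 + q.2 ≤ s}

/-- The standard tetrahedron in coordinates. -/
def stdTet : Set ((ℝ × ℝ) × ℝ) :=
  {p | 0 ≤ p.1.1 ∧ 0 ≤ p.1.2 ∧ 0 ≤ p.2 ∧ p.1.1 + p.1.2 + p.2 ≤ 1}

theorem triSet_closed (s : ℝ) : IsClosed (triSet s) := by
  have h1 : IsClosed {q : ℝ × ℝ | 0 ≤ q.1} := isClosed_le continuous_const continuous_fst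
  have h2 : IsClosed {q : ℝ × ℝ | 0 ≤ q.2} := isClosed_le continuous_const continuous_snd
  have h3 : IsClosed {q : ℝ × ℝ | q.1 + q.2 ≤ s} :=
    isClosed_le (continuous_fst.add continuous_snd) continuous_const
  exact h1.inter (h2.inter h3)

theorem stdTet_closed : IsClosed stdTet := by
  have h1 : IsClosed {p : (ℝ × ℝ) × ℝ | 0 ≤ p.1.1} :=
    isClosed_le continuous_const (continuous_fst.comp continuous_fst)
  have h2 : IsClosed {p : (ℝ × ℝ) × ℝ | 0 ≤ p.1.2} :=
    isClosed_le continuous_const (continuous_snd.comp continuous_fst)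
  have h3 : IsClosed {p : (ℝ × ℝ) × ℝ | 0 ≤ p.2} := isClosed_le continuous_const continuous_snd
  have h4 : IsClosed {p : (ℝ × ℝ) × ℝ | p.1.1 + p.1.2 + p.2 ≤ 1} :=
    isClosed_le (((continuous_fst.comp continuous_fst).add
      (continuous_snd.comp continuous_fst)).add continuous_snd) continuous_const
  exact h1.inter (h2.inter (h3.inter h4))

theorem volume_triSet {s : ℝ} (hs : 0 ≤ s) : volume (triSet s) = ENNReal.ofReal (s ^ 2 / 2) := by
  rw [Measure.volume_eq_prod, Measure.prod_apply (triSet_closed s).measurableSet]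
  have hsec : ∀ a : ℝ, volume (Prod.mk a ⁻¹' triSet s) =
      (Icc (0 : ℝ) s).indicator (fun a => ENNReal.ofReal (s - a)) a := by
    intro a
    by_cases ha : a ∈ Icc (0 : ℝ) s
    · rw [indicator_of_mem ha]
      have : Prod.mk a ⁻¹' triSet s = Icc 0 (s - a) := by
        ext z
        simp only [mem_preimage, triSet, mem_ofPred_eq, mem_Icc]
        constructor
        · rintro ⟨_, h2, h3⟩
          exact ⟨h2, by linarith⟩
        · rintro ⟨h2, h3⟩
          exact ⟨ha.1, h2, by linarith⟩
      rw [this, Real.volume_Icc, sub_zero]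
    · rw [indicator_of_notMem ha]
      have : Prod.mk a ⁻¹' triSet s = ∅ := by
        ext z
        simp only [mem_preimage, triSet, mem_ofPred_eq, mem_empty_iff_false, iff_false]
        rintro ⟨h1, h2, h3⟩
        exact ha ⟨h1, by linarith⟩
      rw [this, measure_empty]
  rw [lintegral_congr hsec, lintegral_indicator measurableSet_Icc,
    lintegral_Icc_ofReal hs (by fun_prop) (fun t ht => by linarith [ht.2])]
  congr 1
  rw [intervalIntegral.integral_sub
    ((by fun_prop : Continuous fun _ : ℝ => s).intervalIntegrable _ _)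
    ((by fun_prop : Continuous fun t : ℝ => t).intervalIntegrable _ _),
    intervalIntegral.integral_const, integral_id]
  simp only [smul_eq_mul]
  ring

theorem volume_stdTet : volume stdTet = ENNReal.ofReal (1 / 6) := by
  rw [Measure.volume_eq_prod, Measure.prod_apply_symm stdTet_closed.measurableSet]
  have hsec : ∀ c : ℝ, volume ((fun q : ℝ × ℝ => (q, c)) ⁻¹' stdTet) =
      (Icc (0 : ℝ) 1).indicator (fun c => ENNReal.ofReal (1 / 2 * (1 - c / 1) ^ 2)) c := by
    intro c
    by_cases hc : c ∈ Icc (0 : ℝ) 1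
    · rw [indicator_of_mem hc]
      have : (fun q : ℝ × ℝ => (q, c)) ⁻¹' stdTet = triSet (1 - c) := by
        ext q
        simp only [mem_preimage, stdTet, triSet, mem_ofPred_eq]
        constructor
        · rintro ⟨h1, h2, _, h4⟩
          exact ⟨h1, h2, by linarith⟩
        · rintro ⟨h1, h2, h3⟩
          exact ⟨h1, h2, hc.1, by linarith⟩
      rw [this, volume_triSet (by linarith [hc.2])]
      congr 1
      ring
    · rw [indicator_of_notMem hc]
      have : (fun q : ℝ × ℝ => (q, c)) ⁻¹' stdTet = ∅ := by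
        ext q
        simp only [mem_preimage, stdTet, mem_ofPred_eq, mem_empty_iff_false, iff_false]
        rintro ⟨h1, h2, h3, h4⟩
        exact hc ⟨h3, by linarith⟩
      rw [this, measure_empty]
  rw [lintegral_congr hsec, lintegral_indicator measurableSet_Icc,
    lintegral_Icc_ofReal zero_le_one (by fun_prop) (fun t _ => by positivity),
    integral_cone (1 / 2) 1 0 one_ne_zero]
  congr 1
  norm_num

theorem volume_prism {η : ℝ} (hη : 0 ≤ η) :
    volume (triSet η ×ˢ Icc (0 : ℝ) 1) = ENNReal.ofReal (η ^ 2 / 2) := by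
  rw [Measure.volume_eq_prod, Measure.prod_prod, volume_triSet hη, Real.volume_Icc]
  simp

variable {E : Type*} [NormedAddCommGroup E] [InnerProductSpace ℝ E] [MeasurableSpace E]
  [BorelSpace E] [FiniteDimensional ℝ E]

/-- A vector is the combination of the vertices of an affine basis with the linear parts of
the barycentric coordinates as coefficients. -/
theorem sum_coord_linear_smul (b : AffineBasis (Fin 4) ℝ E) (v : E) :
    ∑ j, (b.coord j).linear v • b j = v := by
  have h1 := b.linear_combination_coord_eq_self (v + b 0)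
  have h2 := b.linear_combination_coord_eq_self (b 0)
  have h3 : ∀ j, b.coord j (v + b 0) = (b.coord j).linear v + b.coord j (b 0) := by
    intro j
    have := (b.coord j).map_vadd (b 0) v
    simpa using this
  simp only [h3, add_smul, Finset.sum_add_distrib] at h1
  rw [h2] at h1
  exact add_right_cancel h1

/-- The linear parts of the barycentric coordinates add up to zero. -/
theorem sum_coord_linear (b : AffineBasis (Fin 4) ℝ E) (v : E) :
    ∑ j, (b.coord j).linear v = 0 := by
  have h1 := b.sum_coord_apply_eq_one (v + b 0)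
  have h2 := b.sum_coord_apply_eq_one (b 0)
  have h3 : ∀ j, b.coord j (v + b 0) = (b.coord j).linear v + b.coord j (b 0) := by
    intro j
    have := (b.coord j).map_vadd (b 0) v
    simpa using this
  simp only [h3, Finset.sum_add_distrib] at h1
  linarith

theorem coord_add_smul (b : AffineBasis (Fin 4) ℝ E) (j : Fin 4) (x v : E) (t : ℝ) :
    b.coord j (x + t • v) = b.coord j x + t * (b.coord j).linear v := by
  have := (b.coord j).map_vadd x (t • v)
  simp only [vadd_eq_add, map_smul, smul_eq_mul] at this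
  rw [add_comm x, this, add_comm]

/-- The coordinate map of an affine basis of a three-dimensional space, with base vertex
`σ 0`: a point goes to its barycentric coordinates number `σ 2`, `σ 3` and `σ 1`. -/
noncomputable def baryLin (b : AffineBasis (Fin 4) ℝ E) (σ : Equiv.Perm (Fin 4)) :
    E →ₗ[ℝ] (ℝ × ℝ) × ℝ :=
  (((b.coord (σ 2)).linear).prod ((b.coord (σ 3)).linear)).prod ((b.coord (σ 1)).linear)

theorem baryLin_apply (b : AffineBasis (Fin 4) ℝ E) (σ : Equiv.Perm (Fin 4)) (v : E) :
    baryLin b σ v =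
      (((b.coord (σ 2)).linear v, (b.coord (σ 3)).linear v), (b.coord (σ 1)).linear v) := rfl

theorem perm_sum (σ : Equiv.Perm (Fin 4)) (f : Fin 4 → ℝ) :
    ∑ j, f j = f (σ 0) + f (σ 1) + f (σ 2) + f (σ 3) := by
  rw [← Equiv.sum_comp σ f, Fin.sum_univ_four]

theorem perm_forall (σ : Equiv.Perm (Fin 4)) (P : Fin 4 → Prop) :
    (∀ j, P j) ↔ P (σ 0) ∧ P (σ 1) ∧ P (σ 2) ∧ P (σ 3) := by
  constructor
  · intro h
    exact ⟨h _, h _, h _, h _⟩
  · rintro ⟨h0, h1, h2, h3⟩ j
    obtain ⟨i, rfl⟩ := σ.surjective j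
    fin_cases i
    · exact h0
    · exact h1
    · exact h2
    · exact h3

theorem baryLin_injective (b : AffineBasis (Fin 4) ℝ E) (σ : Equiv.Perm (Fin 4)) :
    Function.Injective (baryLin b σ) := by
  rw [injective_iff_map_eq_zero]
  intro v hv
  rw [baryLin_apply] at hv
  simp only [Prod.mk_eq_zero] at hv
  obtain ⟨⟨h2, h3⟩, h1⟩ := hv
  have hsum := sum_coord_linear b v
  rw [perm_sum σ] at hsum
  have h0 : (b.coord (σ 0)).linear v = 0 := by linarith
  have hall : ∀ j, (b.coord j).linear v = 0 :=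
    (perm_forall σ (fun j => (b.coord j).linear v = 0)).mpr ⟨h0, h1, h2, h3⟩
  calc v = ∑ j, (b.coord j).linear v • b j := (sum_coord_linear_smul b v).symm
    _ = 0 := Finset.sum_eq_zero fun j _ => by rw [hall j, zero_smul]

/-- Volumes of preimages under the barycentric coordinate map are a fixed multiple of the
volumes in coordinates. -/
theorem bary_scale (hdim : Module.finrank ℝ E = 3) (b : AffineBasis (Fin 4) ℝ E)
    (σ : Equiv.Perm (Fin 4)) :
    ∃ c : ENNReal, c ≠ 0 ∧ c ≠ ⊤ ∧ ∀ A : Set ((ℝ × ℝ) × ℝ), MeasurableSet A →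
      volume {x : E | ((b.coord (σ 2) x, b.coord (σ 3) x), b.coord (σ 1) x) ∈ A} =
        c * volume A := by
  have hinj := baryLin_injective b σ
  have hsurj : Function.Surjective (baryLin b σ) :=
    (LinearMap.injective_iff_surjective_of_finrank_eq_finrank (by simp [hdim])).mp hinj
  let Φ : E ≃L[ℝ] (ℝ × ℝ) × ℝ :=
    (LinearEquiv.ofBijective (baryLin b σ) ⟨hinj, hsurj⟩).toContinuousLinearEquiv
  have hHaar : (volume : Measure ((ℝ × ℝ) × ℝ)).IsAddHaarMeasure := by
    rw [Measure.volume_eq_prod]
    infer_instance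
  obtain ⟨c, hc0, hct, hc⟩ := exists_scale_gen (volume : Measure E)
    (volume : Measure ((ℝ × ℝ) × ℝ)) Φ
  refine ⟨c, hc0, hct, fun A hA => ?_⟩
  rw [← hc A hA]
  have hcoord : ∀ (j : Fin 4), j ≠ σ 0 → ∀ x : E,
      b.coord j x = (b.coord j).linear (x - b (σ 0)) := by
    intro j hj x
    have h := coord_add_smul b j (b (σ 0)) (x - b (σ 0)) 1
    rw [one_smul, add_sub_cancel, one_mul, b.coord_apply, if_neg hj, zero_add] at h
    exact h
  have hne : ∀ i : Fin 4, i ≠ 0 → σ i ≠ σ 0 := fun i hi h => hi (σ.injective h)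
  have hset : {x : E | ((b.coord (σ 2) x, b.coord (σ 3) x), b.coord (σ 1) x) ∈ A} =
      (fun x => x + -b (σ 0)) ⁻¹' (Φ ⁻¹' A) := by
    ext x
    simp only [mem_ofPred_eq, mem_preimage]
    have : Φ (x + -b (σ 0)) =
        ((b.coord (σ 2) x, b.coord (σ 3) x), b.coord (σ 1) x) := by
      show baryLin b σ (x + -b (σ 0)) = _
      rw [baryLin_apply, ← sub_eq_add_neg, ← hcoord _ (hne 2 (by decide)),
        ← hcoord _ (hne 3 (by decide)), ← hcoord _ (hne 1 (by decide))]
    rw [this]
  rw [hset, measure_preimage_add_right]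

end Vale.Agent.Lib.P243
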