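import Mathlib

open MeasureTheory

namespace Vale.Agent.Lib.P243

/-- The relative base area of a finite family of cylinders with common axis direction `u`
with respect to the set `K`: the sum of the planar Lebesgue (outer) measures of the bases
`B k`, which are sets in the plane orthogonal to `u`, divided by the planar Lebesgue measure
of the orthogonal projection of `K` onto that plane. -/
noncomputable def relArea {E : Type*} [NormedAddCommGroup E] [InnerProductSpace ℝ E]
    [MeasurableSpace E] [BorelSpace E] [FiniteDimensional ℝ E] (K : Set E) (u : E) {n : ℕ}
    (B : Fin n → Set ↥(ℝ ∙ u)ᗮ) : ENNReal :=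
  (∑ k, volume (B k)) / volume ((ℝ ∙ u)ᗮ.orthogonalProjectionOnto '' K)

end Vale.Agent.Lib.P243
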