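import Mathlib
import Vale.Agent.Lib.P243.VolTransfer
import Vale.Agent.Lib.P243.VolDefs

open MeasureTheory Set

namespace Vale.Agent.Lib.P243

variable {E : Type*} [NormedAddCommGroup E] [InnerProductSpace ℝ E] [MeasurableSpace E]
  [BorelSpace E] [FiniteDimensional ℝ E]

/-- The volume inequality for a covering by cylinders with `d` axis directions: for any choice
of parameters `σ j` between `0` and `1`, the terms `3 (1 - σ j) a j + σ j ^ 3` add up to at
least one, where `a j` is the relative base area in direction `j`. -/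
theorem volume_sigma (hdim : Module.finrank ℝ E = 3) (K : Set E) (hKc : IsCompact K)
    (hKconv : Convex ℝ K) (hKint : (interior K).Nonempty) {d : ℕ} (u : Fin d → E)
    (hu : ∀ j, u j ≠ 0) {n : Fin d → ℕ} (B : (j : Fin d) → Fin (n j) → Set ↥(ℝ ∙ u j)ᗮ)
    (hcov : K ⊆ ⋃ j, ⋃ k, (ℝ ∙ u j)ᗮ.orthogonalProjectionOnto ⁻¹' B j k)
    (σ : Fin d → ℝ) (hσ : ∀ j, 0 ≤ σ j ∧ σ j ≤ 1) :
    (1 : ENNReal) ≤ ∑ j, (ENNReal.ofReal (3 * (1 - σ j)) * relArea K (u j) (B j) +
      ENNReal.ofReal (σ j ^ 3)) := by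
  have hB'm : ∀ j, MeasurableSet (⋃ k, toMeasurable volume (B j k)) := fun j =>
    MeasurableSet.iUnion fun k => measurableSet_toMeasurable _ _
  have hB'le : ∀ j, volume (⋃ k, toMeasurable volume (B j k)) ≤ ∑ k, volume (B j k) := fun j => by
    calc volume (⋃ k, toMeasurable volume (B j k))
        ≤ ∑ k, volume (toMeasurable volume (B j k)) := measure_iUnion_fintype_le _ _
      _ = ∑ k, volume (B j k) := by simp only [measure_toMeasurable]
  have hcov' : K ⊆ ⋃ j, (K ∩ (ℝ ∙ u j)ᗮ.orthogonalProjectionOnto ⁻¹'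
      (⋃ k, toMeasurable volume (B j k))) := by
    intro x hx
    obtain ⟨j, hj⟩ := mem_iUnion.mp (hcov hx)
    obtain ⟨k, hk⟩ := mem_iUnion.mp hj
    exact mem_iUnion.mpr ⟨j, hx, mem_iUnion.mpr ⟨k, subset_toMeasurable _ _ hk⟩⟩
  have hVpos : volume K ≠ 0 :=
    (lt_of_lt_of_le (isOpen_interior.measure_pos volume hKint) (measure_mono interior_subset)).ne'
  have hVfin : volume K ≠ ⊤ := hKc.measure_lt_top.ne
  have h1 : volume K ≤ ∑ j, volume (K ∩ (ℝ ∙ u j)ᗮ.orthogonalProjectionOnto ⁻¹'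
      (⋃ k, toMeasurable volume (B j k))) :=
    le_trans (measure_mono hcov') (measure_iUnion_fintype_le _ _)
  have h2 : ∀ j, volume (K ∩ (ℝ ∙ u j)ᗮ.orthogonalProjectionOnto ⁻¹'
      (⋃ k, toMeasurable volume (B j k))) ≤
      (ENNReal.ofReal (3 * (1 - σ j)) * relArea K (u j) (B j) + ENNReal.ofReal (σ j ^ 3)) *
        volume K := by
    intro j
    refine le_trans (lorenz_general hdim K hKc hKconv hKint (u j) (hu j) _ (hB'm j)
      (hσ j).1 (hσ j).2) ?_
    have hdiv : volume (⋃ k, toMeasurable volume (B j k)) /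
        volume ((ℝ ∙ u j)ᗮ.orthogonalProjectionOnto '' K) ≤ relArea K (u j) (B j) :=
      ENNReal.div_le_div_right (hB'le j) _
    gcongr
  have h3 : volume K * 1 ≤ volume K * ∑ j, (ENNReal.ofReal (3 * (1 - σ j)) *
      relArea K (u j) (B j) + ENNReal.ofReal (σ j ^ 3)) := by
    rw [mul_one, Finset.mul_sum]
    refine le_trans h1 (Finset.sum_le_sum fun j _ => ?_)
    rw [mul_comm]
    exact h2 j
  exact (ENNReal.mul_le_mul_iff_right hVpos hVfin).mp h3

theorem rpow_three_halves {α : ℝ} (hα0 : 0 ≤ α) : α ^ (3 / 2 : ℝ) = √α ^ 3 := by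
  rw [Real.sqrt_eq_rpow, ← Real.rpow_natCast, ← Real.rpow_mul hα0]
  norm_num

theorem sharp_term_nonneg {α : ℝ} (hα0 : 0 ≤ α) (hα1 : α ≤ 1) :
    0 ≤ 3 * α - 2 * α ^ (3 / 2 : ℝ) := by
  have hsq : √α ^ 2 = α := Real.sq_sqrt hα0
  have hs1 : √α ≤ 1 := Real.sqrt_le_one.mpr hα1
  rw [rpow_three_halves hα0]
  nlinarith [Real.sqrt_nonneg α, mul_nonneg hα0 (sub_nonneg.mpr hs1)]

theorem sharp_term_eq {α : ℝ} (hα0 : 0 ≤ α) (hα1 : α ≤ 1) :
    ENNReal.ofReal (3 * (1 - √α)) * ENNReal.ofReal α + ENNReal.ofReal (√α ^ 3) =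
      ENNReal.ofReal (3 * α - 2 * α ^ (3 / 2 : ℝ)) := by
  have hsq : √α ^ 2 = α := Real.sq_sqrt hα0
  have hs1 : √α ≤ 1 := Real.sqrt_le_one.mpr hα1
  have hnn1 : 0 ≤ 3 * (1 - √α) := by linarith
  rw [← ENNReal.ofReal_mul hnn1, ← ENNReal.ofReal_add (mul_nonneg hnn1 hα0)
    (pow_nonneg (Real.sqrt_nonneg _) 3)]
  congr 1
  rw [rpow_three_halves hα0]
  linear_combination (3 * √α) * hsq

/-- The sharp form of the volume inequality: if every relative base area `a j` is at most one,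
then `1 + 2 ∑ a j ^ (3 / 2) ≤ 3 ∑ a j`. -/
theorem volume_sharp (hdim : Module.finrank ℝ E = 3) (K : Set E) (hKc : IsCompact K)
    (hKconv : Convex ℝ K) (hKint : (interior K).Nonempty) {d : ℕ} (u : Fin d → E)
    (hu : ∀ j, u j ≠ 0) {n : Fin d → ℕ} (B : (j : Fin d) → Fin (n j) → Set ↥(ℝ ∙ u j)ᗮ)
    (hcov : K ⊆ ⋃ j, ⋃ k, (ℝ ∙ u j)ᗮ.orthogonalProjectionOnto ⁻¹' B j k)
    (hle : ∀ j, relArea K (u j) (B j) ≤ 1) :
    1 + 2 * ∑ j, (relArea K (u j) (B j)).toReal ^ (3 / 2 : ℝ) ≤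
      3 * ∑ j, (relArea K (u j) (B j)).toReal := by
  have hα0 : ∀ j, 0 ≤ (relArea K (u j) (B j)).toReal := fun j => ENNReal.toReal_nonneg
  have hα1 : ∀ j, (relArea K (u j) (B j)).toReal ≤ 1 := fun j => by
    have := ENNReal.toReal_mono ENNReal.one_ne_top (hle j)
    simpa using this
  have hαe : ∀ j, relArea K (u j) (B j) = ENNReal.ofReal (relArea K (u j) (B j)).toReal :=
    fun j => (ENNReal.ofReal_toReal (ne_top_of_le_ne_top ENNReal.one_ne_top (hle j))).symm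
  have hs1 : ∀ j, √(relArea K (u j) (B j)).toReal ≤ 1 := fun j =>
    Real.sqrt_le_one.mpr (hα1 j)
  have hA := volume_sigma hdim K hKc hKconv hKint u hu B hcov
    (fun j => √(relArea K (u j) (B j)).toReal) (fun j => ⟨Real.sqrt_nonneg _, hs1 j⟩)
  have hterm : ∀ j, ENNReal.ofReal (3 * (1 - √(relArea K (u j) (B j)).toReal)) *
      relArea K (u j) (B j) + ENNReal.ofReal (√(relArea K (u j) (B j)).toReal ^ 3) =
      ENNReal.ofReal (3 * (relArea K (u j) (B j)).toReal -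
        2 * (relArea K (u j) (B j)).toReal ^ (3 / 2 : ℝ)) := by
    intro j
    have h := sharp_term_eq (hα0 j) (hα1 j)
    rw [← hαe j] at h
    exact h
  have hnn : ∀ j, 0 ≤ 3 * (relArea K (u j) (B j)).toReal -
      2 * (relArea K (u j) (B j)).toReal ^ (3 / 2 : ℝ) := fun j =>
    sharp_term_nonneg (hα0 j) (hα1 j)
  rw [Finset.sum_congr rfl (fun j _ => hterm j),
    ← ENNReal.ofReal_sum_of_nonneg (fun j _ => hnn j)] at hA
  have h5 := ENNReal.one_le_ofReal.mp hA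
  rw [Finset.sum_sub_distrib, ← Finset.mul_sum, ← Finset.mul_sum] at h5
  linarith

/-- The volume inequality with one common parameter. -/
theorem volume_uniform (hdim : Module.finrank ℝ E = 3) (K : Set E) (hKc : IsCompact K)
    (hKconv : Convex ℝ K) (hKint : (interior K).Nonempty) {d : ℕ} (u : Fin d → E)
    (hu : ∀ j, u j ≠ 0) {n : Fin d → ℕ} (B : (j : Fin d) → Fin (n j) → Set ↥(ℝ ∙ u j)ᗮ)
    (hcov : K ⊆ ⋃ j, ⋃ k, (ℝ ∙ u j)ᗮ.orthogonalProjectionOnto ⁻¹' B j k)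
    {s : ℝ} (hs0 : 0 ≤ s) (hs1 : s ≤ 1) :
    (1 : ENNReal) ≤ ENNReal.ofReal (3 * (1 - s)) * ∑ j, relArea K (u j) (B j) +
      ENNReal.ofReal (d * s ^ 3) := by
  have hA := volume_sigma hdim K hKc hKconv hKint u hu B hcov (fun _ => s) (fun _ => ⟨hs0, hs1⟩)
  rw [Finset.sum_add_distrib, ← Finset.mul_sum, Finset.sum_const, Finset.card_univ,
    Fintype.card_fin, nsmul_eq_mul, ← ENNReal.ofReal_natCast d,
    ← ENNReal.ofReal_mul (Nat.cast_nonneg d)] at hA
  exact hA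

theorem le_of_affine_bound {R : ENNReal} {a b c : ℝ} (ha : 0 < a) (hb : 0 ≤ b)
    (h : (1 : ENNReal) ≤ ENNReal.ofReal a * R + ENNReal.ofReal b) (hc : c * a ≤ 1 - b) :
    ENNReal.ofReal c ≤ R := by
  rcases eq_or_ne R ⊤ with hR | hR
  · rw [hR]; exact le_top
  · have hRe : R = ENNReal.ofReal R.toReal := (ENNReal.ofReal_toReal hR).symm
    rw [hRe, ← ENNReal.ofReal_mul ha.le,
      ← ENNReal.ofReal_add (mul_nonneg ha.le ENNReal.toReal_nonneg) hb] at h
    have h' := ENNReal.one_le_ofReal.mp h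
    rw [hRe]
    apply ENNReal.ofReal_le_ofReal
    have h2 : c * a ≤ R.toReal * a := by linarith
    exact le_of_mul_le_mul_right h2 ha

/-- The explicit bound for `d` axis directions, relative form. -/
theorem many_dir_rel (hdim : Module.finrank ℝ E = 3) (K : Set E) (hKc : IsCompact K)
    (hKconv : Convex ℝ K) (hKint : (interior K).Nonempty) {d : ℕ} (u : Fin d → E)
    (hu : ∀ j, u j ≠ 0) {n : Fin d → ℕ} (B : (j : Fin d) → Fin (n j) → Set ↥(ℝ ∙ u j)ᗮ)
    (hcov : K ⊆ ⋃ j, ⋃ k, (ℝ ∙ u j)ᗮ.orthogonalProjectionOnto ⁻¹' B j k) :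
    ENNReal.ofReal (1 / 3 + 2 / (9 * (√(3 * (d : ℝ)) - 1))) ≤ ∑ j, relArea K (u j) (B j) := by
  have hd : 1 ≤ d := by
    by_contra h
    have hd0 : d = 0 := by omega
    subst hd0
    obtain ⟨x, hx⟩ := hKint
    have := hcov (interior_subset hx)
    simp at this
  have hd' : (1 : ℝ) ≤ d := by exact_mod_cast hd
  have hq : √(3 * (d : ℝ)) ^ 2 = 3 * (d : ℝ) := Real.sq_sqrt (by positivity)
  have hq1 : 1 < √(3 * (d : ℝ)) := by
    rw [Real.lt_sqrt (by norm_num)]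
    linarith
  set q := √(3 * (d : ℝ)) with hqdef
  have hqpos : 0 < q := by linarith
  have hs0 : (0 : ℝ) ≤ 1 / q := by positivity
  have hs1 : 1 / q ≤ 1 := by
    rw [div_le_one hqpos]; exact hq1.le
  have hU := volume_uniform hdim K hKc hKconv hKint u hu B hcov hs0 hs1
  have hdq : (d : ℝ) = q ^ 2 / 3 := by linarith
  have hb : (d : ℝ) * (1 / q) ^ 3 = 1 / (3 * q) := by
    rw [hdq]; field_simp
  rw [hb] at hU
  have ha : 0 < 3 * (1 - 1 / q) := by
    have : 1 / q < 1 := by rw [div_lt_one hqpos]; exact hq1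
    linarith
  apply le_of_affine_bound ha (by positivity) hU
  have hq1' : q - 1 ≠ 0 := by linarith
  have : (1 / 3 + 2 / (9 * (q - 1))) * (3 * (1 - 1 / q)) = 1 - 1 / (3 * q) := by
    field_simp
    ring
  linarith

/-- At most two axis directions: the relative base areas add up to at least one half. -/
theorem two_dir_rel_vol (hdim : Module.finrank ℝ E = 3) (K : Set E) (hKc : IsCompact K)
    (hKconv : Convex ℝ K) (hKint : (interior K).Nonempty) {d : ℕ} (u : Fin d → E)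
    (hu : ∀ j, u j ≠ 0) {n : Fin d → ℕ} (B : (j : Fin d) → Fin (n j) → Set ↥(ℝ ∙ u j)ᗮ)
    (hcov : K ⊆ ⋃ j, ⋃ k, (ℝ ∙ u j)ᗮ.orthogonalProjectionOnto ⁻¹' B j k) (hd : d ≤ 2) :
    ENNReal.ofReal (1 / 2) ≤ ∑ j, relArea K (u j) (B j) := by
  have hU := volume_uniform hdim K hKc hKconv hKint u hu B hcov (s := 1 / 2) (by norm_num)
    (by norm_num)
  have hd' : (d : ℝ) ≤ 2 := by exact_mod_cast hd
  apply le_of_affine_bound (by norm_num) (by positivity) hU
  nlinarith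

/-- From a bound on the relative base areas to a bound on the total base area in terms of the
smallest projection area. -/
theorem abs_of_rel (K : Set E) (hKc : IsCompact K) {d : ℕ} (u : Fin d → E)
    (hu : ∀ j, u j ≠ 0) {n : Fin d → ℕ} (B : (j : Fin d) → Fin (n j) → Set ↥(ℝ ∙ u j)ᗮ)
    {c : ENNReal} (hc : c ≤ ∑ j, relArea K (u j) (B j)) :
    c * (⨅ v : {v : E // v ≠ 0}, volume ((ℝ ∙ (v : E))ᗮ.orthogonalProjectionOnto '' K)) ≤
      ∑ j, ∑ k, volume (B j k) := by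
  set A := ⨅ v : {v : E // v ≠ 0}, volume ((ℝ ∙ (v : E))ᗮ.orthogonalProjectionOnto '' K)
    with hA
  have hAle : ∀ j, A ≤ volume ((ℝ ∙ u j)ᗮ.orthogonalProjectionOnto '' K) := fun j =>
    iInf_le (fun v : {v : E // v ≠ 0} =>
      volume ((ℝ ∙ (v : E))ᗮ.orthogonalProjectionOnto '' K)) ⟨u j, hu j⟩
  by_cases hA0 : A = 0
  · rw [hA0, mul_zero]; exact zero_le
  by_cases hd : d = 0
  · subst hd
    have : c = 0 := by simpa using hc
    rw [this, zero_mul]; exact zero_le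
  have hAfin : A ≠ ⊤ :=
    ne_top_of_le_ne_top
      (hKc.image ((ℝ ∙ u ⟨0, Nat.pos_of_ne_zero hd⟩)ᗮ.orthogonalProjectionOnto).continuous).measure_lt_top.ne
      (hAle ⟨0, Nat.pos_of_ne_zero hd⟩)
  have h1 : ∑ j, relArea K (u j) (B j) ≤ (∑ j, ∑ k, volume (B j k)) / A := by
    rw [ENNReal.div_eq_inv_mul, Finset.mul_sum]
    apply Finset.sum_le_sum
    intro j _
    rw [← ENNReal.div_eq_inv_mul]
    exact ENNReal.div_le_div_left (hAle j) _
  exact (ENNReal.le_div_iff_mul_le (Or.inl hA0) (Or.inl hAfin)).mp (le_trans hc h1)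

end Vale.Agent.Lib.P243
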