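import Mathlib
import Vale.Agent.Lib.P243.TetraVol
import Vale.Agent.Lib.P243.VolFinal

open MeasureTheory Set

namespace Vale.Agent.Lib.P243

theorem exists_perm_two_three (j k : Fin 4) (hjk : j ≠ k) :
    ∃ σ : Equiv.Perm (Fin 4), σ 2 = j ∧ σ 3 = k := by
  have h3 : Equiv.swap 2 j 3 ≠ j := by
    intro h
    have h2 : Equiv.swap 2 j 2 = j := Equiv.swap_apply_left 2 j
    have := (Equiv.swap 2 j).injective (h.trans h2.symm)
    exact absurd this (by decide)
  refine ⟨Equiv.swap (Equiv.swap 2 j 3) k * Equiv.swap 2 j, ?_, ?_⟩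
  · rw [Equiv.Perm.mul_apply, Equiv.swap_apply_left,
      Equiv.swap_apply_of_ne_of_ne h3.symm hjk]
  · rw [Equiv.Perm.mul_apply, Equiv.swap_apply_left]

/-- The `ℓ¹` estimate in barycentric coordinates. -/
theorem l1_bound (a c : Fin 4 → ℝ) (ha : ∀ j, 0 ≤ a j ∧ a j ≤ 9 / 10)
    (hc : ∀ j, 0 ≤ c j ∧ c j ≤ 9 / 10) (ha2 : ∀ j k, j ≠ k → 1 / 20 ≤ a j + a k)
    (hc2 : ∀ j k, j ≠ k → 1 / 20 ≤ c j + c k) (hsa : ∑ j, a j = 1) (hsc : ∑ j, c j = 1) :
    ∑ j, max (c j - a j) 0 ≤ 9 / 10 := by
  rw [Fin.sum_univ_four] at hsa hsc ⊢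
  have ha01 := ha2 0 1 (by decide)
  have ha02 := ha2 0 2 (by decide)
  have ha03 := ha2 0 3 (by decide)
  have ha12 := ha2 1 2 (by decide)
  have ha13 := ha2 1 3 (by decide)
  have ha23 := ha2 2 3 (by decide)
  have hc01 := hc2 0 1 (by decide)
  have hc02 := hc2 0 2 (by decide)
  have hc03 := hc2 0 3 (by decide)
  have hc12 := hc2 1 2 (by decide)
  have hc13 := hc2 1 3 (by decide)
  have hc23 := hc2 2 3 (by decide)
  obtain ⟨ha0l, ha0u⟩ := ha 0
  obtain ⟨ha1l, ha1u⟩ := ha 1
  obtain ⟨ha2l, ha2u⟩ := ha 2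
  obtain ⟨ha3l, ha3u⟩ := ha 3
  obtain ⟨hc0l, hc0u⟩ := hc 0
  obtain ⟨hc1l, hc1u⟩ := hc 1
  obtain ⟨hc2l, hc2u⟩ := hc 2
  obtain ⟨hc3l, hc3u⟩ := hc 3
  rcases max_cases (c 0 - a 0) 0 with ⟨h0, _⟩ | ⟨h0, _⟩ <;>
  rcases max_cases (c 1 - a 1) 0 with ⟨h1, _⟩ | ⟨h1, _⟩ <;>
  rcases max_cases (c 2 - a 2) 0 with ⟨h2, _⟩ | ⟨h2, _⟩ <;>
  rcases max_cases (c 3 - a 3) 0 with ⟨h3, _⟩ | ⟨h3, _⟩ <;>
  rw [h0, h1, h2, h3] <;> linarith

variable {E : Type*} [NormedAddCommGroup E] [InnerProductSpace ℝ E] [MeasurableSpace E]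
  [BorelSpace E] [FiniteDimensional ℝ E]

/-- The part of a tetrahedron within barycentric distance `η` of an edge has volume at most
`3 η ^ 2` times the volume of the tetrahedron. -/
theorem wedge_le (hdim : Module.finrank ℝ E = 3) (b : AffineBasis (Fin 4) ℝ E)
    (σ : Equiv.Perm (Fin 4)) {η : ℝ} (hη : 0 ≤ η) :
    volume {x | x ∈ convexHull ℝ (range b) ∧ b.coord (σ 2) x + b.coord (σ 3) x ≤ η} ≤
      ENNReal.ofReal (3 * η ^ 2) * volume (convexHull ℝ (range b)) := by
  obtain ⟨c, hc0, hct, hc⟩ := bary_scale hdim b σ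
  have hT : convexHull ℝ (range b) =
      {x : E | ((b.coord (σ 2) x, b.coord (σ 3) x), b.coord (σ 1) x) ∈ stdTet} := by
    rw [b.convexHull_eq_nonneg_coord]
    ext x
    have hsum := b.sum_coord_apply_eq_one x
    rw [perm_sum σ (fun j => b.coord j x)] at hsum
    show (∀ j, 0 ≤ b.coord j x) ↔ 0 ≤ b.coord (σ 2) x ∧ 0 ≤ b.coord (σ 3) x ∧
      0 ≤ b.coord (σ 1) x ∧ b.coord (σ 2) x + b.coord (σ 3) x + b.coord (σ 1) x ≤ 1
    rw [perm_forall σ (fun j => 0 ≤ b.coord j x)]
    constructor
    · rintro ⟨h0, h1, h2, h3⟩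
      exact ⟨h2, h3, h1, by linarith⟩
    · rintro ⟨h2, h3, h1, h4⟩
      exact ⟨by linarith, h1, h2, h3⟩
  have hW : {x | x ∈ convexHull ℝ (range b) ∧ b.coord (σ 2) x + b.coord (σ 3) x ≤ η} ⊆
      {x : E | ((b.coord (σ 2) x, b.coord (σ 3) x), b.coord (σ 1) x) ∈
        triSet η ×ˢ Icc (0 : ℝ) 1} := by
    rintro x ⟨hxT, hxη⟩
    rw [b.convexHull_eq_nonneg_coord] at hxT
    obtain ⟨h0, h1, h2, h3⟩ := (perm_forall σ (fun j => 0 ≤ b.coord j x)).mp hxT
    have hsum := b.sum_coord_apply_eq_one x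
    rw [perm_sum σ (fun j => b.coord j x)] at hsum
    exact ⟨⟨h2, h3, hxη⟩, h1, by linarith⟩
  calc volume {x | x ∈ convexHull ℝ (range b) ∧ b.coord (σ 2) x + b.coord (σ 3) x ≤ η}
      ≤ volume {x : E | ((b.coord (σ 2) x, b.coord (σ 3) x), b.coord (σ 1) x) ∈
        triSet η ×ˢ Icc (0 : ℝ) 1} := measure_mono hW
    _ = c * ENNReal.ofReal (η ^ 2 / 2) := by
        rw [hc _ ((triSet_closed η).measurableSet.prod measurableSet_Icc), volume_prism hη]
    _ = ENNReal.ofReal (3 * η ^ 2) * (c * ENNReal.ofReal (1 / 6)) := by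
        rw [mul_left_comm, ← ENNReal.ofReal_mul (by positivity)]
        congr 2
        ring
    _ = ENNReal.ofReal (3 * η ^ 2) * volume (convexHull ℝ (range b)) := by
        rw [hT, hc _ stdTet_closed.measurableSet, volume_stdTet]

theorem wedge_pair_le (hdim : Module.finrank ℝ E = 3) (b : AffineBasis (Fin 4) ℝ E)
    (j k : Fin 4) (hjk : j ≠ k) {η : ℝ} (hη : 0 ≤ η) :
    volume {x | x ∈ convexHull ℝ (range b) ∧ b.coord j x + b.coord k x ≤ η} ≤
      ENNReal.ofReal (3 * η ^ 2) * volume (convexHull ℝ (range b)) := by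
  obtain ⟨σ, rfl, rfl⟩ := exists_perm_two_three j k hjk
  exact wedge_le hdim b σ hη

/-- The part of a tetrahedron within barycentric distance `δ` of a vertex has volume at most
`δ ^ 3` times the volume of the tetrahedron. -/
theorem corner_le (hdim : Module.finrank ℝ E = 3) (b : AffineBasis (Fin 4) ℝ E) (j : Fin 4)
    {δ : ℝ} (hδ : 0 < δ) :
    volume {x | x ∈ convexHull ℝ (range b) ∧ 1 - δ ≤ b.coord j x} ≤
      ENNReal.ofReal (δ ^ 3) * volume (convexHull ℝ (range b)) := by
  have hsub : {x | x ∈ convexHull ℝ (range b) ∧ 1 - δ ≤ b.coord j x} ⊆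
      AffineMap.homothety (b j) δ '' convexHull ℝ (range b) := by
    rintro x ⟨hxT, hxj⟩
    refine ⟨AffineMap.homothety (b j) δ⁻¹ x, ?_, ?_⟩
    · rw [b.convexHull_eq_nonneg_coord] at hxT ⊢
      intro i
      show 0 ≤ b.coord i (AffineMap.homothety (b j) δ⁻¹ x)
      rw [homothety_eq_mix, Convex.combo_affine_apply (by ring), b.coord_apply]
      have hinv : 0 < δ⁻¹ := inv_pos.mpr hδ
      by_cases hij : i = j
      · subst hij
        rw [if_pos rfl]
        simp only [smul_eq_mul, mul_one]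
        have h1 : δ⁻¹ * (1 - δ) ≤ δ⁻¹ * b.coord i x := mul_le_mul_of_nonneg_left hxj hinv.le
        have h2 : δ⁻¹ * δ = 1 := inv_mul_cancel₀ hδ.ne'
        nlinarith
      · rw [if_neg hij]
        simp only [smul_eq_mul, mul_zero, zero_add]
        exact mul_nonneg hinv.le (hxT i)
    · rw [← AffineMap.homothety_mul_apply, mul_inv_cancel₀ hδ.ne', AffineMap.homothety_one]
      rfl
  calc volume {x | x ∈ convexHull ℝ (range b) ∧ 1 - δ ≤ b.coord j x}
      ≤ volume (AffineMap.homothety (b j) δ '' convexHull ℝ (range b)) := measure_mono hsub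
    _ = ENNReal.ofReal (δ ^ 3) * volume (convexHull ℝ (range b)) := by
        rw [Measure.addHaar_image_homothety, hdim, abs_of_pos (by positivity)]

/-- The core of a tetrahedron: the points all of whose barycentric coordinates are at most
`9 / 10` and all of whose sums of two barycentric coordinates are at least `1 / 20`. -/
def tetCore (b : AffineBasis (Fin 4) ℝ E) : Set E :=
  {x | (∀ j, 0 ≤ b.coord j x ∧ b.coord j x ≤ 9 / 10) ∧
    ∀ j k, j ≠ k → 1 / 20 ≤ b.coord j x + b.coord k x}

theorem tetCore_closed (b : AffineBasis (Fin 4) ℝ E) : IsClosed (tetCore b) := by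
  have hc : ∀ j, Continuous (b.coord j) := fun j => (b.coord j).continuous_of_finiteDimensional
  have h1 : IsClosed {x : E | ∀ j, 0 ≤ b.coord j x ∧ b.coord j x ≤ 9 / 10} := by
    have : {x : E | ∀ j, 0 ≤ b.coord j x ∧ b.coord j x ≤ 9 / 10} =
        ⋂ j, ({x : E | 0 ≤ b.coord j x} ∩ {x : E | b.coord j x ≤ 9 / 10}) := by
      ext x
      simp only [mem_iInter, mem_inter_iff]
      rfl
    rw [this]
    exact isClosed_iInter fun j =>
      (isClosed_le continuous_const (hc j)).inter (isClosed_le (hc j) continuous_const)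
  have h2 : IsClosed {x : E | ∀ j k, j ≠ k → 1 / 20 ≤ b.coord j x + b.coord k x} := by
    have : {x : E | ∀ j k, j ≠ k → 1 / 20 ≤ b.coord j x + b.coord k x} =
        ⋂ j, ⋂ k, ⋂ (_ : j ≠ k), {x : E | 1 / 20 ≤ b.coord j x + b.coord k x} := by
      ext x
      simp only [mem_iInter]
      rfl
    rw [this]
    exact isClosed_iInter fun j => isClosed_iInter fun k => isClosed_iInter fun _ =>
      isClosed_le continuous_const ((hc j).add (hc k))
  exact h1.inter h2

theorem tetCore_subset (b : AffineBasis (Fin 4) ℝ E) : tetCore b ⊆ convexHull ℝ (range b) := by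
  intro x hx
  rw [b.convexHull_eq_nonneg_coord]
  exact fun j => (hx.1 j).1

/-- In every direction the tetrahedron has a chord which is at least `10 / 9` times as long as
every chord of its core in that direction. -/
theorem core_chord (b : AffineBasis (Fin 4) ℝ E) (u : E) (hu : u ≠ 0) :
    ∃ L : ℝ, 0 < L ∧ (∃ x ∈ convexHull ℝ (range b), x + L • u ∈ convexHull ℝ (range b)) ∧
      ∀ x ∈ tetCore b, ∀ t : ℝ, x + t • u ∈ tetCore b → |t| ≤ 9 / 10 * L := by
  set μ : Fin 4 → ℝ := fun j => (b.coord j).linear u with hμ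
  have hμsum : ∑ j, μ j = 0 := sum_coord_linear b u
  have hμu : ∑ j, μ j • b j = u := sum_coord_linear_smul b u
  set m : ℝ := ∑ j, max (μ j) 0 with hm
  have hm0 : 0 ≤ m := Finset.sum_nonneg fun j _ => le_max_right _ _
  have hmpos : 0 < m := by
    rcases hm0.lt_or_eq with h | h
    · exact h
    · exfalso
      have h1 : ∀ j ∈ Finset.univ, max (μ j) 0 = 0 :=
        (Finset.sum_eq_zero_iff_of_nonneg fun j _ => le_max_right _ _).mp h.symm
      have h2 : ∀ j ∈ Finset.univ, μ j ≤ 0 := fun j hj => by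
        have := le_max_left (μ j) 0
        rw [h1 j hj] at this
        exact this
      have h3 : ∀ j ∈ Finset.univ, μ j = 0 := (Finset.sum_eq_zero_iff_of_nonpos h2).mp hμsum
      apply hu
      rw [← hμu]
      exact Finset.sum_eq_zero fun j hj => by rw [h3 j hj, zero_smul]
  have hneg : ∀ j, max (-μ j) 0 + μ j = max (μ j) 0 := by
    intro j
    rcases le_total (μ j) 0 with h | h
    · rw [max_eq_left (by linarith), max_eq_right h]; ring
    · rw [max_eq_right (by linarith), max_eq_left h]; ring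
  have hm' : ∑ j, max (-μ j) 0 = m := by
    have : ∑ j, (max (-μ j) 0 + μ j) = m := Finset.sum_congr rfl fun j _ => hneg j
    rw [Finset.sum_add_distrib, hμsum, add_zero] at this
    exact this
  refine ⟨m⁻¹, inv_pos.mpr hmpos, ⟨∑ j, (max (-μ j) 0 / m) • b j, ?_, ?_⟩, ?_⟩
  · refine (convex_convexHull ℝ (range b)).sum_mem (fun j _ => ?_) ?_
      (fun j _ => subset_convexHull ℝ _ (mem_range_self j))
    · exact div_nonneg (le_max_right _ _) hmpos.le
    · rw [← Finset.sum_div, hm', div_self hmpos.ne']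
  · have key : ∑ j, (max (-μ j) 0 / m) • b j + m⁻¹ • ∑ j, μ j • b j =
        ∑ j, (max (μ j) 0 / m) • b j := by
      rw [Finset.smul_sum, ← Finset.sum_add_distrib]
      apply Finset.sum_congr rfl
      intro j _
      rw [smul_smul, ← add_smul]
      congr 1
      rw [div_eq_inv_mul, div_eq_inv_mul, ← mul_add, hneg j]
    rw [hμu] at key
    rw [key]
    refine (convex_convexHull ℝ (range b)).sum_mem (fun j _ => ?_) ?_
      (fun j _ => subset_convexHull ℝ _ (mem_range_self j))
    · exact div_nonneg (le_max_right _ _) hmpos.le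
    · rw [← Finset.sum_div, div_self hmpos.ne']
  · intro x hx t hxt
    have hcoord : ∀ j, b.coord j (x + t • u) = b.coord j x + t * μ j := fun j =>
      coord_add_smul b j x u t
    have hA := l1_bound (fun j => b.coord j x) (fun j => b.coord j (x + t • u)) hx.1 hxt.1
      hx.2 hxt.2 (b.sum_coord_apply_eq_one x) (b.sum_coord_apply_eq_one _)
    have hB := l1_bound (fun j => b.coord j (x + t • u)) (fun j => b.coord j x) hxt.1 hx.1
      hxt.2 hx.2 (b.sum_coord_apply_eq_one _) (b.sum_coord_apply_eq_one x)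
    have hgoal : |t| * m ≤ 9 / 10 := by
      rcases le_total 0 t with ht | ht
      · rw [abs_of_nonneg ht]
        have : ∑ j, max (b.coord j (x + t • u) - b.coord j x) 0 = t * m := by
          rw [hm, Finset.mul_sum]
          apply Finset.sum_congr rfl
          intro j _
          rw [hcoord j, add_sub_cancel_left, mul_max_of_nonneg _ _ ht, mul_zero]
        rw [← this]
        exact hA
      · rw [abs_of_nonpos ht]
        have : ∑ j, max (b.coord j x - b.coord j (x + t • u)) 0 = -t * m := by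
          rw [hm, Finset.mul_sum]
          apply Finset.sum_congr rfl
          intro j _
          rw [hcoord j, mul_max_of_nonneg _ _ (by linarith : (0 : ℝ) ≤ -t), mul_zero]
          congr 1
          ring
        rw [← this]
        exact hB
    rw [← div_eq_mul_inv, le_div_iff₀ hmpos]
    exact hgoal

/-- The core fills all but `49 / 1000` of the tetrahedron. -/
theorem core_volume (hdim : Module.finrank ℝ E = 3) (b : AffineBasis (Fin 4) ℝ E) :
    volume (convexHull ℝ (range b)) ≤
      volume (tetCore b) + ENNReal.ofReal (49 / 1000) * volume (convexHull ℝ (range b)) := by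
  set T := convexHull ℝ (range b) with hT
  set pairs : Finset (Fin 4 × Fin 4) := Finset.univ.filter fun q => q.1 < q.2 with hpairs
  have hcard : pairs.card = 6 := by decide
  have hsub : T ⊆ tetCore b ∪ ((⋃ j, {x | x ∈ T ∧ 1 - 1 / 10 ≤ b.coord j x}) ∪
      ⋃ q ∈ pairs, {x | x ∈ T ∧ b.coord q.1 x + b.coord q.2 x ≤ 1 / 20}) := by
    intro x hxT
    by_cases hC : ∃ j, 1 - 1 / 10 ≤ b.coord j x
    · obtain ⟨j, hj⟩ := hC
      exact Or.inr (Or.inl (mem_iUnion.mpr ⟨j, hxT, hj⟩))
    by_cases hW : ∃ q ∈ pairs, b.coord q.1 x + b.coord q.2 x ≤ 1 / 20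
    · obtain ⟨q, hq, hq2⟩ := hW
      exact Or.inr (Or.inr (mem_iUnion₂.mpr ⟨q, hq, hxT, hq2⟩))
    left
    push Not at hC hW
    have hx0 : ∀ j, 0 ≤ b.coord j x := by
      have := hxT
      rw [hT, b.convexHull_eq_nonneg_coord] at this
      exact this
    refine ⟨fun j => ⟨hx0 j, by linarith [hC j]⟩, fun j k hjk => ?_⟩
    rcases lt_or_gt_of_ne hjk with h | h
    · have := hW (j, k) (by rw [hpairs]; simp [h])
      exact this.le
    · have := hW (k, j) (by rw [hpairs]; simp [h])
      simp only at this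
      linarith
  have hcorner : volume (⋃ j, {x | x ∈ T ∧ 1 - 1 / 10 ≤ b.coord j x}) ≤
      4 * (ENNReal.ofReal ((1 / 10) ^ 3) * volume T) := by
    calc volume (⋃ j, {x | x ∈ T ∧ 1 - 1 / 10 ≤ b.coord j x})
        ≤ ∑ j : Fin 4, volume {x | x ∈ T ∧ 1 - 1 / 10 ≤ b.coord j x} :=
          measure_iUnion_fintype_le _ _
      _ ≤ ∑ _j : Fin 4, ENNReal.ofReal ((1 / 10) ^ 3) * volume T :=
          Finset.sum_le_sum fun j _ => corner_le hdim b j (by norm_num)
      _ = 4 * (ENNReal.ofReal ((1 / 10) ^ 3) * volume T) := by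
          rw [Finset.sum_const, Finset.card_univ, Fintype.card_fin, nsmul_eq_mul]
          norm_num
  have hwedge : volume (⋃ q ∈ pairs, {x | x ∈ T ∧ b.coord q.1 x + b.coord q.2 x ≤ 1 / 20}) ≤
      6 * (ENNReal.ofReal (3 * (1 / 20) ^ 2) * volume T) := by
    calc volume (⋃ q ∈ pairs, {x | x ∈ T ∧ b.coord q.1 x + b.coord q.2 x ≤ 1 / 20})
        ≤ ∑ q ∈ pairs, volume {x | x ∈ T ∧ b.coord q.1 x + b.coord q.2 x ≤ 1 / 20} :=
          measure_biUnion_finset_le _ _
      _ ≤ ∑ _q ∈ pairs, ENNReal.ofReal (3 * (1 / 20) ^ 2) * volume T := by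
          apply Finset.sum_le_sum
          intro q hq
          have hlt : q.1 < q.2 := by
            rw [hpairs] at hq
            simpa using hq
          exact wedge_pair_le hdim b q.1 q.2 hlt.ne (by norm_num)
      _ = 6 * (ENNReal.ofReal (3 * (1 / 20) ^ 2) * volume T) := by
          rw [Finset.sum_const, hcard, nsmul_eq_mul]
          norm_num
  calc volume T ≤ volume (tetCore b) + (volume (⋃ j, {x | x ∈ T ∧ 1 - 1 / 10 ≤ b.coord j x}) +
        volume (⋃ q ∈ pairs, {x | x ∈ T ∧ b.coord q.1 x + b.coord q.2 x ≤ 1 / 20})) :=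
        le_trans (measure_mono hsub)
          (le_trans (measure_union_le _ _) (add_le_add le_rfl (measure_union_le _ _)))
    _ ≤ volume (tetCore b) + (4 * (ENNReal.ofReal ((1 / 10) ^ 3) * volume T) +
        6 * (ENNReal.ofReal (3 * (1 / 20) ^ 2) * volume T)) := by
        gcongr
    _ = volume (tetCore b) + ENNReal.ofReal (49 / 1000) * volume T := by
        congr 1
        have h4 : (4 : ENNReal) = ENNReal.ofReal 4 := by simp
        have h6 : (6 : ENNReal) = ENNReal.ofReal 6 := by simp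
        rw [h4, h6, ← mul_assoc, ← mul_assoc, ← ENNReal.ofReal_mul (by norm_num),
          ← ENNReal.ofReal_mul (by norm_num), ← add_mul,
          ← ENNReal.ofReal_add (by norm_num) (by norm_num)]
        congr 2
        norm_num

/-- Every finite covering of a tetrahedron by cylinders has directionwise relative area at
least `7 / 20`: if the cylinders with axis directions `u i` and bases `B i` (arbitrary subsets
of the planes orthogonal to `u i`) cover the convex hull of four points with nonempty interior,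
then the areas of the bases divided by the areas of the corresponding orthogonal projections of
the tetrahedron add up to at least `7 / 20`. -/
theorem tetra_indexed (hdim : Module.finrank ℝ E = 3) (p : Fin 4 → E)
    (hint : (interior (convexHull ℝ (Set.range p))).Nonempty) {m : ℕ} (u : Fin m → E)
    (hu0 : ∀ i, u i ≠ 0) (B : ∀ i, Set ↥(ℝ ∙ u i)ᗮ)
    (hcov : convexHull ℝ (Set.range p) ⊆
      ⋃ i, (ℝ ∙ u i)ᗮ.orthogonalProjectionOnto ⁻¹' B i) :
    ENNReal.ofReal (7 / 20) ≤
      ∑ i, volume (B i) /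
        volume ((ℝ ∙ u i)ᗮ.orthogonalProjectionOnto '' convexHull ℝ (Set.range p)) := by
  have htop : affineSpan ℝ (Set.range p) = ⊤ :=
    interior_convexHull_nonempty_iff_affineSpan_eq_top.mp hint
  have hind : AffineIndependent ℝ p := by
    rw [affineIndependent_iff_finrank_vectorSpan_eq ℝ p (n := 3) (by simp),
      ← direction_affineSpan, htop, AffineSubspace.direction_top, finrank_top, hdim]
  let b : AffineBasis (Fin 4) ℝ E := ⟨p, hind, htop⟩
  have hb : Set.range b = Set.range p := rfl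
  have hTc : IsCompact (convexHull ℝ (Set.range p)) := (Set.finite_range p).isCompact_convexHull ℝ
  have hTconv : Convex ℝ (convexHull ℝ (Set.range p)) := convex_convexHull ℝ _
  have hST : tetCore b ⊆ convexHull ℝ (Set.range p) := by
    rw [← hb]; exact tetCore_subset b
  have hchord : ∀ i, ∃ L : ℝ, 0 < L ∧
      (∃ x ∈ convexHull ℝ (Set.range p), x + L • u i ∈ convexHull ℝ (Set.range p)) ∧
      ∀ x ∈ tetCore b, ∀ t : ℝ, x + t • u i ∈ tetCore b → |t| ≤ 9 / 10 * L := by
    intro i
    have := core_chord b (u i) (hu0 i)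
    rw [hb] at this
    exact this
  have h1 := chord_principle hdim (convexHull ℝ (Set.range p)) hTc hTconv hint (tetCore b)
    (tetCore_closed b).measurableSet (ρ := 9 / 10) (by norm_num) u hu0 B (hST.trans hcov) hchord
  have h2 := core_volume hdim b
  rw [hb] at h2
  have hV0 : volume (convexHull ℝ (Set.range p)) ≠ 0 :=
    (lt_of_lt_of_le (isOpen_interior.measure_pos volume hint)
      (measure_mono interior_subset)).ne'
  have hVt : volume (convexHull ℝ (Set.range p)) ≠ ⊤ := hTc.measure_lt_top.ne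
  have h3 : volume (convexHull ℝ (Set.range p)) * 1 ≤ volume (convexHull ℝ (Set.range p)) *
      (ENNReal.ofReal (27 / 10) * (∑ i, volume (B i) /
        volume ((ℝ ∙ u i)ᗮ.orthogonalProjectionOnto '' convexHull ℝ (Set.range p))) +
        ENNReal.ofReal (49 / 1000)) := by
    calc volume (convexHull ℝ (Set.range p)) * 1 = volume (convexHull ℝ (Set.range p)) :=
        mul_one _
      _ ≤ volume (tetCore b) +
          ENNReal.ofReal (49 / 1000) * volume (convexHull ℝ (Set.range p)) := h2
      _ ≤ ENNReal.ofReal (3 * (9 / 10)) * volume (convexHull ℝ (Set.range p)) *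
            (∑ i, volume (B i) /
              volume ((ℝ ∙ u i)ᗮ.orthogonalProjectionOnto '' convexHull ℝ (Set.range p))) +
          ENNReal.ofReal (49 / 1000) * volume (convexHull ℝ (Set.range p)) := by
        gcongr
      _ = volume (convexHull ℝ (Set.range p)) *
          (ENNReal.ofReal (27 / 10) * (∑ i, volume (B i) /
            volume ((ℝ ∙ u i)ᗮ.orthogonalProjectionOnto '' convexHull ℝ (Set.range p))) +
          ENNReal.ofReal (49 / 1000)) := by
        rw [show (3 * (9 / 10) : ℝ) = 27 / 10 by norm_num]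
        ring
  have h4 := (ENNReal.mul_le_mul_iff_right hV0 hVt).mp h3
  exact le_of_affine_bound (by norm_num) (by norm_num) h4 (by norm_num)

end Vale.Agent.Lib.P243
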