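import Mathlib
import Vale.Agent.Lib.P243.TetraCoord

open MeasureTheory Set

namespace Vale.Agent.Lib.P243

/-- Weighted fibre bound: finitely many measurable sets `S k` with weights `w k ≥ 0` such that
over every base point `y` the vertical fibres of the `S k` have diameters `a k` with
`∑ w k * a k ≤ ℓ` have weighted volume at most `|B| ℓ` over `B`. -/
theorem wcyl_fibre_bound {n : ℕ} {S : Fin n → Set ((ℝ × ℝ) × ℝ)}
    (hS : ∀ k, MeasurableSet (S k)) (w : Fin n → ℝ) (hw : ∀ k, 0 ≤ w k) {B : Set (ℝ × ℝ)}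
    (hB : MeasurableSet B) {ℓ : ℝ}
    (hdiam : ∀ y : ℝ × ℝ, ∃ a : Fin n → ℝ, (∀ k, 0 ≤ a k) ∧ ∑ k, w k * a k ≤ ℓ ∧
      ∀ k z z', (y, z) ∈ S k → (y, z') ∈ S k → |z' - z| ≤ a k) :
    ∑ k, ENNReal.ofReal (w k) * volume (S k ∩ Prod.fst ⁻¹' B) ≤
      volume B * ENNReal.ofReal ℓ := by
  have hm : ∀ k, MeasurableSet (S k ∩ Prod.fst ⁻¹' B) := fun k =>
    (hS k).inter (measurable_fst hB)
  have hfm : ∀ k, Measurable fun y : ℝ × ℝ =>
      (volume : Measure ℝ) (Prod.mk y ⁻¹' (S k ∩ Prod.fst ⁻¹' B)) := fun k =>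
    measurable_measure_prodMk_left (hm k)
  have hrw : ∀ k, ENNReal.ofReal (w k) * volume (S k ∩ Prod.fst ⁻¹' B) =
      ∫⁻ y : ℝ × ℝ, ENNReal.ofReal (w k) *
        (volume : Measure ℝ) (Prod.mk y ⁻¹' (S k ∩ Prod.fst ⁻¹' B)) := by
    intro k
    rw [lintegral_const_mul _ (hfm k), Measure.volume_eq_prod, Measure.prod_apply (hm k)]
  calc ∑ k, ENNReal.ofReal (w k) * volume (S k ∩ Prod.fst ⁻¹' B)
      = ∑ k, ∫⁻ y : ℝ × ℝ, ENNReal.ofReal (w k) *
          (volume : Measure ℝ) (Prod.mk y ⁻¹' (S k ∩ Prod.fst ⁻¹' B)) :=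
        Finset.sum_congr rfl fun k _ => hrw k
    _ = ∫⁻ y : ℝ × ℝ, ∑ k, ENNReal.ofReal (w k) *
          (volume : Measure ℝ) (Prod.mk y ⁻¹' (S k ∩ Prod.fst ⁻¹' B)) := by
        rw [lintegral_finsetSum]
        intro k _
        exact (hfm k).const_mul _
    _ ≤ ∫⁻ y, B.indicator (fun _ => ENNReal.ofReal ℓ) y := by
        apply lintegral_mono
        intro y
        by_cases hy : y ∈ B
        · rw [indicator_of_mem hy]
          obtain ⟨a, ha0, hsum, hd⟩ := hdiam y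
          show ∑ k, ENNReal.ofReal (w k) *
            (volume : Measure ℝ) (Prod.mk y ⁻¹' (S k ∩ Prod.fst ⁻¹' B)) ≤ ENNReal.ofReal ℓ
          have hk : ∀ k, (volume : Measure ℝ) (Prod.mk y ⁻¹' (S k ∩ Prod.fst ⁻¹' B)) ≤
              ENNReal.ofReal (a k) := by
            intro k
            refine le_trans (measure_mono (preimage_mono inter_subset_left)) ?_
            refine le_trans (Real.volume_le_diam _) ?_
            apply Metric.ediam_le
            intro z hz z' hz'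
            rw [edist_dist, Real.dist_eq]
            exact ENNReal.ofReal_le_ofReal (hd k z' z hz' hz)
          calc ∑ k, ENNReal.ofReal (w k) *
                (volume : Measure ℝ) (Prod.mk y ⁻¹' (S k ∩ Prod.fst ⁻¹' B))
              ≤ ∑ k, ENNReal.ofReal (w k) * ENNReal.ofReal (a k) :=
                Finset.sum_le_sum fun k _ => mul_le_mul_right (hk k) _
            _ = ∑ k, ENNReal.ofReal (w k * a k) :=
                Finset.sum_congr rfl fun k _ => (ENNReal.ofReal_mul (hw k)).symm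
            _ = ENNReal.ofReal (∑ k, w k * a k) :=
                (ENNReal.ofReal_sum_of_nonneg fun k _ => mul_nonneg (hw k) (ha0 k)).symm
            _ ≤ ENNReal.ofReal ℓ := ENNReal.ofReal_le_ofReal hsum
        · rw [indicator_of_notMem hy]
          have : ∀ k, Prod.mk y ⁻¹' (S k ∩ Prod.fst ⁻¹' B) = ∅ := by
            intro k
            ext z
            simp [hy]
          show ∑ k, ENNReal.ofReal (w k) *
            (volume : Measure ℝ) (Prod.mk y ⁻¹' (S k ∩ Prod.fst ⁻¹' B)) ≤ 0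
          simp [this]
    _ = volume B * ENNReal.ofReal ℓ := by
        rw [lintegral_indicator hB, setLIntegral_const, mul_comm]

/-- Coordinate form of the weighted chord comparison bound. -/
theorem wchord_cyl_coord {K : Set ((ℝ × ℝ) × ℝ)} (hKc : IsCompact K) (hKconv : Convex ℝ K)
    (hKint : (interior K).Nonempty) {n : ℕ} {S : Fin n → Set ((ℝ × ℝ) × ℝ)}
    (hS : ∀ k, MeasurableSet (S k)) (w : Fin n → ℝ) (hw : ∀ k, 0 ≤ w k) {B : Set (ℝ × ℝ)}
    (hB : MeasurableSet B) {L : ℝ} (hL : 0 < L) {y0 : ℝ × ℝ} {z0 : ℝ}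
    (h1 : (y0, z0) ∈ K) (h2 : (y0, z0 + L) ∈ K)
    (hdiam : ∀ y : ℝ × ℝ, ∃ a : Fin n → ℝ, (∀ k, 0 ≤ a k) ∧ ∑ k, w k * a k ≤ L ∧
      ∀ k z z', (y, z) ∈ S k → (y, z') ∈ S k → |z' - z| ≤ a k) :
    ∑ k, ENNReal.ofReal (w k) * volume (S k ∩ Prod.fst ⁻¹' B) ≤
      3 * (volume B / volume (Prod.fst '' K)) * volume K := by
  have hP0 : volume (Prod.fst '' K) ≠ 0 := (proj_volume_pos hKint).ne'
  have hPt : volume (Prod.fst '' K) ≠ ⊤ := proj_volume_ne_top hKc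
  have hA := wcyl_fibre_bound hS w hw hB hdiam
  have hC := proj_area_chord hKc hKconv hL h1 h2
  calc ∑ k, ENNReal.ofReal (w k) * volume (S k ∩ Prod.fst ⁻¹' B)
      ≤ volume B * ENNReal.ofReal L := hA
    _ = (volume B / volume (Prod.fst '' K)) *
          (volume (Prod.fst '' K) * ENNReal.ofReal L) := by
        have : volume B = volume B / volume (Prod.fst '' K) * volume (Prod.fst '' K) :=
          (ENNReal.div_mul_cancel hP0 hPt).symm
        conv_lhs => rw [this]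
        ring
    _ ≤ (volume B / volume (Prod.fst '' K)) * (3 * volume K) := by
        gcongr
    _ = 3 * (volume B / volume (Prod.fst '' K)) * volume K := by
        ring

variable {E : Type*} [NormedAddCommGroup E] [InnerProductSpace ℝ E] [MeasurableSpace E]
  [BorelSpace E] [FiniteDimensional ℝ E]

/-- The weighted chord comparison bound for one cylinder. -/
theorem wchord_cyl_general (hdim : Module.finrank ℝ E = 3) (K : Set E) (hKc : IsCompact K)
    (hKconv : Convex ℝ K) (hKint : (interior K).Nonempty) {n : ℕ} (S : Fin n → Set E)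
    (hS : ∀ k, MeasurableSet (S k)) (w : Fin n → ℝ) (hw : ∀ k, 0 ≤ w k)
    (u : E) (hu : u ≠ 0) (B : Set ↥(ℝ ∙ u)ᗮ) (hB : MeasurableSet B) {L : ℝ} (hL : 0 < L)
    {x0 : E} (hx0 : x0 ∈ K) (hx1 : x0 + L • u ∈ K)
    (hdiam : ∀ x : E, ∃ a : Fin n → ℝ, (∀ k, 0 ≤ a k) ∧ ∑ k, w k * a k ≤ L ∧
      ∀ k, ∀ t t' : ℝ, x + t • u ∈ S k → x + t' • u ∈ S k → |t' - t| ≤ a k) :
    ∑ k, ENNReal.ofReal (w k) *
        volume (S k ∩ (ℝ ∙ u)ᗮ.orthogonalProjectionOnto ⁻¹' B) ≤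
      3 * (volume B / volume ((ℝ ∙ u)ᗮ.orthogonalProjectionOnto '' K)) * volume K := by
  have hfr : Module.finrank ℝ ↥(ℝ ∙ u)ᗮ = 2 := by
    have hfact : Fact (Module.finrank ℝ E = 2 + 1) := ⟨hdim⟩
    exact Submodule.finrank_orthogonal_span_singleton hu
  have hfr2 : Module.finrank ℝ (ℝ × ℝ) = Module.finrank ℝ ↥(ℝ ∙ u)ᗮ := by
    rw [hfr]; simp
  let ψ : (ℝ × ℝ) ≃L[ℝ] ↥(ℝ ∙ u)ᗮ := ContinuousLinearEquiv.ofFinrankEq hfr2
  have hinj : Function.Injective (cylMap u (ψ : (ℝ × ℝ) →ₗ[ℝ] ↥(ℝ ∙ u)ᗮ)) :=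
    cylMap_injective hu ψ.injective
  have hsurj : Function.Surjective (cylMap u (ψ : (ℝ × ℝ) →ₗ[ℝ] ↥(ℝ ∙ u)ᗮ)) :=
    (LinearMap.injective_iff_surjective_of_finrank_eq_finrank (by simp [hdim])).mp hinj
  let Ξ : ((ℝ × ℝ) × ℝ) ≃L[ℝ] E :=
    (LinearEquiv.ofBijective (cylMap u (ψ : (ℝ × ℝ) →ₗ[ℝ] ↥(ℝ ∙ u)ᗮ))
      ⟨hinj, hsurj⟩).toContinuousLinearEquiv
  have hΞ : ∀ p, (ℝ ∙ u)ᗮ.orthogonalProjectionOnto (Ξ p) = ψ p.1 := fun p =>
    cylMap_proj u (ψ : (ℝ × ℝ) →ₗ[ℝ] ↥(ℝ ∙ u)ᗮ) p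
  have hΞa : ∀ p : (ℝ × ℝ) × ℝ, Ξ p = (ψ p.1 : E) + p.2 • u := fun p => rfl
  set K' : Set ((ℝ × ℝ) × ℝ) := Ξ ⁻¹' K with hK'
  set S' : Fin n → Set ((ℝ × ℝ) × ℝ) := fun k => Ξ ⁻¹' S k with hS'
  have hK'c : IsCompact K' := Ξ.toHomeomorph.isCompact_preimage.mpr hKc
  have hK'conv : Convex ℝ K' :=
    hKconv.linear_preimage (cylMap u (ψ : (ℝ × ℝ) →ₗ[ℝ] ↥(ℝ ∙ u)ᗮ))
  have hK'int : (interior K').Nonempty := by
    have hpi : interior (Ξ ⁻¹' K) = Ξ ⁻¹' interior K :=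
      (Ξ.toHomeomorph.preimage_interior K).symm
    rw [hK', hpi]
    obtain ⟨x, hx⟩ := hKint
    refine ⟨Ξ.symm x, ?_⟩
    show Ξ (Ξ.symm x) ∈ interior K
    rw [Ξ.apply_symm_apply]
    exact hx
  have hS'm : ∀ k, MeasurableSet (S' k) := fun k => Ξ.continuous.measurable (hS k)
  set B' : Set (ℝ × ℝ) := ψ ⁻¹' B with hB'
  have hB'm : MeasurableSet B' := ψ.continuous.measurable hB
  obtain ⟨p0, hp0⟩ := Ξ.surjective x0
  have hshift : ∀ (y : ℝ × ℝ) (z t : ℝ), Ξ (y, z + t) = Ξ (y, z) + t • u := by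
    intro y z t
    rw [hΞa, hΞa]
    simp only [add_smul]
    abel
  have h1 : (p0.1, p0.2) ∈ K' := by
    show Ξ (p0.1, p0.2) ∈ K
    rw [Prod.mk.eta, hp0]; exact hx0
  have h2 : (p0.1, p0.2 + L) ∈ K' := by
    show Ξ (p0.1, p0.2 + L) ∈ K
    rw [hshift, Prod.mk.eta, hp0]; exact hx1
  have hdiam' : ∀ y : ℝ × ℝ, ∃ a : Fin n → ℝ, (∀ k, 0 ≤ a k) ∧ ∑ k, w k * a k ≤ L ∧
      ∀ k z z', (y, z) ∈ S' k → (y, z') ∈ S' k → |z' - z| ≤ a k := by
    intro y
    obtain ⟨a, ha0, hsum, hd⟩ := hdiam (Ξ (y, 0))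
    refine ⟨a, ha0, hsum, ?_⟩
    intro k z z' hz hz'
    refine hd k z z' ?_ ?_
    · rw [← hshift, zero_add]; exact hz
    · rw [← hshift, zero_add]; exact hz'
  have hmain := wchord_cyl_coord hK'c hK'conv hK'int hS'm w hw hB'm hL h1 h2 hdiam'
  -- identify the sets
  have hset : ∀ k, S' k ∩ Prod.fst ⁻¹' B' =
      Ξ ⁻¹' (S k ∩ (ℝ ∙ u)ᗮ.orthogonalProjectionOnto ⁻¹' B) := by
    intro k
    ext p
    simp only [mem_inter_iff, mem_preimage, hS', hB', hΞ]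
  have hproj : Prod.fst '' K' = ψ ⁻¹' ((ℝ ∙ u)ᗮ.orthogonalProjectionOnto '' K) := by
    ext q
    constructor
    · rintro ⟨p, hp, rfl⟩
      exact ⟨Ξ p, hp, hΞ p⟩
    · rintro ⟨k, hk, hkq⟩
      obtain ⟨p, rfl⟩ := Ξ.surjective k
      rw [hΞ] at hkq
      exact ⟨p, hk, ψ.injective hkq⟩
  have hHaar : (volume : Measure ((ℝ × ℝ) × ℝ)).IsAddHaarMeasure := by
    rw [Measure.volume_eq_prod]
    infer_instance
  obtain ⟨cE, hcE0, hcEt, hcE⟩ := exists_scale_gen (volume : Measure ((ℝ × ℝ) × ℝ))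
    (volume : Measure E) Ξ
  obtain ⟨cF, hcF0, hcFt, hcF⟩ := exists_scale_gen (volume : Measure (ℝ × ℝ))
    (volume : Measure ↥(ℝ ∙ u)ᗮ) ψ
  have hπm : Measurable ((ℝ ∙ u)ᗮ.orthogonalProjectionOnto : E → ↥(ℝ ∙ u)ᗮ) :=
    ((ℝ ∙ u)ᗮ.orthogonalProjectionOnto).continuous.measurable
  have hPm : MeasurableSet ((ℝ ∙ u)ᗮ.orthogonalProjectionOnto '' K) :=
    (hKc.image ((ℝ ∙ u)ᗮ.orthogonalProjectionOnto).continuous).measurableSet
  have e1 : ∀ k, volume (S' k ∩ Prod.fst ⁻¹' B') =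
      cE * volume (S k ∩ (ℝ ∙ u)ᗮ.orthogonalProjectionOnto ⁻¹' B) := by
    intro k
    rw [hset]; exact hcE _ ((hS k).inter (hπm hB))
  have e2 : volume K' = cE * volume K := hcE K hKc.measurableSet
  have e3 : volume B' = cF * volume B := hcF B hB
  have e4 : volume (Prod.fst '' K') =
      cF * volume ((ℝ ∙ u)ᗮ.orthogonalProjectionOnto '' K) := by
    rw [hproj]; exact hcF _ hPm
  have e5 : ∑ k, ENNReal.ofReal (w k) * volume (S' k ∩ Prod.fst ⁻¹' B') =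
      cE * ∑ k, ENNReal.ofReal (w k) *
        volume (S k ∩ (ℝ ∙ u)ᗮ.orthogonalProjectionOnto ⁻¹' B) := by
    rw [Finset.mul_sum]
    refine Finset.sum_congr rfl fun k _ => ?_
    rw [e1 k]; ring
  rw [e5, e2, e3, e4, ENNReal.mul_div_mul_left _ _ hcF0 hcFt, ← mul_assoc,
    mul_comm _ cE, mul_assoc] at hmain
  exact (ENNReal.mul_le_mul_iff_right hcE0 hcEt).mp hmain

/-- The weighted chord comparison principle for cylinder coverings: let `K` be a convex body and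
`S k` finitely many measurable sets with weights `w k ≥ 0`, each covered by the cylinders with
axis directions `u i` and bases `B i`. If for every `i` the body `K` contains a chord
`[x, x + L u i]` while on every line parallel to `u i` the sets `S k` have diameters `a k`
(in units of `u i`) with `∑ w k * a k ≤ L`, then the weighted volume `∑ w k * vol (S k)` is at
most `3 vol K` times the sum of the relative base areas. -/
theorem weighted_chord_principle (hdim : Module.finrank ℝ E = 3) (K : Set E) (hKc : IsCompact K)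
    (hKconv : Convex ℝ K) (hKint : (interior K).Nonempty) {n : ℕ} (S : Fin n → Set E)
    (hS : ∀ k, MeasurableSet (S k)) (w : Fin n → ℝ) (hw : ∀ k, 0 ≤ w k)
    {m : ℕ} (u : Fin m → E) (hu : ∀ i, u i ≠ 0)
    (B : ∀ i, Set ↥(ℝ ∙ u i)ᗮ)
    (hcov : ∀ k, S k ⊆ ⋃ i, (ℝ ∙ u i)ᗮ.orthogonalProjectionOnto ⁻¹' B i)
    (hchord : ∀ i, ∃ L : ℝ, 0 < L ∧ (∃ x ∈ K, x + L • u i ∈ K) ∧
      ∀ x : E, ∃ a : Fin n → ℝ, (∀ k, 0 ≤ a k) ∧ ∑ k, w k * a k ≤ L ∧
        ∀ k, ∀ t t' : ℝ, x + t • u i ∈ S k → x + t' • u i ∈ S k → |t' - t| ≤ a k) :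
    ∑ k, ENNReal.ofReal (w k) * volume (S k) ≤ 3 * volume K *
      ∑ i, volume (B i) / volume ((ℝ ∙ u i)ᗮ.orthogonalProjectionOnto '' K) := by
  have hcov' : ∀ k, S k ⊆ ⋃ i, (S k ∩ (ℝ ∙ u i)ᗮ.orthogonalProjectionOnto ⁻¹'
      (toMeasurable volume (B i))) := by
    intro k x hx
    obtain ⟨i, hi⟩ := mem_iUnion.mp (hcov k hx)
    exact mem_iUnion.mpr ⟨i, hx, subset_toMeasurable _ _ hi⟩
  calc ∑ k, ENNReal.ofReal (w k) * volume (S k)
      ≤ ∑ k, ENNReal.ofReal (w k) * ∑ i, volume (S k ∩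
          (ℝ ∙ u i)ᗮ.orthogonalProjectionOnto ⁻¹' (toMeasurable volume (B i))) := by
        refine Finset.sum_le_sum fun k _ => mul_le_mul_right ?_ _
        exact le_trans (measure_mono (hcov' k)) (measure_iUnion_fintype_le _ _)
    _ = ∑ i, ∑ k, ENNReal.ofReal (w k) * volume (S k ∩
          (ℝ ∙ u i)ᗮ.orthogonalProjectionOnto ⁻¹' (toMeasurable volume (B i))) := by
        rw [Finset.sum_comm]
        refine Finset.sum_congr rfl fun k _ => ?_
        rw [Finset.mul_sum]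
    _ ≤ ∑ i, 3 * volume K *
          (volume (B i) / volume ((ℝ ∙ u i)ᗮ.orthogonalProjectionOnto '' K)) := by
        apply Finset.sum_le_sum
        intro i _
        obtain ⟨L, hL, ⟨x0, hx0, hx1⟩, hd⟩ := hchord i
        have := wchord_cyl_general hdim K hKc hKconv hKint S hS w hw (u i) (hu i)
          (toMeasurable volume (B i)) (measurableSet_toMeasurable _ _) hL hx0 hx1 hd
        rw [measure_toMeasurable] at this
        calc _ ≤ _ := this
          _ = _ := by ring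
    _ = 3 * volume K *
          ∑ i, volume (B i) / volume ((ℝ ∙ u i)ᗮ.orthogonalProjectionOnto '' K) := by
        rw [Finset.mul_sum]

end Vale.Agent.Lib.P243
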