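import Mathlib
import Vale.Agent.Lib.P243.Tetra
import Vale.Agent.Lib.P243.TetraCoord
import Vale.Agent.Lib.P243.WChord

/-!
Cylinders with axes parallel to the edges of a tetrahedron.

An application of the weighted chord comparison principle (file `WChord`): if finitely many
cylinders whose axes are parallel to edges of a tetrahedron cover the tetrahedron, then the
relative areas of their bases add up to at least `1 / 2`.
-/

open MeasureTheory Set

namespace Vale.Agent.Lib.P243

variable {E : Type*} [NormedAddCommGroup E] [InnerProductSpace ℝ E] [MeasurableSpace E]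
  [BorelSpace E] [FiniteDimensional ℝ E]

/-- The half core of a tetrahedron: the points all of whose barycentric coordinates lie
between `0` and `1 / 2`. -/
def halfCore (b : AffineBasis (Fin 4) ℝ E) : Set E :=
  {x | ∀ j, 0 ≤ b.coord j x ∧ b.coord j x ≤ 1 / 2}

omit [MeasurableSpace E] [BorelSpace E] in
theorem halfCore_closed (b : AffineBasis (Fin 4) ℝ E) : IsClosed (halfCore b) := by
  have hc : ∀ j, Continuous (b.coord j) := fun j => (b.coord j).continuous_of_finiteDimensional
  have : halfCore b = ⋂ j, ({x : E | 0 ≤ b.coord j x} ∩ {x : E | b.coord j x ≤ 1 / 2}) := by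
    ext x
    simp only [mem_iInter, mem_inter_iff]
    rfl
  rw [this]
  exact isClosed_iInter fun j =>
    (isClosed_le continuous_const (hc j)).inter (isClosed_le (hc j) continuous_const)

omit [MeasurableSpace E] [BorelSpace E] [FiniteDimensional ℝ E] in
theorem halfCore_subset (b : AffineBasis (Fin 4) ℝ E) :
    halfCore b ⊆ convexHull ℝ (range b) := by
  intro x hx
  rw [b.convexHull_eq_nonneg_coord]
  exact fun j => (hx j).1

/-- The half core fills at least half of the tetrahedron. -/
theorem halfCore_volume (hdim : Module.finrank ℝ E = 3) (b : AffineBasis (Fin 4) ℝ E) :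
    volume (convexHull ℝ (range b)) ≤
      volume (halfCore b) + ENNReal.ofReal (1 / 2) * volume (convexHull ℝ (range b)) := by
  set T := convexHull ℝ (range b) with hT
  have hsub : T ⊆ halfCore b ∪ ⋃ j, {x | x ∈ T ∧ 1 - 1 / 2 ≤ b.coord j x} := by
    intro x hxT
    by_cases hC : ∃ j, 1 - 1 / 2 ≤ b.coord j x
    · obtain ⟨j, hj⟩ := hC
      exact Or.inr (mem_iUnion.mpr ⟨j, hxT, hj⟩)
    left
    push Not at hC
    have hx0 : ∀ j, 0 ≤ b.coord j x := by
      have := hxT
      rw [hT, b.convexHull_eq_nonneg_coord] at this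
      exact this
    exact fun j => ⟨hx0 j, by linarith [hC j]⟩
  have hcorner : volume (⋃ j, {x | x ∈ T ∧ 1 - 1 / 2 ≤ b.coord j x}) ≤
      4 * (ENNReal.ofReal ((1 / 2) ^ 3) * volume T) := by
    calc volume (⋃ j, {x | x ∈ T ∧ 1 - 1 / 2 ≤ b.coord j x})
        ≤ ∑ j : Fin 4, volume {x | x ∈ T ∧ 1 - 1 / 2 ≤ b.coord j x} :=
          measure_iUnion_fintype_le _ _
      _ ≤ ∑ _j : Fin 4, ENNReal.ofReal ((1 / 2) ^ 3) * volume T :=
          Finset.sum_le_sum fun j _ => corner_le hdim b j (by norm_num)
      _ = 4 * (ENNReal.ofReal ((1 / 2) ^ 3) * volume T) := by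
          rw [Finset.sum_const, Finset.card_univ, Fintype.card_fin, nsmul_eq_mul]
          norm_num
  calc volume T
      ≤ volume (halfCore b) + volume (⋃ j, {x | x ∈ T ∧ 1 - 1 / 2 ≤ b.coord j x}) :=
        le_trans (measure_mono hsub) (measure_union_le _ _)
    _ ≤ volume (halfCore b) + 4 * (ENNReal.ofReal ((1 / 2) ^ 3) * volume T) := by
        gcongr
    _ = volume (halfCore b) + ENNReal.ofReal (1 / 2) * volume T := by
        congr 1
        have h4 : (4 : ENNReal) = ENNReal.ofReal 4 := by simp
        rw [h4, ← mul_assoc, ← ENNReal.ofReal_mul (by norm_num)]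
        congr 2
        norm_num

/-- In the direction of an edge, the tetrahedron has a chord (the edge itself) whose length
is at least the sum of the extents of the tetrahedron and of its half core along every line
in that direction. -/
theorem edge_chord (b : AffineBasis (Fin 4) ℝ E) (u : E) (hu : u ≠ 0) (j k : Fin 4)
    (hjk : u ∈ ℝ ∙ (b j - b k)) :
    ∃ L : ℝ, 0 < L ∧ (∃ x ∈ convexHull ℝ (range b), x + L • u ∈ convexHull ℝ (range b)) ∧
      ∀ x : E, ∃ a : Fin 2 → ℝ, (∀ i, 0 ≤ a i) ∧ ∑ i, (1 : ℝ) * a i ≤ L ∧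
        ∀ i, ∀ t t' : ℝ,
          x + t • u ∈ (![convexHull ℝ (range b), halfCore b] : Fin 2 → Set E) i →
          x + t' • u ∈ (![convexHull ℝ (range b), halfCore b] : Fin 2 → Set E) i →
          |t' - t| ≤ a i := by
  obtain ⟨c, hc⟩ := Submodule.mem_span_singleton.mp hjk
  have hc0 : c ≠ 0 := by
    rintro rfl
    rw [zero_smul] at hc
    exact hu hc.symm
  have hne : j ≠ k := by
    rintro rfl
    rw [sub_self, smul_zero] at hc
    exact hu hc.symm
  have hlin : ∀ l, (b.coord l).linear u = c * (b.coord l (b j) - b.coord l (b k)) := by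
    intro l
    rw [← hc, map_smul, smul_eq_mul]
    congr 1
    exact (b.coord l).linearMap_vsub (b j) (b k)
  have hμj : (b.coord j).linear u = c := by
    rw [hlin, b.coord_apply, b.coord_apply, if_pos rfl, if_neg hne]
    ring
  have hμk : (b.coord k).linear u = -c := by
    rw [hlin, b.coord_apply, b.coord_apply, if_neg (Ne.symm hne), if_pos rfl]
    ring
  have hcj : ∀ (x : E) (t : ℝ), b.coord j (x + t • u) = b.coord j x + t * c := fun x t => by
    rw [coord_add_smul, hμj]
  have hck : ∀ (x : E) (t : ℝ), b.coord k (x + t • u) = b.coord k x - t * c := fun x t => by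
    rw [coord_add_smul, hμk]
    ring
  have hcpos : 0 < |c| := abs_pos.mpr hc0
  have hL : 0 < |c|⁻¹ := inv_pos.mpr hcpos
  have hT : ∀ y, y ∈ convexHull ℝ (range b) ↔ ∀ l, 0 ≤ b.coord l y := by
    intro y
    rw [b.convexHull_eq_nonneg_coord]
    rfl
  have hvert : ∀ l, b l ∈ convexHull ℝ (range b) := fun l =>
    subset_convexHull ℝ _ (mem_range_self l)
  have hpair : ∀ y, y ∈ convexHull ℝ (range b) → b.coord j y + b.coord k y ≤ 1 := by
    intro y hy
    have h0 := (hT y).mp hy
    have hsum := b.sum_coord_apply_eq_one y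
    have hle : ∑ l ∈ ({j, k} : Finset (Fin 4)), b.coord l y ≤ ∑ l, b.coord l y :=
      Finset.sum_le_sum_of_subset_of_nonneg (Finset.subset_univ _) (fun l _ _ => h0 l)
    rw [Finset.sum_pair hne, hsum] at hle
    exact hle
  refine ⟨|c|⁻¹, hL, ?_, ?_⟩
  · rcases lt_or_gt_of_ne hc0 with hneg | hpos
    · refine ⟨b j, hvert j, ?_⟩
      have hm : (-c)⁻¹ * c = -1 := by
        rw [inv_neg, neg_mul, inv_mul_cancel₀ hc0]
      have : b j + |c|⁻¹ • u = b k := by
        rw [abs_of_neg hneg, ← hc, smul_smul, hm, neg_one_smul]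
        abel
      rw [this]
      exact hvert k
    · refine ⟨b k, hvert k, ?_⟩
      have : b k + |c|⁻¹ • u = b j := by
        rw [abs_of_pos hpos, ← hc, smul_smul, inv_mul_cancel₀ hc0, one_smul]
        abel
      rw [this]
      exact hvert j
  · intro x
    set s : ℝ := b.coord j x + b.coord k x with hs
    set σ : ℝ := max 0 (min s 1) with hσ
    have hσ0 : 0 ≤ σ := le_max_left _ _
    have hσ1 : σ ≤ 1 := max_le zero_le_one (min_le_right _ _)
    have key : ∀ t t' : ℝ, x + t • u ∈ convexHull ℝ (range b) →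
        x + t' • u ∈ convexHull ℝ (range b) → 0 ≤ s ∧ s ≤ 1 ∧ |t' - t| * |c| ≤ s := by
      intro t t' ht ht'
      have hA := (hT _).mp ht j
      have hB := (hT _).mp ht k
      have hA' := (hT _).mp ht' j
      have hB' := (hT _).mp ht' k
      have hp := hpair _ ht
      rw [hcj] at hA hA' hp
      rw [hck] at hB hB' hp
      refine ⟨by linarith, by linarith, ?_⟩
      rw [← abs_mul, abs_le]
      constructor <;> linarith
    refine ⟨![σ * |c|⁻¹, min σ (1 - σ) * |c|⁻¹], ?_, ?_, ?_⟩
    · refine Fin.forall_fin_two.mpr ⟨?_, ?_⟩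
      · show 0 ≤ σ * |c|⁻¹
        exact mul_nonneg hσ0 hL.le
      · show 0 ≤ min σ (1 - σ) * |c|⁻¹
        exact mul_nonneg (le_min hσ0 (by linarith)) hL.le
    · rw [Fin.sum_univ_two]
      show 1 * (σ * |c|⁻¹) + 1 * (min σ (1 - σ) * |c|⁻¹) ≤ |c|⁻¹
      have hm : min σ (1 - σ) ≤ 1 - σ := min_le_right _ _
      have := mul_le_mul_of_nonneg_right hm hL.le
      linarith
    · refine Fin.forall_fin_two.mpr ⟨?_, ?_⟩
      · intro t t' (ht : x + t • u ∈ convexHull ℝ (range b))
          (ht' : x + t' • u ∈ convexHull ℝ (range b))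
        obtain ⟨h0, h1, h2⟩ := key t t' ht ht'
        have hσs : σ = s := by rw [hσ, min_eq_left h1, max_eq_right h0]
        show |t' - t| ≤ σ * |c|⁻¹
        rw [hσs, ← div_eq_mul_inv, le_div_iff₀ hcpos]
        exact h2
      · intro t t' (ht : x + t • u ∈ halfCore b) (ht' : x + t' • u ∈ halfCore b)
        obtain ⟨h0, h1, h2⟩ := key t t' (halfCore_subset b ht) (halfCore_subset b ht')
        have hσs : σ = s := by rw [hσ, min_eq_left h1, max_eq_right h0]
        have hA := (ht j).2
        have hB := (ht k).2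
        have hA' := (ht' j).2
        have hB' := (ht' k).2
        rw [hcj] at hA hA'
        rw [hck] at hB hB'
        have h3 : |t' - t| * |c| ≤ 1 - s := by
          rw [← abs_mul, abs_le]
          constructor <;> linarith
        show |t' - t| ≤ min σ (1 - σ) * |c|⁻¹
        rw [hσs, ← div_eq_mul_inv, le_div_iff₀ hcpos]
        exact le_min h2 h3

/-- The final arithmetic in extended nonnegative reals. -/
theorem half_le_of_two {V O R : ENNReal} (hV0 : V ≠ 0) (hVt : V ≠ ⊤) (hOV : O ≤ V)
    (h1 : V + O ≤ 3 * V * R) (h2 : V ≤ O + ENNReal.ofReal (1 / 2) * V) :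
    (1 / 2 : ENNReal) ≤ R := by
  rcases eq_or_ne R ⊤ with hR | hR
  · rw [hR]; exact le_top
  have hOt : O ≠ ⊤ := ne_top_of_le_ne_top hVt hOV
  have hv : 0 < V.toReal := ENNReal.toReal_pos hV0 hVt
  have h3t : (3 : ENNReal) * V * R ≠ ⊤ :=
    ENNReal.mul_ne_top (ENNReal.mul_ne_top (by simp) hVt) hR
  have hht : ENNReal.ofReal (1 / 2) * V ≠ ⊤ := ENNReal.mul_ne_top ENNReal.ofReal_ne_top hVt
  have h1' : V.toReal + O.toReal ≤ 3 * V.toReal * R.toReal := by
    have := ENNReal.toReal_mono h3t h1
    rw [ENNReal.toReal_add hVt hOt, ENNReal.toReal_mul, ENNReal.toReal_mul] at this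
    simpa using this
  have h2' : V.toReal ≤ O.toReal + 1 / 2 * V.toReal := by
    have := ENNReal.toReal_mono (ENNReal.add_ne_top.mpr ⟨hOt, hht⟩) h2
    rw [ENNReal.toReal_add hOt hht, ENNReal.toReal_mul,
      ENNReal.toReal_ofReal (by norm_num)] at this
    exact this
  have hr : (1 / 2 : ℝ) ≤ R.toReal := by
    by_contra hlt
    push Not at hlt
    nlinarith [mul_pos hv (sub_pos.mpr hlt)]
  have hfin := (ENNReal.ofReal_le_iff_le_toReal hR).mpr hr
  have hhalf : ENNReal.ofReal (1 / 2) = 1 / 2 := by
    rw [ENNReal.ofReal_div_of_pos (by norm_num : (0 : ℝ) < 2), ENNReal.ofReal_one,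
      ENNReal.ofReal_ofNat]
  rwa [hhalf] at hfin

/-- Every finite covering of a tetrahedron by cylinders whose axes are parallel to edges of the
tetrahedron has directionwise relative area at least `1 / 2`: if the cylinders with axis
directions `u i` (each parallel to some edge) and bases `B i` (arbitrary subsets of the planes
orthogonal to `u i`) cover the convex hull of four points with nonempty interior, then the
areas of the bases divided by the areas of the corresponding orthogonal projections of the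
tetrahedron add up to at least `1 / 2`. -/
theorem tetra_edge_indexed (hdim : Module.finrank ℝ E = 3) (p : Fin 4 → E)
    (hint : (interior (convexHull ℝ (Set.range p))).Nonempty) {m : ℕ} (u : Fin m → E)
    (hu0 : ∀ i, u i ≠ 0)
    (hedge : ∀ i, ∃ j k : Fin 4, u i ∈ ℝ ∙ (p j - p k))
    (B : ∀ i, Set ↥(ℝ ∙ u i)ᗮ)
    (hcov : convexHull ℝ (Set.range p) ⊆
      ⋃ i, (ℝ ∙ u i)ᗮ.orthogonalProjectionOnto ⁻¹' B i) :
    (1 / 2 : ENNReal) ≤
      ∑ i, volume (B i) /
        volume ((ℝ ∙ u i)ᗮ.orthogonalProjectionOnto '' convexHull ℝ (Set.range p)) := by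
  have htop : affineSpan ℝ (Set.range p) = ⊤ :=
    interior_convexHull_nonempty_iff_affineSpan_eq_top.mp hint
  have hind : AffineIndependent ℝ p := by
    rw [affineIndependent_iff_finrank_vectorSpan_eq ℝ p (n := 3) (by simp),
      ← direction_affineSpan, htop, AffineSubspace.direction_top, finrank_top, hdim]
  let b : AffineBasis (Fin 4) ℝ E := ⟨p, hind, htop⟩
  have hb : Set.range b = Set.range p := rfl
  have hTc : IsCompact (convexHull ℝ (Set.range p)) := (Set.finite_range p).isCompact_convexHull ℝ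
  have hTconv : Convex ℝ (convexHull ℝ (Set.range p)) := convex_convexHull ℝ _
  have hST : halfCore b ⊆ convexHull ℝ (Set.range p) := by
    rw [← hb]; exact halfCore_subset b
  have hSm : ∀ k, MeasurableSet
      ((![convexHull ℝ (Set.range p), halfCore b] : Fin 2 → Set E) k) := by
    refine Fin.forall_fin_two.mpr ⟨?_, ?_⟩
    · exact hTc.measurableSet
    · exact (halfCore_closed b).measurableSet
  have hcovS : ∀ k, (![convexHull ℝ (Set.range p), halfCore b] : Fin 2 → Set E) k ⊆
      ⋃ i, (ℝ ∙ u i)ᗮ.orthogonalProjectionOnto ⁻¹' B i := by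
    refine Fin.forall_fin_two.mpr ⟨?_, ?_⟩
    · exact hcov
    · exact hST.trans hcov
  have hchord : ∀ i, ∃ L : ℝ, 0 < L ∧
      (∃ x ∈ convexHull ℝ (Set.range p), x + L • u i ∈ convexHull ℝ (Set.range p)) ∧
      ∀ x : E, ∃ a : Fin 2 → ℝ, (∀ k, 0 ≤ a k) ∧ ∑ k, (1 : ℝ) * a k ≤ L ∧
        ∀ k, ∀ t t' : ℝ,
          x + t • u i ∈ (![convexHull ℝ (Set.range p), halfCore b] : Fin 2 → Set E) k →
          x + t' • u i ∈ (![convexHull ℝ (Set.range p), halfCore b] : Fin 2 → Set E) k →
          |t' - t| ≤ a k := by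
    intro i
    obtain ⟨j, k, hjk⟩ := hedge i
    have := edge_chord b (u i) (hu0 i) j k hjk
    rw [hb] at this
    exact this
  have h1 := weighted_chord_principle hdim (convexHull ℝ (Set.range p)) hTc hTconv hint
    (![convexHull ℝ (Set.range p), halfCore b] : Fin 2 → Set E) hSm (fun _ => 1)
    (fun _ => zero_le_one) u hu0 B hcovS hchord
  rw [Fin.sum_univ_two] at h1
  simp only [Matrix.cons_val_zero, Matrix.cons_val_one, ENNReal.ofReal_one, one_mul] at h1
  have h2 := halfCore_volume hdim b
  rw [hb] at h2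
  have hV0 : volume (convexHull ℝ (Set.range p)) ≠ 0 :=
    (lt_of_lt_of_le (isOpen_interior.measure_pos volume hint)
      (measure_mono interior_subset)).ne'
  have hVt : volume (convexHull ℝ (Set.range p)) ≠ ⊤ := hTc.measure_lt_top.ne
  exact half_le_of_two hV0 hVt (measure_mono hST) h1 h2

end Vale.Agent.Lib.P243
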