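import Mathlib
import Vale.Agent.Lib.P243.Tetra
import Vale.Agent.Lib.P243.TetraCoord
import Vale.Agent.Lib.P243.WChord
import Vale.Agent.Lib.P243.TetraEdge

/-!
The chord comparison principle with fibre measures.

A variant of the chord comparison principle of file `TetraCoord`: the hypothesis on the lines
parallel to an axis bounds the linear measure of the trace of the set on the line (and not its
diameter), and every cylinder has its own constant.
-/

open MeasureTheory Set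

namespace Vale.Agent.Lib.P243

/-- A measurable set all of whose vertical fibres have measure at most `ℓ` meets the cylinder
over `B` in a set of volume at most `|B| ℓ`. -/
theorem mcyl_fibre_bound {S : Set ((ℝ × ℝ) × ℝ)} (hS : MeasurableSet S) {B : Set (ℝ × ℝ)}
    (hB : MeasurableSet B) {ℓ : ℝ}
    (hfib : ∀ y : ℝ × ℝ, volume (Prod.mk y ⁻¹' S) ≤ ENNReal.ofReal ℓ) :
    volume (S ∩ Prod.fst ⁻¹' B) ≤ volume B * ENNReal.ofReal ℓ := by
  rw [Measure.volume_eq_prod, Measure.prod_apply (hS.inter (measurable_fst hB))]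
  calc ∫⁻ y, volume (Prod.mk y ⁻¹' (S ∩ Prod.fst ⁻¹' B))
      ≤ ∫⁻ y, B.indicator (fun _ => ENNReal.ofReal ℓ) y := by
        apply lintegral_mono
        intro y
        by_cases hy : y ∈ B
        · rw [indicator_of_mem hy]
          show volume (Prod.mk y ⁻¹' (S ∩ Prod.fst ⁻¹' B)) ≤ ENNReal.ofReal ℓ
          exact le_trans (measure_mono (preimage_mono inter_subset_left)) (hfib y)
        · rw [indicator_of_notMem hy]
          have : Prod.mk y ⁻¹' (S ∩ Prod.fst ⁻¹' B) = ∅ := by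
            ext z
            simp [hy]
          show volume (Prod.mk y ⁻¹' (S ∩ Prod.fst ⁻¹' B)) ≤ 0
          rw [this, measure_empty]
    _ = volume B * ENNReal.ofReal ℓ := by
        rw [lintegral_indicator hB, setLIntegral_const, mul_comm]

/-- Coordinate form of the chord comparison bound with fibre measures: if `K` is a convex body
containing a vertical chord of length `L` and all vertical fibres of `S` have measure at most
`ρ L`, then the part of `S` over `B` has volume at most `3 ρ (|B| / |shadow of K|) vol K`. -/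
theorem mchord_cyl_coord {K S : Set ((ℝ × ℝ) × ℝ)} (hKc : IsCompact K) (hKconv : Convex ℝ K)
    (hKint : (interior K).Nonempty) (hS : MeasurableSet S) {B : Set (ℝ × ℝ)}
    (hB : MeasurableSet B) {L ρ : ℝ} (hL : 0 < L) (hρ : 0 ≤ ρ) {y0 : ℝ × ℝ} {z0 : ℝ}
    (h1 : (y0, z0) ∈ K) (h2 : (y0, z0 + L) ∈ K)
    (hfib : ∀ y : ℝ × ℝ, volume (Prod.mk y ⁻¹' S) ≤ ENNReal.ofReal (ρ * L)) :
    volume (S ∩ Prod.fst ⁻¹' B) ≤
      ENNReal.ofReal (3 * ρ) * (volume B / volume (Prod.fst '' K)) * volume K := by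
  have hP0 : volume (Prod.fst '' K) ≠ 0 := (proj_volume_pos hKint).ne'
  have hPt : volume (Prod.fst '' K) ≠ ⊤ := proj_volume_ne_top hKc
  have hA := mcyl_fibre_bound hS hB hfib
  have hC := proj_area_chord hKc hKconv hL h1 h2
  calc volume (S ∩ Prod.fst ⁻¹' B) ≤ volume B * ENNReal.ofReal (ρ * L) := hA
    _ = ENNReal.ofReal ρ * (volume B / volume (Prod.fst '' K)) *
          (volume (Prod.fst '' K) * ENNReal.ofReal L) := by
        rw [ENNReal.ofReal_mul hρ]
        have : volume B = volume B / volume (Prod.fst '' K) * volume (Prod.fst '' K) :=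
          (ENNReal.div_mul_cancel hP0 hPt).symm
        conv_lhs => rw [this]
        ring
    _ ≤ ENNReal.ofReal ρ * (volume B / volume (Prod.fst '' K)) * (3 * volume K) := by
        gcongr
    _ = ENNReal.ofReal (3 * ρ) * (volume B / volume (Prod.fst '' K)) * volume K := by
        rw [ENNReal.ofReal_mul (by norm_num : (0 : ℝ) ≤ 3)]
        simp only [ENNReal.ofReal_ofNat]
        ring

variable {E : Type*} [NormedAddCommGroup E] [InnerProductSpace ℝ E] [MeasurableSpace E]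
  [BorelSpace E] [FiniteDimensional ℝ E]

/-- The chord comparison bound with fibre measures for one cylinder: let `K` be a convex body
containing a chord `[x0, x0 + L u]`, and let `S` be a measurable set whose trace on every line
parallel to `u` has measure at most `ρ L` in the parameter of the line. Then the part of `S`
inside the cylinder with axis direction `u` and base `B` has volume at most
`3 ρ (|B| / |proj K|) vol K`. -/
theorem mchord_cyl_general (hdim : Module.finrank ℝ E = 3) (K : Set E) (hKc : IsCompact K)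
    (hKconv : Convex ℝ K) (hKint : (interior K).Nonempty) (S : Set E) (hS : MeasurableSet S)
    (u : E) (hu : u ≠ 0) (B : Set ↥(ℝ ∙ u)ᗮ) (hB : MeasurableSet B) {L ρ : ℝ} (hL : 0 < L)
    (hρ : 0 ≤ ρ) {x0 : E} (hx0 : x0 ∈ K) (hx1 : x0 + L • u ∈ K)
    (hfib : ∀ x : E, volume {t : ℝ | x + t • u ∈ S} ≤ ENNReal.ofReal (ρ * L)) :
    volume (S ∩ (ℝ ∙ u)ᗮ.orthogonalProjectionOnto ⁻¹' B) ≤
      ENNReal.ofReal (3 * ρ) * (volume B / volume ((ℝ ∙ u)ᗮ.orthogonalProjectionOnto '' K)) *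
        volume K := by
  have hfr : Module.finrank ℝ ↥(ℝ ∙ u)ᗮ = 2 := by
    have hfact : Fact (Module.finrank ℝ E = 2 + 1) := ⟨hdim⟩
    exact Submodule.finrank_orthogonal_span_singleton hu
  have hfr2 : Module.finrank ℝ (ℝ × ℝ) = Module.finrank ℝ ↥(ℝ ∙ u)ᗮ := by
    rw [hfr]; simp
  let ψ : (ℝ × ℝ) ≃L[ℝ] ↥(ℝ ∙ u)ᗮ := ContinuousLinearEquiv.ofFinrankEq hfr2
  have hinj : Function.Injective (cylMap u (ψ : (ℝ × ℝ) →ₗ[ℝ] ↥(ℝ ∙ u)ᗮ)) :=
    cylMap_injective hu ψ.injective
  have hsurj : Function.Surjective (cylMap u (ψ : (ℝ × ℝ) →ₗ[ℝ] ↥(ℝ ∙ u)ᗮ)) :=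
    (LinearMap.injective_iff_surjective_of_finrank_eq_finrank (by simp [hdim])).mp hinj
  let Ξ : ((ℝ × ℝ) × ℝ) ≃L[ℝ] E :=
    (LinearEquiv.ofBijective (cylMap u (ψ : (ℝ × ℝ) →ₗ[ℝ] ↥(ℝ ∙ u)ᗮ))
      ⟨hinj, hsurj⟩).toContinuousLinearEquiv
  have hΞ : ∀ p, (ℝ ∙ u)ᗮ.orthogonalProjectionOnto (Ξ p) = ψ p.1 := fun p =>
    cylMap_proj u (ψ : (ℝ × ℝ) →ₗ[ℝ] ↥(ℝ ∙ u)ᗮ) p
  have hΞa : ∀ p : (ℝ × ℝ) × ℝ, Ξ p = (ψ p.1 : E) + p.2 • u := fun p => rfl
  set K' : Set ((ℝ × ℝ) × ℝ) := Ξ ⁻¹' K with hK'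
  set S' : Set ((ℝ × ℝ) × ℝ) := Ξ ⁻¹' S with hS'
  have hK'c : IsCompact K' := Ξ.toHomeomorph.isCompact_preimage.mpr hKc
  have hK'conv : Convex ℝ K' :=
    hKconv.linear_preimage (cylMap u (ψ : (ℝ × ℝ) →ₗ[ℝ] ↥(ℝ ∙ u)ᗮ))
  have hK'int : (interior K').Nonempty := by
    have hpi : interior (Ξ ⁻¹' K) = Ξ ⁻¹' interior K :=
      (Ξ.toHomeomorph.preimage_interior K).symm
    rw [hK', hpi]
    obtain ⟨x, hx⟩ := hKint
    refine ⟨Ξ.symm x, ?_⟩
    show Ξ (Ξ.symm x) ∈ interior K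
    rw [Ξ.apply_symm_apply]
    exact hx
  have hS'm : MeasurableSet S' := Ξ.continuous.measurable hS
  set B' : Set (ℝ × ℝ) := ψ ⁻¹' B with hB'
  have hB'm : MeasurableSet B' := ψ.continuous.measurable hB
  obtain ⟨p0, hp0⟩ := Ξ.surjective x0
  have hshift : ∀ (y : ℝ × ℝ) (z t : ℝ), Ξ (y, z + t) = Ξ (y, z) + t • u := by
    intro y z t
    rw [hΞa, hΞa]
    simp only [add_smul]
    abel
  have h1 : (p0.1, p0.2) ∈ K' := by
    show Ξ (p0.1, p0.2) ∈ K
    rw [Prod.mk.eta, hp0]; exact hx0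
  have h2 : (p0.1, p0.2 + L) ∈ K' := by
    show Ξ (p0.1, p0.2 + L) ∈ K
    rw [hshift, Prod.mk.eta, hp0]; exact hx1
  have hfib' : ∀ y : ℝ × ℝ, volume (Prod.mk y ⁻¹' S') ≤ ENNReal.ofReal (ρ * L) := by
    intro y
    have hset : Prod.mk y ⁻¹' S' = {t : ℝ | Ξ (y, 0) + t • u ∈ S} := by
      ext z
      show Ξ (y, z) ∈ S ↔ Ξ (y, 0) + z • u ∈ S
      rw [← hshift, zero_add]
    rw [hset]
    exact hfib (Ξ (y, 0))
  have hmain := mchord_cyl_coord hK'c hK'conv hK'int hS'm hB'm hL hρ h1 h2 hfib'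
  -- identify the sets
  have hset : S' ∩ Prod.fst ⁻¹' B' = Ξ ⁻¹' (S ∩ (ℝ ∙ u)ᗮ.orthogonalProjectionOnto ⁻¹' B) := by
    ext p
    simp only [mem_inter_iff, mem_preimage, hS', hB', hΞ]
  have hproj : Prod.fst '' K' = ψ ⁻¹' ((ℝ ∙ u)ᗮ.orthogonalProjectionOnto '' K) := by
    ext q
    constructor
    · rintro ⟨p, hp, rfl⟩
      exact ⟨Ξ p, hp, hΞ p⟩
    · rintro ⟨k, hk, hkq⟩
      obtain ⟨p, rfl⟩ := Ξ.surjective k
      rw [hΞ] at hkq
      exact ⟨p, hk, ψ.injective hkq⟩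
  have hHaar : (volume : Measure ((ℝ × ℝ) × ℝ)).IsAddHaarMeasure := by
    rw [Measure.volume_eq_prod]
    infer_instance
  obtain ⟨cE, hcE0, hcEt, hcE⟩ := exists_scale_gen (volume : Measure ((ℝ × ℝ) × ℝ))
    (volume : Measure E) Ξ
  obtain ⟨cF, hcF0, hcFt, hcF⟩ := exists_scale_gen (volume : Measure (ℝ × ℝ))
    (volume : Measure ↥(ℝ ∙ u)ᗮ) ψ
  have hπm : Measurable ((ℝ ∙ u)ᗮ.orthogonalProjectionOnto : E → ↥(ℝ ∙ u)ᗮ) :=
    ((ℝ ∙ u)ᗮ.orthogonalProjectionOnto).continuous.measurable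
  have hPm : MeasurableSet ((ℝ ∙ u)ᗮ.orthogonalProjectionOnto '' K) :=
    (hKc.image ((ℝ ∙ u)ᗮ.orthogonalProjectionOnto).continuous).measurableSet
  have e1 : volume (S' ∩ Prod.fst ⁻¹' B') =
      cE * volume (S ∩ (ℝ ∙ u)ᗮ.orthogonalProjectionOnto ⁻¹' B) := by
    rw [hset]; exact hcE _ (hS.inter (hπm hB))
  have e2 : volume K' = cE * volume K := hcE K hKc.measurableSet
  have e3 : volume B' = cF * volume B := hcF B hB
  have e4 : volume (Prod.fst '' K') =
      cF * volume ((ℝ ∙ u)ᗮ.orthogonalProjectionOnto '' K) := by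
    rw [hproj]; exact hcF _ hPm
  rw [e1, e2, e3, e4, ENNReal.mul_div_mul_left _ _ hcF0 hcFt, ← mul_assoc,
    mul_comm _ cE, mul_assoc] at hmain
  exact (ENNReal.mul_le_mul_iff_right hcE0 hcEt).mp hmain

/-- The chord comparison principle with fibre measures and one constant per cylinder: let `K`
be a convex body and `S` a measurable set covered by the cylinders with axis directions `u i`
and bases `B i`. If for every `i` the body `K` contains a chord `[x, x + L u i]` while the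
trace of `S` on every line parallel to `u i` has measure at most `r i * L` in the parameter of
the line, then the volume of `S` is at most `3 vol K` times the sum of the relative base areas
weighted by the constants `r i`. -/
theorem chord_principle_meas (hdim : Module.finrank ℝ E = 3) (K : Set E) (hKc : IsCompact K)
    (hKconv : Convex ℝ K) (hKint : (interior K).Nonempty) (S : Set E) (hS : MeasurableSet S)
    {m : ℕ} (u : Fin m → E) (hu : ∀ i, u i ≠ 0) (B : ∀ i, Set ↥(ℝ ∙ u i)ᗮ)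
    (hcov : S ⊆ ⋃ i, (ℝ ∙ u i)ᗮ.orthogonalProjectionOnto ⁻¹' B i)
    (r : Fin m → ℝ) (hr : ∀ i, 0 ≤ r i)
    (hchord : ∀ i, ∃ L : ℝ, 0 < L ∧ (∃ x ∈ K, x + L • u i ∈ K) ∧
      ∀ x : E, volume {t : ℝ | x + t • u i ∈ S} ≤ ENNReal.ofReal (r i * L)) :
    volume S ≤ 3 * volume K *
      ∑ i, ENNReal.ofReal (r i) *
        (volume (B i) / volume ((ℝ ∙ u i)ᗮ.orthogonalProjectionOnto '' K)) := by
  have hcov' : S ⊆ ⋃ i, (S ∩ (ℝ ∙ u i)ᗮ.orthogonalProjectionOnto ⁻¹'
      (toMeasurable volume (B i))) := by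
    intro x hx
    obtain ⟨i, hi⟩ := mem_iUnion.mp (hcov hx)
    exact mem_iUnion.mpr ⟨i, hx, subset_toMeasurable _ _ hi⟩
  calc volume S ≤ ∑ i, volume (S ∩ (ℝ ∙ u i)ᗮ.orthogonalProjectionOnto ⁻¹'
        (toMeasurable volume (B i))) :=
        le_trans (measure_mono hcov') (measure_iUnion_fintype_le _ _)
    _ ≤ ∑ i, 3 * volume K * (ENNReal.ofReal (r i) *
          (volume (B i) / volume ((ℝ ∙ u i)ᗮ.orthogonalProjectionOnto '' K))) := by
        apply Finset.sum_le_sum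
        intro i _
        obtain ⟨L, hL, ⟨x0, hx0, hx1⟩, hd⟩ := hchord i
        have := mchord_cyl_general hdim K hKc hKconv hKint S hS (u i) (hu i)
          (toMeasurable volume (B i)) (measurableSet_toMeasurable _ _) hL (hr i) hx0 hx1 hd
        rw [measure_toMeasurable, ENNReal.ofReal_mul (by norm_num : (0 : ℝ) ≤ 3)] at this
        simp only [ENNReal.ofReal_ofNat] at this
        calc _ ≤ _ := this
          _ = _ := by ring
    _ = 3 * volume K *
          ∑ i, ENNReal.ofReal (r i) *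
            (volume (B i) / volume ((ℝ ∙ u i)ᗮ.orthogonalProjectionOnto '' K)) := by
        rw [Finset.mul_sum]

end Vale.Agent.Lib.P243
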