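import Mathlib
import Vale.Agent.Lib.P243.Tetra
import Vale.Agent.Lib.P243.TetraCoord
import Vale.Agent.Lib.P243.WChord
import Vale.Agent.Lib.P243.TetraEdge

/-!
Cylinders with axes parallel to one face of a tetrahedron.

If finitely many cylinders whose axes are parallel to a fixed face of a tetrahedron cover the
tetrahedron, then the relative areas of their bases add up to at least `1 / 2`.  The proof
applies the weighted chord comparison principle (file `WChord`) to the layers of the
tetrahedron parallel to the face, with weights chosen so that on every line parallel to the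
face the weighted extents of the layers add up to at most the length of the longest chord.
-/

open MeasureTheory Set

namespace Vale.Agent.Lib.P243

/-- If two points of the standard simplex have the same last coordinate, the positive part of
their difference has total mass at most one minus that coordinate. -/
theorem face_l1 (a c : Fin 4 → ℝ) (ha : ∀ j, 0 ≤ a j) (hc : ∀ j, 0 ≤ c j)
    (hsc : ∑ j, c j = 1) (h3 : c 3 = a 3) : ∑ j, max (c j - a j) 0 ≤ 1 - c 3 := by
  rw [Fin.sum_univ_four] at hsc ⊢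
  have ha0 := ha 0
  have ha1 := ha 1
  have ha2 := ha 2
  have hc0 := hc 0
  have hc1 := hc 1
  have hc2 := hc 2
  have e3 : max (c 3 - a 3) 0 = 0 := by rw [h3, sub_self, max_self]
  rw [e3]
  have m0 : max (c 0 - a 0) 0 ≤ c 0 := max_le (by linarith) hc0
  have m1 : max (c 1 - a 1) 0 ≤ c 1 := max_le (by linarith) hc1
  have m2 : max (c 2 - a 2) 0 ≤ c 2 := max_le (by linarith) hc2
  linarith

/-- The weights of the layers: `1` for the whole tetrahedron and
`n / (n - k) - n / (n - k + 1)` for the layer number `k ≥ 1`. -/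
noncomputable def faceW (n k : ℕ) : ℝ :=
  if k = 0 then 1 else (n : ℝ) / ((n : ℝ) - k) - (n : ℝ) / ((n : ℝ) - k + 1)

theorem faceW_nonneg (n k : ℕ) (hk : k < n) : 0 ≤ faceW n k := by
  unfold faceW
  split_ifs with h0
  · exact zero_le_one
  · have hkn : (k : ℝ) < n := by exact_mod_cast hk
    have h1 : (0 : ℝ) < (n : ℝ) - k := by linarith
    have hn : (0 : ℝ) ≤ n := Nat.cast_nonneg n
    rw [sub_nonneg]
    exact div_le_div_of_nonneg_left hn h1 (by linarith)

/-- The weights of the first `m + 1` layers add up to `n / (n - m)`. -/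
theorem faceW_sum (n m : ℕ) (hm : m < n) :
    ∑ k ∈ Finset.range (m + 1), faceW n k = (n : ℝ) / ((n : ℝ) - m) := by
  induction m with
  | zero =>
    have hn : (n : ℝ) ≠ 0 := by
      have : 0 < n := hm
      exact_mod_cast this.ne'
    simp [faceW, hn]
  | succ m ih =>
    rw [Finset.sum_range_succ, ih (by omega)]
    unfold faceW
    rw [if_neg (Nat.succ_ne_zero m)]
    push_cast
    ring

/-- The weighted number of layers that reach the height `h`, times `1 - h`, is at most one. -/
theorem faceW_wsum (n : ℕ) (h : ℝ) (m : ℕ) (hm : m ≤ n) :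
    (1 - h) * ∑ k ∈ Finset.range m,
      faceW n k * (if (k : ℝ) ≤ (n : ℝ) * h then 1 else 0) ≤ 1 := by
  induction m with
  | zero => simp
  | succ m ih =>
    by_cases hmh : (m : ℝ) ≤ (n : ℝ) * h
    · have hall : ∑ k ∈ Finset.range (m + 1),
          faceW n k * (if (k : ℝ) ≤ (n : ℝ) * h then 1 else 0)
          = ∑ k ∈ Finset.range (m + 1), faceW n k := by
        refine Finset.sum_congr rfl fun k hk => ?_
        have hkm : (k : ℝ) ≤ m := by
          exact_mod_cast Nat.lt_succ_iff.mp (Finset.mem_range.mp hk)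
        rw [if_pos (hkm.trans hmh), mul_one]
      rw [hall, faceW_sum n m (by omega)]
      have hmn : (m : ℝ) < n := by exact_mod_cast (show m < n by omega)
      have hpos : (0 : ℝ) < (n : ℝ) - m := by linarith
      rw [← mul_div_assoc, div_le_one hpos]
      nlinarith
    · rw [Finset.sum_range_succ, if_neg hmh, mul_zero, add_zero]
      exact ih (by omega)

/-- A lower bound for the weight of a layer times the cube of its homothety ratio. -/
theorem faceW_term (n k : ℕ) (hk0 : k ≠ 0) (hk : k < n) :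
    ((n : ℝ) - k - 1) / (n : ℝ) ^ 2 ≤ faceW n k * (1 - (k : ℝ) / n) ^ 3 := by
  unfold faceW
  rw [if_neg hk0]
  have hkn : (k : ℝ) < n := by exact_mod_cast hk
  have hn : (0 : ℝ) < n := lt_of_le_of_lt (Nat.cast_nonneg k) hkn
  have hj : (0 : ℝ) < (n : ℝ) - k := by linarith
  have hj1 : (0 : ℝ) < (n : ℝ) - k + 1 := by linarith
  have hn' : (n : ℝ) ≠ 0 := hn.ne'
  have hj' : (n : ℝ) - k ≠ 0 := hj.ne'
  have hj1' : (n : ℝ) - k + 1 ≠ 0 := hj1.ne'
  have e : ((n : ℝ) / ((n : ℝ) - k) - (n : ℝ) / ((n : ℝ) - k + 1)) * (1 - (k : ℝ) / n) ^ 3 -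
      ((n : ℝ) - k - 1) / (n : ℝ) ^ 2 = 1 / ((n : ℝ) ^ 2 * ((n : ℝ) - k + 1)) := by
    field_simp
    ring
  have hpos : 0 ≤ 1 / ((n : ℝ) ^ 2 * ((n : ℝ) - k + 1)) :=
    (one_div_pos.mpr (mul_pos (pow_pos hn 2) hj1)).le
  linarith

/-- The sum of the lower bounds of `faceW_term`. -/
theorem faceW_lbsum (n m : ℕ) :
    ∑ k ∈ Finset.range (m + 1),
        (if k = 0 then (1 : ℝ) else ((n : ℝ) - k - 1) / (n : ℝ) ^ 2) =
      1 + ((m : ℝ) * ((n : ℝ) - 1) - (m : ℝ) * ((m : ℝ) + 1) / 2) / (n : ℝ) ^ 2 := by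
  induction m with
  | zero => simp
  | succ m ih =>
    rw [Finset.sum_range_succ, ih, if_neg (Nat.succ_ne_zero m)]
    push_cast
    ring

/-- The weighted sum of the cubes of the homothety ratios of the layers. -/
theorem faceW_vsum (n : ℕ) (hn : 0 < n) :
    1 + ((n : ℝ) - 1) * ((n : ℝ) - 2) / (2 * (n : ℝ) ^ 2) ≤
      ∑ k ∈ Finset.range n, faceW n k * (1 - (k : ℝ) / n) ^ 3 := by
  obtain ⟨m, rfl⟩ : ∃ m, n = m + 1 := ⟨n - 1, by omega⟩
  have h1 : ∑ k ∈ Finset.range (m + 1),
        (if k = 0 then (1 : ℝ) else (((m + 1 : ℕ) : ℝ) - k - 1) / ((m + 1 : ℕ) : ℝ) ^ 2)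
      ≤ ∑ k ∈ Finset.range (m + 1),
        faceW (m + 1) k * (1 - (k : ℝ) / ((m + 1 : ℕ) : ℝ)) ^ 3 := by
    refine Finset.sum_le_sum fun k hk => ?_
    by_cases hk0 : k = 0
    · subst hk0
      simp [faceW]
    · rw [if_neg hk0]
      exact faceW_term (m + 1) k hk0 (Finset.mem_range.mp hk)
  rw [faceW_lbsum] at h1
  refine le_trans (le_of_eq ?_) h1
  have hm1 : ((m : ℝ) + 1) ≠ 0 := by positivity
  push_cast
  field_simp
  ring

/-- The limit step: the bounds for all numbers of layers give the bound `1 / 2`. -/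
theorem face_limit {R : ENNReal}
    (h : ∀ n : ℕ, 0 < n →
      ENNReal.ofReal (1 + ((n : ℝ) - 1) * ((n : ℝ) - 2) / (2 * (n : ℝ) ^ 2)) ≤ 3 * R) :
    (1 / 2 : ENNReal) ≤ R := by
  rcases eq_or_ne R ⊤ with hR | hR
  · rw [hR]
    exact le_top
  have h3t : (3 : ENNReal) * R ≠ ⊤ := ENNReal.mul_ne_top (by simp) hR
  have h' : ∀ n : ℕ, 0 < n →
      1 + ((n : ℝ) - 1) * ((n : ℝ) - 2) / (2 * (n : ℝ) ^ 2) ≤ 3 * R.toReal := by
    intro n hn
    have h1 := (ENNReal.ofReal_le_iff_le_toReal h3t).mp (h n hn)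
    rw [ENNReal.toReal_mul] at h1
    simpa using h1
  have hr : (1 / 2 : ℝ) ≤ R.toReal := by
    by_contra hlt
    push Not at hlt
    have hpos : 0 < 1 - 2 * R.toReal := by linarith
    obtain ⟨n, hn⟩ := exists_nat_gt (1 / (1 - 2 * R.toReal))
    have hn0 : (0 : ℝ) < n := lt_trans (one_div_pos.mpr hpos) hn
    have hn1 : 0 < n := by exact_mod_cast hn0
    have h1 := h' n hn1
    have h2 : 1 < (n : ℝ) * (1 - 2 * R.toReal) := by
      rw [div_lt_iff₀ hpos] at hn
      exact hn
    have hn2 : (0 : ℝ) < 2 * (n : ℝ) ^ 2 := by positivity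
    have h3 : ((n : ℝ) - 1) * ((n : ℝ) - 2) / (2 * (n : ℝ) ^ 2) * (2 * (n : ℝ) ^ 2) =
        ((n : ℝ) - 1) * ((n : ℝ) - 2) := div_mul_cancel₀ _ hn2.ne'
    have h4 := mul_le_mul_of_nonneg_right h1 hn2.le
    rw [add_mul, h3] at h4
    have h5 := mul_lt_mul_of_pos_left h2 (by positivity : (0 : ℝ) < 3 * n)
    nlinarith
  have hfin := (ENNReal.ofReal_le_iff_le_toReal hR).mpr hr
  have hhalf : ENNReal.ofReal (1 / 2) = 1 / 2 := by
    rw [ENNReal.ofReal_div_of_pos (by norm_num : (0 : ℝ) < 2), ENNReal.ofReal_one,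
      ENNReal.ofReal_ofNat]
  rwa [hhalf] at hfin

variable {E : Type*} [NormedAddCommGroup E] [InnerProductSpace ℝ E] [MeasurableSpace E]
  [BorelSpace E] [FiniteDimensional ℝ E]

/-- The layer number `k` (of `n`) of a tetrahedron: the points of the tetrahedron whose last
barycentric coordinate is at least `k / n`. -/
def faceLayer (b : AffineBasis (Fin 4) ℝ E) (n k : ℕ) : Set E :=
  {x | (∀ j, 0 ≤ b.coord j x) ∧ (k : ℝ) ≤ (n : ℝ) * b.coord 3 x}

omit [MeasurableSpace E] [BorelSpace E] in
theorem faceLayer_closed (b : AffineBasis (Fin 4) ℝ E) (n k : ℕ) :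
    IsClosed (faceLayer b n k) := by
  have hc : ∀ j, Continuous (b.coord j) := fun j => (b.coord j).continuous_of_finiteDimensional
  have h1 : IsClosed {x : E | ∀ j, 0 ≤ b.coord j x} := by
    have : {x : E | ∀ j, 0 ≤ b.coord j x} = ⋂ j, {x : E | 0 ≤ b.coord j x} := by
      ext x
      simp only [mem_iInter]
      rfl
    rw [this]
    exact isClosed_iInter fun j => isClosed_le continuous_const (hc j)
  have h2 : IsClosed {x : E | (k : ℝ) ≤ (n : ℝ) * b.coord 3 x} :=
    isClosed_le continuous_const (continuous_const.mul (hc 3))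
  exact h1.inter h2

omit [MeasurableSpace E] [BorelSpace E] [FiniteDimensional ℝ E] in
theorem faceLayer_subset (b : AffineBasis (Fin 4) ℝ E) (n k : ℕ) :
    faceLayer b n k ⊆ convexHull ℝ (range b) := by
  intro x hx
  rw [b.convexHull_eq_nonneg_coord]
  exact hx.1

/-- The layer number `k` contains a homothetic copy of the tetrahedron with ratio
`1 - k / n`. -/
theorem faceLayer_volume (hdim : Module.finrank ℝ E = 3) (b : AffineBasis (Fin 4) ℝ E)
    (n k : ℕ) (hn : 0 < n) (hk : k ≤ n) :
    ENNReal.ofReal ((1 - (k : ℝ) / n) ^ 3) * volume (convexHull ℝ (range b)) ≤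
      volume (faceLayer b n k) := by
  have hn' : (0 : ℝ) < n := by exact_mod_cast hn
  have hkn : (k : ℝ) ≤ n := by exact_mod_cast hk
  have hr0 : 0 ≤ 1 - (k : ℝ) / n := by
    rw [sub_nonneg, div_le_one hn']
    exact hkn
  have hq0 : 0 ≤ (k : ℝ) / n := by positivity
  have hsub : AffineMap.homothety (b 3) (1 - (k : ℝ) / n) '' convexHull ℝ (range b) ⊆
      faceLayer b n k := by
    rintro _ ⟨y, hy, rfl⟩
    rw [b.convexHull_eq_nonneg_coord] at hy
    have hcoord : ∀ j, b.coord j (AffineMap.homothety (b 3) (1 - (k : ℝ) / n) y) =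
        (1 - (1 - (k : ℝ) / n)) * (if j = 3 then 1 else 0) +
          (1 - (k : ℝ) / n) * b.coord j y := by
      intro j
      rw [homothety_eq_mix, Convex.combo_affine_apply (by ring), b.coord_apply]
      simp only [smul_eq_mul]
    refine ⟨fun j => ?_, ?_⟩
    · rw [hcoord j]
      have h1 : 0 ≤ (1 - (1 - (k : ℝ) / n)) * (if j = 3 then (1 : ℝ) else 0) := by
        split_ifs
        · linarith
        · linarith
      have h2 : 0 ≤ (1 - (k : ℝ) / n) * b.coord j y := mul_nonneg hr0 (hy j)
      linarith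
    · rw [hcoord 3, if_pos rfl]
      have h2 : 0 ≤ (1 - (k : ℝ) / n) * b.coord 3 y := mul_nonneg hr0 (hy 3)
      have h3 : (n : ℝ) * (1 - (1 - (k : ℝ) / n)) = k := by
        field_simp
        ring
      have e : (n : ℝ) * ((1 - (1 - (k : ℝ) / n)) * 1 + (1 - (k : ℝ) / n) * b.coord 3 y) =
          k + n * ((1 - (k : ℝ) / n) * b.coord 3 y) := by
        rw [mul_add, mul_one, h3]
      rw [e]
      linarith [mul_nonneg hn'.le h2]
  calc ENNReal.ofReal ((1 - (k : ℝ) / n) ^ 3) * volume (convexHull ℝ (range b))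
      = volume (AffineMap.homothety (b 3) (1 - (k : ℝ) / n) '' convexHull ℝ (range b)) := by
        rw [Measure.addHaar_image_homothety, hdim, abs_of_nonneg (pow_nonneg hr0 3)]
    _ ≤ volume (faceLayer b n k) := measure_mono hsub

/-- In a direction parallel to the face opposite to the last vertex, the tetrahedron has a
chord whose length `L` bounds the extent of the tetrahedron along every line in that
direction by `L` times `1 - h`, where `h` is the last barycentric coordinate of the line. -/
theorem face_chord (b : AffineBasis (Fin 4) ℝ E) (u : E) (hu : u ≠ 0)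
    (h3 : (b.coord 3).linear u = 0) :
    ∃ L : ℝ, 0 < L ∧ (∃ x ∈ convexHull ℝ (range b), x + L • u ∈ convexHull ℝ (range b)) ∧
      ∀ (x : E) (t t' : ℝ), x + t • u ∈ convexHull ℝ (range b) →
        x + t' • u ∈ convexHull ℝ (range b) → |t' - t| ≤ (1 - b.coord 3 x) * L := by
  set μ : Fin 4 → ℝ := fun j => (b.coord j).linear u with hμ
  have hμsum : ∑ j, μ j = 0 := sum_coord_linear b u
  have hμu : ∑ j, μ j • b j = u := sum_coord_linear_smul b u
  set m : ℝ := ∑ j, max (μ j) 0 with hm
  have hm0 : 0 ≤ m := Finset.sum_nonneg fun j _ => le_max_right _ _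
  have hmpos : 0 < m := by
    rcases hm0.lt_or_eq with h | h
    · exact h
    · exfalso
      have h1 : ∀ j ∈ Finset.univ, max (μ j) 0 = 0 :=
        (Finset.sum_eq_zero_iff_of_nonneg fun j _ => le_max_right _ _).mp h.symm
      have h2 : ∀ j ∈ Finset.univ, μ j ≤ 0 := fun j hj => by
        have := le_max_left (μ j) 0
        rw [h1 j hj] at this
        exact this
      have h3' : ∀ j ∈ Finset.univ, μ j = 0 := (Finset.sum_eq_zero_iff_of_nonpos h2).mp hμsum
      apply hu
      rw [← hμu]
      exact Finset.sum_eq_zero fun j hj => by rw [h3' j hj, zero_smul]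
  have hneg : ∀ j, max (-μ j) 0 + μ j = max (μ j) 0 := by
    intro j
    rcases le_total (μ j) 0 with h | h
    · rw [max_eq_left (by linarith), max_eq_right h]; ring
    · rw [max_eq_right (by linarith), max_eq_left h]; ring
  have hm' : ∑ j, max (-μ j) 0 = m := by
    have : ∑ j, (max (-μ j) 0 + μ j) = m := Finset.sum_congr rfl fun j _ => hneg j
    rw [Finset.sum_add_distrib, hμsum, add_zero] at this
    exact this
  refine ⟨m⁻¹, inv_pos.mpr hmpos, ⟨∑ j, (max (-μ j) 0 / m) • b j, ?_, ?_⟩, ?_⟩
  · refine (convex_convexHull ℝ (range b)).sum_mem (fun j _ => ?_) ?_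
      (fun j _ => subset_convexHull ℝ _ (mem_range_self j))
    · exact div_nonneg (le_max_right _ _) hmpos.le
    · rw [← Finset.sum_div, hm', div_self hmpos.ne']
  · have key : ∑ j, (max (-μ j) 0 / m) • b j + m⁻¹ • ∑ j, μ j • b j =
        ∑ j, (max (μ j) 0 / m) • b j := by
      rw [Finset.smul_sum, ← Finset.sum_add_distrib]
      apply Finset.sum_congr rfl
      intro j _
      rw [smul_smul, ← add_smul]
      congr 1
      rw [div_eq_inv_mul, div_eq_inv_mul, ← mul_add, hneg j]
    rw [hμu] at key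
    rw [key]
    refine (convex_convexHull ℝ (range b)).sum_mem (fun j _ => ?_) ?_
      (fun j _ => subset_convexHull ℝ _ (mem_range_self j))
    · exact div_nonneg (le_max_right _ _) hmpos.le
    · rw [← Finset.sum_div, div_self hmpos.ne']
  · intro x t t' ht ht'
    have hcoord : ∀ (j : Fin 4) (s : ℝ), b.coord j (x + s • u) = b.coord j x + s * μ j :=
      fun j s => coord_add_smul b j x u s
    rw [b.convexHull_eq_nonneg_coord] at ht ht'
    have hμ3 : μ 3 = 0 := h3
    have h3t : b.coord 3 (x + t • u) = b.coord 3 x := by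
      rw [hcoord, hμ3, mul_zero, add_zero]
    have h3t' : b.coord 3 (x + t' • u) = b.coord 3 x := by
      rw [hcoord, hμ3, mul_zero, add_zero]
    have hA := face_l1 (fun j => b.coord j (x + t • u)) (fun j => b.coord j (x + t' • u))
      ht ht' (b.sum_coord_apply_eq_one _) (h3t'.trans h3t.symm)
    have hB := face_l1 (fun j => b.coord j (x + t' • u)) (fun j => b.coord j (x + t • u))
      ht' ht (b.sum_coord_apply_eq_one _) (h3t.trans h3t'.symm)
    beta_reduce at hA hB
    rw [h3t'] at hA
    rw [h3t] at hB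
    have hgoal : |t' - t| * m ≤ 1 - b.coord 3 x := by
      rcases le_total 0 (t' - t) with hs | hs
      · rw [abs_of_nonneg hs]
        have e : ∑ j, max (b.coord j (x + t' • u) - b.coord j (x + t • u)) 0 =
            (t' - t) * m := by
          rw [hm, Finset.mul_sum]
          apply Finset.sum_congr rfl
          intro j _
          rw [mul_max_of_nonneg _ _ hs, mul_zero, hcoord j t', hcoord j t]
          congr 1
          ring
        rw [← e]
        exact hA
      · rw [abs_of_nonpos hs]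
        have hs' : 0 ≤ t - t' := by linarith
        have e : ∑ j, max (b.coord j (x + t • u) - b.coord j (x + t' • u)) 0 =
            -(t' - t) * m := by
          rw [hm, Finset.mul_sum]
          apply Finset.sum_congr rfl
          intro j _
          rw [show -(t' - t) = t - t' by ring, mul_max_of_nonneg _ _ hs', mul_zero,
            hcoord j t', hcoord j t]
          congr 1
          ring
        rw [← e]
        exact hB
    rw [← div_eq_mul_inv, le_div_iff₀ hmpos]
    exact hgoal

/-- The bound obtained from `n` layers. -/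
theorem tetra_face_layers (hdim : Module.finrank ℝ E = 3) (p : Fin 4 → E)
    (hint : (interior (convexHull ℝ (Set.range p))).Nonempty) {m : ℕ} (u : Fin m → E)
    (hu0 : ∀ i, u i ≠ 0)
    (hface : ∀ i, ∃ a b : ℝ, u i = a • (p 1 - p 0) + b • (p 2 - p 0))
    (B : ∀ i, Set ↥(ℝ ∙ u i)ᗮ)
    (hcov : convexHull ℝ (Set.range p) ⊆
      ⋃ i, (ℝ ∙ u i)ᗮ.orthogonalProjectionOnto ⁻¹' B i) (n : ℕ) (hn : 0 < n) :
    ENNReal.ofReal (1 + ((n : ℝ) - 1) * ((n : ℝ) - 2) / (2 * (n : ℝ) ^ 2)) ≤
      3 * ∑ i, volume (B i) /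
        volume ((ℝ ∙ u i)ᗮ.orthogonalProjectionOnto '' convexHull ℝ (Set.range p)) := by
  have htop : affineSpan ℝ (Set.range p) = ⊤ :=
    interior_convexHull_nonempty_iff_affineSpan_eq_top.mp hint
  have hind : AffineIndependent ℝ p := by
    rw [affineIndependent_iff_finrank_vectorSpan_eq ℝ p (n := 3) (by simp),
      ← direction_affineSpan, htop, AffineSubspace.direction_top, finrank_top, hdim]
  let b : AffineBasis (Fin 4) ℝ E := ⟨p, hind, htop⟩
  have hb : Set.range b = Set.range p := rfl
  have hTc : IsCompact (convexHull ℝ (Set.range p)) := (Set.finite_range p).isCompact_convexHull ℝ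
  have hTconv : Convex ℝ (convexHull ℝ (Set.range p)) := convex_convexHull ℝ _
  have hn' : (0 : ℝ) < n := by exact_mod_cast hn
  have hST : ∀ k : Fin n, faceLayer b n k ⊆ convexHull ℝ (Set.range p) := by
    intro k
    rw [← hb]
    exact faceLayer_subset b n k
  have hSm : ∀ k : Fin n, MeasurableSet (faceLayer b n k) := fun k =>
    (faceLayer_closed b n k).measurableSet
  have hcovS : ∀ k : Fin n, faceLayer b n k ⊆
      ⋃ i, (ℝ ∙ u i)ᗮ.orthogonalProjectionOnto ⁻¹' B i := fun k => (hST k).trans hcov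
  have hw : ∀ k : Fin n, 0 ≤ faceW n k := fun k => faceW_nonneg n k k.isLt
  have hchord : ∀ i, ∃ L : ℝ, 0 < L ∧
      (∃ x ∈ convexHull ℝ (Set.range p), x + L • u i ∈ convexHull ℝ (Set.range p)) ∧
      ∀ x : E, ∃ a : Fin n → ℝ, (∀ k, 0 ≤ a k) ∧ ∑ k : Fin n, faceW n k * a k ≤ L ∧
        ∀ k : Fin n, ∀ t t' : ℝ, x + t • u i ∈ faceLayer b n k →
          x + t' • u i ∈ faceLayer b n k → |t' - t| ≤ a k := by
    intro i
    obtain ⟨a, c, hac⟩ := hface i
    have e1 : (b.coord 3).linear (p 1 - p 0) = b.coord 3 (b 1) - b.coord 3 (b 0) :=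
      (b.coord 3).linearMap_vsub (b 1) (b 0)
    rw [b.coord_apply, b.coord_apply, if_neg (by decide), if_neg (by decide), sub_zero] at e1
    have e2 : (b.coord 3).linear (p 2 - p 0) = b.coord 3 (b 2) - b.coord 3 (b 0) :=
      (b.coord 3).linearMap_vsub (b 2) (b 0)
    rw [b.coord_apply, b.coord_apply, if_neg (by decide), if_neg (by decide), sub_zero] at e2
    have h3 : (b.coord 3).linear (u i) = 0 := by
      rw [hac, map_add, map_smul, map_smul, e1, e2, smul_zero, smul_zero, add_zero]
    obtain ⟨L, hL, hch, hfib⟩ := face_chord b (u i) (hu0 i) h3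
    rw [hb] at hch
    refine ⟨L, hL, hch, fun x => ?_⟩
    obtain ⟨h, hh⟩ : ∃ h : ℝ, h = b.coord 3 x := ⟨_, rfl⟩
    refine ⟨fun k => if ((k : ℕ) : ℝ) ≤ (n : ℝ) * h ∧ h ≤ 1 then (1 - h) * L else 0,
      ?_, ?_, ?_⟩
    · intro k
      beta_reduce
      split_ifs with hc
      · exact mul_nonneg (sub_nonneg.mpr hc.2) hL.le
      · exact le_refl 0
    · beta_reduce
      by_cases hh1 : h ≤ 1
      · have e : ∀ k : Fin n, faceW n k *
            (if ((k : ℕ) : ℝ) ≤ (n : ℝ) * h ∧ h ≤ 1 then (1 - h) * L else 0) =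
            (faceW n k * (if ((k : ℕ) : ℝ) ≤ (n : ℝ) * h then 1 else 0)) * ((1 - h) * L) := by
          intro k
          by_cases hk : ((k : ℕ) : ℝ) ≤ (n : ℝ) * h
          · rw [if_pos ⟨hk, hh1⟩, if_pos hk, mul_one]
          · rw [if_neg (fun hc => hk hc.1), if_neg hk, mul_zero, zero_mul]
        rw [Finset.sum_congr rfl (fun k _ => e k), ← Finset.sum_mul,
          Fin.sum_univ_eq_sum_range
            (fun k => faceW n k * (if (k : ℝ) ≤ (n : ℝ) * h then 1 else 0)) n]
        have hws := faceW_wsum n h n le_rfl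
        calc (∑ k ∈ Finset.range n,
              faceW n k * (if (k : ℝ) ≤ (n : ℝ) * h then 1 else 0)) * ((1 - h) * L)
            = ((1 - h) * ∑ k ∈ Finset.range n,
              faceW n k * (if (k : ℝ) ≤ (n : ℝ) * h then 1 else 0)) * L := by ring
          _ ≤ 1 * L := mul_le_mul_of_nonneg_right hws hL.le
          _ = L := one_mul L
      · have e : ∀ k : Fin n, faceW n k *
            (if ((k : ℕ) : ℝ) ≤ (n : ℝ) * h ∧ h ≤ 1 then (1 - h) * L else 0) = 0 := by
          intro k
          rw [if_neg (fun hc => hh1 hc.2), mul_zero]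
        rw [Finset.sum_congr rfl (fun k _ => e k), Finset.sum_const_zero]
        exact hL.le
    · intro k t t' ht ht'
      beta_reduce
      have hT : x + t • u i ∈ convexHull ℝ (range b) := faceLayer_subset b n k ht
      have hT' : x + t' • u i ∈ convexHull ℝ (range b) := faceLayer_subset b n k ht'
      have hf := hfib x t t' hT hT'
      have h3t : b.coord 3 (x + t • u i) = b.coord 3 x := by
        rw [coord_add_smul, h3, mul_zero, add_zero]
      have hk : ((k : ℕ) : ℝ) ≤ (n : ℝ) * h := by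
        have h2 := ht.2
        rw [h3t, ← hh] at h2
        exact h2
      have hle : h ≤ 1 := by
        rw [hh, ← h3t, ← b.sum_coord_apply_eq_one (x + t • u i)]
        exact Finset.single_le_sum (f := fun j => b.coord j (x + t • u i))
          (fun j _ => ht.1 j) (Finset.mem_univ 3)
      rw [if_pos ⟨hk, hle⟩, hh]
      exact hf
  have h1 := weighted_chord_principle hdim (convexHull ℝ (Set.range p)) hTc hTconv hint
    (fun k : Fin n => faceLayer b n k) hSm (fun k : Fin n => faceW n k) hw u hu0 B hcovS hchord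
  have hr0 : ∀ k : Fin n, 0 ≤ 1 - ((k : ℕ) : ℝ) / n := by
    intro k
    have hkn : ((k : ℕ) : ℝ) ≤ n := by exact_mod_cast k.isLt.le
    rw [sub_nonneg, div_le_one hn']
    exact hkn
  have h2 : ENNReal.ofReal (1 + ((n : ℝ) - 1) * ((n : ℝ) - 2) / (2 * (n : ℝ) ^ 2)) *
      volume (convexHull ℝ (Set.range p)) ≤
      ∑ k : Fin n, ENNReal.ofReal (faceW n k) * volume (faceLayer b n k) := by
    calc ENNReal.ofReal (1 + ((n : ℝ) - 1) * ((n : ℝ) - 2) / (2 * (n : ℝ) ^ 2)) *
          volume (convexHull ℝ (Set.range p))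
        ≤ ENNReal.ofReal (∑ k ∈ Finset.range n, faceW n k * (1 - (k : ℝ) / n) ^ 3) *
          volume (convexHull ℝ (Set.range p)) :=
          mul_le_mul_left (ENNReal.ofReal_le_ofReal (faceW_vsum n hn)) _
      _ = ∑ k : Fin n, ENNReal.ofReal (faceW n k) *
          (ENNReal.ofReal ((1 - ((k : ℕ) : ℝ) / n) ^ 3) *
            volume (convexHull ℝ (Set.range p))) := by
          rw [← Fin.sum_univ_eq_sum_range (fun k => faceW n k * (1 - (k : ℝ) / n) ^ 3) n,
            ENNReal.ofReal_sum_of_nonneg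
              (fun k _ => mul_nonneg (hw k) (pow_nonneg (hr0 k) 3)), Finset.sum_mul]
          refine Finset.sum_congr rfl fun k _ => ?_
          rw [ENNReal.ofReal_mul (hw k), mul_assoc]
      _ ≤ ∑ k : Fin n, ENNReal.ofReal (faceW n k) * volume (faceLayer b n k) := by
          refine Finset.sum_le_sum fun k _ => ?_
          have hv := faceLayer_volume hdim b n k hn k.isLt.le
          rw [hb] at hv
          exact mul_le_mul_right hv _
  have hV0 : volume (convexHull ℝ (Set.range p)) ≠ 0 :=
    (lt_of_lt_of_le (isOpen_interior.measure_pos volume hint)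
      (measure_mono interior_subset)).ne'
  have hVt : volume (convexHull ℝ (Set.range p)) ≠ ⊤ := hTc.measure_lt_top.ne
  have h3 : volume (convexHull ℝ (Set.range p)) *
      ENNReal.ofReal (1 + ((n : ℝ) - 1) * ((n : ℝ) - 2) / (2 * (n : ℝ) ^ 2)) ≤
      volume (convexHull ℝ (Set.range p)) * (3 * ∑ i, volume (B i) /
        volume ((ℝ ∙ u i)ᗮ.orthogonalProjectionOnto '' convexHull ℝ (Set.range p))) := by
    calc volume (convexHull ℝ (Set.range p)) *
          ENNReal.ofReal (1 + ((n : ℝ) - 1) * ((n : ℝ) - 2) / (2 * (n : ℝ) ^ 2))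
        = ENNReal.ofReal (1 + ((n : ℝ) - 1) * ((n : ℝ) - 2) / (2 * (n : ℝ) ^ 2)) *
          volume (convexHull ℝ (Set.range p)) := mul_comm _ _
      _ ≤ 3 * volume (convexHull ℝ (Set.range p)) * ∑ i, volume (B i) /
          volume ((ℝ ∙ u i)ᗮ.orthogonalProjectionOnto '' convexHull ℝ (Set.range p)) :=
          h2.trans h1
      _ = volume (convexHull ℝ (Set.range p)) * (3 * ∑ i, volume (B i) /
          volume ((ℝ ∙ u i)ᗮ.orthogonalProjectionOnto '' convexHull ℝ (Set.range p))) := by
          ring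
  exact (ENNReal.mul_le_mul_iff_right hV0 hVt).mp h3

/-- Every finite covering of a tetrahedron by cylinders whose axes are parallel to one face of
the tetrahedron has directionwise relative area at least `1 / 2`: if the cylinders with axis
directions `u i` (each a combination of `p 1 - p 0` and `p 2 - p 0`) and bases `B i`
(arbitrary subsets of the planes orthogonal to `u i`) cover the convex hull of four points with
nonempty interior, then the areas of the bases divided by the areas of the corresponding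
orthogonal projections of the tetrahedron add up to at least `1 / 2`. -/
theorem tetra_face_indexed (hdim : Module.finrank ℝ E = 3) (p : Fin 4 → E)
    (hint : (interior (convexHull ℝ (Set.range p))).Nonempty) {m : ℕ} (u : Fin m → E)
    (hu0 : ∀ i, u i ≠ 0)
    (hface : ∀ i, ∃ a b : ℝ, u i = a • (p 1 - p 0) + b • (p 2 - p 0))
    (B : ∀ i, Set ↥(ℝ ∙ u i)ᗮ)
    (hcov : convexHull ℝ (Set.range p) ⊆
      ⋃ i, (ℝ ∙ u i)ᗮ.orthogonalProjectionOnto ⁻¹' B i) :
    (1 / 2 : ENNReal) ≤
      ∑ i, volume (B i) /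
        volume ((ℝ ∙ u i)ᗮ.orthogonalProjectionOnto '' convexHull ℝ (Set.range p)) :=
  face_limit fun n hn => tetra_face_layers hdim p hint u hu0 hface B hcov n hn

end Vale.Agent.Lib.P243
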