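import Mathlib
import Vale.Agent.Lib.P243.TetraCoord
import Vale.Agent.Lib.P243.WChord
import Vale.Agent.Lib.P243.TetraFace

/-!
Cylinders with axes parallel to the base of a cone.

Let `K` be a convex body in three-dimensional space which is a cone: the convex hull of an apex
`v` and of a set `D` lying in a plane that does not contain `v`.  If finitely many cylinders
whose axes are parallel to that plane cover `K`, then the relative areas of their bases add up
to at least `1 / 2`.  The proof applies the weighted chord comparison principle (file `WChord`)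
to the layers of `K` parallel to the base plane, with the weights of file `TetraFace`: a chord
of `K` at height `h` parallel to the base plane is at most `1 - h` times the longest chord of
`K` in the same direction.
-/

open MeasureTheory Set

namespace Vale.Agent.Lib.P243

variable {E : Type*} [NormedAddCommGroup E] [InnerProductSpace ℝ E] [MeasurableSpace E]
  [BorelSpace E] [FiniteDimensional ℝ E]

omit [MeasurableSpace E] [BorelSpace E] [FiniteDimensional ℝ E] in
/-- A compact set with nonempty interior has a longest chord in every direction. -/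
theorem longest_chord (K : Set E) (hKc : IsCompact K) (hKint : (interior K).Nonempty) (u : E)
    (hu : u ≠ 0) :
    ∃ L : ℝ, 0 < L ∧ (∃ x ∈ K, x + L • u ∈ K) ∧
      ∀ (x : E) (t : ℝ), x ∈ K → x + t • u ∈ K → t ≤ L := by
  obtain ⟨C, hC⟩ : ∃ C, ∀ x ∈ K, ‖x‖ ≤ C := hKc.isBounded.exists_norm_le
  have hupos : 0 < ‖u‖ := norm_pos_iff.mpr hu
  have hPclosed : IsClosed {q : E × ℝ | q.1 ∈ K ∧ q.1 + q.2 • u ∈ K} := by
    have h1 : IsClosed {q : E × ℝ | q.1 ∈ K} := hKc.isClosed.preimage continuous_fst
    have h2 : IsClosed {q : E × ℝ | q.1 + q.2 • u ∈ K} :=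
      hKc.isClosed.preimage (continuous_fst.add (continuous_snd.smul continuous_const))
    exact h1.inter h2
  have hPsub : {q : E × ℝ | q.1 ∈ K ∧ q.1 + q.2 • u ∈ K} ⊆
      K ×ˢ Icc (-(2 * C / ‖u‖)) (2 * C / ‖u‖) := by
    rintro ⟨x, t⟩ ⟨h1, h2⟩
    refine ⟨h1, ?_⟩
    have h3 : ‖t • u‖ ≤ 2 * C := by
      have e : t • u = (x + t • u) - x := by abel
      rw [e]
      calc ‖(x + t • u) - x‖ ≤ ‖x + t • u‖ + ‖x‖ := norm_sub_le _ _
        _ ≤ C + C := add_le_add (hC _ h2) (hC _ h1)
        _ = 2 * C := by ring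
    rw [norm_smul, Real.norm_eq_abs] at h3
    have h4 : |t| ≤ 2 * C / ‖u‖ := by
      rw [le_div_iff₀ hupos]
      exact h3
    exact abs_le.mp h4
  have hPc : IsCompact {q : E × ℝ | q.1 ∈ K ∧ q.1 + q.2 • u ∈ K} :=
    IsCompact.of_isClosed_subset (hKc.prod isCompact_Icc) hPclosed hPsub
  obtain ⟨z, hz⟩ := hKint
  obtain ⟨ε, hε, hball⟩ := Metric.isOpen_iff.mp isOpen_interior z hz
  have hzK : z ∈ K := interior_subset hz
  have hτpos : 0 < ε / (2 * ‖u‖) := by positivity
  have hzτ : z + (ε / (2 * ‖u‖)) • u ∈ K := by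
    apply interior_subset
    apply hball
    rw [Metric.mem_ball, dist_eq_norm, add_sub_cancel_left, norm_smul, Real.norm_eq_abs,
      abs_of_pos hτpos]
    have e : ε / (2 * ‖u‖) * ‖u‖ = ε / 2 := by
      field_simp
    rw [e]
    linarith
  have hzP : ((z, ε / (2 * ‖u‖)) : E × ℝ) ∈ {q : E × ℝ | q.1 ∈ K ∧ q.1 + q.2 • u ∈ K} :=
    ⟨hzK, hzτ⟩
  obtain ⟨q, hqP, hqmax⟩ := hPc.exists_isMaxOn ⟨_, hzP⟩ continuous_snd.continuousOn
  rw [isMaxOn_iff] at hqmax
  refine ⟨q.2, lt_of_lt_of_le hτpos (hqmax _ hzP), ⟨q.1, hqP.1, hqP.2⟩, ?_⟩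
  intro x t hx hxt
  exact hqmax (x, t) ⟨hx, hxt⟩

/-- The height of a point above the plane `{x | inner ℝ x n = a}`, normalised so that the
apex `v` has height one. -/
noncomputable def coneHt (v n : E) (a : ℝ) (x : E) : ℝ :=
  (inner ℝ x n - a) / (inner ℝ v n - a)

omit [MeasurableSpace E] [BorelSpace E] [FiniteDimensional ℝ E] in
theorem coneHt_self (v n : E) (a : ℝ) (hv : inner ℝ v n ≠ a) : coneHt v n a v = 1 :=
  div_self (sub_ne_zero.mpr hv)

omit [MeasurableSpace E] [BorelSpace E] [FiniteDimensional ℝ E] in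
theorem coneHt_base (v n : E) (a : ℝ) (d : E) (hd : inner ℝ d n = a) : coneHt v n a d = 0 := by
  unfold coneHt
  rw [hd, sub_self, zero_div]

omit [MeasurableSpace E] [BorelSpace E] [FiniteDimensional ℝ E] in
/-- The height is an affine function. -/
theorem coneHt_mix (v n : E) (a : ℝ) (x y : E) (s t : ℝ) (hst : s + t = 1) :
    coneHt v n a (s • x + t • y) = s * coneHt v n a x + t * coneHt v n a y := by
  unfold coneHt
  rw [inner_add_left, real_inner_smul_left, real_inner_smul_left, ← mul_div_assoc,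
    ← mul_div_assoc, ← add_div]
  congr 1
  linear_combination a * hst

omit [MeasurableSpace E] [BorelSpace E] [FiniteDimensional ℝ E] in
/-- The height is constant along lines parallel to the base plane. -/
theorem coneHt_add_smul (v n : E) (a : ℝ) (x u : E) (t : ℝ) (hpar : inner ℝ u n = 0) :
    coneHt v n a (x + t • u) = coneHt v n a x := by
  unfold coneHt
  rw [inner_add_left, real_inner_smul_left, hpar, mul_zero, add_zero]

omit [MeasurableSpace E] [BorelSpace E] [FiniteDimensional ℝ E] in
theorem coneHt_continuous (v n : E) (a : ℝ) : Continuous (coneHt v n a) := by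
  unfold coneHt
  exact ((continuous_id.inner continuous_const).sub continuous_const).div_const _

omit [MeasurableSpace E] [BorelSpace E] [FiniteDimensional ℝ E] in
/-- A linear functional which is constant on a set is constant on its convex hull. -/
theorem inner_eq_on_convexHull (D : Set E) (n : E) (a : ℝ) (hD : ∀ x ∈ D, inner ℝ x n = a) :
    ∀ x ∈ convexHull ℝ D, inner ℝ x n = a := by
  have hconv : Convex ℝ {x : E | inner ℝ x n = a} := by
    intro x hx y hy s t _ _ hst
    have hx' : inner ℝ x n = a := hx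
    have hy' : inner ℝ y n = a := hy
    change inner ℝ (s • x + t • y) n = a
    rw [inner_add_left, real_inner_smul_left, real_inner_smul_left, hx', hy', ← add_mul, hst,
      one_mul]
  exact fun x hx => convexHull_min (fun y hy => hD y hy) hconv hx

omit [MeasurableSpace E] [BorelSpace E] [FiniteDimensional ℝ E] in
/-- A point of a cone is a convex combination of the apex and of a point of the convex hull of
the base. -/
theorem cone_decomp (D : Set E) (v : E) (hDne : D.Nonempty) {y : E}
    (hy : y ∈ convexHull ℝ (insert v D)) :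
    ∃ d ∈ convexHull ℝ D, ∃ α β : ℝ, 0 ≤ α ∧ 0 ≤ β ∧ α + β = 1 ∧ α • v + β • d = y := by
  rw [convexHull_insert hDne, mem_convexJoin] at hy
  obtain ⟨x, hx, d, hd, hyseg⟩ := hy
  rw [mem_singleton_iff] at hx
  subst hx
  obtain ⟨α, β, hα, hβ, hαβ, rfl⟩ := hyseg
  exact ⟨d, hd, α, β, hα, hβ, hαβ, rfl⟩

omit [MeasurableSpace E] [BorelSpace E] [FiniteDimensional ℝ E] in
/-- The points of a cone have heights between zero and one. -/
theorem cone_ht_mem (D : Set E) (v n : E) (a : ℝ) (hD : ∀ x ∈ D, inner ℝ x n = a)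
    (hv : inner ℝ v n ≠ a) (hDne : D.Nonempty) {y : E} (hy : y ∈ convexHull ℝ (insert v D)) :
    0 ≤ coneHt v n a y ∧ coneHt v n a y ≤ 1 := by
  obtain ⟨d, hd, α, β, hα, hβ, hαβ, rfl⟩ := cone_decomp D v hDne hy
  rw [coneHt_mix v n a v d α β hαβ, coneHt_self v n a hv,
    coneHt_base v n a d (inner_eq_on_convexHull D n a hD d hd), mul_one, mul_zero, add_zero]
  exact ⟨hα, by linarith⟩

omit [MeasurableSpace E] [BorelSpace E] [FiniteDimensional ℝ E] in
/-- In a direction parallel to its base plane, a cone has a chord whose length `L` bounds the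
extent of the cone along every line in that direction by `L` times `1 - h`, where `h` is the
height of the line. -/
theorem cone_chord (K : Set E) (hKc : IsCompact K) (hKint : (interior K).Nonempty) (D : Set E)
    (v n : E) (a : ℝ) (hK : K = convexHull ℝ (insert v D)) (hD : ∀ x ∈ D, inner ℝ x n = a)
    (hv : inner ℝ v n ≠ a) (hDne : D.Nonempty) (u : E) (hu : u ≠ 0)
    (hpar : inner ℝ u n = 0) :
    ∃ L : ℝ, 0 < L ∧ (∃ x ∈ K, x + L • u ∈ K) ∧
      ∀ (x : E) (t t' : ℝ), x + t • u ∈ K → x + t' • u ∈ K →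
        |t' - t| ≤ (1 - coneHt v n a x) * L := by
  obtain ⟨L, hL, hch, hmax⟩ := longest_chord K hKc hKint u hu
  refine ⟨L, hL, hch, ?_⟩
  have key : ∀ (x : E) (t t' : ℝ), x + t • u ∈ K → x + t' • u ∈ K →
      t' - t ≤ (1 - coneHt v n a x) * L := by
    intro x t t' ht ht'
    rw [hK] at ht ht'
    obtain ⟨d, hd, α, β, -, hβ, hαβ, hy⟩ := cone_decomp D v hDne ht
    obtain ⟨d', hd', α', β', -, -, hαβ', hy'⟩ := cone_decomp D v hDne ht'
    have hdn := inner_eq_on_convexHull D n a hD d hd
    have hdn' := inner_eq_on_convexHull D n a hD d' hd'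
    have h1 : coneHt v n a x = α := by
      rw [← coneHt_add_smul v n a x u t hpar, ← hy, coneHt_mix v n a v d α β hαβ,
        coneHt_self v n a hv, coneHt_base v n a d hdn, mul_one, mul_zero, add_zero]
    have h2 : coneHt v n a x = α' := by
      rw [← coneHt_add_smul v n a x u t' hpar, ← hy', coneHt_mix v n a v d' α' β' hαβ',
        coneHt_self v n a hv, coneHt_base v n a d' hdn', mul_one, mul_zero, add_zero]
    have hαα : α' = α := h2.symm.trans h1
    have hββ : β' = β := by linarith
    rw [hαα, hββ] at hy'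
    have hβ1 : 1 - coneHt v n a x = β := by linarith
    rw [hβ1]
    have hdiff : β • (d' - d) = (t' - t) • u := by
      have e0 : (α • v + β • d') - (α • v + β • d) = (x + t' • u) - (x + t • u) := by
        rw [hy, hy']
      have e1 : (α • v + β • d') - (α • v + β • d) = β • (d' - d) := by
        rw [smul_sub]
        abel
      have e2 : (x + t' • u) - (x + t • u) = (t' - t) • u := by
        rw [sub_smul]
        abel
      rw [← e1, ← e2]
      exact e0
    rcases hβ.eq_or_lt with hβ0 | hβpos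
    · rw [← hβ0, zero_smul] at hdiff
      have e : t' - t = 0 := by
        rcases smul_eq_zero.mp hdiff.symm with h | h
        · exact h
        · exact absurd h hu
      rw [← hβ0, zero_mul, e]
    · have hdK : d ∈ K := by
        rw [hK]
        exact convexHull_mono (subset_insert v D) hd
      have hdK' : d' ∈ K := by
        rw [hK]
        exact convexHull_mono (subset_insert v D) hd'
      have hdd : d + ((t' - t) / β) • u = d' := by
        have e : ((t' - t) / β) • u = β⁻¹ • ((t' - t) • u) := by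
          rw [smul_smul, div_eq_inv_mul]
        rw [e, ← hdiff, smul_smul, inv_mul_cancel₀ hβpos.ne', one_smul]
        abel
      have hle := hmax d ((t' - t) / β) hdK (by rw [hdd]; exact hdK')
      rw [div_le_iff₀ hβpos] at hle
      linarith
  intro x t t' ht ht'
  rw [abs_le]
  constructor
  · have := key x t' t ht' ht
    linarith
  · exact key x t t' ht ht'

/-- The layer number `k` (of `N`) of a cone: the points of height at least `k / N`. -/
def coneLayer (K : Set E) (v n : E) (a : ℝ) (N k : ℕ) : Set E :=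
  {x | x ∈ K ∧ (k : ℝ) ≤ (N : ℝ) * coneHt v n a x}

omit [MeasurableSpace E] [BorelSpace E] [FiniteDimensional ℝ E] in
theorem coneLayer_closed (K : Set E) (hK : IsClosed K) (v n : E) (a : ℝ) (N k : ℕ) :
    IsClosed (coneLayer K v n a N k) :=
  hK.inter (isClosed_le continuous_const (continuous_const.mul (coneHt_continuous v n a)))

omit [MeasurableSpace E] [BorelSpace E] [FiniteDimensional ℝ E] in
theorem coneLayer_subset (K : Set E) (v n : E) (a : ℝ) (N k : ℕ) :
    coneLayer K v n a N k ⊆ K := fun _ hx => hx.1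

/-- The layer number `k` contains a homothetic copy of the cone with ratio `1 - k / N`. -/
theorem coneLayer_volume (hdim : Module.finrank ℝ E = 3) (K : Set E) (hKconv : Convex ℝ K)
    (v n : E) (a : ℝ) (hvK : v ∈ K) (hv : inner ℝ v n ≠ a)
    (hht : ∀ y ∈ K, 0 ≤ coneHt v n a y) (N k : ℕ) (hN : 0 < N) (hk : k ≤ N) :
    ENNReal.ofReal ((1 - (k : ℝ) / N) ^ 3) * volume K ≤ volume (coneLayer K v n a N k) := by
  have hN' : (0 : ℝ) < N := by exact_mod_cast hN
  have hkN : (k : ℝ) ≤ N := by exact_mod_cast hk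
  have hr0 : 0 ≤ 1 - (k : ℝ) / N := by
    rw [sub_nonneg, div_le_one hN']
    exact hkN
  have hq0 : 0 ≤ (k : ℝ) / N := by positivity
  have hsub : AffineMap.homothety v (1 - (k : ℝ) / N) '' K ⊆ coneLayer K v n a N k := by
    rintro _ ⟨y, hy, rfl⟩
    rw [homothety_eq_mix]
    have hsum : (1 - (1 - (k : ℝ) / N)) + (1 - (k : ℝ) / N) = 1 := by ring
    refine ⟨hKconv hvK hy (by linarith) hr0 hsum, ?_⟩
    rw [coneHt_mix v n a v y _ _ hsum, coneHt_self v n a hv]
    have h2 : 0 ≤ (1 - (k : ℝ) / N) * coneHt v n a y := mul_nonneg hr0 (hht y hy)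
    have h3 : (N : ℝ) * (1 - (1 - (k : ℝ) / N)) = k := by
      field_simp
      ring
    have e : (N : ℝ) * ((1 - (1 - (k : ℝ) / N)) * 1 + (1 - (k : ℝ) / N) * coneHt v n a y) =
        k + N * ((1 - (k : ℝ) / N) * coneHt v n a y) := by
      rw [mul_add, mul_one, h3]
    rw [e]
    linarith [mul_nonneg hN'.le h2]
  calc ENNReal.ofReal ((1 - (k : ℝ) / N) ^ 3) * volume K
      = volume (AffineMap.homothety v (1 - (k : ℝ) / N) '' K) := by
        rw [Measure.addHaar_image_homothety, hdim, abs_of_nonneg (pow_nonneg hr0 3)]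
    _ ≤ volume (coneLayer K v n a N k) := measure_mono hsub

/-- The bound obtained from `N` layers. -/
theorem cone_base_layers (hdim : Module.finrank ℝ E = 3) (K : Set E) (hKc : IsCompact K)
    (hKconv : Convex ℝ K) (hKint : (interior K).Nonempty) (D : Set E) (v n : E) (a : ℝ)
    (hK : K = convexHull ℝ (insert v D)) (hD : ∀ x ∈ D, inner ℝ x n = a)
    (hv : inner ℝ v n ≠ a) {m : ℕ} (u : Fin m → E) (hu0 : ∀ i, u i ≠ 0)
    (hpar : ∀ i, inner ℝ (u i) n = 0) (B : ∀ i, Set ↥(ℝ ∙ u i)ᗮ)
    (hcov : K ⊆ ⋃ i, (ℝ ∙ u i)ᗮ.orthogonalProjectionOnto ⁻¹' B i) (N : ℕ) (hN : 0 < N) :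
    ENNReal.ofReal (1 + ((N : ℝ) - 1) * ((N : ℝ) - 2) / (2 * (N : ℝ) ^ 2)) ≤
      3 * ∑ i, volume (B i) / volume ((ℝ ∙ u i)ᗮ.orthogonalProjectionOnto '' K) := by
  have hDne : D.Nonempty := by
    by_contra hD0
    rw [not_nonempty_iff_eq_empty] at hD0
    have hKv : K = {v} := by
      rw [hK, hD0, LawfulSingleton.insert_empty_eq, convexHull_singleton]
    rw [hKv] at hKint
    have hnt : Nontrivial E := Module.nontrivial_of_finrank_pos (R := ℝ) (by rw [hdim]; norm_num)
    have hne := Module.punctured_nhds_neBot ℝ E v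
    rw [interior_singleton] at hKint
    exact Set.not_nonempty_empty hKint
  have hvK : v ∈ K := by
    rw [hK]
    exact subset_convexHull ℝ _ (mem_insert v D)
  have hhtK : ∀ y ∈ K, 0 ≤ coneHt v n a y ∧ coneHt v n a y ≤ 1 := by
    intro y hy
    rw [hK] at hy
    exact cone_ht_mem D v n a hD hv hDne hy
  have hN' : (0 : ℝ) < N := by exact_mod_cast hN
  have hST : ∀ k : Fin N, coneLayer K v n a N k ⊆ K := fun k => coneLayer_subset K v n a N k
  have hSm : ∀ k : Fin N, MeasurableSet (coneLayer K v n a N k) := fun k =>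
    (coneLayer_closed K hKc.isClosed v n a N k).measurableSet
  have hcovS : ∀ k : Fin N, coneLayer K v n a N k ⊆
      ⋃ i, (ℝ ∙ u i)ᗮ.orthogonalProjectionOnto ⁻¹' B i := fun k => (hST k).trans hcov
  have hw : ∀ k : Fin N, 0 ≤ faceW N k := fun k => faceW_nonneg N k k.isLt
  have hchord : ∀ i, ∃ L : ℝ, 0 < L ∧ (∃ x ∈ K, x + L • u i ∈ K) ∧
      ∀ x : E, ∃ c : Fin N → ℝ, (∀ k, 0 ≤ c k) ∧ ∑ k : Fin N, faceW N k * c k ≤ L ∧
        ∀ k : Fin N, ∀ t t' : ℝ, x + t • u i ∈ coneLayer K v n a N k →
          x + t' • u i ∈ coneLayer K v n a N k → |t' - t| ≤ c k := by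
    intro i
    obtain ⟨L, hL, hch, hfib⟩ := cone_chord K hKc hKint D v n a hK hD hv hDne (u i) (hu0 i)
      (hpar i)
    refine ⟨L, hL, hch, fun x => ?_⟩
    obtain ⟨h, hh⟩ : ∃ h : ℝ, h = coneHt v n a x := ⟨_, rfl⟩
    refine ⟨fun k => if ((k : ℕ) : ℝ) ≤ (N : ℝ) * h ∧ h ≤ 1 then (1 - h) * L else 0,
      ?_, ?_, ?_⟩
    · intro k
      beta_reduce
      split_ifs with hc
      · exact mul_nonneg (sub_nonneg.mpr hc.2) hL.le
      · exact le_refl 0
    · beta_reduce
      by_cases hh1 : h ≤ 1
      · have e : ∀ k : Fin N, faceW N k *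
            (if ((k : ℕ) : ℝ) ≤ (N : ℝ) * h ∧ h ≤ 1 then (1 - h) * L else 0) =
            (faceW N k * (if ((k : ℕ) : ℝ) ≤ (N : ℝ) * h then 1 else 0)) * ((1 - h) * L) := by
          intro k
          by_cases hk : ((k : ℕ) : ℝ) ≤ (N : ℝ) * h
          · rw [if_pos ⟨hk, hh1⟩, if_pos hk, mul_one]
          · rw [if_neg (fun hc => hk hc.1), if_neg hk, mul_zero, zero_mul]
        rw [Finset.sum_congr rfl (fun k _ => e k), ← Finset.sum_mul,
          Fin.sum_univ_eq_sum_range
            (fun k => faceW N k * (if (k : ℝ) ≤ (N : ℝ) * h then 1 else 0)) N]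
        have hws := faceW_wsum N h N le_rfl
        calc (∑ k ∈ Finset.range N,
              faceW N k * (if (k : ℝ) ≤ (N : ℝ) * h then 1 else 0)) * ((1 - h) * L)
            = ((1 - h) * ∑ k ∈ Finset.range N,
              faceW N k * (if (k : ℝ) ≤ (N : ℝ) * h then 1 else 0)) * L := by ring
          _ ≤ 1 * L := mul_le_mul_of_nonneg_right hws hL.le
          _ = L := one_mul L
      · have e : ∀ k : Fin N, faceW N k *
            (if ((k : ℕ) : ℝ) ≤ (N : ℝ) * h ∧ h ≤ 1 then (1 - h) * L else 0) = 0 := by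
          intro k
          rw [if_neg (fun hc => hh1 hc.2), mul_zero]
        rw [Finset.sum_congr rfl (fun k _ => e k), Finset.sum_const_zero]
        exact hL.le
    · intro k t t' ht ht'
      beta_reduce
      have hf := hfib x t t' ht.1 ht'.1
      have h3t : coneHt v n a (x + t • u i) = coneHt v n a x :=
        coneHt_add_smul v n a x (u i) t (hpar i)
      have hk : ((k : ℕ) : ℝ) ≤ (N : ℝ) * h := by
        have h2 := ht.2
        rw [h3t, ← hh] at h2
        exact h2
      have hle : h ≤ 1 := by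
        rw [hh, ← h3t]
        exact (hhtK _ ht.1).2
      rw [if_pos ⟨hk, hle⟩, hh]
      exact hf
  have h1 := weighted_chord_principle hdim K hKc hKconv hKint
    (fun k : Fin N => coneLayer K v n a N k) hSm (fun k : Fin N => faceW N k) hw u hu0 B hcovS
    hchord
  have hr0 : ∀ k : Fin N, 0 ≤ 1 - ((k : ℕ) : ℝ) / N := by
    intro k
    have hkN : ((k : ℕ) : ℝ) ≤ N := by exact_mod_cast k.isLt.le
    rw [sub_nonneg, div_le_one hN']
    exact hkN
  have h2 : ENNReal.ofReal (1 + ((N : ℝ) - 1) * ((N : ℝ) - 2) / (2 * (N : ℝ) ^ 2)) *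
      volume K ≤ ∑ k : Fin N, ENNReal.ofReal (faceW N k) * volume (coneLayer K v n a N k) := by
    calc ENNReal.ofReal (1 + ((N : ℝ) - 1) * ((N : ℝ) - 2) / (2 * (N : ℝ) ^ 2)) * volume K
        ≤ ENNReal.ofReal (∑ k ∈ Finset.range N, faceW N k * (1 - (k : ℝ) / N) ^ 3) *
          volume K :=
          mul_le_mul_left (ENNReal.ofReal_le_ofReal (faceW_vsum N hN)) _
      _ = ∑ k : Fin N, ENNReal.ofReal (faceW N k) *
          (ENNReal.ofReal ((1 - ((k : ℕ) : ℝ) / N) ^ 3) * volume K) := by
          rw [← Fin.sum_univ_eq_sum_range (fun k => faceW N k * (1 - (k : ℝ) / N) ^ 3) N,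
            ENNReal.ofReal_sum_of_nonneg
              (fun k _ => mul_nonneg (hw k) (pow_nonneg (hr0 k) 3)), Finset.sum_mul]
          refine Finset.sum_congr rfl fun k _ => ?_
          rw [ENNReal.ofReal_mul (hw k), mul_assoc]
      _ ≤ ∑ k : Fin N, ENNReal.ofReal (faceW N k) * volume (coneLayer K v n a N k) := by
          refine Finset.sum_le_sum fun k _ => ?_
          have hvol := coneLayer_volume hdim K hKconv v n a hvK hv (fun y hy => (hhtK y hy).1)
            N k hN k.isLt.le
          exact mul_le_mul_right hvol _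
  have hV0 : volume K ≠ 0 :=
    (lt_of_lt_of_le (isOpen_interior.measure_pos volume hKint)
      (measure_mono interior_subset)).ne'
  have hVt : volume K ≠ ⊤ := hKc.measure_lt_top.ne
  have h3 : volume K *
      ENNReal.ofReal (1 + ((N : ℝ) - 1) * ((N : ℝ) - 2) / (2 * (N : ℝ) ^ 2)) ≤
      volume K * (3 * ∑ i, volume (B i) /
        volume ((ℝ ∙ u i)ᗮ.orthogonalProjectionOnto '' K)) := by
    calc volume K * ENNReal.ofReal (1 + ((N : ℝ) - 1) * ((N : ℝ) - 2) / (2 * (N : ℝ) ^ 2))
        = ENNReal.ofReal (1 + ((N : ℝ) - 1) * ((N : ℝ) - 2) / (2 * (N : ℝ) ^ 2)) *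
          volume K := mul_comm _ _
      _ ≤ 3 * volume K * ∑ i, volume (B i) /
          volume ((ℝ ∙ u i)ᗮ.orthogonalProjectionOnto '' K) := h2.trans h1
      _ = volume K * (3 * ∑ i, volume (B i) /
          volume ((ℝ ∙ u i)ᗮ.orthogonalProjectionOnto '' K)) := by
          ring
  exact (ENNReal.mul_le_mul_iff_right hV0 hVt).mp h3

/-- Cylinders parallel to the base of a cone.  Let `K` be a convex body in three-dimensional
space which is the convex hull of a point `v` and of a set `D` contained in a plane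
`{x | inner ℝ x n = a}` that does not pass through `v`.  If finitely many cylinders with axis
directions `u i` parallel to that plane and with bases `B i` (arbitrary subsets of the planes
orthogonal to `u i`) cover `K`, then the areas of the bases divided by the areas of the
corresponding orthogonal projections of `K` add up to at least `1 / 2`. -/
theorem cone_base_indexed (hdim : Module.finrank ℝ E = 3) (K : Set E) (hKc : IsCompact K)
    (hKconv : Convex ℝ K) (hKint : (interior K).Nonempty) (D : Set E) (v n : E) (a : ℝ)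
    (hK : K = convexHull ℝ (insert v D)) (hD : ∀ x ∈ D, inner ℝ x n = a)
    (hv : inner ℝ v n ≠ a) {m : ℕ} (u : Fin m → E) (hu0 : ∀ i, u i ≠ 0)
    (hpar : ∀ i, inner ℝ (u i) n = 0) (B : ∀ i, Set ↥(ℝ ∙ u i)ᗮ)
    (hcov : K ⊆ ⋃ i, (ℝ ∙ u i)ᗮ.orthogonalProjectionOnto ⁻¹' B i) :
    (1 / 2 : ENNReal) ≤
      ∑ i, volume (B i) / volume ((ℝ ∙ u i)ᗮ.orthogonalProjectionOnto '' K) :=
  face_limit fun N hN =>
    cone_base_layers hdim K hKc hKconv hKint D v n a hK hD hv u hu0 hpar B hcov N hN

end Vale.Agent.Lib.P243
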