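import Mathlib
import Vale.Agent.Lib.P243.Tetra
import Vale.Agent.Lib.P243.TetraCoord
import Vale.Agent.Lib.P243.MChord

/-!
Cylinders whose axes are transversal to all faces of a tetrahedron.

An application of the chord comparison principle with fibre measures (file `MChord`) to the
boundary shells of a tetrahedron: if the axis directions are `u i = ∑ l, c i l • p l` with
all barycentric slopes `c i l` nonzero, then the relative base areas, weighted by explicit
constants `θ i`, add up to at least `4`. For medians and bimedians all `θ i` equal `4`, so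
the relative base areas add up to at least `1`.
-/

open MeasureTheory Set

namespace Vale.Agent.Lib.P243

variable {E : Type*} [NormedAddCommGroup E] [InnerProductSpace ℝ E] [MeasurableSpace E]
  [BorelSpace E] [FiniteDimensional ℝ E]

/-- The linear parts of the barycentric coordinates of a combination of the vertices with
coefficients adding up to zero are the coefficients. -/
theorem theta_coord_linear (b : AffineBasis (Fin 4) ℝ E) (c : Fin 4 → ℝ) (hc0 : ∑ l, c l = 0)
    (l : Fin 4) : (b.coord l).linear (∑ k, c k • b k) = c l := by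
  have h1 := sum_coord_linear_smul b (∑ k, c k • b k)
  have h2 := sum_coord_linear b (∑ k, c k • b k)
  have h3 : ∑ j, ((b.coord j).linear (∑ k, c k • b k) - c j) • b j = 0 := by
    simp only [sub_smul, Finset.sum_sub_distrib]
    rw [h1, sub_self]
  have h4 : ∑ j, ((b.coord j).linear (∑ k, c k • b k) - c j) = 0 := by
    rw [Finset.sum_sub_distrib, h2, hc0, sub_zero]
  have h5 := affineIndependent_iff.mp b.ind Finset.univ _ h4 h3 l (Finset.mem_univ l)
  exact sub_eq_zero.mp h5

omit [MeasurableSpace E] [BorelSpace E] [FiniteDimensional ℝ E] in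
/-- The longest chord of a tetrahedron in the direction `∑ l, c l • b l`. -/
theorem theta_chord (b : AffineBasis (Fin 4) ℝ E) (c : Fin 4 → ℝ) (hc0 : ∑ l, c l = 0)
    (hX : 0 < (∑ l, |c l|) / 2) :
    ∃ x ∈ convexHull ℝ (range b),
      x + ((∑ l, |c l|) / 2)⁻¹ • ∑ l, c l • b l ∈ convexHull ℝ (range b) := by
  obtain ⟨m, hm⟩ : ∃ m : ℝ, m = (∑ l, |c l|) / 2 := ⟨_, rfl⟩
  rw [← hm] at hX ⊢
  have hpos : ∑ j, max (c j) 0 = m := by
    have : ∀ j, max (c j) 0 = (|c j| + c j) / 2 := by
      intro j
      rcases le_total (c j) 0 with h | h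
      · rw [max_eq_right h, abs_of_nonpos h]; ring
      · rw [max_eq_left h, abs_of_nonneg h]; ring
    simp only [this]
    rw [← Finset.sum_div, Finset.sum_add_distrib, hc0, add_zero, hm]
  have hneg : ∑ j, max (-c j) 0 = m := by
    have : ∀ j, max (-c j) 0 = (|c j| - c j) / 2 := by
      intro j
      rcases le_total (c j) 0 with h | h
      · rw [max_eq_left (by linarith), abs_of_nonpos h]; ring
      · rw [max_eq_right (by linarith), abs_of_nonneg h]; ring
    simp only [this]
    rw [← Finset.sum_div, Finset.sum_sub_distrib, hc0, sub_zero, hm]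
  have hstep : ∀ j, max (-c j) 0 + c j = max (c j) 0 := by
    intro j
    rcases le_total (c j) 0 with h | h
    · rw [max_eq_left (by linarith), max_eq_right h]; ring
    · rw [max_eq_right (by linarith), max_eq_left h]; ring
  refine ⟨∑ j, (max (-c j) 0 / m) • b j, ?_, ?_⟩
  · refine (convex_convexHull ℝ (range b)).sum_mem (fun j _ => ?_) ?_
      (fun j _ => subset_convexHull ℝ _ (mem_range_self j))
    · exact div_nonneg (le_max_right _ _) hX.le
    · rw [← Finset.sum_div, hneg, div_self hX.ne']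
  · have key : ∑ j, (max (-c j) 0 / m) • b j + m⁻¹ • ∑ j, c j • b j =
        ∑ j, (max (c j) 0 / m) • b j := by
      rw [Finset.smul_sum, ← Finset.sum_add_distrib]
      apply Finset.sum_congr rfl
      intro j _
      rw [smul_smul, ← add_smul]
      congr 1
      rw [div_eq_inv_mul, div_eq_inv_mul, ← mul_add, hstep j]
    rw [key]
    refine (convex_convexHull ℝ (range b)).sum_mem (fun j _ => ?_) ?_
      (fun j _ => subset_convexHull ℝ _ (mem_range_self j))
    · exact div_nonneg (le_max_right _ _) hX.le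
    · rw [← Finset.sum_div, hpos, div_self hX.ne']

/-- The part of a line within barycentric distance `e` of the boundary of the tetrahedron:
in the parameter of the line it has measure at most `e / mP + e / mN`, where `mP` and `mN`
are the smallest positive slope and the smallest absolute value of a negative slope. -/
theorem theta_fibre (lam c : Fin 4 → ℝ) (hcne : ∀ l, c l ≠ 0) {e mP mN : ℝ} (he : 0 ≤ e)
    (hmP : 0 < mP) (hmN : 0 < mN) (hP : ∀ l, 0 < c l → mP ≤ c l)
    (hN : ∀ l, c l < 0 → mN ≤ -c l) :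
    volume {t : ℝ | (∀ l, 0 ≤ lam l + t * c l) ∧ ∃ l, lam l + t * c l < e} ≤
      ENNReal.ofReal (e / mP + e / mN) := by
  obtain ⟨FP, hFP⟩ : ∃ FP : Set ℝ, FP =
      {t : ℝ | (∀ l, 0 ≤ lam l + t * c l) ∧ ∃ l, 0 < c l ∧ lam l + t * c l < e} := ⟨_, rfl⟩
  obtain ⟨FN, hFN⟩ : ∃ FN : Set ℝ, FN =
      {t : ℝ | (∀ l, 0 ≤ lam l + t * c l) ∧ ∃ l, c l < 0 ∧ lam l + t * c l < e} := ⟨_, rfl⟩
  have hsub : {t : ℝ | (∀ l, 0 ≤ lam l + t * c l) ∧ ∃ l, lam l + t * c l < e} ⊆ FP ∪ FN := by
    rintro t ⟨h0, l, hl⟩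
    rcases lt_or_gt_of_ne (hcne l) with h | h
    · right
      rw [hFN]
      exact ⟨h0, l, h, hl⟩
    · left
      rw [hFP]
      exact ⟨h0, l, h, hl⟩
  have hPd : ∀ t ∈ FP, ∀ t' ∈ FP, t' - t ≤ e / mP := by
    intro t ht t' ht'
    rw [hFP] at ht ht'
    obtain ⟨h0, -⟩ := ht
    obtain ⟨-, l, hl, hl'⟩ := ht'
    have h1 := h0 l
    have h2 : (t' - t) * c l ≤ e := by linarith
    rcases le_total (t' - t) 0 with h | h
    · exact le_trans h (div_nonneg he hmP.le)
    · rw [le_div_iff₀ hmP]
      have := mul_le_mul_of_nonneg_left (hP l hl) h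
      linarith
  have hNd : ∀ t ∈ FN, ∀ t' ∈ FN, t' - t ≤ e / mN := by
    intro t ht t' ht'
    rw [hFN] at ht ht'
    obtain ⟨-, l, hl, hl'⟩ := ht
    obtain ⟨h0, -⟩ := ht'
    have h1 := h0 l
    have h2 : (t' - t) * (-c l) ≤ e := by linarith
    rcases le_total (t' - t) 0 with h | h
    · exact le_trans h (div_nonneg he hmN.le)
    · rw [le_div_iff₀ hmN]
      have := mul_le_mul_of_nonneg_left (hN l hl) h
      linarith
  have hdiam : ∀ (F : Set ℝ) (d : ℝ), (∀ t ∈ F, ∀ t' ∈ F, t' - t ≤ d) →
      volume F ≤ ENNReal.ofReal d := by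
    intro F d hF
    refine le_trans (Real.volume_le_diam _) (Metric.ediam_le ?_)
    intro t ht t' ht'
    rw [edist_dist, Real.dist_eq]
    apply ENNReal.ofReal_le_ofReal
    rw [abs_le]
    constructor
    · linarith [hF t ht t' ht']
    · linarith [hF t' ht' t ht]
  calc volume {t : ℝ | (∀ l, 0 ≤ lam l + t * c l) ∧ ∃ l, lam l + t * c l < e}
      ≤ volume FP + volume FN := le_trans (measure_mono hsub) (measure_union_le _ _)
    _ ≤ ENNReal.ofReal (e / mP) + ENNReal.ofReal (e / mN) :=
        add_le_add (hdiam FP _ hPd) (hdiam FN _ hNd)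
    _ = ENNReal.ofReal (e / mP + e / mN) :=
        (ENNReal.ofReal_add (div_nonneg he hmP.le) (div_nonneg he hmN.le)).symm

/-- The shell of barycentric width `e` of a tetrahedron fills all but `(1 - 4 e) ^ 3` of it. -/
theorem theta_shell_volume (hdim : Module.finrank ℝ E = 3) (b : AffineBasis (Fin 4) ℝ E)
    {e : ℝ} (he4 : e < 1 / 4) :
    volume (convexHull ℝ (range b)) ≤
      volume {x | x ∈ convexHull ℝ (range b) ∧ ∃ l, b.coord l x < e} +
        ENNReal.ofReal ((1 - 4 * e) ^ 3) * volume (convexHull ℝ (range b)) := by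
  obtain ⟨g, hg⟩ : ∃ g : E, g = Finset.univ.centroid ℝ b := ⟨_, rfl⟩
  have hgl : ∀ l, b.coord l g = 1 / 4 := by
    intro l
    rw [hg, b.coord_apply_centroid (Finset.mem_univ l)]
    simp
  have hr : 0 < 1 - 4 * e := by linarith
  have hsub : convexHull ℝ (range b) ⊆
      {x | x ∈ convexHull ℝ (range b) ∧ ∃ l, b.coord l x < e} ∪
        AffineMap.homothety g (1 - 4 * e) '' convexHull ℝ (range b) := by
    intro x hxT
    by_cases hx : ∃ l, b.coord l x < e
    · exact Or.inl ⟨hxT, hx⟩
    right
    push Not at hx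
    refine ⟨AffineMap.homothety g (1 - 4 * e)⁻¹ x, ?_, ?_⟩
    · rw [b.convexHull_eq_nonneg_coord]
      intro i
      show 0 ≤ b.coord i (AffineMap.homothety g (1 - 4 * e)⁻¹ x)
      rw [homothety_eq_mix, Convex.combo_affine_apply (by ring), hgl]
      simp only [smul_eq_mul]
      have hinv : 0 < (1 - 4 * e)⁻¹ := inv_pos.mpr hr
      have h2 : (1 - 4 * e)⁻¹ * (1 - 4 * e) = 1 := inv_mul_cancel₀ hr.ne'
      have h1 := mul_le_mul_of_nonneg_left (hx i) hinv.le
      nlinarith
    · rw [← AffineMap.homothety_mul_apply, mul_inv_cancel₀ hr.ne', AffineMap.homothety_one]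
      rfl
  calc volume (convexHull ℝ (range b))
      ≤ volume {x | x ∈ convexHull ℝ (range b) ∧ ∃ l, b.coord l x < e} +
        volume (AffineMap.homothety g (1 - 4 * e) '' convexHull ℝ (range b)) :=
        le_trans (measure_mono hsub) (measure_union_le _ _)
    _ = volume {x | x ∈ convexHull ℝ (range b) ∧ ∃ l, b.coord l x < e} +
        ENNReal.ofReal ((1 - 4 * e) ^ 3) * volume (convexHull ℝ (range b)) := by
        rw [Measure.addHaar_image_homothety, hdim, abs_of_pos (by positivity)]

/-- The limit argument in extended nonnegative reals. -/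
theorem theta_limit {V R : ENNReal} (hV0 : V ≠ 0) (hVt : V ≠ ⊤)
    (h : ∀ e : ℝ, 0 < e → e < 1 / 4 →
      V ≤ 3 * V * (ENNReal.ofReal e * R) + ENNReal.ofReal ((1 - 4 * e) ^ 3) * V) :
    (4 : ENNReal) ≤ R := by
  rcases eq_or_ne R ⊤ with hR | hR
  · rw [hR]; exact le_top
  have hv : 0 < V.toReal := ENNReal.toReal_pos hV0 hVt
  have key : ∀ e : ℝ, 0 < e → e < 1 / 4 → 4 - 16 * e ≤ R.toReal := by
    intro e he he4
    have h1 := h e he he4
    have hr : 0 < 1 - 4 * e := by linarith
    have ht1 : 3 * V * (ENNReal.ofReal e * R) ≠ ⊤ :=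
      ENNReal.mul_ne_top (ENNReal.mul_ne_top (by simp) hVt)
        (ENNReal.mul_ne_top ENNReal.ofReal_ne_top hR)
    have ht2 : ENNReal.ofReal ((1 - 4 * e) ^ 3) * V ≠ ⊤ :=
      ENNReal.mul_ne_top ENNReal.ofReal_ne_top hVt
    have h2 := ENNReal.toReal_mono (ENNReal.add_ne_top.mpr ⟨ht1, ht2⟩) h1
    rw [ENNReal.toReal_add ht1 ht2, ENNReal.toReal_mul, ENNReal.toReal_mul, ENNReal.toReal_mul,
      ENNReal.toReal_mul, ENNReal.toReal_ofReal he.le,
      ENNReal.toReal_ofReal (by positivity)] at h2
    have h3 : (3 : ENNReal).toReal = 3 := by simp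
    rw [h3] at h2
    have h4 : 1 ≤ 3 * (e * R.toReal) + (1 - 4 * e) ^ 3 := by
      by_contra hlt
      push Not at hlt
      nlinarith [mul_pos hv (sub_pos.mpr hlt)]
    by_contra hlt
    push Not at hlt
    nlinarith [mul_pos he (sub_pos.mpr hlt), pow_pos he 3]
  by_contra hlt
  push Not at hlt
  have hRr : R.toReal < 4 := by
    have := (ENNReal.toReal_lt_toReal hR (by simp)).mpr hlt
    simpa using this
  have hR0 : 0 ≤ R.toReal := ENNReal.toReal_nonneg
  have h5 := key ((4 - R.toReal) / 32) (by linarith) (by linarith)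
  linarith

/-- Face-measure bound for a tetrahedron: let the cylinders with axis directions
`u i = ∑ l, c i l • p l` (where `∑ l, c i l = 0` and all `c i l` are nonzero, so that no axis
is parallel to a face) and bases `B i` cover the convex hull of the four points `p l`, which
has nonempty interior. If `θ i` is at least
`(∑ l, |c i l|) / 2 * (1 / c i j + 1 / (-(c i k)))` whenever `c i j > 0 > c i k`, then the
relative base areas weighted by the `θ i` add up to at least `4`. -/
theorem tetra_theta_indexed (hdim : Module.finrank ℝ E = 3) (p : Fin 4 → E)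
    (hint : (interior (convexHull ℝ (Set.range p))).Nonempty) {m : ℕ} (u : Fin m → E)
    (c : Fin m → Fin 4 → ℝ) (hc0 : ∀ i, ∑ l, c i l = 0) (hcu : ∀ i, u i = ∑ l, c i l • p l)
    (hcne : ∀ i l, c i l ≠ 0) (θ : Fin m → ℝ)
    (hθ : ∀ i j k, 0 < c i j → c i k < 0 →
      (∑ l, |c i l|) / 2 * (1 / c i j + 1 / (-(c i k))) ≤ θ i)
    (B : ∀ i, Set ↥(ℝ ∙ u i)ᗮ)
    (hcov : convexHull ℝ (Set.range p) ⊆
      ⋃ i, (ℝ ∙ u i)ᗮ.orthogonalProjectionOnto ⁻¹' B i) :
    (4 : ENNReal) ≤
      ∑ i, ENNReal.ofReal (θ i) * (volume (B i) /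
        volume ((ℝ ∙ u i)ᗮ.orthogonalProjectionOnto '' convexHull ℝ (Set.range p))) := by
  have htop : affineSpan ℝ (Set.range p) = ⊤ :=
    interior_convexHull_nonempty_iff_affineSpan_eq_top.mp hint
  have hind : AffineIndependent ℝ p := by
    rw [affineIndependent_iff_finrank_vectorSpan_eq ℝ p (n := 3) (by simp),
      ← direction_affineSpan, htop, AffineSubspace.direction_top, finrank_top, hdim]
  let b : AffineBasis (Fin 4) ℝ E := ⟨p, hind, htop⟩
  have hb : Set.range b = Set.range p := rfl
  have hTc : IsCompact (convexHull ℝ (Set.range p)) := (Set.finite_range p).isCompact_convexHull ℝ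
  have hTconv : Convex ℝ (convexHull ℝ (Set.range p)) := convex_convexHull ℝ _
  have hV0 : volume (convexHull ℝ (Set.range p)) ≠ 0 :=
    (lt_of_lt_of_le (isOpen_interior.measure_pos volume hint)
      (measure_mono interior_subset)).ne'
  have hVt : volume (convexHull ℝ (Set.range p)) ≠ ⊤ := hTc.measure_lt_top.ne
  have hlin : ∀ i l, (b.coord l).linear (u i) = c i l := by
    intro i l
    rw [hcu i]
    exact theta_coord_linear b (c i) (hc0 i) l
  have hu0 : ∀ i, u i ≠ 0 := by
    intro i h0
    have := hlin i 0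
    rw [h0, map_zero] at this
    exact hcne i 0 this.symm
  have hpos : ∀ i, ∃ j, 0 < c i j := by
    intro i
    by_contra hno
    push Not at hno
    have h3 : ∀ j ∈ Finset.univ, c i j = 0 :=
      (Finset.sum_eq_zero_iff_of_nonpos fun j _ => hno j).mp (hc0 i)
    exact hcne i 0 (h3 0 (Finset.mem_univ 0))
  have hneg : ∀ i, ∃ k, c i k < 0 := by
    intro i
    by_contra hno
    push Not at hno
    have h3 : ∀ j ∈ Finset.univ, c i j = 0 :=
      (Finset.sum_eq_zero_iff_of_nonneg fun j _ => hno j).mp (hc0 i)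
    exact hcne i 0 (h3 0 (Finset.mem_univ 0))
  have hX : ∀ i, 0 < (∑ l, |c i l|) / 2 := by
    intro i
    have : 0 < ∑ l, |c i l| :=
      Finset.sum_pos (fun l _ => abs_pos.mpr (hcne i l)) ⟨0, Finset.mem_univ 0⟩
    linarith
  have hθ0 : ∀ i, 0 ≤ θ i := by
    intro i
    obtain ⟨j, hj⟩ := hpos i
    obtain ⟨k, hk⟩ := hneg i
    refine le_trans ?_ (hθ i j k hj hk)
    have h1 : 0 < 1 / c i j := one_div_pos.mpr hj
    have h2 : 0 < 1 / (-(c i k)) := one_div_pos.mpr (neg_pos.mpr hk)
    exact mul_nonneg (hX i).le (by linarith)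
  apply theta_limit hV0 hVt
  intro e he he4
  obtain ⟨S, hS⟩ : ∃ S : Set E,
      S = {x | x ∈ convexHull ℝ (Set.range p) ∧ ∃ l, b.coord l x < e} := ⟨_, rfl⟩
  have hSm : MeasurableSet S := by
    have hc : ∀ j, Continuous (b.coord j) := fun j => (b.coord j).continuous_of_finiteDimensional
    have : S = convexHull ℝ (Set.range p) ∩ ⋃ l, {x : E | b.coord l x < e} := by
      ext x
      simp only [hS, mem_ofPred_eq, mem_inter_iff, mem_iUnion]
    rw [this]
    exact hTc.measurableSet.inter
      (MeasurableSet.iUnion fun l => (isOpen_lt (hc l) continuous_const).measurableSet)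
  have hST : S ⊆ convexHull ℝ (Set.range p) := by
    intro x hx
    rw [hS] at hx
    exact hx.1
  have hchord : ∀ i, ∃ L : ℝ, 0 < L ∧
      (∃ x ∈ convexHull ℝ (Set.range p), x + L • u i ∈ convexHull ℝ (Set.range p)) ∧
      ∀ x : E, volume {t : ℝ | x + t • u i ∈ S} ≤ ENNReal.ofReal (e * θ i * L) := by
    intro i
    refine ⟨((∑ l, |c i l|) / 2)⁻¹, inv_pos.mpr (hX i), ?_, ?_⟩
    · have := theta_chord b (c i) (hc0 i) (hX i)
      rw [hb] at this
      rw [hcu i]
      exact this
    · intro x
      obtain ⟨j, hjP, hjmin⟩ := Finset.exists_min_image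
        (Finset.univ.filter fun l => 0 < c i l) (fun l => c i l)
        (by obtain ⟨j, hj⟩ := hpos i; exact ⟨j, by simp [hj]⟩)
      obtain ⟨k, hkN, hkmin⟩ := Finset.exists_min_image
        (Finset.univ.filter fun l => c i l < 0) (fun l => -c i l)
        (by obtain ⟨k, hk⟩ := hneg i; exact ⟨k, by simp [hk]⟩)
      have hj : 0 < c i j := (Finset.mem_filter.mp hjP).2
      have hk : c i k < 0 := (Finset.mem_filter.mp hkN).2
      have hfib := theta_fibre (fun l => b.coord l x) (c i) (hcne i) he.le hj (neg_pos.mpr hk)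
        (fun l hl => hjmin l (Finset.mem_filter.mpr ⟨Finset.mem_univ l, hl⟩))
        (fun l hl => hkmin l (Finset.mem_filter.mpr ⟨Finset.mem_univ l, hl⟩))
      have hset : {t : ℝ | x + t • u i ∈ S} =
          {t : ℝ | (∀ l, 0 ≤ b.coord l x + t * c i l) ∧ ∃ l, b.coord l x + t * c i l < e} := by
        ext t
        simp only [hS, mem_ofPred_eq]
        rw [← hb, b.convexHull_eq_nonneg_coord]
        simp only [mem_ofPred_eq, coord_add_smul, hlin]
      rw [hset]
      refine le_trans hfib (ENNReal.ofReal_le_ofReal ?_)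
      have h1 := hθ i j k hj hk
      have hXi := hX i
      have h2 : e / c i j + e / (-c i k) =
          e * ((∑ l, |c i l|) / 2 * (1 / c i j + 1 / (-(c i k)))) *
            ((∑ l, |c i l|) / 2)⁻¹ := by
        have hj' : c i j ≠ 0 := hj.ne'
        have hk' : c i k ≠ 0 := hk.ne
        have hne : ∑ l, |c i l| ≠ 0 := by
          intro h0
          rw [h0] at hXi
          linarith
        field_simp
      rw [h2]
      exact mul_le_mul_of_nonneg_right (mul_le_mul_of_nonneg_left h1 he.le)
        (inv_pos.mpr hXi).le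
  have h1 := chord_principle_meas hdim (convexHull ℝ (Set.range p)) hTc hTconv hint S hSm u hu0 B
    (hST.trans hcov) (fun i => e * θ i) (fun i => mul_nonneg he.le (hθ0 i)) hchord
  have h2 := theta_shell_volume hdim b he4
  rw [hb, ← hS] at h2
  calc volume (convexHull ℝ (Set.range p))
      ≤ volume S + ENNReal.ofReal ((1 - 4 * e) ^ 3) * volume (convexHull ℝ (Set.range p)) := h2
    _ ≤ 3 * volume (convexHull ℝ (Set.range p)) *
          (ENNReal.ofReal e * ∑ i, ENNReal.ofReal (θ i) * (volume (B i) /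
            volume ((ℝ ∙ u i)ᗮ.orthogonalProjectionOnto '' convexHull ℝ (Set.range p)))) +
        ENNReal.ofReal ((1 - 4 * e) ^ 3) * volume (convexHull ℝ (Set.range p)) := by
        refine add_le_add (le_trans h1 (le_of_eq ?_)) le_rfl
        congr 1
        rw [Finset.mul_sum]
        refine Finset.sum_congr rfl fun i _ => ?_
        rw [ENNReal.ofReal_mul he.le, mul_assoc]

omit [MeasurableSpace E] [BorelSpace E] [FiniteDimensional ℝ E] in
/-- The barycentric slopes of a multiple of a median. -/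
theorem theta_median_coeffs (p : Fin 4 → E) (j : Fin 4) {s : ℝ} (hs : s ≠ 0) :
    ∃ ci : Fin 4 → ℝ, ∑ l, ci l = 0 ∧ s • ((4 : ℝ) • p j - ∑ l, p l) = ∑ l, ci l • p l ∧
      (∀ l, ci l ≠ 0) ∧
      ∀ j' k', 0 < ci j' → ci k' < 0 →
        (∑ l, |ci l|) / 2 * (1 / ci j' + 1 / (-(ci k'))) ≤ 4 := by
  obtain ⟨w, hw⟩ : ∃ w : Fin 4 → ℝ, w = fun l => (if l = j then (4 : ℝ) else 0) - 1 :=
    ⟨_, rfl⟩
  have hwv : ∀ l, w l = 3 ∨ w l = -1 := by
    intro l
    by_cases h : l = j
    · left
      simp only [hw, if_pos h]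
      norm_num
    · right
      simp only [hw, if_neg h]
      norm_num
  have hsum : ∑ l, w l = 0 := by
    simp only [hw, Finset.sum_sub_distrib, Finset.sum_ite_eq', Finset.mem_univ, if_true,
      Finset.sum_const, Finset.card_univ, Fintype.card_fin]
    norm_num
  have habs : ∑ l, |w l| = 6 := by
    have : ∀ l, |w l| = (if l = j then (2 : ℝ) else 0) + 1 := by
      intro l
      by_cases h : l = j
      · simp only [hw, if_pos h]
        norm_num
      · simp only [hw, if_neg h]
        norm_num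
    simp only [this, Finset.sum_add_distrib, Finset.sum_ite_eq', Finset.mem_univ, if_true,
      Finset.sum_const, Finset.card_univ, Fintype.card_fin]
    norm_num
  have hvec : ∑ l, w l • p l = (4 : ℝ) • p j - ∑ l, p l := by
    simp only [hw, sub_smul, one_smul, ite_smul, zero_smul, Finset.sum_sub_distrib,
      Finset.sum_ite_eq', Finset.mem_univ, if_true]
  refine ⟨fun l => s * w l, ?_, ?_, ?_, ?_⟩
  · rw [← Finset.mul_sum, hsum, mul_zero]
  · rw [← hvec, Finset.smul_sum]
    exact Finset.sum_congr rfl fun l _ => (mul_smul _ _ _).symm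
  · intro l
    rcases hwv l with h | h
    · show s * w l ≠ 0
      rw [h]
      exact mul_ne_zero hs (by norm_num)
    · show s * w l ≠ 0
      rw [h]
      exact mul_ne_zero hs (by norm_num)
  · intro j' k' hj' hk'
    have hj'' : 0 < s * w j' := hj'
    have hk'' : s * w k' < 0 := hk'
    have hA : ∑ l, |s * w l| = 6 * |s| := by
      simp only [abs_mul, ← Finset.mul_sum, habs]
      ring
    show (∑ l, |s * w l|) / 2 * (1 / (s * w j') + 1 / (-(s * w k'))) ≤ 4
    rw [hA]
    rcases hwv j' with h1 | h1 <;> rcases hwv k' with h2 | h2 <;> rw [h1] at hj'' ⊢ <;>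
      rw [h2] at hk'' ⊢
    · linarith
    · have hs' : 0 < s := by linarith
      rw [abs_of_pos hs']
      apply le_of_eq
      field_simp
      ring
    · have hs' : s < 0 := by linarith
      rw [abs_of_neg hs']
      apply le_of_eq
      field_simp
      ring
    · linarith

omit [MeasurableSpace E] [BorelSpace E] [FiniteDimensional ℝ E] in
/-- The barycentric slopes of a multiple of a bimedian. -/
theorem theta_bimedian_coeffs (p : Fin 4 → E) (j k : Fin 4) (hjk : j ≠ k) {s : ℝ}
    (hs : s ≠ 0) :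
    ∃ ci : Fin 4 → ℝ, ∑ l, ci l = 0 ∧
      s • ((2 : ℝ) • (p j + p k) - ∑ l, p l) = ∑ l, ci l • p l ∧
      (∀ l, ci l ≠ 0) ∧
      ∀ j' k', 0 < ci j' → ci k' < 0 →
        (∑ l, |ci l|) / 2 * (1 / ci j' + 1 / (-(ci k'))) ≤ 4 := by
  obtain ⟨w, hw⟩ : ∃ w : Fin 4 → ℝ,
      w = fun l => (if l = j then (2 : ℝ) else 0) + (if l = k then (2 : ℝ) else 0) - 1 :=
    ⟨_, rfl⟩
  have hwv : ∀ l, w l = 1 ∨ w l = -1 := by
    intro l
    by_cases h : l = j
    · left
      have h' : l ≠ k := fun h' => hjk (h.symm.trans h')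
      simp only [hw, if_pos h, if_neg h']
      norm_num
    · by_cases h' : l = k
      · left
        simp only [hw, if_neg h, if_pos h']
        norm_num
      · right
        simp only [hw, if_neg h, if_neg h']
        norm_num
  have hsum : ∑ l, w l = 0 := by
    simp only [hw, Finset.sum_sub_distrib, Finset.sum_add_distrib, Finset.sum_ite_eq',
      Finset.mem_univ, if_true, Finset.sum_const, Finset.card_univ, Fintype.card_fin]
    norm_num
  have habs : ∑ l, |w l| = 4 := by
    have : ∀ l, |w l| = 1 := by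
      intro l
      rcases hwv l with h | h <;> rw [h] <;> norm_num
    simp only [this, Finset.sum_const, Finset.card_univ, Fintype.card_fin]
    norm_num
  have hvec : ∑ l, w l • p l = (2 : ℝ) • (p j + p k) - ∑ l, p l := by
    simp only [hw, sub_smul, add_smul, one_smul, ite_smul, zero_smul, Finset.sum_sub_distrib,
      Finset.sum_add_distrib, Finset.sum_ite_eq', Finset.mem_univ, if_true, smul_add]
  refine ⟨fun l => s * w l, ?_, ?_, ?_, ?_⟩
  · rw [← Finset.mul_sum, hsum, mul_zero]
  · rw [← hvec, Finset.smul_sum]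
    exact Finset.sum_congr rfl fun l _ => (mul_smul _ _ _).symm
  · intro l
    rcases hwv l with h | h
    · show s * w l ≠ 0
      rw [h]
      exact mul_ne_zero hs (by norm_num)
    · show s * w l ≠ 0
      rw [h]
      exact mul_ne_zero hs (by norm_num)
  · intro j' k' hj' hk'
    have hj'' : 0 < s * w j' := hj'
    have hk'' : s * w k' < 0 := hk'
    have hA : ∑ l, |s * w l| = 4 * |s| := by
      simp only [abs_mul, ← Finset.mul_sum, habs]
      ring
    show (∑ l, |s * w l|) / 2 * (1 / (s * w j') + 1 / (-(s * w k'))) ≤ 4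
    rw [hA]
    rcases hwv j' with h1 | h1 <;> rcases hwv k' with h2 | h2 <;> rw [h1] at hj'' ⊢ <;>
      rw [h2] at hk'' ⊢
    · linarith
    · have hs' : 0 < s := by linarith
      rw [abs_of_pos hs']
      apply le_of_eq
      field_simp
      ring
    · have hs' : s < 0 := by linarith
      rw [abs_of_neg hs']
      apply le_of_eq
      field_simp
      ring
    · linarith

/-- Medians and bimedians: if finitely many cylinders whose axes are parallel to medians
(lines through a vertex and the centroid of the opposite face) or to bimedians (lines through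
the midpoints of two opposite edges) of a tetrahedron cover the tetrahedron, then the relative
areas of their bases add up to at least `1`. -/
theorem tetra_median_indexed (hdim : Module.finrank ℝ E = 3) (p : Fin 4 → E)
    (hint : (interior (convexHull ℝ (Set.range p))).Nonempty) {m : ℕ} (u : Fin m → E)
    (hu0 : ∀ i, u i ≠ 0)
    (hmed : ∀ i, (∃ j : Fin 4, u i ∈ ℝ ∙ ((4 : ℝ) • p j - ∑ l, p l)) ∨
      (∃ j k : Fin 4, j ≠ k ∧ u i ∈ ℝ ∙ ((2 : ℝ) • (p j + p k) - ∑ l, p l)))
    (B : ∀ i, Set ↥(ℝ ∙ u i)ᗮ)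
    (hcov : convexHull ℝ (Set.range p) ⊆
      ⋃ i, (ℝ ∙ u i)ᗮ.orthogonalProjectionOnto ⁻¹' B i) :
    (1 : ENNReal) ≤
      ∑ i, volume (B i) /
        volume ((ℝ ∙ u i)ᗮ.orthogonalProjectionOnto '' convexHull ℝ (Set.range p)) := by
  have hex : ∀ i, ∃ ci : Fin 4 → ℝ, ∑ l, ci l = 0 ∧ u i = ∑ l, ci l • p l ∧
      (∀ l, ci l ≠ 0) ∧
      ∀ j k, 0 < ci j → ci k < 0 → (∑ l, |ci l|) / 2 * (1 / ci j + 1 / (-(ci k))) ≤ 4 := by
    intro i
    rcases hmed i with ⟨j, hj⟩ | ⟨j, k, hjk, hj⟩
    · obtain ⟨s, hs⟩ := Submodule.mem_span_singleton.mp hj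
      have hs0 : s ≠ 0 := by
        rintro rfl
        rw [zero_smul] at hs
        exact hu0 i hs.symm
      rw [← hs]
      exact theta_median_coeffs p j hs0
    · obtain ⟨s, hs⟩ := Submodule.mem_span_singleton.mp hj
      have hs0 : s ≠ 0 := by
        rintro rfl
        rw [zero_smul] at hs
        exact hu0 i hs.symm
      rw [← hs]
      exact theta_bimedian_coeffs p j k hjk hs0
  choose c hc0 hcu hcne hθ using hex
  have h := tetra_theta_indexed hdim p hint u c hc0 hcu hcne (fun _ => 4) hθ B hcov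
  have h4 : ENNReal.ofReal 4 = 4 := by simp
  simp only [h4] at h
  rw [← Finset.mul_sum] at h
  have h' : (4 : ENNReal) * 1 ≤ 4 * ∑ i, volume (B i) /
      volume ((ℝ ∙ u i)ᗮ.orthogonalProjectionOnto '' convexHull ℝ (Set.range p)) := by
    rwa [mul_one]
  exact (ENNReal.mul_le_mul_iff_right (by norm_num) (by norm_num)).mp h'

end Vale.Agent.Lib.P243
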