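import Mathlib
import Vale.Agent.Lib.P243.TetraCoord
import Vale.Agent.Lib.P243.MChord
import Vale.Agent.Lib.P243.TetraTheta

/-!
Cylinders whose axes are parallel to long chords of a cone.

An application of the chord comparison principle with fibre measures (file `MChord`) to the
thin slabs next to the base of a cone: if finitely many cylinders cover a cone and every axis
is parallel to a chord of the cone that spans at least the fraction `ρ` of the height of the
cone, then the relative areas of the bases of the cylinders add up to at least `ρ`.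
-/

open MeasureTheory Set

namespace Vale.Agent.Lib.P243

variable {E : Type*} [NormedAddCommGroup E] [InnerProductSpace ℝ E] [MeasurableSpace E]
  [BorelSpace E] [FiniteDimensional ℝ E]

/-- The limit argument in extended nonnegative reals, with a factor `ρ`. -/
theorem rho_limit {V R : ENNReal} (hV0 : V ≠ 0) (hVt : V ≠ ⊤) {ρ : ℝ} (hρ : 0 < ρ)
    (h : ∀ e : ℝ, 0 < e → e < 1 →
      V ≤ 3 * V * (ENNReal.ofReal (e / ρ) * R) + ENNReal.ofReal ((1 - e) ^ 3) * V) :
    ENNReal.ofReal ρ ≤ R := by
  rcases eq_or_ne R ⊤ with hR | hR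
  · rw [hR]; exact le_top
  have hv : 0 < V.toReal := ENNReal.toReal_pos hV0 hVt
  obtain ⟨Q, hQ⟩ : ∃ Q : ℝ, Q = R.toReal / ρ := ⟨_, rfl⟩
  have hRQ : R.toReal = Q * ρ := by
    rw [hQ, div_mul_cancel₀ _ hρ.ne']
  have hQ0 : 0 ≤ Q := by
    rw [hQ]
    exact div_nonneg ENNReal.toReal_nonneg hρ.le
  have key : ∀ e : ℝ, 0 < e → e < 1 → 1 - e ≤ Q := by
    intro e he he1
    have h1 := h e he he1
    have hr : 0 < 1 - e := by linarith
    have ht1 : 3 * V * (ENNReal.ofReal (e / ρ) * R) ≠ ⊤ :=
      ENNReal.mul_ne_top (ENNReal.mul_ne_top (by simp) hVt)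
        (ENNReal.mul_ne_top ENNReal.ofReal_ne_top hR)
    have ht2 : ENNReal.ofReal ((1 - e) ^ 3) * V ≠ ⊤ :=
      ENNReal.mul_ne_top ENNReal.ofReal_ne_top hVt
    have h2 := ENNReal.toReal_mono (ENNReal.add_ne_top.mpr ⟨ht1, ht2⟩) h1
    rw [ENNReal.toReal_add ht1 ht2, ENNReal.toReal_mul, ENNReal.toReal_mul, ENNReal.toReal_mul,
      ENNReal.toReal_mul, ENNReal.toReal_ofReal (div_nonneg he.le hρ.le),
      ENNReal.toReal_ofReal (by positivity)] at h2
    have h3 : (3 : ENNReal).toReal = 3 := by simp
    have h3' : e / ρ * R.toReal = e * Q := by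
      rw [hRQ]
      field_simp
    rw [h3, h3'] at h2
    have h4 : 1 ≤ 3 * (e * Q) + (1 - e) ^ 3 := by
      by_contra hlt
      push Not at hlt
      nlinarith [mul_pos hv (sub_pos.mpr hlt)]
    by_contra hlt
    push Not at hlt
    nlinarith [mul_pos he (sub_pos.mpr hlt), pow_pos he 3]
  by_contra hlt
  push Not at hlt
  have hRr : R.toReal < ρ := (ENNReal.lt_ofReal_iff_toReal_lt hR).mp hlt
  have hQ1 : Q < 1 := by
    rw [hQ]
    exact (div_lt_one hρ).mpr hRr
  have h5 := key ((1 - Q) / 2) (by linarith) (by linarith)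
  linarith

/-- Cylinders with axes parallel to long chords of a cone: let the convex body `K` be the
convex hull of a point `v` (the apex) and a set `D` contained in the plane `⟪x, n⟫ = a` (the
base), with `v` not in that plane. If finitely many cylinders with axis directions `u i` and
bases `B i` cover `K`, and every `u i` is parallel to a chord `[x, y]` of `K` whose extent in
the direction `n` is at least `ρ` times the height `|⟪v, n⟫ - a|` of the cone, then the areas
of the bases divided by the areas of the corresponding orthogonal projections of `K` add up to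
at least `ρ`. -/
theorem cone_chord_indexed (hdim : Module.finrank ℝ E = 3) (K : Set E) (hKc : IsCompact K)
    (hKconv : Convex ℝ K) (hKint : (interior K).Nonempty) (D : Set E) (v n : E) (a : ℝ)
    (hK : K = convexHull ℝ (insert v D)) (hD : ∀ x ∈ D, inner ℝ x n = a)
    (hv : inner ℝ v n ≠ a) (ρ : ℝ) (hρ : 0 < ρ) {m : ℕ} (u : Fin m → E) (hu0 : ∀ i, u i ≠ 0)
    (hch : ∀ i, ∃ x ∈ K, ∃ y ∈ K, u i ∈ ℝ ∙ (y - x) ∧
      ρ * |inner ℝ v n - a| ≤ |inner ℝ (y - x) n|)
    (B : ∀ i, Set ↥(ℝ ∙ u i)ᗮ)
    (hcov : K ⊆ ⋃ i, (ℝ ∙ u i)ᗮ.orthogonalProjectionOnto ⁻¹' B i) :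
    ENNReal.ofReal ρ ≤
      ∑ i, volume (B i) / volume ((ℝ ∙ u i)ᗮ.orthogonalProjectionOnto '' K) := by
  have hV0 : volume K ≠ 0 :=
    (lt_of_lt_of_le (isOpen_interior.measure_pos volume hKint)
      (measure_mono interior_subset)).ne'
  have hVt : volume K ≠ ⊤ := hKc.measure_lt_top.ne
  have hDne : D.Nonempty := by
    by_contra hD'
    rw [Set.not_nonempty_iff_eq_empty] at hD'
    obtain ⟨x, hx⟩ := hKint
    rw [hK, hD', insert_empty_eq, convexHull_singleton] at hx
    have hsub : interior ({v} : Set E) ⊆ {v} := interior_subset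
    have hvol : volume (interior ({v} : Set E)) ≠ 0 :=
      (isOpen_interior.measure_pos volume ⟨x, hx⟩).ne'
    have hfin : Module.finrank ℝ E ≠ 0 := by
      rw [hdim]
      norm_num
    have hnt : Nontrivial E := Module.nontrivial_of_finrank_pos (R := ℝ) (Nat.pos_of_ne_zero hfin)
    exact hvol (measure_mono_null hsub (measure_singleton v))
  have hvK : v ∈ K := by
    rw [hK]
    exact subset_convexHull ℝ _ (mem_insert v D)
  have hDK : convexHull ℝ D ⊆ K := by
    rw [hK]
    exact convexHull_mono (subset_insert v D)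
  have hplane : ∀ d ∈ convexHull ℝ D, inner ℝ d n = a := by
    have hsub : convexHull ℝ D ⊆ {x : E | inner ℝ x n = a} := by
      refine convexHull_min (fun x hx => hD x hx) ?_
      intro x hx y hy α β _ _ hαβ
      have hx' : inner ℝ x n = a := hx
      have hy' : inner ℝ y n = a := hy
      show inner ℝ (α • x + β • y) n = a
      rw [inner_add_left, real_inner_smul_left, real_inner_smul_left, hx', hy', ← add_mul,
        hαβ, one_mul]
    exact fun d hd => hsub hd
  have hdec : ∀ x ∈ K, ∃ d ∈ convexHull ℝ D, ∃ β : ℝ, 0 ≤ β ∧ β ≤ 1 ∧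
      x = (1 - β) • v + β • d := by
    intro x hx
    rw [hK, convexHull_insert hDne, mem_convexJoin] at hx
    obtain ⟨v', hv', d, hd, α, β, hα, hβ, hαβ, rfl⟩ := hx
    rw [mem_singleton_iff] at hv'
    refine ⟨d, hd, β, hβ, by linarith, ?_⟩
    have hα' : α = 1 - β := by linarith
    rw [hα', hv']
  obtain ⟨δ, hδ⟩ : ∃ δ : ℝ, δ = inner ℝ v n - a := ⟨_, rfl⟩
  have hδ0 : δ ≠ 0 := by
    rw [hδ]
    exact sub_ne_zero.mpr hv
  have hφK : ∀ (x d : E) (β : ℝ), d ∈ convexHull ℝ D → x = (1 - β) • v + β • d →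
      (inner ℝ x n - a) / δ = 1 - β := by
    intro x d β hd hx
    rw [div_eq_iff hδ0, hx, inner_add_left, real_inner_smul_left, real_inner_smul_left,
      hplane d hd, hδ]
    ring
  apply rho_limit hV0 hVt hρ
  intro e he he1
  obtain ⟨S, hS⟩ : ∃ S : Set E, S = {x | x ∈ K ∧ (inner ℝ x n - a) / δ ≤ e} := ⟨_, rfl⟩
  have hSm : MeasurableSet S := by
    have hcont : Continuous fun x : E => (inner ℝ x n - a) / δ := by fun_prop
    have : S = K ∩ {x : E | (inner ℝ x n - a) / δ ≤ e} := by
      rw [hS]
      rfl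
    rw [this]
    exact hKc.measurableSet.inter (isClosed_le hcont continuous_const).measurableSet
  have hSK : S ⊆ K := by
    intro x hx
    rw [hS] at hx
    exact hx.1
  have hshell : volume K ≤ volume S + ENNReal.ofReal ((1 - e) ^ 3) * volume K := by
    have hr : 0 < 1 - e := by linarith
    have hsub : K ⊆ S ∪ AffineMap.homothety v (1 - e) '' K := by
      intro x hxK
      by_cases hx : (inner ℝ x n - a) / δ ≤ e
      · left
        rw [hS]
        exact ⟨hxK, hx⟩
      right
      push Not at hx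
      obtain ⟨d, hd, β, hβ0, hβ1, hxd⟩ := hdec x hxK
      rw [hφK x d β hd hxd] at hx
      refine ⟨AffineMap.homothety v (1 - e)⁻¹ x, ?_, ?_⟩
      · rw [homothety_eq_mix]
        have hinv : 0 < (1 - e)⁻¹ := inv_pos.mpr hr
        have hle : (1 - e)⁻¹ * β ≤ 1 := by
          rw [inv_mul_le_iff₀ hr]
          linarith
        have hcomb : (1 - (1 - e)⁻¹) • v + (1 - e)⁻¹ • x =
            (1 - (1 - e)⁻¹ * β) • v + ((1 - e)⁻¹ * β) • d := by
          rw [hxd]
          module
        rw [hcomb]
        exact hKconv hvK (hDK hd) (by linarith) (mul_nonneg hinv.le hβ0) (by ring)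
      · rw [← AffineMap.homothety_mul_apply, mul_inv_cancel₀ hr.ne', AffineMap.homothety_one]
        rfl
    calc volume K ≤ volume S + volume (AffineMap.homothety v (1 - e) '' K) :=
        le_trans (measure_mono hsub) (measure_union_le _ _)
      _ = volume S + ENNReal.ofReal ((1 - e) ^ 3) * volume K := by
        rw [Measure.addHaar_image_homothety, hdim, abs_of_pos (by positivity)]
  have hchord : ∀ i, ∃ L : ℝ, 0 < L ∧ (∃ x ∈ K, x + L • u i ∈ K) ∧
      ∀ z : E, volume {t : ℝ | z + t • u i ∈ S} ≤ ENNReal.ofReal (e / ρ * L) := by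
    intro i
    obtain ⟨x, hxK, y, hyK, hud, hlong⟩ := hch i
    obtain ⟨s, hs⟩ := Submodule.mem_span_singleton.mp hud
    have hs0 : s ≠ 0 := by
      rintro rfl
      rw [zero_smul] at hs
      exact hu0 i hs.symm
    have hspos : 0 < |s| := abs_pos.mpr hs0
    obtain ⟨w, hw⟩ : ∃ w : ℝ, w = inner ℝ (y - x) n / δ := ⟨_, rfl⟩
    have hwρ : ρ ≤ |w| := by
      rw [hw, abs_div, le_div_iff₀ (abs_pos.mpr hδ0), hδ]
      exact hlong
    refine ⟨|s|⁻¹, inv_pos.mpr hspos, ?_, ?_⟩
    · rcases lt_or_gt_of_ne hs0 with hneg | hpos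
      · refine ⟨y, hyK, ?_⟩
        have : y + |s|⁻¹ • u i = x := by
          rw [abs_of_neg hneg, ← hs, smul_smul, inv_neg, neg_mul, inv_mul_cancel₀ hs0,
            neg_one_smul]
          abel
        rw [this]
        exact hxK
      · refine ⟨x, hxK, ?_⟩
        have : x + |s|⁻¹ • u i = y := by
          rw [abs_of_pos hpos, ← hs, smul_smul, inv_mul_cancel₀ hs0, one_smul]
          abel
        rw [this]
        exact hyK
    · intro z
      have hline : ∀ t : ℝ, (inner ℝ (z + t • u i) n - a) / δ =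
          (inner ℝ z n - a) / δ + t * s * w := by
        intro t
        rw [← hs, inner_add_left, real_inner_smul_left, real_inner_smul_left, hw]
        field_simp
        ring
      have hsub : {t : ℝ | z + t • u i ∈ S} ⊆
          {t : ℝ | 0 ≤ (inner ℝ z n - a) / δ + t * s * w ∧
            (inner ℝ z n - a) / δ + t * s * w ≤ e} := by
        intro t ht
        have ht' : z + t • u i ∈ S := ht
        rw [hS] at ht'
        obtain ⟨htK, hte⟩ := ht'
        rw [hline] at hte
        obtain ⟨d', hd', β, hβ0, hβ1, hxd⟩ := hdec _ htK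
        have hval := hφK _ d' β hd' hxd
        rw [hline] at hval
        exact ⟨by linarith, hte⟩
      refine le_trans (measure_mono hsub) ?_
      refine le_trans (Real.volume_le_diam _) (Metric.ediam_le ?_)
      intro t ht t' ht'
      rw [edist_dist, Real.dist_eq]
      apply ENNReal.ofReal_le_ofReal
      obtain ⟨h1, h2⟩ := ht
      obtain ⟨h3, h4⟩ := ht'
      have h5 : |t - t'| * (|s| * |w|) ≤ e := by
        rw [← abs_mul, ← abs_mul, abs_le]
        constructor <;> linarith
      have h6 : |t - t'| * (|s| * ρ) ≤ |t - t'| * (|s| * |w|) :=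
        mul_le_mul_of_nonneg_left (mul_le_mul_of_nonneg_left hwρ (abs_nonneg s)) (abs_nonneg _)
      have h7 : e / ρ * |s|⁻¹ = e / (|s| * ρ) := by
        field_simp
      rw [h7, le_div_iff₀ (mul_pos hspos hρ)]
      linarith
  have h1 := chord_principle_meas hdim K hKc hKconv hKint S hSm u hu0 B (hSK.trans hcov)
    (fun _ => e / ρ) (fun _ => div_nonneg he.le hρ.le) hchord
  calc volume K ≤ volume S + ENNReal.ofReal ((1 - e) ^ 3) * volume K := hshell
    _ ≤ 3 * volume K * (ENNReal.ofReal (e / ρ) * ∑ i, volume (B i) /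
          volume ((ℝ ∙ u i)ᗮ.orthogonalProjectionOnto '' K)) +
        ENNReal.ofReal ((1 - e) ^ 3) * volume K := by
        refine add_le_add (le_trans h1 (le_of_eq ?_)) le_rfl
        congr 1
        rw [Finset.mul_sum]

end Vale.Agent.Lib.P243
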