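import Mathlib
import Vale.Agent.Lib.P243.Core
import Vale.Agent.Lib.P243.Half
import Vale.Agent.Lib.P243.BangPlanar

open MeasureTheory Set
open scoped ENNReal

namespace Vale.Agent.Lib.P243

/-- A function dominating the tent of unit area over `[z₀, z₁]` has integral at least `1 / 2`. -/
theorem half_le_lintegral_of_tent {m : ℝ → ℝ≥0∞} (hmeas : Measurable m) {z₀ z₁ : ℝ}
    (h01 : z₀ < z₁)
    (mleft : ∀ z, z₀ ≤ z → z ≤ (z₀ + z₁) / 2 →
      ENNReal.ofReal (2 * (z - z₀) / (z₁ - z₀) ^ 2) ≤ m z)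
    (mright : ∀ z, (z₀ + z₁) / 2 ≤ z → z ≤ z₁ →
      ENNReal.ofReal (2 * (z₁ - z) / (z₁ - z₀) ^ 2) ≤ m z) :
    (1 / 2 : ℝ≥0∞) ≤ ∫⁻ z, m z := by
  set mid := (z₀ + z₁) / 2 with hmid
  set h := (z₁ - z₀) / 2 with hh
  have hl : 0 < z₁ - z₀ := by linarith
  have hdisj : Disjoint (Ioc z₀ mid) (Ioc mid z₁) := by
    rw [Set.disjoint_left]
    intro x hx1 hx2
    exact absurd hx1.2 (not_le.mpr hx2.1)
  have step1 : (∫⁻ z in Ioc z₀ mid, m z) + ∫⁻ z in Ioc mid z₁, m z ≤ ∫⁻ z, m z := by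
    have hu := lintegral_union (f := m) (μ := volume) measurableSet_Ioc hdisj
    rw [← hu]
    exact setLIntegral_le_lintegral _ _
  have step2 : ∫⁻ z in Ioc mid z₁, m z = ∫⁻ z in Ioc z₀ mid, m (z + h) := by
    rw [← lintegral_indicator measurableSet_Ioc, ← lintegral_indicator measurableSet_Ioc,
      ← lintegral_add_right_eq_self (fun z => (Ioc mid z₁).indicator m z) h]
    apply lintegral_congr
    intro z
    by_cases hz : z ∈ Ioc z₀ mid
    · have hz' : z + h ∈ Ioc mid z₁ := by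
        constructor
        · rw [hmid, hh]; linarith [hz.1]
        · rw [hh]; have := hz.2; rw [hmid] at this; linarith
      rw [indicator_of_mem hz, indicator_of_mem hz']
    · have hz' : z + h ∉ Ioc mid z₁ := by
        intro hcon
        apply hz
        constructor
        · have := hcon.1; rw [hmid, hh] at this; linarith
        · have := hcon.2; rw [hh] at this; rw [hmid]; linarith
      rw [indicator_of_notMem hz, indicator_of_notMem hz']
  have step3 : (∫⁻ z in Ioc z₀ mid, m z) + ∫⁻ z in Ioc z₀ mid, m (z + h) =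
      ∫⁻ z in Ioc z₀ mid, (m z + m (z + h)) :=
    (lintegral_add_left hmeas _).symm
  have step4 : ∫⁻ _z in Ioc z₀ mid, ENNReal.ofReal (1 / (z₁ - z₀)) ≤
      ∫⁻ z in Ioc z₀ mid, (m z + m (z + h)) := by
    apply setLIntegral_mono' measurableSet_Ioc
    intro z hz
    have h1 := mleft z hz.1.le hz.2
    have h2 := mright (z + h) (by rw [hh]; have := hz.1; rw [hmid]; linarith)
      (by rw [hh]; have := hz.2; rw [hmid] at this; linarith)
    have e : (1 / (z₁ - z₀) : ℝ) =
        2 * (z - z₀) / (z₁ - z₀) ^ 2 + 2 * (z₁ - (z + h)) / (z₁ - z₀) ^ 2 := by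
      rw [hh]; field_simp; ring
    rw [e, ENNReal.ofReal_add]
    · exact add_le_add h1 h2
    · apply div_nonneg (by linarith [hz.1]) (by positivity)
    · apply div_nonneg _ (by positivity)
      rw [hh]; have := hz.2; rw [hmid] at this; linarith
  have step5 : ∫⁻ _z in Ioc z₀ mid, ENNReal.ofReal (1 / (z₁ - z₀)) = 1 / 2 := by
    rw [setLIntegral_const, Real.volume_Ioc, ← ENNReal.ofReal_mul (by positivity)]
    have e : 1 / (z₁ - z₀) * (mid - z₀) = 1 / 2 := by
      rw [hmid]; field_simp; ring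
    rw [e]
    rw [ENNReal.ofReal_div_of_pos (by norm_num)]
    simp
  calc (1 / 2 : ENNReal) = ∫⁻ _z in Ioc z₀ mid, ENNReal.ofReal (1 / (z₁ - z₀)) := step5.symm
    _ ≤ ∫⁻ z in Ioc z₀ mid, (m z + m (z + h)) := step4
    _ = (∫⁻ z in Ioc z₀ mid, m z) + ∫⁻ z in Ioc z₀ mid, m (z + h) := step3.symm
    _ = (∫⁻ z in Ioc z₀ mid, m z) + ∫⁻ z in Ioc mid z₁, m z := by rw [step2]
    _ ≤ ∫⁻ z, m z := step1

/-- Shadow of `K` on the plane spanned by the first axis and the direction `(c, d)` of the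
plane of the last two coordinates. -/
def dirShadow (c d : ℝ) (K : Set (ℝ × ℝ × ℝ)) : Set (ℝ × ℝ) :=
  (fun p : ℝ × ℝ × ℝ => (p.1, c * p.2.1 + d * p.2.2)) '' K

variable {K : Set (ℝ × ℝ × ℝ)}

theorem dirShadow_compact (hK : IsCompact K) (c d : ℝ) : IsCompact (dirShadow c d K) :=
  hK.image (by fun_prop)

theorem dirShadow_convex (hK : Convex ℝ K) (c d : ℝ) : Convex ℝ (dirShadow c d K) := by
  rintro _ ⟨p, hp, rfl⟩ _ ⟨q, hq, rfl⟩ α β hα hβ hαβ
  refine ⟨α • p + β • q, hK hp hq hα hβ hαβ, ?_⟩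
  ext
  · simp
  · simp only [Prod.fst_add, Prod.snd_add, Prod.smul_fst, Prod.smul_snd, smul_eq_mul]
    ring

theorem slice_dirShadow (c d z : ℝ) :
    slice (dirShadow c d K) z = (fun q : ℝ × ℝ => c * q.1 + d * q.2) '' fiber K z := by
  ext x
  constructor
  · rintro ⟨⟨t, q⟩, hp, hpe⟩
    simp only [Prod.mk.injEq] at hpe
    obtain ⟨rfl, rfl⟩ := hpe
    exact ⟨q, hp, rfl⟩
  · rintro ⟨q, hq, rfl⟩
    exact ⟨(z, q), hq, rfl⟩

theorem fiber_compact (hK : IsCompact K) (z : ℝ) : IsCompact (fiber K z) := by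
  have e : fiber K z = Prod.snd '' (K ∩ (Prod.fst ⁻¹' {z})) := by
    ext x
    constructor
    · intro hx
      exact ⟨(z, x), ⟨hx, rfl⟩, rfl⟩
    · rintro ⟨⟨z', x'⟩, ⟨hp, hz⟩, rfl⟩
      simp only [mem_preimage, mem_singleton_iff] at hz
      subst hz
      exact hp
  rw [e]
  exact (hK.inter_right (isClosed_singleton.preimage continuous_fst)).image continuous_snd

/-- Coordinate form of the coplanar-axes theorem: the cylinders are preimages of the sets `B i`
under `(t, x, y) ↦ (t, a i * x + b i * y)`; if every shadow of `K` along a direction of the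
`(x, y)`-plane has area at least `A`, the bases have total area at least `A / 2`. -/
theorem coplanar_coord {ι : Type*} [Fintype ι] (hKc : IsCompact K) (hKconv : Convex ℝ K)
    (a b : ι → ℝ) (hab : ∀ i, a i ^ 2 + b i ^ 2 = 1) (B : ι → Set (ℝ × ℝ))
    (hB : ∀ i, MeasurableSet (B i))
    (hcov : ∀ p ∈ K, ∃ i, (p.1, a i * p.2.1 + b i * p.2.2) ∈ B i)
    (A : ℝ≥0∞) (hA : ∀ c d : ℝ, c ^ 2 + d ^ 2 = 1 → A ≤ volume (dirShadow c d K)) :
    (1 / 2 : ℝ≥0∞) * A ≤ ∑ i, volume (B i) := by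
  rcases eq_or_ne A 0 with hA0 | hA0
  · rw [hA0, mul_zero]; exact zero_le
  have hP0 : ∀ c d : ℝ, c ^ 2 + d ^ 2 = 1 → volume (dirShadow c d K) ≠ 0 := by
    intro c d h h0
    apply hA0
    have := hA c d h
    rw [h0] at this
    exact le_antisymm this zero_le
  have h10 : (1:ℝ) ^ 2 + 0 ^ 2 = 1 := by norm_num
  have hAt : A ≠ ⊤ :=
    ne_top_of_le_ne_top (dirShadow_compact hKc 1 0).measure_lt_top.ne (hA 1 0 h10)
  set I := Prod.fst '' K with hI
  have hIc : IsCompact I := hKc.image continuous_fst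
  have hIconv : Convex ℝ I := by
    rintro _ ⟨p, hp, rfl⟩ _ ⟨q, hq, rfl⟩ α β hα hβ hαβ
    exact ⟨α • p + β • q, hKconv hp hq hα hβ hαβ, by simp⟩
  have hKne : K.Nonempty := by
    by_contra h
    rw [Set.not_nonempty_iff_eq_empty] at h
    apply hP0 1 0 h10
    rw [dirShadow, h]; simp
  have hIne : I.Nonempty := hKne.image _
  have hIeq := compact_convex_eq_Icc hIc hIconv hIne
  set z₀ := sInf I with hz₀
  set z₁ := sSup I with hz₁
  have hfib : ∀ z, (fiber K z).Nonempty ↔ z ∈ Icc z₀ z₁ := by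
    intro z
    rw [← hIeq]
    constructor
    · rintro ⟨q, hq⟩
      exact ⟨(z, q), hq, rfl⟩
    · rintro ⟨⟨t, q⟩, hp, rfl⟩
      exact ⟨q, hp⟩
  have hIP : ∀ c d z, (slice (dirShadow c d K) z).Nonempty ↔ z ∈ Icc z₀ z₁ := by
    intro c d z
    rw [slice_dirShadow, image_nonempty, hfib]
  have h01 : z₀ < z₁ := by
    by_contra hcon
    push Not at hcon
    have hPc := dirShadow_compact hKc 1 0
    have hm := vol_le_mid hPc (dirShadow_convex hKconv 1 0) (hIP 1 0)
    have hw := width_nonneg hPc ((z₀ + z₁) / 2)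
    have hpos := ENNReal.toReal_pos (hP0 1 0 h10) hPc.measure_lt_top.ne
    nlinarith
  set m : ℝ → ℝ≥0∞ := fun z => (∑ i, volume (slice (B i) z)) / A with hm
  have hsum_meas : Measurable fun z => ∑ i, volume (slice (B i) z) :=
    Finset.measurable_sum _ (fun i _ => measurable_vol_slice (hB i))
  have hmeas : Measurable m := hsum_meas.div_const _
  have key : ∀ z ∈ Icc z₀ z₁, ∀ τ : ℝ, (∀ c d : ℝ, c ^ 2 + d ^ 2 = 1 →
      ENNReal.ofReal τ ≤ volume (slice (dirShadow c d K) z) / volume (dirShadow c d K)) →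
      ENNReal.ofReal τ ≤ m z := by
    intro z hz τ hτ
    have h1 : ENNReal.ofReal τ * A ≤ ∑ i, volume (slice (B i) z) := by
      apply ENNReal.le_of_forall_pos_le_add
      intro ε hε _
      have hε' : (0:ℝ) < ε := by exact_mod_cast hε
      obtain ⟨c, d, hcd, hle⟩ := bang_planar (fiber_compact hKc z) (fiber_convex hKconv z)
        ((hfib z).mpr hz) a b hab (fun i => slice (B i) z) (fun q hq => hcov (z, q) hq) ε hε'
      have hPc := dirShadow_compact hKc c d
      have hPconv := dirShadow_convex hKconv c d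
      have hvs : volume (slice (dirShadow c d K) z) =
          ENNReal.ofReal (sSup ((fun p : ℝ × ℝ => c * p.1 + d * p.2) '' fiber K z) -
            sInf ((fun p : ℝ × ℝ => c * p.1 + d * p.2) '' fiber K z)) := by
        rw [vol_slice hPc hPconv z]
        unfold width
        rw [slice_dirShadow]
      have h2 := hτ c d hcd
      have hPt : volume (dirShadow c d K) ≠ ⊤ := hPc.measure_lt_top.ne
      have h3 : ENNReal.ofReal τ * volume (dirShadow c d K) ≤
          volume (slice (dirShadow c d K) z) :=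
        (ENNReal.le_div_iff_mul_le (Or.inl (hP0 c d hcd)) (Or.inl hPt)).mp h2
      calc ENNReal.ofReal τ * A ≤ ENNReal.ofReal τ * volume (dirShadow c d K) := by
            gcongr
            exact hA c d hcd
        _ ≤ volume (slice (dirShadow c d K) z) := h3
        _ = _ := hvs
        _ ≤ ∑ i, volume (slice (B i) z) + ENNReal.ofReal ε := hle
        _ = ∑ i, volume (slice (B i) z) + ε := by rw [ENNReal.ofReal_coe_nnreal]
    exact (ENNReal.le_div_iff_mul_le (Or.inl hA0) (Or.inl hAt)).mpr h1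
  have mleft : ∀ z, z₀ ≤ z → z ≤ (z₀ + z₁) / 2 →
      ENNReal.ofReal (2 * (z - z₀) / (z₁ - z₀) ^ 2) ≤ m z := by
    intro z hz0 hz1
    apply key z ⟨hz0, by linarith⟩
    intro c d hcd
    exact ratio_ge_left (dirShadow_compact hKc c d) (dirShadow_convex hKconv c d) h01
      (hIP c d) (hP0 c d hcd) hz0 hz1
  have mright : ∀ z, (z₀ + z₁) / 2 ≤ z → z ≤ z₁ →
      ENNReal.ofReal (2 * (z₁ - z) / (z₁ - z₀) ^ 2) ≤ m z := by
    intro z hz0 hz1
    apply key z ⟨by linarith, hz1⟩
    intro c d hcd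
    exact ratio_ge_right (dirShadow_compact hKc c d) (dirShadow_convex hKconv c d) h01
      (hIP c d) (hP0 c d hcd) hz0 hz1
  have hhalf := half_le_lintegral_of_tent hmeas h01 mleft mright
  have hint : ∫⁻ z, m z = (∑ i, volume (B i)) / A := by
    simp only [hm, div_eq_mul_inv]
    rw [lintegral_mul_const _ hsum_meas,
      lintegral_finsetSum _ (fun i _ => measurable_vol_slice (hB i))]
    congr 1
    apply Finset.sum_congr rfl
    intro i _
    rw [← vol_eq_lintegral_slice' (hB i)]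
  rw [hint] at hhalf
  exact (ENNReal.le_div_iff_mul_le (Or.inl hA0) (Or.inl hAt)).mp hhalf

end Vale.Agent.Lib.P243
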