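import Mathlib

/-!
# An orthonormal frame of a plane gives a measure-preserving chart (P243)
-/

open MeasureTheory Set
open scoped RealInnerProductSpace InnerProductSpace

namespace Vale.Agent.Lib.P243

/-- An orthonormal frame f₁, f₂ of a two-dimensional real inner product space F gives a
continuous linear chart ψ from ℝ × ℝ onto F, sending (x, y) to y • f₁ + x • f₂, which preserves
Lebesgue measure (product measure on ℝ × ℝ, the canonical volume on F). -/
theorem exists_frame_equiv {F : Type*} [NormedAddCommGroup F] [InnerProductSpace ℝ F]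
    [MeasurableSpace F] [BorelSpace F] [FiniteDimensional ℝ F]
    (hF : Module.finrank ℝ F = 2) (f₁ f₂ : F) (h1 : ‖f₁‖ = 1) (h2 : ‖f₂‖ = 1)
    (h12 : ⟪f₁, f₂⟫_ℝ = 0) :
    ∃ ψ : (ℝ × ℝ) ≃L[ℝ] F, (∀ p : ℝ × ℝ, ψ p = p.2 • f₁ + p.1 • f₂) ∧
      ∀ S : Set F, MeasurableSet S → volume (ψ ⁻¹' S) = volume S := by
  classical
  have h21 : ⟪f₂, f₁⟫_ℝ = 0 := by rw [real_inner_comm]; exact h12
  have hon : Orthonormal ℝ ![f₂, f₁] := by
    rw [orthonormal_iff_ite]
    intro i j
    fin_cases i <;> fin_cases j <;>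
      simp [h1, h2, h12, h21]
  have hcard : Fintype.card (Fin 2) = Module.finrank ℝ F := by simp [hF]
  let b0 : Module.Basis (Fin 2) ℝ F := basisOfOrthonormalOfCardEqFinrank hon hcard
  have hb0 : ⇑b0 = ![f₂, f₁] := coe_basisOfOrthonormalOfCardEqFinrank hon hcard
  let b : OrthonormalBasis (Fin 2) ℝ F := b0.toOrthonormalBasis (by rw [hb0]; exact hon)
  have hb : ⇑b = ![f₂, f₁] := by
    rw [Module.Basis.coe_toOrthonormalBasis, hb0]
  let ψ : (ℝ × ℝ) ≃L[ℝ] F :=
    ((ContinuousLinearEquiv.finTwoArrow ℝ ℝ).symm.trans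
      (EuclideanSpace.equiv (Fin 2) ℝ).symm).trans b.repr.symm.toContinuousLinearEquiv
  have hψ : ∀ p : ℝ × ℝ, ψ p = b.repr.symm (WithLp.toLp 2 ![p.1, p.2]) := by
    intro p
    rfl
  have hmp : MeasurePreserving
      (fun p : ℝ × ℝ => b.repr.symm (WithLp.toLp 2 (MeasurableEquiv.finTwoArrow.symm p)))
      volume volume :=
    b.measurePreserving_repr_symm.comp
      ((PiLp.volume_preserving_toLp (Fin 2)).comp (volume_preserving_finTwoArrow ℝ).symm)
  have hfun : (⇑ψ : ℝ × ℝ → F) =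
      fun p : ℝ × ℝ => b.repr.symm (WithLp.toLp 2 (MeasurableEquiv.finTwoArrow.symm p)) := by
    funext p
    rw [hψ]
    rfl
  refine ⟨ψ, ?_, ?_⟩
  · intro p
    rw [hψ, ← b.sum_repr_symm, Fin.sum_univ_two, hb]
    simp [add_comm]
  · intro S hS
    rw [hfun]
    exact hmp.measure_preimage hS.nullMeasurableSet

end Vale.Agent.Lib.P243
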