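import Mathlib
import Vale.Agent.Lib.P243.CoplanarCoord
import Vale.Agent.Lib.P243.FrameEquiv
import Vale.Agent.Lib.P243.PlaneMap

open MeasureTheory Set
open scoped ENNReal

namespace Vale.Agent.Lib.P243

variable {E : Type*} [NormedAddCommGroup E] [InnerProductSpace ℝ E] [FiniteDimensional ℝ E]
  [MeasurableSpace E] [BorelSpace E]

omit [FiniteDimensional ℝ E] [MeasurableSpace E] [BorelSpace E] in
/-- Chart of the plane orthogonal to a unit vector `w` that is orthogonal to `n`, adapted to an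
orthonormal frame `e₁, e₂, n`. -/
theorem plane_chart_aux {e₁ e₂ n : E}
    (h11 : inner ℝ e₁ e₁ = 1) (h22 : inner ℝ e₂ e₂ = 1)
    (h12 : inner ℝ e₁ e₂ = 0) (h1n : inner ℝ e₁ n = 0) (h2n : inner ℝ e₂ n = 0)
    (hdec : ∀ x : E, x = inner ℝ e₁ x • e₁ + inner ℝ e₂ x • e₂ + inner ℝ n x • n)
    {w : E} (hw : ‖w‖ = 1) (hwn : inner ℝ w n = 0) :
    inner ℝ w e₂ ^ 2 + (- inner ℝ w e₁) ^ 2 = 1 ∧
    w = (- (- inner ℝ w e₁)) • e₁ + inner ℝ w e₂ • e₂ ∧
    inner ℝ (inner ℝ w e₂ • e₁ + (- inner ℝ w e₁) • e₂) w = 0 ∧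
    inner ℝ (inner ℝ w e₂ • e₁ + (- inner ℝ w e₁) • e₂)
      (inner ℝ w e₂ • e₁ + (- inner ℝ w e₁) • e₂) = 1 ∧
    inner ℝ (inner ℝ w e₂ • e₁ + (- inner ℝ w e₁) • e₂) n = 0 := by
  have h21 : inner ℝ e₂ e₁ = 0 := by rw [real_inner_comm]; exact h12
  have hn1 : inner ℝ n e₁ = 0 := by rw [real_inner_comm]; exact h1n
  have hn2 : inner ℝ n e₂ = 0 := by rw [real_inner_comm]; exact h2n
  have hwdec : w = (- (- inner ℝ w e₁)) • e₁ + inner ℝ w e₂ • e₂ := by
    have := hdec w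
    have hnw' : inner ℝ n w = 0 := by rw [real_inner_comm]; exact hwn
    rw [hnw', zero_smul, add_zero, real_inner_comm w e₁, real_inner_comm w e₂] at this
    rw [neg_neg]
    exact this
  have hsq : inner ℝ w e₂ ^ 2 + (- inner ℝ w e₁) ^ 2 = 1 := by
    have h1 : inner ℝ w w = 1 := by rw [real_inner_self_eq_norm_sq, hw]; norm_num
    have h2 : inner ℝ w w = inner ℝ w e₁ * inner ℝ w e₁ + inner ℝ w e₂ * inner ℝ w e₂ := by
      have h3 : inner ℝ w w = inner ℝ w ((- (- inner ℝ w e₁)) • e₁ + inner ℝ w e₂ • e₂) := by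
        rw [← hwdec]
      rw [h3, inner_add_right, inner_smul_right, inner_smul_right, neg_neg]
    nlinarith
  refine ⟨hsq, hwdec, ?_, ?_, ?_⟩
  · rw [inner_add_left, inner_smul_left, inner_smul_left, real_inner_comm w e₁,
      real_inner_comm w e₂]
    simp only [conj_trivial]
    ring
  · rw [inner_add_left, inner_smul_left, inner_smul_left, inner_add_right, inner_add_right,
      inner_smul_right, inner_smul_right, inner_smul_right, inner_smul_right, h11, h22, h12, h21]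
    simp only [conj_trivial]
    nlinarith
  · rw [inner_add_left, inner_smul_left, inner_smul_left, h1n, h2n]
    simp

/-- Measure-preserving chart of the plane orthogonal to a unit vector `w ⊥ n`, compatible with
the frame coordinates. -/
theorem plane_chart (hdim : Module.finrank ℝ E = 3) {e₁ e₂ n : E}
    (h11 : inner ℝ e₁ e₁ = 1) (h22 : inner ℝ e₂ e₂ = 1) (hnn : inner ℝ n n = 1)
    (h12 : inner ℝ e₁ e₂ = 0) (h1n : inner ℝ e₁ n = 0) (h2n : inner ℝ e₂ n = 0)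
    (hdec : ∀ x : E, x = inner ℝ e₁ x • e₁ + inner ℝ e₂ x • e₂ + inner ℝ n x • n)
    {w : E} (hw : ‖w‖ = 1) (hwn : inner ℝ w n = 0) :
    ∃ ψ : (ℝ × ℝ) ≃L[ℝ] ↥(ℝ ∙ w)ᗮ,
      (∀ p : ℝ × ℝ × ℝ, (ℝ ∙ w)ᗮ.orthogonalProjectionOnto (p.2.1 • e₁ + p.2.2 • e₂ + p.1 • n) =
        ψ (p.1, inner ℝ w e₂ * p.2.1 + (- inner ℝ w e₁) * p.2.2)) ∧
      ∀ S : Set ↥(ℝ ∙ w)ᗮ, MeasurableSet S → volume (ψ ⁻¹' S) = volume S := by
  obtain ⟨hsq, hwdec, hnw_w, hnw_nw, hnw_n⟩ :=
    plane_chart_aux h11 h22 h12 h1n h2n hdec hw hwn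
  set α := inner ℝ w e₂ with hα
  set β := - inner ℝ w e₁ with hβ
  set nw := α • e₁ + β • e₂ with hnw
  have hw0 : w ≠ 0 := by
    intro h
    rw [h, norm_zero] at hw
    exact zero_ne_one hw
  have hmem1 : nw ∈ (ℝ ∙ w)ᗮ := Submodule.mem_orthogonal_singleton_iff_inner_left.mpr hnw_w
  have hmem2 : n ∈ (ℝ ∙ w)ᗮ := by
    rw [Submodule.mem_orthogonal_singleton_iff_inner_left, real_inner_comm]
    exact hwn
  set f₁ : ↥(ℝ ∙ w)ᗮ := ⟨nw, hmem1⟩ with hf₁
  set f₂ : ↥(ℝ ∙ w)ᗮ := ⟨n, hmem2⟩ with hf₂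
  have hn1 : ‖f₁‖ = 1 := by
    rw [Submodule.coe_norm]
    show ‖nw‖ = 1
    rw [norm_eq_sqrt_real_inner, hnw_nw, Real.sqrt_one]
  have hn2 : ‖f₂‖ = 1 := by
    rw [Submodule.coe_norm]
    show ‖n‖ = 1
    rw [norm_eq_sqrt_real_inner, hnn, Real.sqrt_one]
  have h12' : inner ℝ f₁ f₂ = 0 := by
    rw [Submodule.coe_inner]
    exact hnw_n
  have hF : Module.finrank ℝ ↥(ℝ ∙ w)ᗮ = 2 := by
    have : Fact (Module.finrank ℝ E = 2 + 1) := ⟨hdim⟩
    exact Submodule.finrank_orthogonal_span_singleton hw0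
  obtain ⟨ψ, hψ, hvol⟩ := exists_frame_equiv hF f₁ f₂ hn1 hn2 h12'
  refine ⟨ψ, ?_, hvol⟩
  rintro ⟨t, x, y⟩
  have key : ((α ^ 2 + β ^ 2) * x) • e₁ + ((α ^ 2 + β ^ 2) * y) • e₂ + t • n =
      (α * x + β * y) • (α • e₁ + β • e₂) + (-β * x + α * y) • ((- β) • e₁ + α • e₂) + t • n := by
    module
  rw [hsq, one_mul, one_mul, ← hwdec] at key
  show (ℝ ∙ w)ᗮ.orthogonalProjectionOnto (x • e₁ + y • e₂ + t • n) = ψ (t, α * x + β * y)
  rw [key, hψ, map_add, map_add, map_smul, map_smul, map_smul, proj_self_eq_zero, smul_zero,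
    add_zero]
  have e1 : (ℝ ∙ w)ᗮ.orthogonalProjectionOnto (α • e₁ + β • e₂) = f₁ :=
    Submodule.orthogonalProjectionOnto_mem_subspace_eq_self f₁
  have e2 : (ℝ ∙ w)ᗮ.orthogonalProjectionOnto n = f₂ :=
    Submodule.orthogonalProjectionOnto_mem_subspace_eq_self f₂
  rw [e1, e2]

/-- Coplanar axes, absolute form: if all axis directions are orthogonal to the unit vector `n`,
the total base area is at least half of the smallest area of a projection of `K` along a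
direction orthogonal to `n`. -/
theorem coplanar_general (hdim : Module.finrank ℝ E = 3) {K : Set E} (hKc : IsCompact K)
    (hKconv : Convex ℝ K) {ι : Type*} [Fintype ι] (u : ι → E) (hu : ∀ i, ‖u i‖ = 1)
    (B : ∀ i, Set ↥(ℝ ∙ u i)ᗮ)
    (hcov : K ⊆ ⋃ i, (ℝ ∙ u i)ᗮ.orthogonalProjectionOnto ⁻¹' B i)
    {n : E} (hn : ‖n‖ = 1) (hperp : ∀ i, inner ℝ (u i) n = 0) :
    (1 / 2 : ℝ≥0∞) * (⨅ e : {e : E // ‖e‖ = 1 ∧ inner ℝ e n = 0},
        volume ((ℝ ∙ (e : E))ᗮ.orthogonalProjectionOnto '' K)) ≤ ∑ i, volume (B i) := by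
  have hcard : Module.finrank ℝ E = Fintype.card (Fin 3) := by rw [hdim]; simp
  have horth : Orthonormal ℝ (({0} : Set (Fin 3)).domRestrict (fun _ : Fin 3 => n)) :=
    ⟨fun _ => hn, fun i j hij => absurd (Subsingleton.elim i j) hij⟩
  obtain ⟨b, hb⟩ := horth.exists_orthonormalBasis_extension_of_card_eq hcard
  have hb0 : b 0 = n := hb 0 (by simp)
  have hite := orthonormal_iff_ite.mp b.orthonormal
  set e₁ := b 1 with he₁
  set e₂ := b 2 with he₂
  have h11 : inner ℝ e₁ e₁ = 1 := (hite 1 1).trans (if_pos rfl)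
  have h22 : inner ℝ e₂ e₂ = 1 := (hite 2 2).trans (if_pos rfl)
  have hnn : inner ℝ n n = 1 := by
    have := hite 0 0
    rw [hb0] at this
    exact this.trans (if_pos rfl)
  have h12 : inner ℝ e₁ e₂ = 0 := (hite 1 2).trans (if_neg (by decide))
  have h1n : inner ℝ e₁ n = 0 := by
    have := hite 1 0
    rw [hb0] at this
    exact this.trans (if_neg (by decide))
  have h2n : inner ℝ e₂ n = 0 := by
    have := hite 2 0
    rw [hb0] at this
    exact this.trans (if_neg (by decide))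
  have h21 : inner ℝ e₂ e₁ = 0 := by rw [real_inner_comm]; exact h12
  have hn1 : inner ℝ n e₁ = 0 := by rw [real_inner_comm]; exact h1n
  have hn2 : inner ℝ n e₂ = 0 := by rw [real_inner_comm]; exact h2n
  have hdec : ∀ x : E, x = inner ℝ e₁ x • e₁ + inner ℝ e₂ x • e₂ + inner ℝ n x • n := by
    intro x
    have h := b.sum_repr' x
    rw [Fin.sum_univ_three, hb0] at h
    conv_lhs => rw [← h]
    abel
  have hindep : ∀ a' b' c' : ℝ, a' • e₁ + b' • e₂ + c' • n = 0 → a' = 0 ∧ b' = 0 ∧ c' = 0 := by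
    intro a' b' c' h
    have i1 : inner ℝ e₁ (a' • e₁ + b' • e₂ + c' • n) = a' := by
      rw [inner_add_right, inner_add_right, inner_smul_right, inner_smul_right, inner_smul_right,
        h11, h12, h1n]
      ring
    have i2 : inner ℝ e₂ (a' • e₁ + b' • e₂ + c' • n) = b' := by
      rw [inner_add_right, inner_add_right, inner_smul_right, inner_smul_right, inner_smul_right,
        h22, h21, h2n]
      ring
    have i3 : inner ℝ n (a' • e₁ + b' • e₂ + c' • n) = c' := by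
      rw [inner_add_right, inner_add_right, inner_smul_right, inner_smul_right, inner_smul_right,
        hnn, hn1, hn2]
      ring
    rw [h, inner_zero_right] at i1 i2 i3
    exact ⟨i1.symm, i2.symm, i3.symm⟩
  have hinj := frameMap_injective hindep
  have hsurj := frameMap_surjective hdim hindep
  let Φ : (ℝ × ℝ × ℝ) ≃L[ℝ] E :=
    (LinearEquiv.ofBijective (frameMap e₁ e₂ n) ⟨hinj, hsurj⟩).toContinuousLinearEquiv
  have hΦ : ∀ p, Φ p = p.2.1 • e₁ + p.2.2 • e₂ + p.1 • n := fun p => rfl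
  set K' : Set (ℝ × ℝ × ℝ) := Φ ⁻¹' K with hK'
  have hK'c : IsCompact K' := Φ.toHomeomorph.isCompact_preimage.mpr hKc
  have hK'conv : Convex ℝ K' := hKconv.linear_preimage (frameMap e₁ e₂ n)
  have hch : ∀ i, ∃ ψ : (ℝ × ℝ) ≃L[ℝ] ↥(ℝ ∙ u i)ᗮ,
      (∀ p : ℝ × ℝ × ℝ, (ℝ ∙ u i)ᗮ.orthogonalProjectionOnto (Φ p) =
        ψ (p.1, inner ℝ (u i) e₂ * p.2.1 + (- inner ℝ (u i) e₁) * p.2.2)) ∧
      ∀ S : Set ↥(ℝ ∙ u i)ᗮ, MeasurableSet S → volume (ψ ⁻¹' S) = volume S := fun i =>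
    plane_chart hdim h11 h22 hnn h12 h1n h2n hdec (hu i) (hperp i)
  choose ψ hψ1 hψ2 using hch
  set a : ι → ℝ := fun i => inner ℝ (u i) e₂ with ha
  set bb : ι → ℝ := fun i => - inner ℝ (u i) e₁ with hbb
  have hab : ∀ i, a i ^ 2 + bb i ^ 2 = 1 := fun i =>
    (plane_chart_aux h11 h22 h12 h1n h2n hdec (hu i) (hperp i)).1
  set B' : ι → Set (ℝ × ℝ) := fun i => ψ i ⁻¹' (toMeasurable volume (B i)) with hB'
  have hB'm : ∀ i, MeasurableSet (B' i) := fun i =>
    (ψ i).continuous.measurable (measurableSet_toMeasurable _ _)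
  have hB'v : ∀ i, volume (B' i) = volume (B i) := fun i => by
    show volume (ψ i ⁻¹' (toMeasurable volume (B i))) = volume (B i)
    rw [hψ2 i _ (measurableSet_toMeasurable _ _), measure_toMeasurable]
  have hcov' : ∀ p ∈ K', ∃ i, (p.1, a i * p.2.1 + bb i * p.2.2) ∈ B' i := by
    intro p hp
    obtain ⟨i, hi⟩ := mem_iUnion.mp (hcov hp)
    refine ⟨i, ?_⟩
    show ψ i (p.1, a i * p.2.1 + bb i * p.2.2) ∈ toMeasurable volume (B i)
    rw [← hψ1 i p]
    exact subset_toMeasurable _ _ hi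
  set A := ⨅ e : {e : E // ‖e‖ = 1 ∧ inner ℝ e n = 0},
    volume ((ℝ ∙ (e : E))ᗮ.orthogonalProjectionOnto '' K) with hA
  have hAle : ∀ c d : ℝ, c ^ 2 + d ^ 2 = 1 → A ≤ volume (dirShadow c d K') := by
    intro c d hcd
    set e : E := (-d) • e₁ + c • e₂ with he
    have hee : inner ℝ e e = 1 := by
      simp only [he, inner_add_left, inner_add_right, inner_smul_left, inner_smul_right, h11,
        h22, h12, h21, conj_trivial]
      linear_combination hcd
    have he1 : ‖e‖ = 1 := by rw [norm_eq_sqrt_real_inner, hee, Real.sqrt_one]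
    have hen : inner ℝ e n = 0 := by
      simp only [he, inner_add_left, inner_smul_left, h1n, h2n, conj_trivial]
      ring
    have hee2 : inner ℝ e e₂ = c := by
      simp only [he, inner_add_left, inner_smul_left, h12, h22, conj_trivial]
      ring
    have hee1 : - inner ℝ e e₁ = d := by
      simp only [he, inner_add_left, inner_smul_left, h11, h21, conj_trivial]
      ring
    obtain ⟨ψe, hψe1, hψe2⟩ := plane_chart hdim h11 h22 hnn h12 h1n h2n hdec he1 hen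
    rw [hee2, hee1] at hψe1
    have himg : (ℝ ∙ e)ᗮ.orthogonalProjectionOnto '' K = ψe '' (dirShadow c d K') := by
      ext q
      constructor
      · rintro ⟨k, hk, rfl⟩
        obtain ⟨p, rfl⟩ := Φ.surjective k
        exact ⟨(p.1, c * p.2.1 + d * p.2.2), ⟨p, hk, rfl⟩, (hψe1 p).symm⟩
      · rintro ⟨_, ⟨p, hp, rfl⟩, rfl⟩
        exact ⟨Φ p, hp, hψe1 p⟩
    have hDc : IsCompact (dirShadow c d K') := dirShadow_compact hK'c c d
    have hvol : volume (dirShadow c d K') =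
        volume ((ℝ ∙ e)ᗮ.orthogonalProjectionOnto '' K) := by
      rw [himg, ← hψe2 _ (hDc.image ψe.continuous).measurableSet,
        preimage_image_eq _ ψe.injective]
    rw [hvol]
    exact iInf_le (fun e : {e : E // ‖e‖ = 1 ∧ inner ℝ e n = 0} =>
      volume ((ℝ ∙ (e : E))ᗮ.orthogonalProjectionOnto '' K)) ⟨e, he1, hen⟩
  have hmain := coplanar_coord hK'c hK'conv a bb hab B' hB'm hcov' A hAle
  simp only [hB'v] at hmain
  exact hmain

end Vale.Agent.Lib.P243
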