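import Mathlib
import Vale.Agent.Lib.P243.CoplanarCoord
import Vale.Agent.Lib.P243.BallPlanar

open MeasureTheory Set
open scoped ENNReal

namespace Vale.Agent.Lib.P243

/-- Arithmetic in the extended nonnegative reals used for one summand of the tent bound. -/
theorem midsym_term (v V : ℝ≥0∞) (s L W : ℝ) (hs1 : s < 1) (hL : 0 < L) (hW : 0 < W)
    (hV : V ≤ ENNReal.ofReal (W * L)) :
    ENNReal.ofReal ((1 - s) / L) * (v / ENNReal.ofReal ((1 - s) * W)) ≤ v / V := by
  have h1s : 0 < 1 - s := by linarith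
  have hWL : 0 < W * L := mul_pos hW hL
  have hinv1 : (ENNReal.ofReal ((1 - s) * W))⁻¹ = ENNReal.ofReal (((1 - s) * W)⁻¹) :=
    (ENNReal.ofReal_inv_of_pos (mul_pos h1s hW)).symm
  have hinv2 : (ENNReal.ofReal (W * L))⁻¹ = ENNReal.ofReal ((W * L)⁻¹) :=
    (ENNReal.ofReal_inv_of_pos hWL).symm
  have e : (1 - s) / L * ((1 - s) * W)⁻¹ = (W * L)⁻¹ := by
    field_simp
  have h1 : ENNReal.ofReal ((1 - s) / L) * (v / ENNReal.ofReal ((1 - s) * W))
      = v / ENNReal.ofReal (W * L) := by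
    show ENNReal.ofReal ((1 - s) / L) * (v * (ENNReal.ofReal ((1 - s) * W))⁻¹)
      = v * (ENNReal.ofReal (W * L))⁻¹
    rw [hinv1, hinv2, mul_left_comm, ← ENNReal.ofReal_mul (div_pos h1s hL).le, e]
  rw [h1]
  exact ENNReal.div_le_div_left hV v

/-- The tent bound at the level `z = (1 - s) * zm + s * ze` between the symmetric section at `zm`
and a point of `K` at the level `ze`. -/
theorem midsym_key {K : Set (ℝ × ℝ × ℝ)} {ι : Type*} [Fintype ι] (hKc : IsCompact K)
    (hKconv : Convex ℝ K) (zm ze : ℝ) (qe : ℝ × ℝ) (hqe : (ze, qe) ∈ K) (c : ℝ × ℝ)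
    (hne : (fiber K zm).Nonempty)
    (hsym : ∀ q ∈ fiber K zm, (2 : ℝ) • c - q ∈ fiber K zm)
    (a b : ι → ℝ) (hab : ∀ i, a i ^ 2 + b i ^ 2 = 1) (B : ι → Set (ℝ × ℝ))
    (hcov : ∀ p ∈ K, ∃ i, (p.1, a i * p.2.1 + b i * p.2.2) ∈ B i)
    (L : ℝ) (hL : 0 < L)
    (hvol : ∀ i, (volume (dirShadow (a i) (b i) K)).toReal ≤
      width (dirShadow (a i) (b i) K) zm * L)
    (hpos : ∀ i, volume (dirShadow (a i) (b i) K) ≠ 0)
    (s : ℝ) (hs0 : 0 ≤ s) (hs1 : s < 1) :
    ENNReal.ofReal ((1 - s) / L) ≤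
      ∑ i, volume (slice (B i) ((1 - s) * zm + s * ze)) /
        volume (dirShadow (a i) (b i) K) := by
  have h1s : 0 < 1 - s := by linarith
  obtain ⟨z, hz⟩ : ∃ z, z = (1 - s) * zm + s * ze := ⟨_, rfl⟩
  rw [← hz]
  obtain ⟨Q, hQ⟩ : ∃ Q : Set (ℝ × ℝ),
      Q = (fun q : ℝ × ℝ => (1 - s) • q + s • qe) '' fiber K zm := ⟨_, rfl⟩
  have hfc := fiber_compact hKc zm
  have hfconv := fiber_convex hKconv zm
  have hQc : IsCompact Q := by
    rw [hQ]
    exact hfc.image (by fun_prop)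
  have hQconv : Convex ℝ Q := by
    rw [hQ]
    rintro _ ⟨p, hp, rfl⟩ _ ⟨q, hq, rfl⟩ α β hα hβ hαβ
    refine ⟨α • p + β • q, hfconv hp hq hα hβ hαβ, ?_⟩
    ext
    · simp only [Prod.fst_add, Prod.smul_fst, smul_eq_mul]
      linear_combination (-(s * qe.1)) * hαβ
    · simp only [Prod.snd_add, Prod.smul_snd, smul_eq_mul]
      linear_combination (-(s * qe.2)) * hαβ
  have hQne : Q.Nonempty := by
    rw [hQ]
    exact hne.image _
  have hQsym : ∀ p ∈ Q, (2 : ℝ) • ((1 - s) • c + s • qe) - p ∈ Q := by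
    rw [hQ]
    rintro _ ⟨q, hq, rfl⟩
    refine ⟨(2 : ℝ) • c - q, hsym q hq, ?_⟩
    ext
    · simp only [Prod.fst_add, Prod.fst_sub, Prod.smul_fst, smul_eq_mul]
      ring
    · simp only [Prod.snd_add, Prod.snd_sub, Prod.smul_snd, smul_eq_mul]
      ring
  have hQsub : ∀ p ∈ Q, (z, p) ∈ K := by
    rw [hQ]
    rintro _ ⟨q, hq, rfl⟩
    have h := hKconv hq hqe h1s.le hs0 (by ring : (1 - s) + s = 1)
    have e : (1 - s) • ((zm, q) : ℝ × ℝ × ℝ) + s • ((ze, qe) : ℝ × ℝ × ℝ)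
        = (z, (1 - s) • q + s • qe) := by
      rw [hz]
      ext <;> simp
    rw [e] at h
    exact h
  -- the widths of `Q`
  have hwidth : ∀ i, sSup ((fun p : ℝ × ℝ => a i * p.1 + b i * p.2) '' Q) -
      sInf ((fun p : ℝ × ℝ => a i * p.1 + b i * p.2) '' Q)
        = (1 - s) * width (dirShadow (a i) (b i) K) zm := by
    intro i
    have hPc := dirShadow_compact hKc (a i) (b i)
    have hPconv := dirShadow_convex hKconv (a i) (b i)
    have hsl : (slice (dirShadow (a i) (b i) K) zm).Nonempty := by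
      rw [slice_dirShadow]
      exact hne.image _
    have himg : (fun p : ℝ × ℝ => a i * p.1 + b i * p.2) '' Q
        = (fun t : ℝ => (1 - s) * t + s * (a i * qe.1 + b i * qe.2)) ''
          slice (dirShadow (a i) (b i) K) zm := by
      rw [slice_dirShadow, hQ, Set.image_image, Set.image_image]
      refine Set.image_congr' (fun q => ?_)
      simp only [Prod.fst_add, Prod.snd_add, Prod.smul_fst, Prod.smul_snd, smul_eq_mul]
      ring
    have hle := sInf_le_sSup_slice hPc (z := zm)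
    rw [himg, slice_eq_Icc hPc hPconv hsl, Set.image_affine_Icc' h1s,
      csSup_Icc (by nlinarith), csInf_Icc (by nlinarith)]
    unfold width
    ring
  have hWpos : ∀ i, 0 < width (dirShadow (a i) (b i) K) zm := by
    intro i
    have hPc := dirShadow_compact hKc (a i) (b i)
    have h1 := ENNReal.toReal_pos (hpos i) hPc.measure_lt_top.ne
    have h2 := hvol i
    by_contra hcon
    push Not at hcon
    nlinarith
  have hball := ball_planar hQc hQconv hQne ((1 - s) • c + s • qe) hQsym a b hab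
    (fun i => slice (B i) z) (fun p hp => hcov (z, p) (hQsub p hp))
    (fun i => by
      have h := hwidth i
      have h2 := mul_pos h1s (hWpos i)
      linarith)
  have hterm : ∀ i, ENNReal.ofReal ((1 - s) / L) *
      (volume (slice (B i) z) / ENNReal.ofReal
        (sSup ((fun p : ℝ × ℝ => a i * p.1 + b i * p.2) '' Q) -
          sInf ((fun p : ℝ × ℝ => a i * p.1 + b i * p.2) '' Q)))
      ≤ volume (slice (B i) z) / volume (dirShadow (a i) (b i) K) := by
    intro i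
    rw [hwidth i]
    have hPc := dirShadow_compact hKc (a i) (b i)
    refine midsym_term _ _ s L _ hs1 hL (hWpos i) ?_
    rw [← ENNReal.ofReal_toReal hPc.measure_lt_top.ne]
    exact ENNReal.ofReal_le_ofReal (hvol i)
  calc ENNReal.ofReal ((1 - s) / L) = ENNReal.ofReal ((1 - s) / L) * 1 := (mul_one _).symm
    _ ≤ ENNReal.ofReal ((1 - s) / L) * ∑ i, volume (slice (B i) z) / ENNReal.ofReal
        (sSup ((fun p : ℝ × ℝ => a i * p.1 + b i * p.2) '' Q) -
          sInf ((fun p : ℝ × ℝ => a i * p.1 + b i * p.2) '' Q)) := by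
        gcongr
    _ = ∑ i, ENNReal.ofReal ((1 - s) / L) * (volume (slice (B i) z) / ENNReal.ofReal
        (sSup ((fun p : ℝ × ℝ => a i * p.1 + b i * p.2) '' Q) -
          sInf ((fun p : ℝ × ℝ => a i * p.1 + b i * p.2) '' Q))) := Finset.mul_sum _ _ _
    _ ≤ ∑ i, volume (slice (B i) z) / volume (dirShadow (a i) (b i) K) :=
        Finset.sum_le_sum (fun i _ => hterm i)

/-- Coordinate form: `K` lies between the planes `p.1 = z₀` and `p.1 = z₁`, touches both, and
its section by the middle plane is symmetric about `c`; the cylinders are preimages of the sets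
`B i` under `(t, x, y) ↦ (t, a i * x + b i * y)`. Then the areas of the `B i` divided by the
areas of the corresponding shadows of `K` sum to at least `1 / 2`. -/
theorem midsym_coord {K : Set (ℝ × ℝ × ℝ)} {ι : Type*} [Fintype ι] (hKc : IsCompact K)
    (hKconv : Convex ℝ K) (z₀ z₁ : ℝ) (hz : ∀ p ∈ K, z₀ ≤ p.1 ∧ p.1 ≤ z₁)
    (q₀ q₁ : ℝ × ℝ) (hq₀ : (z₀, q₀) ∈ K) (hq₁ : (z₁, q₁) ∈ K) (c : ℝ × ℝ)
    (hsym : ∀ q ∈ fiber K ((z₀ + z₁) / 2), (2 : ℝ) • c - q ∈ fiber K ((z₀ + z₁) / 2))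
    (a b : ι → ℝ) (hab : ∀ i, a i ^ 2 + b i ^ 2 = 1) (B : ι → Set (ℝ × ℝ))
    (hB : ∀ i, MeasurableSet (B i))
    (hcov : ∀ p ∈ K, ∃ i, (p.1, a i * p.2.1 + b i * p.2.2) ∈ B i)
    (hpos : ∀ i, volume (dirShadow (a i) (b i) K) ≠ 0) :
    (1 / 2 : ℝ≥0∞) ≤ ∑ i, volume (B i) / volume (dirShadow (a i) (b i) K) := by
  obtain ⟨I, hI⟩ : ∃ I : Set ℝ, I = Prod.fst '' K := ⟨_, rfl⟩
  have hIconv : Convex ℝ I := by
    rw [hI]
    rintro _ ⟨p, hp, rfl⟩ _ ⟨q, hq, rfl⟩ α β hα hβ hαβ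
    exact ⟨α • p + β • q, hKconv hp hq hα hβ hαβ, by simp⟩
  have hz₀I : z₀ ∈ I := by
    rw [hI]
    exact ⟨(z₀, q₀), hq₀, rfl⟩
  have hz₁I : z₁ ∈ I := by
    rw [hI]
    exact ⟨(z₁, q₁), hq₁, rfl⟩
  have hfib : ∀ z, (fiber K z).Nonempty ↔ z ∈ Icc z₀ z₁ := by
    intro z
    constructor
    · rintro ⟨q, hq⟩
      exact hz (z, q) hq
    · intro hzI
      have h := hIconv.ordConnected.out hz₀I hz₁I hzI
      rw [hI] at h
      obtain ⟨⟨t, q⟩, hp, rfl⟩ := h
      exact ⟨q, hp⟩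
  have hIP : ∀ c d z, (slice (dirShadow c d K) z).Nonempty ↔ z ∈ Icc z₀ z₁ := by
    intro c d z
    rw [slice_dirShadow, image_nonempty, hfib]
  obtain ⟨i₀, -⟩ := hcov (z₀, q₀) hq₀
  have h01 : z₀ < z₁ := by
    by_contra hcon
    push Not at hcon
    have hPc := dirShadow_compact hKc (a i₀) (b i₀)
    have hm := vol_le_mid hPc (dirShadow_convex hKconv (a i₀) (b i₀)) (hIP (a i₀) (b i₀))
    have hw := width_nonneg hPc ((z₀ + z₁) / 2)
    have hp := ENNReal.toReal_pos (hpos i₀) hPc.measure_lt_top.ne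
    nlinarith
  have hL : 0 < z₁ - z₀ := by linarith
  have hvol : ∀ i, (volume (dirShadow (a i) (b i) K)).toReal ≤
      width (dirShadow (a i) (b i) K) ((z₀ + z₁) / 2) * (z₁ - z₀) := fun i =>
    vol_le_mid (dirShadow_compact hKc (a i) (b i)) (dirShadow_convex hKconv (a i) (b i))
      (hIP (a i) (b i))
  have hmidne : (fiber K ((z₀ + z₁) / 2)).Nonempty :=
    (hfib _).mpr ⟨by linarith, by linarith⟩
  obtain ⟨m, hm⟩ : ∃ m : ℝ → ℝ≥0∞, m = fun z =>
      ∑ i, volume (slice (B i) z) / volume (dirShadow (a i) (b i) K) := ⟨_, rfl⟩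
  have hmeas : Measurable m := by
    rw [hm]
    exact Finset.measurable_sum _ (fun i _ => (measurable_vol_slice (hB i)).div_const _)
  have mright : ∀ z, (z₀ + z₁) / 2 ≤ z → z ≤ z₁ →
      ENNReal.ofReal (2 * (z₁ - z) / (z₁ - z₀) ^ 2) ≤ m z := by
    intro z hz0 hz1
    rcases eq_or_lt_of_le hz1 with heq | hlt
    · rw [heq, sub_self, mul_zero, zero_div, ENNReal.ofReal_zero]
      exact zero_le
    · obtain ⟨s, hs⟩ : ∃ s : ℝ, s = (2 * z - z₀ - z₁) / (z₁ - z₀) := ⟨_, rfl⟩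
      have hs0 : 0 ≤ s := by
        rw [hs]
        exact div_nonneg (by linarith) hL.le
      have hs1 : s < 1 := by
        rw [hs, div_lt_one hL]
        linarith
      have hkey := midsym_key hKc hKconv ((z₀ + z₁) / 2) z₁ q₁ hq₁ c hmidne hsym a b hab B hcov
        (z₁ - z₀) hL hvol hpos s hs0 hs1
      have e1 : (1 - s) * ((z₀ + z₁) / 2) + s * z₁ = z := by
        rw [hs]
        have hne : z₁ - z₀ ≠ 0 := hL.ne'
        field_simp
        ring
      have e2 : (1 - s) / (z₁ - z₀) = 2 * (z₁ - z) / (z₁ - z₀) ^ 2 := by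
        rw [hs]
        have hne : z₁ - z₀ ≠ 0 := hL.ne'
        field_simp
        ring
      rw [e1, e2] at hkey
      rw [hm]
      exact hkey
  have mleft : ∀ z, z₀ ≤ z → z ≤ (z₀ + z₁) / 2 →
      ENNReal.ofReal (2 * (z - z₀) / (z₁ - z₀) ^ 2) ≤ m z := by
    intro z hz0 hz1
    rcases eq_or_lt_of_le hz0 with heq | hlt
    · rw [← heq, sub_self, mul_zero, zero_div, ENNReal.ofReal_zero]
      exact zero_le
    · obtain ⟨s, hs⟩ : ∃ s : ℝ, s = (z₀ + z₁ - 2 * z) / (z₁ - z₀) := ⟨_, rfl⟩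
      have hs0 : 0 ≤ s := by
        rw [hs]
        exact div_nonneg (by linarith) hL.le
      have hs1 : s < 1 := by
        rw [hs, div_lt_one hL]
        linarith
      have hkey := midsym_key hKc hKconv ((z₀ + z₁) / 2) z₀ q₀ hq₀ c hmidne hsym a b hab B hcov
        (z₁ - z₀) hL hvol hpos s hs0 hs1
      have e1 : (1 - s) * ((z₀ + z₁) / 2) + s * z₀ = z := by
        rw [hs]
        have hne : z₁ - z₀ ≠ 0 := hL.ne'
        field_simp
        ring
      have e2 : (1 - s) / (z₁ - z₀) = 2 * (z - z₀) / (z₁ - z₀) ^ 2 := by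
        rw [hs]
        have hne : z₁ - z₀ ≠ 0 := hL.ne'
        field_simp
        ring
      rw [e1, e2] at hkey
      rw [hm]
      exact hkey
  have hhalf := half_le_lintegral_of_tent hmeas h01 mleft mright
  have hint : ∫⁻ z, m z = ∑ i, volume (B i) / volume (dirShadow (a i) (b i) K) := by
    rw [hm]
    rw [lintegral_finsetSum _ (fun i _ => (measurable_vol_slice (hB i)).div_const _)]
    refine Finset.sum_congr rfl (fun i _ => ?_)
    simp only [div_eq_mul_inv]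
    rw [lintegral_mul_const _ (measurable_vol_slice (hB i)), ← vol_eq_lintegral_slice' (hB i)]
  rw [hint] at hhalf
  exact hhalf

end Vale.Agent.Lib.P243
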