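import Mathlib
import Vale.Agent.Lib.P243.CoplanarGen
import Vale.Agent.Lib.P243.MidSymCoord

open MeasureTheory Set
open scoped ENNReal

namespace Vale.Agent.Lib.P243

variable {E : Type*} [NormedAddCommGroup E] [InnerProductSpace ℝ E] [FiniteDimensional ℝ E]
  [MeasurableSpace E] [BorelSpace E]

/-- The orthogonal projection of a set with nonempty interior onto a plane has positive area. -/
theorem midsym_proj_image_pos (u : E) (K : Set E) (hKint : (interior K).Nonempty) :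
    volume ((ℝ ∙ u)ᗮ.orthogonalProjectionOnto '' K) ≠ 0 := by
  have hsurj : Function.Surjective ((ℝ ∙ u)ᗮ.orthogonalProjectionOnto) := by
    intro q
    exact ⟨(q : E), Submodule.orthogonalProjectionOnto_mem_subspace_eq_self q⟩
  have hopen : IsOpenMap ((ℝ ∙ u)ᗮ.orthogonalProjectionOnto) :=
    ContinuousLinearMap.isOpenMap _ hsurj
  have h1 : IsOpen ((ℝ ∙ u)ᗮ.orthogonalProjectionOnto '' interior K) :=
    hopen _ isOpen_interior
  have h2 : ((ℝ ∙ u)ᗮ.orthogonalProjectionOnto '' interior K).Nonempty := hKint.image _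
  have h3 : 0 < volume ((ℝ ∙ u)ᗮ.orthogonalProjectionOnto '' interior K) :=
    h1.measure_pos volume h2
  have h4 : volume ((ℝ ∙ u)ᗮ.orthogonalProjectionOnto '' interior K) ≤
      volume ((ℝ ∙ u)ᗮ.orthogonalProjectionOnto '' K) :=
    measure_mono (image_mono interior_subset)
  exact (lt_of_lt_of_le h3 h4).ne'

/-- Coplanar axes and a centrally symmetric middle section, relative form: all axis directions
are orthogonal to the unit vector `n`, the values of `⟪x, n⟫` on `K` range over `[t₀, t₁]`, and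
the section of `K` by the middle plane `2 * ⟪x, n⟫ = t₀ + t₁` is symmetric about the point `c`
of that plane. Then the relative areas of the bases sum to at least `1 / 2`. -/
theorem midsym_coplanar (hdim : Module.finrank ℝ E = 3) {K : Set E} (hKc : IsCompact K)
    (hKconv : Convex ℝ K) (hKint : (interior K).Nonempty)
    {ι : Type*} [Fintype ι] (u : ι → E) (hu : ∀ i, ‖u i‖ = 1)
    (B : ∀ i, Set ↥(ℝ ∙ u i)ᗮ)
    (hcov : K ⊆ ⋃ i, (ℝ ∙ u i)ᗮ.orthogonalProjectionOnto ⁻¹' B i)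
    {n : E} (hn : ‖n‖ = 1) (hperp : ∀ i, inner ℝ (u i) n = 0)
    (t₀ t₁ : ℝ) (hlo : ∀ x ∈ K, t₀ ≤ inner ℝ x n) (hhi : ∀ x ∈ K, inner ℝ x n ≤ t₁)
    (x₀ x₁ : E) (hx₀ : x₀ ∈ K) (hx₁ : x₁ ∈ K) (h0 : inner ℝ x₀ n = t₀)
    (h1 : inner ℝ x₁ n = t₁) (c : E) (hc : 2 * inner ℝ c n = t₀ + t₁)
    (hsym : ∀ x ∈ K, 2 * inner ℝ x n = t₀ + t₁ → (2 : ℝ) • c - x ∈ K) :
    (1 / 2 : ℝ≥0∞) ≤
      ∑ i, volume (B i) / volume ((ℝ ∙ u i)ᗮ.orthogonalProjectionOnto '' K) := by
  have hcard : Module.finrank ℝ E = Fintype.card (Fin 3) := by rw [hdim]; simp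
  have horth : Orthonormal ℝ (({0} : Set (Fin 3)).domRestrict (fun _ : Fin 3 => n)) :=
    ⟨fun _ => hn, fun i j hij => absurd (Subsingleton.elim i j) hij⟩
  obtain ⟨b, hb⟩ := horth.exists_orthonormalBasis_extension_of_card_eq hcard
  have hb0 : b 0 = n := hb 0 (by simp)
  have hite := orthonormal_iff_ite.mp b.orthonormal
  set e₁ := b 1 with he₁
  set e₂ := b 2 with he₂
  have h11 : inner ℝ e₁ e₁ = 1 := (hite 1 1).trans (if_pos rfl)
  have h22 : inner ℝ e₂ e₂ = 1 := (hite 2 2).trans (if_pos rfl)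
  have hnn : inner ℝ n n = 1 := by
    have := hite 0 0
    rw [hb0] at this
    exact this.trans (if_pos rfl)
  have h12 : inner ℝ e₁ e₂ = 0 := (hite 1 2).trans (if_neg (by decide))
  have h1n : inner ℝ e₁ n = 0 := by
    have := hite 1 0
    rw [hb0] at this
    exact this.trans (if_neg (by decide))
  have h2n : inner ℝ e₂ n = 0 := by
    have := hite 2 0
    rw [hb0] at this
    exact this.trans (if_neg (by decide))
  have h21 : inner ℝ e₂ e₁ = 0 := by rw [real_inner_comm]; exact h12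
  have hn1 : inner ℝ n e₁ = 0 := by rw [real_inner_comm]; exact h1n
  have hn2 : inner ℝ n e₂ = 0 := by rw [real_inner_comm]; exact h2n
  have hdec : ∀ x : E, x = inner ℝ e₁ x • e₁ + inner ℝ e₂ x • e₂ + inner ℝ n x • n := by
    intro x
    have h := b.sum_repr' x
    rw [Fin.sum_univ_three, hb0] at h
    conv_lhs => rw [← h]
    abel
  have hindep : ∀ a' b' c' : ℝ, a' • e₁ + b' • e₂ + c' • n = 0 → a' = 0 ∧ b' = 0 ∧ c' = 0 := by
    intro a' b' c' h
    have i1 : inner ℝ e₁ (a' • e₁ + b' • e₂ + c' • n) = a' := by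
      rw [inner_add_right, inner_add_right, inner_smul_right, inner_smul_right, inner_smul_right,
        h11, h12, h1n]
      ring
    have i2 : inner ℝ e₂ (a' • e₁ + b' • e₂ + c' • n) = b' := by
      rw [inner_add_right, inner_add_right, inner_smul_right, inner_smul_right, inner_smul_right,
        h22, h21, h2n]
      ring
    have i3 : inner ℝ n (a' • e₁ + b' • e₂ + c' • n) = c' := by
      rw [inner_add_right, inner_add_right, inner_smul_right, inner_smul_right, inner_smul_right,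
        hnn, hn1, hn2]
      ring
    rw [h, inner_zero_right] at i1 i2 i3
    exact ⟨i1.symm, i2.symm, i3.symm⟩
  have hinj := frameMap_injective hindep
  have hsurj := frameMap_surjective hdim hindep
  let Φ : (ℝ × ℝ × ℝ) ≃L[ℝ] E :=
    (LinearEquiv.ofBijective (frameMap e₁ e₂ n) ⟨hinj, hsurj⟩).toContinuousLinearEquiv
  have hΦ : ∀ p, Φ p = p.2.1 • e₁ + p.2.2 • e₂ + p.1 • n := fun p => rfl
  set K' : Set (ℝ × ℝ × ℝ) := Φ ⁻¹' K with hK'
  have hK'c : IsCompact K' := Φ.toHomeomorph.isCompact_preimage.mpr hKc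
  have hK'conv : Convex ℝ K' := hKconv.linear_preimage (frameMap e₁ e₂ n)
  have hch : ∀ i, ∃ ψ : (ℝ × ℝ) ≃L[ℝ] ↥(ℝ ∙ u i)ᗮ,
      (∀ p : ℝ × ℝ × ℝ, (ℝ ∙ u i)ᗮ.orthogonalProjectionOnto (Φ p) =
        ψ (p.1, inner ℝ (u i) e₂ * p.2.1 + (- inner ℝ (u i) e₁) * p.2.2)) ∧
      ∀ S : Set ↥(ℝ ∙ u i)ᗮ, MeasurableSet S → volume (ψ ⁻¹' S) = volume S := fun i =>
    plane_chart hdim h11 h22 hnn h12 h1n h2n hdec (hu i) (hperp i)
  choose ψ hψ1 hψ2 using hch
  set a : ι → ℝ := fun i => inner ℝ (u i) e₂ with ha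
  set bb : ι → ℝ := fun i => - inner ℝ (u i) e₁ with hbb
  have hab : ∀ i, a i ^ 2 + bb i ^ 2 = 1 := fun i =>
    (plane_chart_aux h11 h22 h12 h1n h2n hdec (hu i) (hperp i)).1
  set B' : ι → Set (ℝ × ℝ) := fun i => ψ i ⁻¹' (toMeasurable volume (B i)) with hB'
  have hB'm : ∀ i, MeasurableSet (B' i) := fun i =>
    (ψ i).continuous.measurable (measurableSet_toMeasurable _ _)
  have hB'v : ∀ i, volume (B' i) = volume (B i) := fun i => by
    show volume (ψ i ⁻¹' (toMeasurable volume (B i))) = volume (B i)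
    rw [hψ2 i _ (measurableSet_toMeasurable _ _), measure_toMeasurable]
  have hcov' : ∀ p ∈ K', ∃ i, (p.1, a i * p.2.1 + bb i * p.2.2) ∈ B' i := by
    intro p hp
    obtain ⟨i, hi⟩ := mem_iUnion.mp (hcov hp)
    refine ⟨i, ?_⟩
    show ψ i (p.1, a i * p.2.1 + bb i * p.2.2) ∈ toMeasurable volume (B i)
    rw [← hψ1 i p]
    exact subset_toMeasurable _ _ hi
  -- the shadows of the coordinate body are the projections of `K`
  have hshadow : ∀ i, volume (dirShadow (a i) (bb i) K') =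
      volume ((ℝ ∙ u i)ᗮ.orthogonalProjectionOnto '' K) := by
    intro i
    have himg : (ℝ ∙ u i)ᗮ.orthogonalProjectionOnto '' K =
        ψ i '' (dirShadow (a i) (bb i) K') := by
      ext q
      constructor
      · rintro ⟨k, hk, rfl⟩
        obtain ⟨p, rfl⟩ := Φ.surjective k
        exact ⟨(p.1, a i * p.2.1 + bb i * p.2.2), ⟨p, hk, rfl⟩, (hψ1 i p).symm⟩
      · rintro ⟨_, ⟨p, hp, rfl⟩, rfl⟩
        exact ⟨Φ p, hp, hψ1 i p⟩
    have hDc : IsCompact (dirShadow (a i) (bb i) K') := dirShadow_compact hK'c _ _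
    rw [himg, ← hψ2 i _ (hDc.image (ψ i).continuous).measurableSet,
      preimage_image_eq _ (ψ i).injective]
  have hpos : ∀ i, volume (dirShadow (a i) (bb i) K') ≠ 0 := by
    intro i
    rw [hshadow i]
    exact midsym_proj_image_pos (u i) K hKint
  -- the height coordinate
  have hinnerΦ : ∀ p, inner ℝ (Φ p) n = p.1 := by
    intro p
    rw [hΦ, inner_add_left, inner_add_left, inner_smul_left, inner_smul_left, inner_smul_left,
      h1n, h2n, hnn]
    simp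
  have hz : ∀ p ∈ K', t₀ ≤ p.1 ∧ p.1 ≤ t₁ := by
    intro p hp
    have hp' : Φ p ∈ K := hp
    have h1' := hlo _ hp'
    have h2' := hhi _ hp'
    rw [hinnerΦ] at h1' h2'
    exact ⟨h1', h2'⟩
  have hq₀ : (t₀, ((inner ℝ e₁ x₀, inner ℝ e₂ x₀) : ℝ × ℝ)) ∈ K' := by
    show Φ (t₀, ((inner ℝ e₁ x₀, inner ℝ e₂ x₀) : ℝ × ℝ)) ∈ K
    have h0' : inner ℝ n x₀ = t₀ := (real_inner_comm x₀ n).trans h0
    have h := hdec x₀
    rw [h0'] at h
    have e : Φ (t₀, ((inner ℝ e₁ x₀, inner ℝ e₂ x₀) : ℝ × ℝ)) = x₀ := by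
      rw [hΦ]
      exact h.symm
    rw [e]
    exact hx₀
  have hq₁ : (t₁, ((inner ℝ e₁ x₁, inner ℝ e₂ x₁) : ℝ × ℝ)) ∈ K' := by
    show Φ (t₁, ((inner ℝ e₁ x₁, inner ℝ e₂ x₁) : ℝ × ℝ)) ∈ K
    have h1' : inner ℝ n x₁ = t₁ := (real_inner_comm x₁ n).trans h1
    have h := hdec x₁
    rw [h1'] at h
    have e : Φ (t₁, ((inner ℝ e₁ x₁, inner ℝ e₂ x₁) : ℝ × ℝ)) = x₁ := by
      rw [hΦ]
      exact h.symm
    rw [e]
    exact hx₁
  have hsym' : ∀ q ∈ fiber K' ((t₀ + t₁) / 2),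
      (2 : ℝ) • ((inner ℝ e₁ c, inner ℝ e₂ c) : ℝ × ℝ) - q ∈ fiber K' ((t₀ + t₁) / 2) := by
    intro q hq
    have hq' : Φ ((t₀ + t₁) / 2, q) ∈ K := hq
    have h2 : 2 * inner ℝ (Φ ((t₀ + t₁) / 2, q)) n = t₀ + t₁ := by
      rw [hinnerΦ]
      show 2 * ((t₀ + t₁) / 2) = t₀ + t₁
      ring
    have h3 := hsym _ hq' h2
    show Φ ((t₀ + t₁) / 2, (2 : ℝ) • ((inner ℝ e₁ c, inner ℝ e₂ c) : ℝ × ℝ) - q) ∈ K
    have e : Φ ((t₀ + t₁) / 2, (2 : ℝ) • ((inner ℝ e₁ c, inner ℝ e₂ c) : ℝ × ℝ) - q) =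
        (2 : ℝ) • c - Φ ((t₀ + t₁) / 2, q) := by
      have hcn : inner ℝ n c = (t₀ + t₁) / 2 := by
        rw [real_inner_comm]
        linarith
      have hcdec := hdec c
      rw [hcn] at hcdec
      rw [hΦ, hΦ]
      conv_rhs => rw [hcdec]
      simp only [Prod.fst_sub, Prod.snd_sub, Prod.smul_fst, Prod.smul_snd, smul_eq_mul]
      module
    rw [e]
    exact h3
  have hmain := midsym_coord hK'c hK'conv t₀ t₁ hz _ _ hq₀ hq₁ _ hsym' a bb hab B' hB'm hcov'
    hpos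
  simp only [hB'v, hshadow] at hmain
  exact hmain

end Vale.Agent.Lib.P243
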