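import Mathlib
import Vale.Agent.Lib.P243.CoplanarGen
import Vale.Agent.Lib.P243.MidSymGen

open MeasureTheory Set
open scoped ENNReal

namespace Vale.Agent.Lib.P243

variable {E : Type*} [NormedAddCommGroup E] [InnerProductSpace ℝ E] [FiniteDimensional ℝ E]
  [MeasurableSpace E] [BorelSpace E]

/-- Reduction of a covering with all axes orthogonal to the unit vector `n` to coordinates: a
linear chart `Φ` of `E` whose first coordinate is `⟪·, n⟫`, unit coefficient pairs `(a i, b i)`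
and measurable planar sets `B' i` of the same areas as the bases, such that the preimage of `K`
is covered by the coordinate cylinders and its coordinate shadows have the areas of the
orthogonal projections of `K`, which are positive. -/
theorem coplanar_reduce (hdim : Module.finrank ℝ E = 3) {K : Set E} (hKc : IsCompact K)
    (hKint : (interior K).Nonempty)
    {ι : Type*} [Fintype ι] (u : ι → E) (hu : ∀ i, ‖u i‖ = 1)
    (B : ∀ i, Set ↥(ℝ ∙ u i)ᗮ)
    (hcov : K ⊆ ⋃ i, (ℝ ∙ u i)ᗮ.orthogonalProjectionOnto ⁻¹' B i)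
    {n : E} (hn : ‖n‖ = 1) (hperp : ∀ i, inner ℝ (u i) n = 0) :
    ∃ (Φ : (ℝ × ℝ × ℝ) ≃L[ℝ] E) (a b : ι → ℝ) (B' : ι → Set (ℝ × ℝ)),
      (∀ p : ℝ × ℝ × ℝ, inner ℝ (Φ p) n = p.1) ∧
      (∀ i, a i ^ 2 + b i ^ 2 = 1) ∧
      (∀ i, MeasurableSet (B' i)) ∧
      (∀ i, volume (B' i) = volume (B i)) ∧
      (∀ p ∈ Φ ⁻¹' K, ∃ i, (p.1, a i * p.2.1 + b i * p.2.2) ∈ B' i) ∧
      (∀ i, volume (dirShadow (a i) (b i) (Φ ⁻¹' K)) =
        volume ((ℝ ∙ u i)ᗮ.orthogonalProjectionOnto '' K)) ∧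
      (∀ i, volume ((ℝ ∙ u i)ᗮ.orthogonalProjectionOnto '' K) ≠ 0) := by
  have hcard : Module.finrank ℝ E = Fintype.card (Fin 3) := by rw [hdim]; simp
  have horth : Orthonormal ℝ (({0} : Set (Fin 3)).domRestrict (fun _ : Fin 3 => n)) :=
    ⟨fun _ => hn, fun i j hij => absurd (Subsingleton.elim i j) hij⟩
  obtain ⟨b, hb⟩ := horth.exists_orthonormalBasis_extension_of_card_eq hcard
  have hb0 : b 0 = n := hb 0 (by simp)
  have hite := orthonormal_iff_ite.mp b.orthonormal
  set e₁ := b 1 with he₁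
  set e₂ := b 2 with he₂
  have h11 : inner ℝ e₁ e₁ = 1 := (hite 1 1).trans (if_pos rfl)
  have h22 : inner ℝ e₂ e₂ = 1 := (hite 2 2).trans (if_pos rfl)
  have hnn : inner ℝ n n = 1 := by
    have := hite 0 0
    rw [hb0] at this
    exact this.trans (if_pos rfl)
  have h12 : inner ℝ e₁ e₂ = 0 := (hite 1 2).trans (if_neg (by decide))
  have h1n : inner ℝ e₁ n = 0 := by
    have := hite 1 0
    rw [hb0] at this
    exact this.trans (if_neg (by decide))
  have h2n : inner ℝ e₂ n = 0 := by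
    have := hite 2 0
    rw [hb0] at this
    exact this.trans (if_neg (by decide))
  have h21 : inner ℝ e₂ e₁ = 0 := by rw [real_inner_comm]; exact h12
  have hn1 : inner ℝ n e₁ = 0 := by rw [real_inner_comm]; exact h1n
  have hn2 : inner ℝ n e₂ = 0 := by rw [real_inner_comm]; exact h2n
  have hdec : ∀ x : E, x = inner ℝ e₁ x • e₁ + inner ℝ e₂ x • e₂ + inner ℝ n x • n := by
    intro x
    have h := b.sum_repr' x
    rw [Fin.sum_univ_three, hb0] at h
    conv_lhs => rw [← h]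
    abel
  have hindep : ∀ a' b' c' : ℝ, a' • e₁ + b' • e₂ + c' • n = 0 → a' = 0 ∧ b' = 0 ∧ c' = 0 := by
    intro a' b' c' h
    have i1 : inner ℝ e₁ (a' • e₁ + b' • e₂ + c' • n) = a' := by
      rw [inner_add_right, inner_add_right, inner_smul_right, inner_smul_right, inner_smul_right,
        h11, h12, h1n]
      ring
    have i2 : inner ℝ e₂ (a' • e₁ + b' • e₂ + c' • n) = b' := by
      rw [inner_add_right, inner_add_right, inner_smul_right, inner_smul_right, inner_smul_right,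
        h22, h21, h2n]
      ring
    have i3 : inner ℝ n (a' • e₁ + b' • e₂ + c' • n) = c' := by
      rw [inner_add_right, inner_add_right, inner_smul_right, inner_smul_right, inner_smul_right,
        hnn, hn1, hn2]
      ring
    rw [h, inner_zero_right] at i1 i2 i3
    exact ⟨i1.symm, i2.symm, i3.symm⟩
  have hinj := frameMap_injective hindep
  have hsurj := frameMap_surjective hdim hindep
  let Φ : (ℝ × ℝ × ℝ) ≃L[ℝ] E :=
    (LinearEquiv.ofBijective (frameMap e₁ e₂ n) ⟨hinj, hsurj⟩).toContinuousLinearEquiv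
  have hΦ : ∀ p, Φ p = p.2.1 • e₁ + p.2.2 • e₂ + p.1 • n := fun p => rfl
  set K' : Set (ℝ × ℝ × ℝ) := Φ ⁻¹' K with hK'
  have hK'c : IsCompact K' := Φ.toHomeomorph.isCompact_preimage.mpr hKc
  have hch : ∀ i, ∃ ψ : (ℝ × ℝ) ≃L[ℝ] ↥(ℝ ∙ u i)ᗮ,
      (∀ p : ℝ × ℝ × ℝ, (ℝ ∙ u i)ᗮ.orthogonalProjectionOnto (Φ p) =
        ψ (p.1, inner ℝ (u i) e₂ * p.2.1 + (- inner ℝ (u i) e₁) * p.2.2)) ∧
      ∀ S : Set ↥(ℝ ∙ u i)ᗮ, MeasurableSet S → volume (ψ ⁻¹' S) = volume S := fun i =>
    plane_chart hdim h11 h22 hnn h12 h1n h2n hdec (hu i) (hperp i)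
  choose ψ hψ1 hψ2 using hch
  set a : ι → ℝ := fun i => inner ℝ (u i) e₂ with ha
  set bb : ι → ℝ := fun i => - inner ℝ (u i) e₁ with hbb
  have hab : ∀ i, a i ^ 2 + bb i ^ 2 = 1 := fun i =>
    (plane_chart_aux h11 h22 h12 h1n h2n hdec (hu i) (hperp i)).1
  set B' : ι → Set (ℝ × ℝ) := fun i => ψ i ⁻¹' (toMeasurable volume (B i)) with hB'
  have hB'm : ∀ i, MeasurableSet (B' i) := fun i =>
    (ψ i).continuous.measurable (measurableSet_toMeasurable _ _)
  have hB'v : ∀ i, volume (B' i) = volume (B i) := fun i => by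
    show volume (ψ i ⁻¹' (toMeasurable volume (B i))) = volume (B i)
    rw [hψ2 i _ (measurableSet_toMeasurable _ _), measure_toMeasurable]
  have hcov' : ∀ p ∈ K', ∃ i, (p.1, a i * p.2.1 + bb i * p.2.2) ∈ B' i := by
    intro p hp
    obtain ⟨i, hi⟩ := mem_iUnion.mp (hcov hp)
    refine ⟨i, ?_⟩
    show ψ i (p.1, a i * p.2.1 + bb i * p.2.2) ∈ toMeasurable volume (B i)
    rw [← hψ1 i p]
    exact subset_toMeasurable _ _ hi
  -- the shadows of the coordinate body are the projections of `K`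
  have hshadow : ∀ i, volume (dirShadow (a i) (bb i) K') =
      volume ((ℝ ∙ u i)ᗮ.orthogonalProjectionOnto '' K) := by
    intro i
    have himg : (ℝ ∙ u i)ᗮ.orthogonalProjectionOnto '' K =
        ψ i '' (dirShadow (a i) (bb i) K') := by
      ext q
      constructor
      · rintro ⟨k, hk, rfl⟩
        obtain ⟨p, rfl⟩ := Φ.surjective k
        exact ⟨(p.1, a i * p.2.1 + bb i * p.2.2), ⟨p, hk, rfl⟩, (hψ1 i p).symm⟩
      · rintro ⟨_, ⟨p, hp, rfl⟩, rfl⟩
        exact ⟨Φ p, hp, hψ1 i p⟩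
    have hDc : IsCompact (dirShadow (a i) (bb i) K') := dirShadow_compact hK'c _ _
    rw [himg, ← hψ2 i _ (hDc.image (ψ i).continuous).measurableSet,
      preimage_image_eq _ (ψ i).injective]
  have hinnerΦ : ∀ p, inner ℝ (Φ p) n = p.1 := by
    intro p
    rw [hΦ, inner_add_left, inner_add_left, inner_smul_left, inner_smul_left, inner_smul_left,
      h1n, h2n, hnn]
    simp
  exact ⟨Φ, a, bb, B', hinnerΦ, hab, hB'm, hB'v, hcov', hshadow,
    fun i => midsym_proj_image_pos (u i) K hKint⟩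

end Vale.Agent.Lib.P243
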