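import Mathlib
import Vale.Agent.Lib.P243.General

open MeasureTheory Set

namespace Vale.Agent.Lib.P243

variable {E : Type*} [NormedAddCommGroup E] [InnerProductSpace ℝ E] [FiniteDimensional ℝ E]
  [MeasurableSpace E] [BorelSpace E]

/-- Finitely many cylinders with axes parallel to one of two non-parallel directions covering a
convex body: the relative base areas add up to at least one half. The bases are arbitrary sets,
measured by (outer) planar Lebesgue measure. -/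
theorem two_dir_families (hdim : Module.finrank ℝ E = 3) (K : Set E) (hKc : IsCompact K)
    (hKconv : Convex ℝ K) (hKint : (interior K).Nonempty) (v w : E)
    (hli : LinearIndependent ℝ ![v, w]) {m n : ℕ}
    (B : Fin m → Set ↥(ℝ ∙ v)ᗮ) (C : Fin n → Set ↥(ℝ ∙ w)ᗮ)
    (hcov : ∀ x ∈ K, (∃ i, (ℝ ∙ v)ᗮ.orthogonalProjectionOnto x ∈ B i) ∨
      (∃ j, (ℝ ∙ w)ᗮ.orthogonalProjectionOnto x ∈ C j)) :
    (1 / 2 : ENNReal) ≤
      (∑ i, volume (B i)) / volume ((ℝ ∙ v)ᗮ.orthogonalProjectionOnto '' K) +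
      (∑ j, volume (C j)) / volume ((ℝ ∙ w)ᗮ.orthogonalProjectionOnto '' K) := by
  set B' : Set ↥(ℝ ∙ v)ᗮ := ⋃ i, toMeasurable volume (B i) with hB'
  set C' : Set ↥(ℝ ∙ w)ᗮ := ⋃ j, toMeasurable volume (C j) with hC'
  have hB'm : MeasurableSet B' := MeasurableSet.iUnion fun i => measurableSet_toMeasurable _ _
  have hC'm : MeasurableSet C' := MeasurableSet.iUnion fun j => measurableSet_toMeasurable _ _
  have hcov' : ∀ x ∈ K, (ℝ ∙ v)ᗮ.orthogonalProjectionOnto x ∈ B' ∨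
      (ℝ ∙ w)ᗮ.orthogonalProjectionOnto x ∈ C' := by
    intro x hx
    rcases hcov x hx with ⟨i, hi⟩ | ⟨j, hj⟩
    · left; exact mem_iUnion.mpr ⟨i, subset_toMeasurable _ _ hi⟩
    · right; exact mem_iUnion.mpr ⟨j, subset_toMeasurable _ _ hj⟩
  have hBle : volume B' ≤ ∑ i, volume (B i) := by
    calc volume B' ≤ ∑ i, volume (toMeasurable volume (B i)) := measure_iUnion_fintype_le _ _
      _ = ∑ i, volume (B i) := by simp only [measure_toMeasurable]
  have hCle : volume C' ≤ ∑ j, volume (C j) := by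
    calc volume C' ≤ ∑ j, volume (toMeasurable volume (C j)) := measure_iUnion_fintype_le _ _
      _ = ∑ j, volume (C j) := by simp only [measure_toMeasurable]
  have hmain := two_cyl_general hdim K hKc hKconv hKint v w hli B' C' hB'm hC'm hcov'
  calc (1 / 2 : ENNReal) ≤ volume B' / volume ((ℝ ∙ v)ᗮ.orthogonalProjectionOnto '' K) +
        volume C' / volume ((ℝ ∙ w)ᗮ.orthogonalProjectionOnto '' K) := hmain
    _ ≤ (∑ i, volume (B i)) / volume ((ℝ ∙ v)ᗮ.orthogonalProjectionOnto '' K) +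
        (∑ j, volume (C j)) / volume ((ℝ ∙ w)ᗮ.orthogonalProjectionOnto '' K) :=
      add_le_add (ENNReal.div_le_div_right hBle _) (ENNReal.div_le_div_right hCle _)

/-- The half-area form: the total base area is at least half of the smallest projection area. -/
theorem two_dir_half_area (hdim : Module.finrank ℝ E = 3) (K : Set E) (hKc : IsCompact K)
    (hKconv : Convex ℝ K) (hKint : (interior K).Nonempty) (v w : E)
    (hv : ‖v‖ = 1) (hw : ‖w‖ = 1)
    (hli : LinearIndependent ℝ ![v, w]) {m n : ℕ}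
    (B : Fin m → Set ↥(ℝ ∙ v)ᗮ) (C : Fin n → Set ↥(ℝ ∙ w)ᗮ)
    (hcov : ∀ x ∈ K, (∃ i, (ℝ ∙ v)ᗮ.orthogonalProjectionOnto x ∈ B i) ∨
      (∃ j, (ℝ ∙ w)ᗮ.orthogonalProjectionOnto x ∈ C j)) :
    (1 / 2 : ENNReal) *
        (⨅ u : {u : E // ‖u‖ = 1}, volume ((ℝ ∙ (u : E))ᗮ.orthogonalProjectionOnto '' K)) ≤
      ∑ i, volume (B i) + ∑ j, volume (C j) := by
  set A := ⨅ u : {u : E // ‖u‖ = 1}, volume ((ℝ ∙ (u : E))ᗮ.orthogonalProjectionOnto '' K)
    with hA
  have hAv : A ≤ volume ((ℝ ∙ v)ᗮ.orthogonalProjectionOnto '' K) :=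
    iInf_le (fun u : {u : E // ‖u‖ = 1} =>
      volume ((ℝ ∙ (u : E))ᗮ.orthogonalProjectionOnto '' K)) ⟨v, hv⟩
  have hAw : A ≤ volume ((ℝ ∙ w)ᗮ.orthogonalProjectionOnto '' K) :=
    iInf_le (fun u : {u : E // ‖u‖ = 1} =>
      volume ((ℝ ∙ (u : E))ᗮ.orthogonalProjectionOnto '' K)) ⟨w, hw⟩
  have hfin : volume ((ℝ ∙ v)ᗮ.orthogonalProjectionOnto '' K) ≠ ⊤ :=
    (hKc.image ((ℝ ∙ v)ᗮ.orthogonalProjectionOnto).continuous).measure_lt_top.ne
  have hAfin : A ≠ ⊤ := ne_top_of_le_ne_top hfin hAv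
  have hmain := two_dir_families hdim K hKc hKconv hKint v w hli B C hcov
  by_cases hA0 : A = 0
  · rw [hA0, mul_zero]; exact zero_le
  have h1 : (1 / 2 : ENNReal) ≤ (∑ i, volume (B i)) / A + (∑ j, volume (C j)) / A :=
    le_trans hmain (add_le_add (ENNReal.div_le_div_left hAv _) (ENNReal.div_le_div_left hAw _))
  rw [← ENNReal.add_div] at h1
  exact (ENNReal.le_div_iff_mul_le (Or.inl hA0) (Or.inl hAfin)).mp h1

end Vale.Agent.Lib.P243
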