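import Mathlib
import Vale.Agent.Lib.P243.Families

open MeasureTheory Set

namespace Vale.Agent.Lib.P243

variable {E : Type*} [NormedAddCommGroup E] [InnerProductSpace ℝ E] [FiniteDimensional ℝ E]
  [MeasurableSpace E] [BorelSpace E]

/-- Transport of a set between two submodules (used when they are equal). -/
def castSet (U U' : Submodule ℝ E) (S : Set U) : Set U' := {y | ∃ z ∈ S, (z : E) = (y : E)}

theorem volume_castSet {U U' : Submodule ℝ E} (h : U = U') (S : Set U) :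
    volume (castSet U U' S) = volume S := by
  subst h
  have : castSet U U S = S := by
    ext y
    constructor
    · rintro ⟨z, hz, hzy⟩
      have : z = y := Subtype.ext hzy
      rwa [← this]
    · intro hy
      exact ⟨y, hy, rfl⟩
  rw [this]

omit [MeasurableSpace E] [BorelSpace E] in
theorem proj_mem_castSet {U U' : Submodule ℝ E} (h : U = U') (S : Set U) (x : E) :
    U'.orthogonalProjectionOnto x ∈ castSet U U' S ↔ U.orthogonalProjectionOnto x ∈ S := by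
  subst h
  constructor
  · rintro ⟨z, hz, hzy⟩
    have : z = U.orthogonalProjectionOnto x := Subtype.ext hzy
    rwa [← this]
  · intro hy
    exact ⟨_, hy, rfl⟩

theorem volume_proj_image_congr {U U' : Submodule ℝ E} (h : U = U') (K : Set E) :
    volume (U'.orthogonalProjectionOnto '' K) = volume (U.orthogonalProjectionOnto '' K) := by
  subst h
  rfl

omit [FiniteDimensional ℝ E] [MeasurableSpace E] [BorelSpace E] in
theorem span_eq_of_mem {u v : E} (hu : u ≠ 0) (h : u ∈ ℝ ∙ v) : (ℝ ∙ u) = ℝ ∙ v := by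
  obtain ⟨c, rfl⟩ := Submodule.mem_span_singleton.mp h
  have hc : c ≠ 0 := by
    rintro rfl
    exact hu (zero_smul ℝ v)
  exact Submodule.span_singleton_smul_eq (IsUnit.mk0 c hc) v

/-- Core form: axes along one of two given linearly independent directions. -/
theorem two_dir_indexed_core (hdim : Module.finrank ℝ E = 3) (K : Set E) (hKc : IsCompact K)
    (hKconv : Convex ℝ K) (hKint : (interior K).Nonempty) {m : ℕ} (u : Fin m → E)
    (hu : ∀ i, u i ≠ 0) (B : ∀ i, Set ↥(ℝ ∙ u i)ᗮ)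
    (hcov : ∀ x ∈ K, ∃ i, (ℝ ∙ u i)ᗮ.orthogonalProjectionOnto x ∈ B i)
    (v w : E) (hli : LinearIndependent ℝ ![v, w])
    (hdir : ∀ i, u i ∈ ℝ ∙ v ∨ u i ∈ ℝ ∙ w) :
    (1 / 2 : ENNReal) ≤
      ∑ i, volume (B i) / volume ((ℝ ∙ u i)ᗮ.orthogonalProjectionOnto '' K) := by
  classical
  have hUv : ∀ i, u i ∈ ℝ ∙ v → (ℝ ∙ u i)ᗮ = (ℝ ∙ v)ᗮ := fun i h => by
    rw [span_eq_of_mem (hu i) h]
  have hUw : ∀ i, u i ∈ ℝ ∙ w → (ℝ ∙ u i)ᗮ = (ℝ ∙ w)ᗮ := fun i h => by
    rw [span_eq_of_mem (hu i) h]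
  set Bv : Fin m → Set ↥(ℝ ∙ v)ᗮ := fun i =>
    if u i ∈ ℝ ∙ v then castSet (ℝ ∙ u i)ᗮ (ℝ ∙ v)ᗮ (B i) else ∅ with hBv
  set Cw : Fin m → Set ↥(ℝ ∙ w)ᗮ := fun i =>
    if u i ∈ ℝ ∙ v then ∅ else castSet (ℝ ∙ u i)ᗮ (ℝ ∙ w)ᗮ (B i) with hCw
  have hcov' : ∀ x ∈ K, (∃ i, (ℝ ∙ v)ᗮ.orthogonalProjectionOnto x ∈ Bv i) ∨
      (∃ j, (ℝ ∙ w)ᗮ.orthogonalProjectionOnto x ∈ Cw j) := by
    intro x hx
    obtain ⟨i, hi⟩ := hcov x hx
    by_cases h : u i ∈ ℝ ∙ v
    · left
      refine ⟨i, ?_⟩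
      simp only [hBv, if_pos h]
      exact (proj_mem_castSet (hUv i h) (B i) x).mpr hi
    · right
      have hw : u i ∈ ℝ ∙ w := (hdir i).resolve_left h
      refine ⟨i, ?_⟩
      simp only [hCw, if_neg h]
      exact (proj_mem_castSet (hUw i hw) (B i) x).mpr hi
  have hmain := two_dir_families hdim K hKc hKconv hKint v w hli Bv Cw hcov'
  have hterm : ∀ i, volume (Bv i) / volume ((ℝ ∙ v)ᗮ.orthogonalProjectionOnto '' K) +
      volume (Cw i) / volume ((ℝ ∙ w)ᗮ.orthogonalProjectionOnto '' K) =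
      volume (B i) / volume ((ℝ ∙ u i)ᗮ.orthogonalProjectionOnto '' K) := by
    intro i
    by_cases h : u i ∈ ℝ ∙ v
    · simp only [hBv, hCw, if_pos h, measure_empty, ENNReal.zero_div, add_zero]
      rw [volume_castSet (hUv i h), volume_proj_image_congr (hUv i h)]
    · have hw : u i ∈ ℝ ∙ w := (hdir i).resolve_left h
      simp only [hBv, hCw, if_neg h, measure_empty, ENNReal.zero_div, zero_add]
      rw [volume_castSet (hUw i hw), volume_proj_image_congr (hUw i hw)]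
  calc (1 / 2 : ENNReal) ≤ (∑ i, volume (Bv i)) / volume ((ℝ ∙ v)ᗮ.orthogonalProjectionOnto '' K) +
        (∑ j, volume (Cw j)) / volume ((ℝ ∙ w)ᗮ.orthogonalProjectionOnto '' K) := hmain
    _ = ∑ i, (volume (Bv i) / volume ((ℝ ∙ v)ᗮ.orthogonalProjectionOnto '' K) +
        volume (Cw i) / volume ((ℝ ∙ w)ᗮ.orthogonalProjectionOnto '' K)) := by
      simp only [div_eq_mul_inv, Finset.sum_mul, Finset.sum_add_distrib]
    _ = ∑ i, volume (B i) / volume ((ℝ ∙ u i)ᗮ.orthogonalProjectionOnto '' K) :=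
      Finset.sum_congr rfl fun i _ => hterm i

/-- Relative form for an indexed family of cylinders whose axes take at most two directions. -/
theorem two_dir_indexed (hdim : Module.finrank ℝ E = 3) (K : Set E) (hKc : IsCompact K)
    (hKconv : Convex ℝ K) (hKint : (interior K).Nonempty) {m : ℕ} (u : Fin m → E)
    (hu : ∀ i, u i ≠ 0) (B : ∀ i, Set ↥(ℝ ∙ u i)ᗮ)
    (hcov : ∀ x ∈ K, ∃ i, (ℝ ∙ u i)ᗮ.orthogonalProjectionOnto x ∈ B i)
    (v w : E) (hdir : ∀ i, u i ∈ ℝ ∙ v ∨ u i ∈ ℝ ∙ w) :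
    (1 / 2 : ENNReal) ≤
      ∑ i, volume (B i) / volume ((ℝ ∙ u i)ᗮ.orthogonalProjectionOnto '' K) := by
  obtain ⟨x₀, hx₀⟩ := hKint
  obtain ⟨i₀, -⟩ := hcov x₀ (interior_subset hx₀)
  have hKint' : (interior K).Nonempty := ⟨x₀, hx₀⟩
  set d := u i₀ with hd
  have hd0 : d ≠ 0 := hu i₀
  by_cases hall : ∀ i, u i ∈ ℝ ∙ d
  · obtain ⟨d', hli⟩ := exists_linearIndependent_pair_of_one_lt_finrank
      (R := ℝ) (M := E) (by rw [hdim]; norm_num) hd0
    exact two_dir_indexed_core hdim K hKc hKconv hKint' u hu B hcov d d' hli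
      (fun i => Or.inl (hall i))
  · push Not at hall
    obtain ⟨i₁, hi₁⟩ := hall
    set e := u i₁ with he
    have hli : LinearIndependent ℝ ![d, e] := by
      rw [LinearIndependent.pair_iff' hd0]
      intro a ha
      exact hi₁ (Submodule.mem_span_singleton.mpr ⟨a, ha⟩)
    have hself : ∀ z : E, z ∈ ℝ ∙ z := fun z => Submodule.mem_span_singleton_self z
    have key : ∀ i, u i ∈ ℝ ∙ d ∨ u i ∈ ℝ ∙ e := by
      rcases hdir i₀ with h0 | h0
      · have e0 : (ℝ ∙ d) = ℝ ∙ v := span_eq_of_mem hd0 h0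
        rcases hdir i₁ with h1 | h1
        · exfalso
          apply hi₁
          rw [e0]
          exact h1
        · have e1 : (ℝ ∙ e) = ℝ ∙ w := span_eq_of_mem (hu i₁) h1
          intro i
          rw [e0, e1]
          exact hdir i
      · have e0 : (ℝ ∙ d) = ℝ ∙ w := span_eq_of_mem hd0 h0
        rcases hdir i₁ with h1 | h1
        · have e1 : (ℝ ∙ e) = ℝ ∙ v := span_eq_of_mem (hu i₁) h1
          intro i
          rw [e0, e1]
          exact (hdir i).symm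
        · exfalso
          apply hi₁
          rw [e0]
          exact h1
    exact two_dir_indexed_core hdim K hKc hKconv hKint' u hu B hcov d e hli key

/-- Half-area form for an indexed family of cylinders whose axes take at most two directions. -/
theorem two_dir_indexed_half (hdim : Module.finrank ℝ E = 3) (K : Set E) (hKc : IsCompact K)
    (hKconv : Convex ℝ K) (hKint : (interior K).Nonempty) {m : ℕ} (u : Fin m → E)
    (hu : ∀ i, ‖u i‖ = 1) (B : ∀ i, Set ↥(ℝ ∙ u i)ᗮ)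
    (hcov : ∀ x ∈ K, ∃ i, (ℝ ∙ u i)ᗮ.orthogonalProjectionOnto x ∈ B i)
    (v w : E) (hdir : ∀ i, u i ∈ ℝ ∙ v ∨ u i ∈ ℝ ∙ w) :
    (1 / 2 : ENNReal) *
        (⨅ e : {e : E // ‖e‖ = 1}, volume ((ℝ ∙ (e : E))ᗮ.orthogonalProjectionOnto '' K)) ≤
      ∑ i, volume (B i) := by
  set A := ⨅ e : {e : E // ‖e‖ = 1}, volume ((ℝ ∙ (e : E))ᗮ.orthogonalProjectionOnto '' K)
    with hA
  have hu0 : ∀ i, u i ≠ 0 := fun i h => by
    have := hu i
    rw [h, norm_zero] at this
    exact zero_ne_one this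
  have hAle : ∀ i, A ≤ volume ((ℝ ∙ u i)ᗮ.orthogonalProjectionOnto '' K) := fun i =>
    iInf_le (fun e : {e : E // ‖e‖ = 1} =>
      volume ((ℝ ∙ (e : E))ᗮ.orthogonalProjectionOnto '' K)) ⟨u i, hu i⟩
  have hmain := two_dir_indexed hdim K hKc hKconv hKint u hu0 B hcov v w hdir
  by_cases hA0 : A = 0
  · rw [hA0, mul_zero]
    exact zero_le
  obtain ⟨x₀, hx₀⟩ := hKint
  obtain ⟨i₀, -⟩ := hcov x₀ (interior_subset hx₀)
  have hfin : volume ((ℝ ∙ u i₀)ᗮ.orthogonalProjectionOnto '' K) ≠ ⊤ :=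
    (hKc.image ((ℝ ∙ u i₀)ᗮ.orthogonalProjectionOnto).continuous).measure_lt_top.ne
  have hAfin : A ≠ ⊤ := ne_top_of_le_ne_top hfin (hAle i₀)
  have h1 : (1 / 2 : ENNReal) ≤ (∑ i, volume (B i)) / A := by
    calc (1 / 2 : ENNReal) ≤
        ∑ i, volume (B i) / volume ((ℝ ∙ u i)ᗮ.orthogonalProjectionOnto '' K) := hmain
      _ ≤ ∑ i, volume (B i) / A :=
        Finset.sum_le_sum fun i _ => ENNReal.div_le_div_left (hAle i) _
      _ = (∑ i, volume (B i)) / A := by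
        simp only [div_eq_mul_inv, Finset.sum_mul]
  exact (ENNReal.le_div_iff_mul_le (Or.inl hA0) (Or.inl hAfin)).mp h1

end Vale.Agent.Lib.P243
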