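import Mathlib
import Vale.Agent.Lib.P243.MidSymGen

open MeasureTheory Set
open scoped ENNReal

namespace Vale.Agent.Lib.P243

variable {E : Type*} [NormedAddCommGroup E] [InnerProductSpace ℝ E] [FiniteDimensional ℝ E]
  [MeasurableSpace E] [BorelSpace E]

/-- Convex body symmetric about a point `c0`, all axes orthogonal to `n`: relative form. -/
theorem symbody_coplanar (hdim : Module.finrank ℝ E = 3) {K : Set E} (hKc : IsCompact K)
    (hKconv : Convex ℝ K) (hKint : (interior K).Nonempty) (c0 : E)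
    (hsym : ∀ x ∈ K, (2 : ℝ) • c0 - x ∈ K)
    {ι : Type*} [Fintype ι] (u : ι → E) (hu : ∀ i, ‖u i‖ = 1)
    (B : ∀ i, Set ↥(ℝ ∙ u i)ᗮ)
    (hcov : K ⊆ ⋃ i, (ℝ ∙ u i)ᗮ.orthogonalProjectionOnto ⁻¹' B i)
    {n : E} (hn : ‖n‖ = 1) (hperp : ∀ i, inner ℝ (u i) n = 0) :
    (1 / 2 : ℝ≥0∞) ≤
      ∑ i, volume (B i) / volume ((ℝ ∙ u i)ᗮ.orthogonalProjectionOnto '' K) := by
  have hne : K.Nonempty := hKint.mono interior_subset
  have hcont : Continuous fun x : E => inner ℝ x n := continuous_id.inner continuous_const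
  obtain ⟨x₁, hx₁, hmax⟩ := hKc.exists_isMaxOn hne hcont.continuousOn
  have hmax' : ∀ x ∈ K, inner ℝ x n ≤ inner ℝ x₁ n := fun x hx => isMaxOn_iff.mp hmax x hx
  have hinn : ∀ x : E, inner ℝ ((2 : ℝ) • c0 - x) n = 2 * inner ℝ c0 n - inner ℝ x n := by
    intro x
    rw [inner_sub_left, real_inner_smul_left]
  refine midsym_coplanar hdim hKc hKconv hKint u hu B hcov hn hperp
    (2 * inner ℝ c0 n - inner ℝ x₁ n) (inner ℝ x₁ n) ?_ hmax' ((2 : ℝ) • c0 - x₁) x₁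
    (hsym x₁ hx₁) hx₁ (hinn x₁) rfl c0 (by ring) (fun x hx _ => hsym x hx)
  intro x hx
  have h := hmax' _ (hsym x hx)
  rw [hinn] at h
  linarith

/-- Convex body whose sections orthogonal to `n` are all centrally symmetric (each about a point
of its own plane), all axes orthogonal to `n`: relative form. -/
theorem symslice_coplanar (hdim : Module.finrank ℝ E = 3) {K : Set E} (hKc : IsCompact K)
    (hKconv : Convex ℝ K) (hKint : (interior K).Nonempty)
    {ι : Type*} [Fintype ι] (u : ι → E) (hu : ∀ i, ‖u i‖ = 1)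
    (B : ∀ i, Set ↥(ℝ ∙ u i)ᗮ)
    (hcov : K ⊆ ⋃ i, (ℝ ∙ u i)ᗮ.orthogonalProjectionOnto ⁻¹' B i)
    {n : E} (hn : ‖n‖ = 1) (hperp : ∀ i, inner ℝ (u i) n = 0)
    (hsl : ∀ t : ℝ, ∃ c : E, inner ℝ c n = t ∧
      ∀ x ∈ K, inner ℝ x n = t → (2 : ℝ) • c - x ∈ K) :
    (1 / 2 : ℝ≥0∞) ≤
      ∑ i, volume (B i) / volume ((ℝ ∙ u i)ᗮ.orthogonalProjectionOnto '' K) := by
  have hne : K.Nonempty := hKint.mono interior_subset
  have hcont : Continuous fun x : E => inner ℝ x n := continuous_id.inner continuous_const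
  obtain ⟨x₁, hx₁, hmax⟩ := hKc.exists_isMaxOn hne hcont.continuousOn
  obtain ⟨x₀, hx₀, hmin⟩ := hKc.exists_isMinOn hne hcont.continuousOn
  obtain ⟨c, hc, hcs⟩ := hsl ((inner ℝ x₀ n + inner ℝ x₁ n) / 2)
  refine midsym_coplanar hdim hKc hKconv hKint u hu B hcov hn hperp
    (inner ℝ x₀ n) (inner ℝ x₁ n) (fun x hx => isMinOn_iff.mp hmin x hx)
    (fun x hx => isMaxOn_iff.mp hmax x hx) x₀ x₁ hx₀ hx₁ rfl rfl c ?_
    (fun x hx h => hcs x hx (by linarith))
  rw [hc]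
  ring

end Vale.Agent.Lib.P243
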