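import Mathlib

/-!
# A planar lemma on the area of the sum of a symmetric convex set and a segment

If `D` is a centrally symmetric compact convex set of the plane and `p` lies in no smaller
homothet of `D`, then every chord of `α D` in the direction `p` has (parameter) length at most
`2 α`. Adding the segment `(β - α) [-p, p]` lengthens every such chord by `2 (β - α)`, hence
multiplies its length by at least `β / α`. Integrating over the chords, in coordinates adapted
to `p`, gives the area bound.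
-/

namespace Vale.Agent.Lib.P243

open MeasureTheory Set

open scoped Pointwise

/-- Adapted coordinates: `(x, s) ↦ x • (-p.2, p.1) + s • p`. -/
noncomputable def symPlanar_T (p : ℝ × ℝ) : (ℝ × ℝ) →ₗ[ℝ] (ℝ × ℝ) :=
  (LinearMap.fst ℝ ℝ ℝ).smulRight ((-p.2, p.1) : ℝ × ℝ) + (LinearMap.snd ℝ ℝ ℝ).smulRight p

lemma symPlanar_T_apply (p : ℝ × ℝ) (x s : ℝ) :
    symPlanar_T p (x, s) = (x * (-p.2) + s * p.1, x * p.1 + s * p.2) := by
  ext <;> simp [symPlanar_T]

lemma symPlanar_T_add (p : ℝ × ℝ) (x a u : ℝ) :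
    symPlanar_T p (x, a + u) = symPlanar_T p (x, a) + u • p := by
  rw [symPlanar_T_apply, symPlanar_T_apply]
  ext
  · simp only [Prod.fst_add, Prod.smul_fst, smul_eq_mul]
    ring
  · simp only [Prod.snd_add, Prod.smul_snd, smul_eq_mul]
    ring

lemma symPlanar_T_surj {p : ℝ × ℝ} (hp : p ≠ 0) : Function.Surjective (symPlanar_T p) := by
  have hN : p.1 ^ 2 + p.2 ^ 2 ≠ 0 := by
    intro h
    apply hp
    have h1 : p.1 = 0 := by nlinarith [sq_nonneg p.1, sq_nonneg p.2]
    have h2 : p.2 = 0 := by nlinarith [sq_nonneg p.1, sq_nonneg p.2]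
    exact Prod.ext h1 h2
  intro y
  refine ⟨((-p.2 * y.1 + p.1 * y.2) / (p.1 ^ 2 + p.2 ^ 2),
    (p.1 * y.1 + p.2 * y.2) / (p.1 ^ 2 + p.2 ^ 2)), ?_⟩
  rw [symPlanar_T_apply]
  ext
  · simp only
    field_simp
    ring
  · simp only
    field_simp
    ring

/-- The one-dimensional step: lengthening a closed interval of length at most `ℓ` by `c` on both
sides multiplies its length by at least `1 + 2 c / ℓ`. -/
lemma symPlanar_line {A B : Set ℝ} (hA : IsClosed A) (hAconv : A.OrdConnected) {ℓ c : ℝ}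
    (hℓ : 0 < ℓ) (hc : 0 ≤ c) (hdiam : ∀ a ∈ A, ∀ b ∈ A, b - a ≤ ℓ)
    (hAB : ∀ a ∈ A, ∀ u : ℝ, -c ≤ u → u ≤ c → a + u ∈ B) :
    ENNReal.ofReal (1 + 2 * c / ℓ) * volume A ≤ volume B := by
  rcases A.eq_empty_or_nonempty with rfl | hne
  · simp
  obtain ⟨a₀, ha₀⟩ := hne
  have hba : BddAbove A := ⟨a₀ + ℓ, fun b hb => by have := hdiam a₀ ha₀ b hb; linarith⟩
  have hbb : BddBelow A := ⟨a₀ - ℓ, fun b hb => by have := hdiam b hb a₀ ha₀; linarith⟩
  have h1 : sInf A ∈ A := hA.csInf_mem ⟨a₀, ha₀⟩ hbb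
  have h2 : sSup A ∈ A := hA.csSup_mem ⟨a₀, ha₀⟩ hba
  have hsubA : A ⊆ Icc (sInf A) (sSup A) := fun y hy => ⟨csInf_le hbb hy, le_csSup hba hy⟩
  have hsubB : Icc (sInf A - c) (sSup A + c) ⊆ B := by
    intro y hy
    rcases le_total y (sInf A) with h | h
    · have h3 := hAB (sInf A) h1 (y - sInf A) (by linarith [hy.1]) (by linarith)
      rwa [add_sub_cancel] at h3
    · rcases le_total (sSup A) y with h' | h'
      · have h3 := hAB (sSup A) h2 (y - sSup A) (by linarith) (by linarith [hy.2])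
        rwa [add_sub_cancel] at h3
      · have hyA : y ∈ A := hAconv.out h1 h2 ⟨h, h'⟩
        have h3 := hAB y hyA 0 (by linarith) hc
        rwa [add_zero] at h3
  have hd := hdiam (sInf A) h1 (sSup A) h2
  have h12 : sInf A ≤ sSup A := (csInf_le hbb ha₀).trans (le_csSup hba ha₀)
  have hreal : (1 + 2 * c / ℓ) * (sSup A - sInf A) ≤ sSup A + c - (sInf A - c) := by
    have h3 : 2 * c / ℓ * (sSup A - sInf A) ≤ 2 * c / ℓ * ℓ :=
      mul_le_mul_of_nonneg_left hd (by positivity)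
    have h4 : 2 * c / ℓ * ℓ = 2 * c := by field_simp
    nlinarith
  calc ENNReal.ofReal (1 + 2 * c / ℓ) * volume A
      ≤ ENNReal.ofReal (1 + 2 * c / ℓ) * volume (Icc (sInf A) (sSup A)) := by
        gcongr
    _ = ENNReal.ofReal (1 + 2 * c / ℓ) * ENNReal.ofReal (sSup A - sInf A) := by
        rw [Real.volume_Icc]
    _ = ENNReal.ofReal ((1 + 2 * c / ℓ) * (sSup A - sInf A)) :=
        (ENNReal.ofReal_mul (by positivity)).symm
    _ ≤ ENNReal.ofReal (sSup A + c - (sInf A - c)) := ENNReal.ofReal_le_ofReal hreal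
    _ = volume (Icc (sInf A - c) (sSup A + c)) := Real.volume_Icc.symm
    _ ≤ volume B := measure_mono hsubB

/-- The planar step: if every chord of the closed convex set `D₀` in the direction `p` has
parameter length at most `ℓ` and `S` contains `D₀ + [-c p, c p]`, then the area of `S` is at
least `1 + 2 c / ℓ` times the area of `D₀`. -/
lemma symPlanar_key {p : ℝ × ℝ} (hp0 : p ≠ 0) {D₀ S : Set (ℝ × ℝ)} (hD₀ : IsClosed D₀)
    (hconv : Convex ℝ D₀) (hS : IsClosed S) {ℓ c : ℝ} (hℓ : 0 < ℓ) (hc : 0 ≤ c)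
    (hchord : ∀ a ∈ D₀, ∀ t : ℝ, a + t • p ∈ D₀ → t ≤ ℓ)
    (hsup : ∀ a ∈ D₀, ∀ u : ℝ, -c ≤ u → u ≤ c → a + u • p ∈ S) :
    ENNReal.ofReal (1 + 2 * c / ℓ) * volume D₀ ≤ volume S := by
  have hT : Continuous (symPlanar_T p) := (symPlanar_T p).continuous_of_finiteDimensional
  have hD'm : MeasurableSet (symPlanar_T p ⁻¹' D₀) := (hD₀.preimage hT).measurableSet
  have hS'm : MeasurableSet (symPlanar_T p ⁻¹' S) := (hS.preimage hT).measurableSet
  -- the sections
  have hsec : ∀ x : ℝ, ENNReal.ofReal (1 + 2 * c / ℓ)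
      * volume (Prod.mk x ⁻¹' (symPlanar_T p ⁻¹' D₀))
      ≤ volume (Prod.mk x ⁻¹' (symPlanar_T p ⁻¹' S)) := by
    intro x
    have hAcl : IsClosed (Prod.mk x ⁻¹' (symPlanar_T p ⁻¹' D₀)) :=
      (hD₀.preimage hT).preimage (Continuous.prodMk_right x)
    have hAconv : Convex ℝ (Prod.mk x ⁻¹' (symPlanar_T p ⁻¹' D₀)) := by
      intro y₁ h₁ y₂ h₂ a b ha hb hab
      show symPlanar_T p (x, a • y₁ + b • y₂) ∈ D₀
      have h3 : symPlanar_T p (x, a • y₁ + b • y₂)
          = a • symPlanar_T p (x, y₁) + b • symPlanar_T p (x, y₂) := by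
        rw [← map_smul, ← map_smul, ← map_add]
        congr 1
        ext
        · simp only [Prod.fst_add, Prod.smul_fst, smul_eq_mul]
          rw [← add_mul, hab, one_mul]
        · simp only [Prod.snd_add, Prod.smul_snd]
      rw [h3]
      exact hconv h₁ h₂ ha hb hab
    refine symPlanar_line hAcl hAconv.ordConnected hℓ hc ?_ ?_
    · intro a ha b hb
      have ha' : symPlanar_T p (x, a) ∈ D₀ := ha
      have hb' : symPlanar_T p (x, b) ∈ D₀ := hb
      have h3 : symPlanar_T p (x, b) = symPlanar_T p (x, a) + (b - a) • p := by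
        rw [← symPlanar_T_add, add_sub_cancel]
      rw [h3] at hb'
      exact hchord _ ha' _ hb'
    · intro a ha u hu1 hu2
      have ha' : symPlanar_T p (x, a) ∈ D₀ := ha
      show symPlanar_T p (x, a + u) ∈ S
      rw [symPlanar_T_add]
      exact hsup _ ha' u hu1 hu2
  -- integration over the sections
  have hint : ENNReal.ofReal (1 + 2 * c / ℓ) * volume (symPlanar_T p ⁻¹' D₀)
      ≤ volume (symPlanar_T p ⁻¹' S) := by
    rw [Measure.volume_eq_prod, Measure.prod_apply hD'm, Measure.prod_apply hS'm,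
      ← lintegral_const_mul _ (measurable_measure_prodMk_left hD'm)]
    exact lintegral_mono hsec
  -- back to the original coordinates
  calc ENNReal.ofReal (1 + 2 * c / ℓ) * volume D₀
      = ENNReal.ofReal (1 + 2 * c / ℓ)
          * volume (symPlanar_T p '' (symPlanar_T p ⁻¹' D₀)) := by
        rw [Set.image_preimage_eq D₀ (symPlanar_T_surj hp0)]
    _ = ENNReal.ofReal |LinearMap.det (symPlanar_T p)|
          * (ENNReal.ofReal (1 + 2 * c / ℓ) * volume (symPlanar_T p ⁻¹' D₀)) := by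
        rw [Measure.addHaar_image_linearMap]
        ring
    _ ≤ ENNReal.ofReal |LinearMap.det (symPlanar_T p)| * volume (symPlanar_T p ⁻¹' S) := by
        gcongr
    _ = volume (symPlanar_T p '' (symPlanar_T p ⁻¹' S)) :=
        (Measure.addHaar_image_linearMap _ _ _).symm
    _ ≤ volume S := measure_mono (Set.image_preimage_subset _ _)

theorem volume_add_segment_ge {D : Set (ℝ × ℝ)} (hDc : IsCompact D) (hDconv : Convex ℝ D)
    (hsym : ∀ x ∈ D, -x ∈ D) {p : ℝ × ℝ} (hp : ∀ s : ℝ, 0 < s → s < 1 → p ∉ s • D)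
    {α β : ℝ} (hα : 0 < α) (hαβ : α ≤ β) :
    ENNReal.ofReal (α * β) * volume D ≤
      volume ((fun q : (ℝ × ℝ) × ℝ => α • q.1 + (q.2 * (β - α)) • p) '' (D ×ˢ Icc (-1 : ℝ) 1)) := by
  rcases D.eq_empty_or_nonempty with rfl | hne
  · simp
  obtain ⟨x₀, hx₀⟩ := hne
  -- the origin lies in `D`, hence `p ≠ 0`
  have h0D : (0 : ℝ × ℝ) ∈ D := by
    have h := hDconv hx₀ (hsym x₀ hx₀) (by norm_num : (0 : ℝ) ≤ 1 / 2)
      (by norm_num : (0 : ℝ) ≤ 1 / 2) (by norm_num)
    have h2 : (1 / 2 : ℝ) • x₀ + (1 / 2 : ℝ) • -x₀ = 0 := by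
      rw [smul_neg, add_neg_cancel]
    rwa [h2] at h
  have hp0 : p ≠ 0 := by
    intro h
    refine hp (1 / 2) (by norm_num) (by norm_num) ⟨0, h0D, ?_⟩
    rw [h]
    exact smul_zero _
  have hD₀cl : IsClosed (α • D) := (hDc.smul α).isClosed
  have hD₀conv : Convex ℝ (α • D) := hDconv.smul α
  have hScl : IsClosed ((fun q : (ℝ × ℝ) × ℝ => α • q.1 + (q.2 * (β - α)) • p)
      '' (D ×ˢ Icc (-1 : ℝ) 1)) :=
    ((hDc.prod isCompact_Icc).image (by fun_prop)).isClosed
  -- chords of `α • D` in the direction `p`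
  have hchord : ∀ a ∈ α • D, ∀ t : ℝ, a + t • p ∈ α • D → t ≤ 2 * α := by
    rintro _ ⟨a, ha, rfl⟩ t ⟨b, hb, hb'⟩
    by_contra hcon
    have ht : 2 * α < t := not_le.1 hcon
    have ht0 : 0 < t := by linarith
    have hmid := hDconv hb (hsym a ha) (by norm_num : (0 : ℝ) ≤ 1 / 2)
      (by norm_num : (0 : ℝ) ≤ 1 / 2) (by norm_num)
    have hb2 : α • b = α • a + t • p := hb'
    have hmid2 : (1 / 2 : ℝ) • b + (1 / 2 : ℝ) • -a = (t / (2 * α)) • p := by
      have h3 : t • p = α • (b - a) := by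
        rw [smul_sub, hb2]
        abel
      have h4 : (t / (2 * α)) • p = (1 / (2 * α)) • (t • p) := by
        rw [smul_smul]
        congr 1
        ring
      have h6 : 1 / (2 * α) * α = 1 / 2 := by field_simp
      rw [h4, h3, smul_smul, h6, smul_sub, smul_neg, sub_eq_add_neg]
    rw [hmid2] at hmid
    refine hp (2 * α / t) (by positivity) ((div_lt_one ht0).2 ht) ⟨_, hmid, ?_⟩
    show (2 * α / t) • (t / (2 * α)) • p = p
    rw [smul_smul]
    have h5 : 2 * α / t * (t / (2 * α)) = 1 := by field_simp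
    rw [h5, one_smul]
  -- the image contains `α • D + [-(β - α) p, (β - α) p]`
  have hsup : ∀ a ∈ α • D, ∀ u : ℝ, -(β - α) ≤ u → u ≤ β - α →
      a + u • p ∈ (fun q : (ℝ × ℝ) × ℝ => α • q.1 + (q.2 * (β - α)) • p)
        '' (D ×ˢ Icc (-1 : ℝ) 1) := by
    rintro _ ⟨a, ha, rfl⟩ u hu1 hu2
    rcases (sub_nonneg.2 hαβ).eq_or_lt with h | h
    · have hu0 : u = 0 := by linarith
      refine ⟨(a, 0), ⟨ha, by simp⟩, ?_⟩
      simp [hu0]
    · refine ⟨(a, u / (β - α)), ⟨ha, ?_⟩, ?_⟩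
      · constructor
        · rw [le_div_iff₀ h]
          linarith
        · rw [div_le_iff₀ h]
          linarith
      · show α • a + (u / (β - α) * (β - α)) • p = α • a + u • p
        rw [div_mul_cancel₀ u h.ne']
  have key := symPlanar_key hp0 hD₀cl hD₀conv hScl (ℓ := 2 * α) (c := β - α) (by positivity)
    (sub_nonneg.2 hαβ) hchord hsup
  have hvol : volume (α • D) = ENNReal.ofReal (α ^ 2) * volume D := by
    rw [Measure.addHaar_smul]
    congr 2
    have h2 : Module.finrank ℝ (ℝ × ℝ) = 2 := by simp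
    rw [h2, abs_of_nonneg (by positivity)]
  have hconst : ENNReal.ofReal (α * β)
      = ENNReal.ofReal (1 + 2 * (β - α) / (2 * α)) * ENNReal.ofReal (α ^ 2) := by
    rw [← ENNReal.ofReal_mul (by
      have : 0 ≤ 2 * (β - α) / (2 * α) := div_nonneg (by linarith) (by positivity)
      linarith)]
    congr 1
    field_simp
    ring
  calc ENNReal.ofReal (α * β) * volume D
      = ENNReal.ofReal (1 + 2 * (β - α) / (2 * α)) * volume (α • D) := by
        rw [hvol, hconst, mul_assoc]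
    _ ≤ _ := key

end Vale.Agent.Lib.P243
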