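import Mathlib
import Vale.Agent.Lib.P243.VolLorenz
import Vale.Agent.Lib.P243.SymPlanar

/-! The roof bound for a centrally symmetric convex body.

For a centrally symmetric convex body `K` over the plane, a chord of length `h` over a point
`y` of the shadow `D` which lies in no homothet `s • D` with `s < m` forces
`h * (2 + m) * area D ≤ 6 * volume K`.
-/

open MeasureTheory Set
open scoped Pointwise

namespace Vale.Agent.Lib.P243

variable {K : Set ((ℝ × ℝ) × ℝ)}

private lemma chordLen_neg (hsym : ∀ x ∈ K, -x ∈ K) (y : ℝ × ℝ) :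
    chordLen K (-y) = chordLen K y := by
  have hset : Prod.mk (-y) ⁻¹' K = -(Prod.mk y ⁻¹' K) := by
    ext z
    simp only [mem_preimage, Set.mem_neg]
    constructor
    · intro hz
      have h1 := hsym _ hz
      simpa using h1
    · intro hz
      have h1 := hsym _ hz
      simpa using h1
  unfold chordLen
  rw [hset, Measure.measure_neg]

private lemma proj_sym (hsym : ∀ x ∈ K, -x ∈ K) :
    ∀ x ∈ Prod.fst '' K, -x ∈ Prod.fst '' K := by
  rintro x ⟨k, hk, rfl⟩
  exact ⟨-k, hsym k hk, rfl⟩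

/-- The chord over a point of the segment joining a point of the shadow to a point of the
segment `[-y, y]` is at least the corresponding fraction of the chord over `y`. -/
private lemma chordLen_mix_ge (hKc : IsCompact K) (hKconv : Convex ℝ K)
    (hsym : ∀ x ∈ K, -x ∈ K) {y : ℝ × ℝ} (hy : y ∈ Prod.fst '' K) {lam : ℝ} (hl0 : 0 ≤ lam)
    (hl1 : lam ≤ 1) {d : ℝ × ℝ} (hd : d ∈ Prod.fst '' K) {s : ℝ} (hs : s ∈ Icc (-1 : ℝ) 1) :
    lam * chordLen K y ≤ chordLen K ((1 - lam) • d + lam • (s • y)) := by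
  have hny : -y ∈ Prod.fst '' K := proj_sym hsym y hy
  set θ : ℝ := (1 + s) / 2 with hθ
  have hθ0 : 0 ≤ θ := by
    rw [hθ]
    linarith [hs.1]
  have hθ1 : θ ≤ 1 := by
    rw [hθ]
    linarith [hs.2]
  have hpt : (1 - θ) • (-y) + θ • y = s • y := by
    rw [smul_neg, ← neg_smul, ← add_smul]
    congr 1
    rw [hθ]
    ring
  have h1 := chordLen_concave hKc hKconv hny hy hθ0 hθ1
  rw [hpt, chordLen_neg hsym] at h1
  have hsy : s • y ∈ Prod.fst '' K := by
    rw [← hpt]
    exact proj_convex hKconv hny hy (by linarith) hθ0 (by ring)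
  have h2 := chordLen_concave hKc hKconv hd hsy hl0 hl1
  have h3 : 0 ≤ (1 - lam) * chordLen K d := mul_nonneg (by linarith) (chordLen_nonneg K d)
  have h4 : lam * chordLen K y ≤ lam * chordLen K (s • y) :=
    mul_le_mul_of_nonneg_left (by linarith) hl0
  linarith

/-- The area of a superlevel set of the chord length. -/
private lemma level_ge (hKc : IsCompact K) (hKconv : Convex ℝ K) (hsym : ∀ x ∈ K, -x ∈ K)
    {y : ℝ × ℝ} (hyD : y ∈ Prod.fst '' K) {m : ℝ} (hm0 : 0 ≤ m)
    (hy : ∀ s : ℝ, 0 < s → s < m → y ∉ s • (Prod.fst '' K)) {lam : ℝ} (hl0 : 0 < lam)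
    (hl1 : lam < 1) :
    ENNReal.ofReal ((1 - lam) * (1 - lam + lam * m)) * volume (Prod.fst '' K)
      ≤ volume {z | lam * chordLen K y ≤ chordLen K z} := by
  have hDc : IsCompact (Prod.fst '' K) := hKc.image continuous_fst
  have hDconv : Convex ℝ (Prod.fst '' K) := proj_convex hKconv
  have hDsym : ∀ x ∈ Prod.fst '' K, -x ∈ Prod.fst '' K := proj_sym hsym
  rcases hm0.eq_or_lt with hm | hm
  · have hsub : (1 - lam) • (Prod.fst '' K) ⊆ {z | lam * chordLen K y ≤ chordLen K z} := by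
      rintro _ ⟨d, hd, rfl⟩
      have h1 := chordLen_mix_ge hKc hKconv hsym hyD hl0.le hl1.le hd (s := 0)
        ⟨by norm_num, by norm_num⟩
      simpa using h1
    have hvol : volume ((1 - lam) • (Prod.fst '' K))
        = ENNReal.ofReal ((1 - lam) * (1 - lam + lam * m)) * volume (Prod.fst '' K) := by
      rw [Measure.addHaar_smul]
      congr 2
      have h2 : Module.finrank ℝ (ℝ × ℝ) = 2 := by simp
      rw [h2, abs_of_nonneg (sq_nonneg _), ← hm]
      ring
    rw [← hvol]
    exact measure_mono hsub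
  · have hpn : ∀ s : ℝ, 0 < s → s < 1 → m⁻¹ • y ∉ s • (Prod.fst '' K) := by
      intro s hs0 hs1 hmem
      obtain ⟨d, hd, hde⟩ := Set.mem_smul_set.mp hmem
      apply hy (s * m) (mul_pos hs0 hm) (by nlinarith)
      refine Set.mem_smul_set.mpr ⟨d, hd, ?_⟩
      rw [mul_comm, mul_smul, hde, smul_smul, mul_inv_cancel₀ hm.ne', one_smul]
    have hα : 0 < 1 - lam := by linarith
    have hαβ : 1 - lam ≤ 1 - lam + lam * m := by nlinarith [mul_pos hl0 hm]
    have hvol := volume_add_segment_ge hDc hDconv hDsym hpn hα hαβ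
    refine le_trans hvol (measure_mono ?_)
    rintro _ ⟨q, hq, rfl⟩
    have hmix := chordLen_mix_ge hKc hKconv hsym hyD hl0.le hl1.le hq.1 hq.2
    have he : (1 - lam) • q.1 + (q.2 * (1 - lam + lam * m - (1 - lam))) • m⁻¹ • y
        = (1 - lam) • q.1 + lam • (q.2 • y) := by
      congr 1
      rw [smul_smul, smul_smul]
      congr 1
      field_simp
      ring
    show lam * chordLen K y
      ≤ chordLen K ((1 - lam) • q.1 + (q.2 * (1 - lam + lam * m - (1 - lam))) • m⁻¹ • y)
    rw [he]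
    exact hmix

theorem roof_bound {K : Set ((ℝ × ℝ) × ℝ)} (hKc : IsCompact K) (hKconv : Convex ℝ K)
    (hKint : (interior K).Nonempty) (hsym : ∀ x ∈ K, -x ∈ K) (y : ℝ × ℝ) {m : ℝ}
    (hm0 : 0 ≤ m) (hm1 : m ≤ 1) (hy : ∀ s : ℝ, 0 < s → s < m → y ∉ s • (Prod.fst '' K)) :
    ENNReal.ofReal (chordLen K y * (2 + m)) * volume (Prod.fst '' K) ≤ 6 * volume K := by
  have _h1 := hKint
  have _h2 := hm1
  rcases (chordLen_nonneg K y).eq_or_lt with h0 | hpos
  · rw [← h0]
    simp
  have hyD : y ∈ Prod.fst '' K := by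
    by_contra hno
    rw [chordLen_eq_zero_of_notMem hno] at hpos
    exact lt_irrefl _ hpos
  have hlayer : volume K = ∫⁻ t in Ioi (0 : ℝ), volume {z | t ≤ chordLen K z} := by
    rw [volume_eq_lintegral_chord hKc]
    exact lintegral_eq_lintegral_meas_le volume
      (Filter.Eventually.of_forall (chordLen_nonneg K)) (chordLen_measurable hKc).aemeasurable
  obtain ⟨h, hh⟩ : ∃ h : ℝ, h = chordLen K y := ⟨_, rfl⟩
  rw [← hh] at hpos ⊢
  set g : ℝ → ℝ := fun t => (1 - t / h) * (1 - t / h + t / h * m) with hg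
  have hpt : ∀ t ∈ Ioo (0 : ℝ) h,
      ENNReal.ofReal (g t) * volume (Prod.fst '' K) ≤ volume {z | t ≤ chordLen K z} := by
    intro t ht
    have hl0 : 0 < t / h := div_pos ht.1 hpos
    have hl1 : t / h < 1 := (div_lt_one hpos).mpr ht.2
    have h3 := level_ge hKc hKconv hsym hyD hm0 hy hl0 hl1
    rw [← hh, div_mul_cancel₀ t hpos.ne'] at h3
    exact h3
  have hgc : Continuous g := by
    rw [hg]
    fun_prop
  have hint : ∫ t in (0 : ℝ)..h, g t = h * (2 + m) / 6 := by
    have hderiv : ∀ x ∈ uIcc 0 h, HasDerivAt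
        (fun t : ℝ => t + (m - 2) / (2 * h) * t ^ 2 + (1 - m) / (3 * h ^ 2) * t ^ 3) (g x) x := by
      intro x _
      have h1 := hasDerivAt_id x
      have h2 := (hasDerivAt_pow 2 x).const_mul ((m - 2) / (2 * h))
      have h3 := (hasDerivAt_pow 3 x).const_mul ((1 - m) / (3 * h ^ 2))
      have h4 := (h1.add h2).add h3
      have he : (1 : ℝ) + (m - 2) / (2 * h) * (((2 : ℕ) : ℝ) * x ^ (2 - 1))
          + (1 - m) / (3 * h ^ 2) * (((3 : ℕ) : ℝ) * x ^ (3 - 1)) = g x := by
        rw [hg]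
        have hne : h ≠ 0 := hpos.ne'
        simp only [Nat.cast_ofNat]
        norm_num
        field_simp
        ring
      rw [← he]
      exact h4
    rw [intervalIntegral.integral_eq_sub_of_hasDerivAt hderiv (hgc.intervalIntegrable _ _)]
    have hne : h ≠ 0 := hpos.ne'
    field_simp
    ring
  have hgnn : ∀ t ∈ Ioo (0 : ℝ) h, 0 ≤ g t := by
    intro t ht
    have hl0 : 0 < t / h := div_pos ht.1 hpos
    have hl1 : t / h < 1 := (div_lt_one hpos).mpr ht.2
    have h3 := mul_nonneg hl0.le hm0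
    exact mul_nonneg (by linarith) (by linarith)
  have hlin : ∫⁻ t in Ioo (0 : ℝ) h, ENNReal.ofReal (g t) = ENNReal.ofReal (h * (2 + m) / 6) := by
    rw [← hint, intervalIntegral.integral_of_le hpos.le, integral_Ioc_eq_integral_Ioo]
    exact (ofReal_integral_eq_lintegral_ofReal
      ((hgc.integrableOn_Icc).mono_set Ioo_subset_Icc_self)
      (ae_restrict_of_forall_mem measurableSet_Ioo hgnn)).symm
  have hD : volume (Prod.fst '' K) ≠ ⊤ := proj_volume_ne_top hKc
  have h6 : ENNReal.ofReal (h * (2 + m)) = 6 * ENNReal.ofReal (h * (2 + m) / 6) := by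
    have h7 : h * (2 + m) = 6 * (h * (2 + m) / 6) := by ring
    conv_lhs => rw [h7]
    rw [ENNReal.ofReal_mul (by norm_num)]
    norm_num
  calc ENNReal.ofReal (h * (2 + m)) * volume (Prod.fst '' K)
      = 6 * (ENNReal.ofReal (h * (2 + m) / 6) * volume (Prod.fst '' K)) := by
        rw [h6, mul_assoc]
    _ = 6 * ∫⁻ t in Ioo (0 : ℝ) h, ENNReal.ofReal (g t) * volume (Prod.fst '' K) := by
        rw [lintegral_mul_const' _ _ hD, hlin]
    _ ≤ 6 * ∫⁻ t in Ioo (0 : ℝ) h, volume {z | t ≤ chordLen K z} :=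
        mul_le_mul_right (setLIntegral_mono' measurableSet_Ioo hpt) 6
    _ ≤ 6 * ∫⁻ t in Ioi (0 : ℝ), volume {z | t ≤ chordLen K z} :=
        mul_le_mul_right (lintegral_mono_set Ioo_subset_Ioi_self) 6
    _ = 6 * volume K := by rw [hlayer]

end Vale.Agent.Lib.P243
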