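import Mathlib

/-!
A one-dimensional tent bound for convex functions.

A convex function on a segment which is at most `1` at both ends and at most `m` at some point
of the segment lies below a tent; integrating gives the bound `(b - a) * (2 + m)` for the
integral of `1 + 2 f`.
-/

open MeasureTheory Set

namespace Vale.Agent.Lib.P243

/-- The integral of a nonnegative affine function over a segment. -/
theorem symtent_affine (p q A B : ℝ) (hpq : p ≤ q) (hnn : ∀ t ∈ Icc p q, 0 ≤ A + B * t) :
    ∫⁻ t in Icc p q, ENNReal.ofReal (A + B * t)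
      = ENNReal.ofReal ((q - p) * (A + B * (p + q) / 2)) := by
  have hcont : Continuous (fun t : ℝ => A + B * t) := by fun_prop
  rw [← ofReal_integral_eq_lintegral_ofReal hcont.integrableOn_Icc
    ((ae_restrict_iff' measurableSet_Icc).2 (Filter.Eventually.of_forall hnn))]
  congr 1
  rw [integral_Icc_eq_integral_Ioc, ← intervalIntegral.integral_of_le hpq,
    intervalIntegral.integral_add (Continuous.intervalIntegrable (by fun_prop) _ _)
      (Continuous.intervalIntegrable (by fun_prop) _ _),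
    intervalIntegral.integral_const, intervalIntegral.integral_const_mul, integral_id]
  simp only [smul_eq_mul]
  ring

/-- One side of the tent: a convex function on `[p, q]` with end values at most `α` and `β`. -/
theorem symtent_piece {h : ℝ → ℝ} {p q α β : ℝ} (hpq : p ≤ q) (hh : ConvexOn ℝ (Icc p q) h)
    (hp : h p ≤ α) (hq : h q ≤ β) (hα : 0 ≤ α) (hβ : 0 ≤ β) :
    ∫⁻ t in Icc p q, ENNReal.ofReal (1 + 2 * h t) ≤ ENNReal.ofReal ((q - p) * (1 + α + β)) := by
  rcases hpq.eq_or_lt with rfl | hlt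
  · simp
  · have hd : 0 < q - p := sub_pos.2 hlt
    obtain ⟨A, hA⟩ : ∃ A : ℝ, A = 1 + 2 * (q * α - p * β) / (q - p) := ⟨_, rfl⟩
    obtain ⟨B, hB⟩ : ∃ B : ℝ, B = 2 * (β - α) / (q - p) := ⟨_, rfl⟩
    have h3 : ∀ t : ℝ, A + B * t
        = 1 + 2 * ((q - t) / (q - p) * α + (t - p) / (q - p) * β) := by
      intro t
      rw [hA, hB]
      field_simp
      ring
    have hnn : ∀ t ∈ Icc p q, 0 ≤ A + B * t := by
      intro t ht
      have hwp : 0 ≤ (q - t) / (q - p) := div_nonneg (sub_nonneg.2 ht.2) hd.le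
      have hwq : 0 ≤ (t - p) / (q - p) := div_nonneg (sub_nonneg.2 ht.1) hd.le
      rw [h3]
      have h1 := mul_nonneg hwp hα
      have h2 := mul_nonneg hwq hβ
      linarith
    have hpt : ∀ t ∈ Icc p q, 1 + 2 * h t ≤ A + B * t := by
      intro t ht
      have hwp : 0 ≤ (q - t) / (q - p) := div_nonneg (sub_nonneg.2 ht.2) hd.le
      have hwq : 0 ≤ (t - p) / (q - p) := div_nonneg (sub_nonneg.2 ht.1) hd.le
      have hsum : (q - t) / (q - p) + (t - p) / (q - p) = 1 := by
        field_simp
        ring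
      have hconv := hh.2 (left_mem_Icc.2 hlt.le) (right_mem_Icc.2 hlt.le) hwp hwq hsum
      have hcomb : ((q - t) / (q - p)) • p + ((t - p) / (q - p)) • q = t := by
        simp only [smul_eq_mul]
        field_simp
        ring
      rw [hcomb] at hconv
      simp only [smul_eq_mul] at hconv
      have h1 : (q - t) / (q - p) * h p ≤ (q - t) / (q - p) * α :=
        mul_le_mul_of_nonneg_left hp hwp
      have h2 : (t - p) / (q - p) * h q ≤ (t - p) / (q - p) * β :=
        mul_le_mul_of_nonneg_left hq hwq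
      rw [h3]
      linarith
    calc ∫⁻ t in Icc p q, ENNReal.ofReal (1 + 2 * h t)
        ≤ ∫⁻ t in Icc p q, ENNReal.ofReal (A + B * t) :=
          setLIntegral_mono' measurableSet_Icc
            (fun t ht => ENNReal.ofReal_le_ofReal (hpt t ht))
      _ = ENNReal.ofReal ((q - p) * (A + B * (p + q) / 2)) := symtent_affine p q A B hlt.le hnn
      _ = ENNReal.ofReal ((q - p) * (1 + α + β)) := by
          congr 2
          rw [hA, hB]
          field_simp
          ring

theorem lintegral_convex_tent {f : ℝ → ℝ} {a b c m : ℝ} (hc : c ∈ Icc a b)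
    (hf : ConvexOn ℝ (Icc a b) f) (hfa : f a ≤ 1) (hfb : f b ≤ 1) (hfc : f c ≤ m)
    (hf0 : ∀ x ∈ Icc a b, 0 ≤ f x) :
    ∫⁻ t in Icc a b, ENNReal.ofReal (1 + 2 * f t) ≤ ENNReal.ofReal ((b - a) * (2 + m)) := by
  have hm : 0 ≤ m := (hf0 c hc).trans hfc
  have hsplit : Icc a b = Icc a c ∪ Icc c b := (Icc_union_Icc_eq_Icc hc.1 hc.2).symm
  have h1 := symtent_piece hc.1 (hf.subset (Icc_subset_Icc le_rfl hc.2) (convex_Icc a c))
    hfa hfc zero_le_one hm
  have h2 := symtent_piece hc.2 (hf.subset (Icc_subset_Icc hc.1 le_rfl) (convex_Icc c b))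
    hfc hfb hm zero_le_one
  rw [hsplit]
  calc ∫⁻ t in Icc a c ∪ Icc c b, ENNReal.ofReal (1 + 2 * f t)
      ≤ (∫⁻ t in Icc a c, ENNReal.ofReal (1 + 2 * f t))
        + ∫⁻ t in Icc c b, ENNReal.ofReal (1 + 2 * f t) := lintegral_union_le _ _ _
    _ ≤ ENNReal.ofReal ((c - a) * (1 + 1 + m)) + ENNReal.ofReal ((b - c) * (1 + m + 1)) :=
        add_le_add h1 h2
    _ = ENNReal.ofReal ((b - a) * (2 + m)) := by
        rw [← ENNReal.ofReal_add (mul_nonneg (sub_nonneg.2 hc.1) (by linarith))
          (mul_nonneg (sub_nonneg.2 hc.2) (by linarith))]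
        congr 1
        ring

end Vale.Agent.Lib.P243
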