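import Mathlib
import Vale.Agent.Lib.P243.VolLorenz
import Vale.Agent.Lib.P243.SymTent
import Vale.Agent.Lib.P243.SymRoof

open MeasureTheory Set
open scoped Pointwise

namespace Vale.Agent.Lib.P243

variable {K : Set ((ℝ × ℝ) × ℝ)}

/-- A symmetric convex set with nonempty interior is a neighbourhood of the origin. -/
theorem zero_mem_interior_of_symm {F : Type*} [NormedAddCommGroup F] [NormedSpace ℝ F]
    {S : Set F} (hconv : Convex ℝ S) (hint : (interior S).Nonempty)
    (hsym : ∀ x ∈ S, -x ∈ S) : (0 : F) ∈ interior S := by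
  obtain ⟨x, hx⟩ := hint
  have hneg : -x ∈ interior S := by
    have hopen : IsOpen (Neg.neg ⁻¹' interior S : Set F) := isOpen_interior.preimage continuous_neg
    have hsub : (Neg.neg ⁻¹' interior S : Set F) ⊆ S := by
      intro z hz
      have := hsym (-z) (interior_subset hz)
      simpa using this
    have hmem : -x ∈ (Neg.neg ⁻¹' interior S : Set F) := by
      show - -x ∈ interior S
      rw [neg_neg]; exact hx
    exact interior_maximal hsub hopen hmem
  have hmid := hconv.interior hx hneg (by norm_num : (0 : ℝ) ≤ 1 / 2)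
    (by norm_num : (0 : ℝ) ≤ 1 / 2) (by norm_num)
  have : (1 / 2 : ℝ) • x + (1 / 2 : ℝ) • -x = 0 := by
    rw [smul_neg, add_neg_cancel]
  rwa [this] at hmid

/-- Convexity of the gauge of a convex neighbourhood of the origin. -/
theorem gauge_convexOn {F : Type*} [NormedAddCommGroup F] [NormedSpace ℝ F] {S : Set F}
    (hconv : Convex ℝ S) (h0 : S ∈ nhds (0 : F)) : ConvexOn ℝ univ (gauge S) := by
  refine ⟨convex_univ, fun x _ z _ a b ha hb _ => ?_⟩
  calc gauge S (a • x + b • z) ≤ gauge S (a • x) + gauge S (b • z) :=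
        gauge_add_le hconv (absorbent_nhds_zero h0) _ _
    _ = a • gauge S x + b • gauge S z := by
        rw [gauge_smul_of_nonneg ha, gauge_smul_of_nonneg hb]

/-- The vertical section of a compact convex set is a compact interval. -/
theorem section_eq_Icc (hKc : IsCompact K) (hKconv : Convex ℝ K) (y : ℝ × ℝ)
    (hne : (Prod.mk y ⁻¹' K).Nonempty) :
    ∃ a b : ℝ, a ≤ b ∧ Prod.mk y ⁻¹' K = Icc a b := by
  have hcl : IsClosed (Prod.mk y ⁻¹' K) := hKc.isClosed.preimage (by fun_prop)
  have hcomp : IsCompact (Prod.mk y ⁻¹' K) :=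
    Metric.isCompact_of_isClosed_isBounded hcl (section_bounded hKc.isBounded y)
  have hconn : IsConnected (Prod.mk y ⁻¹' K) := ⟨hne, (convex_section hKconv y).isPreconnected⟩
  have h := eq_Icc_of_connected_compact hconn hcomp
  refine ⟨sInf (Prod.mk y ⁻¹' K), sSup (Prod.mk y ⁻¹' K), ?_, h⟩
  obtain ⟨z, hz⟩ := hne
  rw [h] at hz
  exact le_trans hz.1 hz.2

/-- The chord integral of the weight `1 + 2 gauge` is at most `6 vol K / area (shadow)`. -/
theorem chord_gauge_le (hKc : IsCompact K) (hKconv : Convex ℝ K)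
    (hKint : (interior K).Nonempty) (hsym : ∀ x ∈ K, -x ∈ K) (y : ℝ × ℝ) :
    ∫⁻ t in Prod.mk y ⁻¹' K, ENNReal.ofReal (1 + 2 * gauge K (y, t)) ≤
      6 * volume K / volume (Prod.fst '' K) := by
  by_cases hne : (Prod.mk y ⁻¹' K).Nonempty
  swap
  · rw [not_nonempty_iff_eq_empty.mp hne, Measure.restrict_empty, lintegral_zero_measure]
    exact zero_le
  have h0int : (0 : (ℝ × ℝ) × ℝ) ∈ interior K := zero_mem_interior_of_symm hKconv hKint hsym
  have h0nhds : K ∈ nhds (0 : (ℝ × ℝ) × ℝ) := mem_interior_iff_mem_nhds.mp h0int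
  have h0K : (0 : (ℝ × ℝ) × ℝ) ∈ K := interior_subset h0int
  obtain ⟨a, b, hab, hsec⟩ := section_eq_Icc hKc hKconv y hne
  have hmemK : ∀ t ∈ Icc a b, (y, t) ∈ K := fun t ht => by
    have : t ∈ Prod.mk y ⁻¹' K := by rw [hsec]; exact ht
    exact this
  set f : ℝ → ℝ := fun t => gauge K (y, t) with hf
  have hfcont : Continuous f := (continuous_gauge hKconv h0nhds).comp (by fun_prop)
  have hfconv : ConvexOn ℝ (Icc a b) f := by
    refine ⟨convex_Icc a b, fun s _ t _ p q hp hq hpq => ?_⟩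
    have h := (gauge_convexOn hKconv h0nhds).2 (mem_univ (y, s)) (mem_univ (y, t)) hp hq hpq
    have e : p • ((y, s) : (ℝ × ℝ) × ℝ) + q • ((y, t) : (ℝ × ℝ) × ℝ) = (y, p • s + q • t) := by
      ext
      · simp [← add_smul, hpq]
      · simp [← add_smul, hpq]
      · simp
    rw [e] at h
    exact h
  have hf1 : ∀ t ∈ Icc a b, f t ≤ 1 := fun t ht => gauge_le_one_of_mem (hmemK t ht)
  have hf0 : ∀ t ∈ Icc a b, 0 ≤ f t := fun t _ => gauge_nonneg _
  obtain ⟨c, hc, hcmin⟩ := (isCompact_Icc (a := a) (b := b)).exists_isMinOn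
    (nonempty_Icc.mpr hab) hfcont.continuousOn
  have hm1 : f c ≤ 1 := hf1 c hc
  have htent := lintegral_convex_tent hc hfconv (hf1 a (left_mem_Icc.mpr hab))
    (hf1 b (right_mem_Icc.mpr hab)) (le_refl (f c)) hf0
  have hchord : chordLen K y = b - a := by
    show (volume (Prod.mk y ⁻¹' K)).toReal = b - a
    rw [hsec, Real.volume_Icc, ENNReal.toReal_ofReal (by linarith)]
  have hroofhyp : ∀ s : ℝ, 0 < s → s < f c → y ∉ s • (Prod.fst '' K) := by
    intro s hs0 hsm hmem
    obtain ⟨d, ⟨k, hk, hkd⟩, hdy⟩ := hmem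
    have hs1 : s ≤ 1 := le_trans hsm.le hm1
    have hsk : s • k ∈ K := hKconv.smul_mem_of_zero_mem h0K hk ⟨hs0.le, hs1⟩
    have hske : s • k = (y, s * k.2) := by
      ext
      · simp [← hdy, ← hkd]
      · simp [← hdy, ← hkd]
      · simp
    have hin : s * k.2 ∈ Icc a b := by
      have : s * k.2 ∈ Prod.mk y ⁻¹' K := by
        show (y, s * k.2) ∈ K
        rw [← hske]; exact hsk
      rwa [hsec] at this
    have h1 : f (s * k.2) ≤ s := by
      show gauge K (y, s * k.2) ≤ s
      rw [← hske, gauge_smul_of_nonneg hs0.le, smul_eq_mul]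
      calc s * gauge K k ≤ s * 1 := mul_le_mul_of_nonneg_left (gauge_le_one_of_mem hk) hs0.le
        _ = s := mul_one s
    have h2 : f c ≤ f (s * k.2) := hcmin hin
    linarith
  have hroof := roof_bound hKc hKconv hKint hsym y (hf0 c hc) hm1 hroofhyp
  rw [hchord] at hroof
  have hD0 : volume (Prod.fst '' K) ≠ 0 := (proj_volume_pos hKint).ne'
  have hDt : volume (Prod.fst '' K) ≠ ⊤ := proj_volume_ne_top hKc
  rw [hsec]
  refine le_trans htent ?_
  exact (ENNReal.le_div_iff_mul_le (Or.inl hD0) (Or.inl hDt)).mpr hroof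

/-- The weighted volume of the part of a symmetric convex body inside a vertical cylinder. -/
theorem sym_coord (hKc : IsCompact K) (hKconv : Convex ℝ K)
    (hKint : (interior K).Nonempty) (hsym : ∀ x ∈ K, -x ∈ K) {B : Set (ℝ × ℝ)}
    (hB : MeasurableSet B) :
    ∫⁻ p in K ∩ Prod.fst ⁻¹' B, ENNReal.ofReal (1 + 2 * gauge K p) ≤
      6 * volume K / volume (Prod.fst '' K) * volume B := by
  have h0int : (0 : (ℝ × ℝ) × ℝ) ∈ interior K := zero_mem_interior_of_symm hKconv hKint hsym
  have h0nhds : K ∈ nhds (0 : (ℝ × ℝ) × ℝ) := mem_interior_iff_mem_nhds.mp h0int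
  have hFm : Measurable (fun p : (ℝ × ℝ) × ℝ => ENNReal.ofReal (1 + 2 * gauge K p)) :=
    ENNReal.measurable_ofReal.comp
      ((continuous_const.add (continuous_const.mul (continuous_gauge hKconv h0nhds))).measurable)
  have hSm : MeasurableSet (K ∩ Prod.fst ⁻¹' B) := hKc.measurableSet.inter (measurable_fst hB)
  rw [← lintegral_indicator hSm, Measure.volume_eq_prod,
    lintegral_prod _ (hFm.indicator hSm).aemeasurable]
  have hinner : ∀ y : ℝ × ℝ,
      ∫⁻ t, (K ∩ Prod.fst ⁻¹' B).indicator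
        (fun p : (ℝ × ℝ) × ℝ => ENNReal.ofReal (1 + 2 * gauge K p)) (y, t) ≤
      B.indicator (fun _ => 6 * volume K / volume (Prod.fst '' K)) y := by
    intro y
    by_cases hy : y ∈ B
    · rw [indicator_of_mem hy]
      have e : (fun t : ℝ => (K ∩ Prod.fst ⁻¹' B).indicator
          (fun p : (ℝ × ℝ) × ℝ => ENNReal.ofReal (1 + 2 * gauge K p)) (y, t)) =
          (Prod.mk y ⁻¹' K).indicator (fun t : ℝ => ENNReal.ofReal (1 + 2 * gauge K (y, t))) := by
        funext t
        by_cases ht : (y, t) ∈ K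
        · rw [indicator_of_mem (show (y, t) ∈ K ∩ Prod.fst ⁻¹' B from ⟨ht, hy⟩),
            indicator_of_mem (show t ∈ Prod.mk y ⁻¹' K from ht)]
        · rw [indicator_of_notMem (fun h : (y, t) ∈ K ∩ Prod.fst ⁻¹' B => ht h.1),
            indicator_of_notMem (show t ∉ Prod.mk y ⁻¹' K from ht)]
      rw [e, lintegral_indicator (hKc.measurableSet.preimage (by fun_prop))]
      exact chord_gauge_le hKc hKconv hKint hsym y
    · rw [indicator_of_notMem hy]
      have e : (fun t : ℝ => (K ∩ Prod.fst ⁻¹' B).indicator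
          (fun p : (ℝ × ℝ) × ℝ => ENNReal.ofReal (1 + 2 * gauge K p)) (y, t)) = fun _ => 0 := by
        funext t
        exact indicator_of_notMem (fun h : (y, t) ∈ K ∩ Prod.fst ⁻¹' B => hy h.2) _
      rw [e, lintegral_zero]
  calc ∫⁻ y, ∫⁻ t, (K ∩ Prod.fst ⁻¹' B).indicator
        (fun p : (ℝ × ℝ) × ℝ => ENNReal.ofReal (1 + 2 * gauge K p)) (y, t)
      ≤ ∫⁻ y, B.indicator (fun _ => 6 * volume K / volume (Prod.fst '' K)) y :=
        lintegral_mono hinner
    _ = 6 * volume K / volume (Prod.fst '' K) * volume B := by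
        rw [lintegral_indicator hB, setLIntegral_const]

end Vale.Agent.Lib.P243
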