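import Mathlib

/-!
# The integral of `1 + 2 * gauge K` over a convex body `K` of three-space

By the layer cake formula and the scaling of the volume, the integral of the gauge of `K`
over `K` is `3 / 4` of the volume of `K`; hence the integral of `1 + 2 * gauge K` is `5 / 2`
of the volume.
-/

namespace Vale.Agent.Lib.P243

open MeasureTheory Set

open scoped Pointwise Topology

/-- The sublevel set of the gauge at a positive level is the dilate of the body. -/
lemma symMass_sublevel {E : Type*} [NormedAddCommGroup E] [InnerProductSpace ℝ E] {K : Set E}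
    (hKc : IsCompact K) (hKconv : Convex ℝ K) (hK0 : K ∈ 𝓝 (0 : E)) {t : ℝ} (ht : 0 < t) :
    {x : E | gauge K x ≤ t} = t • K := by
  ext x
  constructor
  · intro hx
    have hx' : gauge K x ≤ t := hx
    have h1 : gauge K (t⁻¹ • x) ≤ 1 := by
      rw [gauge_smul_of_nonneg (inv_nonneg.2 ht.le), smul_eq_mul]
      rw [inv_mul_le_iff₀ ht]
      linarith
    have h2 : t⁻¹ • x ∈ K := by
      have := (gauge_le_one_iff_mem_closure hKconv hK0).1 h1
      rwa [hKc.isClosed.closure_eq] at this
    refine ⟨t⁻¹ • x, h2, ?_⟩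
    show t • t⁻¹ • x = x
    rw [smul_smul, mul_inv_cancel₀ ht.ne', one_smul]
  · rintro ⟨k, hk, rfl⟩
    show gauge K (t • k) ≤ t
    rw [gauge_smul_of_nonneg ht.le, smul_eq_mul]
    have := gauge_le_one_of_mem hk
    nlinarith

section

variable {E : Type*} [NormedAddCommGroup E] [InnerProductSpace ℝ E]
  [MeasurableSpace E] [BorelSpace E] [FiniteDimensional ℝ E]

/-- The part of the body where the gauge exceeds `t` has volume `(1 - t ^ 3)` times the volume
of the body. -/
lemma symMass_layer (hdim : Module.finrank ℝ E = 3) {K : Set E} (hKc : IsCompact K)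
    (hKconv : Convex ℝ K) (hK0 : K ∈ 𝓝 (0 : E)) {t : ℝ} (ht : 0 < t) :
    (volume.restrict K) {x : E | t < gauge K x} = ENNReal.ofReal (1 - t ^ 3) * volume K := by
  have hgm : Measurable (gauge K) := (continuous_gauge hKconv hK0).measurable
  have hfin : volume K ≠ ⊤ := hKc.measure_lt_top.ne
  rw [Measure.restrict_apply (measurableSet_lt measurable_const hgm)]
  rcases le_or_gt t 1 with ht1 | ht1
  · have hset : {x : E | t < gauge K x} ∩ K = K \ {x : E | gauge K x ≤ t} := by
      ext x
      simp only [mem_inter_iff, mem_ofPred_eq, mem_sdiff, not_le]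
      tauto
    have hsub : {x : E | gauge K x ≤ t} ⊆ K := by
      intro x hx
      have hx' : gauge K x ≤ t := hx
      have := (gauge_le_one_iff_mem_closure hKconv hK0).1 (le_trans hx' ht1)
      rwa [hKc.isClosed.closure_eq] at this
    have hvol : volume {x : E | gauge K x ≤ t} = ENNReal.ofReal (t ^ 3) * volume K := by
      rw [symMass_sublevel hKc hKconv hK0 ht, Measure.addHaar_smul, hdim,
        abs_of_nonneg (by positivity)]
    have hm : MeasurableSet {x : E | gauge K x ≤ t} := measurableSet_le hgm measurable_const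
    have hfin2 : volume {x : E | gauge K x ≤ t} ≠ ⊤ :=
      ne_top_of_le_ne_top hfin (measure_mono hsub)
    rw [hset, measure_sdiff hsub hm.nullMeasurableSet hfin2, hvol,
      ENNReal.ofReal_sub 1 (by positivity), ENNReal.ofReal_one,
      ENNReal.sub_mul (fun _ _ => hfin), one_mul]
  · have hset : {x : E | t < gauge K x} ∩ K = ∅ := by
      ext x
      simp only [mem_inter_iff, mem_ofPred_eq, mem_empty_iff_false, iff_false, not_and]
      intro hx hxK
      have := gauge_le_one_of_mem hxK
      linarith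
    have h3 : 1 - t ^ 3 ≤ 0 := by
      have : (1 : ℝ) ≤ t ^ 3 := one_le_pow₀ ht1.le
      linarith
    rw [hset, measure_empty, ENNReal.ofReal_of_nonpos h3, zero_mul]

/-- The one-dimensional integral of the layer volumes. -/
lemma symMass_lintegral_layers :
    ∫⁻ t in Ioi (0 : ℝ), ENNReal.ofReal (1 - t ^ 3) = ENNReal.ofReal (3 / 4) := by
  have hsplit : Ioi (0 : ℝ) = Ioc 0 1 ∪ Ioi 1 := (Ioc_union_Ioi_eq_Ioi zero_le_one).symm
  have h2 : ∫⁻ t in Ioi (1 : ℝ), ENNReal.ofReal (1 - t ^ 3) = 0 := by
    have h : ∀ t ∈ Ioi (1 : ℝ), ENNReal.ofReal (1 - t ^ 3) = 0 := by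
      intro t ht
      have ht1 : (1 : ℝ) < t := ht
      have : (1 : ℝ) ≤ t ^ 3 := one_le_pow₀ ht1.le
      exact ENNReal.ofReal_of_nonpos (by linarith)
    rw [setLIntegral_congr_fun measurableSet_Ioi h, lintegral_zero]
  have hint : IntegrableOn (fun t : ℝ => 1 - t ^ 3) (Ioc 0 1) volume :=
    Continuous.integrableOn_Ioc (by fun_prop)
  have hnn : 0 ≤ᵐ[volume.restrict (Ioc (0 : ℝ) 1)] fun t : ℝ => 1 - t ^ 3 := by
    refine (ae_restrict_iff' measurableSet_Ioc).2 (Filter.Eventually.of_forall ?_)
    intro t ht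
    have h0 : 0 < t := ht.1
    have h1 : t ≤ 1 := ht.2
    have : t ^ 3 ≤ 1 := pow_le_one₀ h0.le h1
    show (0 : ℝ) ≤ 1 - t ^ 3
    linarith
  have h1 : ∫⁻ t in Ioc (0 : ℝ) 1, ENNReal.ofReal (1 - t ^ 3) = ENNReal.ofReal (3 / 4) := by
    rw [← ofReal_integral_eq_lintegral_ofReal hint.integrable hnn]
    congr 1
    rw [← intervalIntegral.integral_of_le zero_le_one]
    have h5 : ∫ t in (0 : ℝ)..1, (1 - t ^ 3) = (∫ _t in (0 : ℝ)..1, (1 : ℝ))
        - ∫ t in (0 : ℝ)..1, t ^ 3 :=
      intervalIntegral.integral_sub intervalIntegrable_const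
        (intervalIntegral.intervalIntegrable_pow 3)
    rw [h5, intervalIntegral.integral_const, integral_pow]
    norm_num
  rw [hsplit, lintegral_union measurableSet_Ioi
    (Set.disjoint_left.2 (fun t ht ht' => not_lt.2 ht.2 ht')), h1, h2, add_zero]

/-- The integral of the gauge of a convex body of three-space over the body. -/
lemma symMass_lintegral_gauge (hdim : Module.finrank ℝ E = 3) {K : Set E} (hKc : IsCompact K)
    (hKconv : Convex ℝ K) (hK0 : K ∈ 𝓝 (0 : E)) :
    ∫⁻ x in K, ENNReal.ofReal (gauge K x) = ENNReal.ofReal (3 / 4) * volume K := by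
  have hgm : Measurable (gauge K) := (continuous_gauge hKconv hK0).measurable
  rw [lintegral_eq_lintegral_meas_lt (volume.restrict K)
    (Filter.Eventually.of_forall (fun x => gauge_nonneg x)) hgm.aemeasurable]
  rw [setLIntegral_congr_fun measurableSet_Ioi
    (fun t ht => symMass_layer hdim hKc hKconv hK0 ht)]
  rw [lintegral_mul_const _ (by fun_prop), symMass_lintegral_layers]

end

theorem lintegral_gauge_body {E : Type*} [NormedAddCommGroup E] [InnerProductSpace ℝ E]
    [MeasurableSpace E] [BorelSpace E] [FiniteDimensional ℝ E]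
    (hdim : Module.finrank ℝ E = 3) (K : Set E) (hKc : IsCompact K) (hKconv : Convex ℝ K)
    (h0 : (0 : E) ∈ interior K) :
    ∫⁻ x in K, ENNReal.ofReal (1 + 2 * gauge K x) = ENNReal.ofReal (5 / 2) * volume K := by
  have hK0 : K ∈ 𝓝 (0 : E) := mem_interior_iff_mem_nhds.1 h0
  have hgm : Measurable (gauge K) := (continuous_gauge hKconv hK0).measurable
  have hpt : ∀ x : E, ENNReal.ofReal (1 + 2 * gauge K x)
      = 1 + 2 * ENNReal.ofReal (gauge K x) := by
    intro x
    have hg := gauge_nonneg (s := K) x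
    rw [ENNReal.ofReal_add zero_le_one (by positivity), ENNReal.ofReal_one,
      ENNReal.ofReal_mul zero_le_two, ENNReal.ofReal_ofNat]
  have h52 : ENNReal.ofReal (5 / 2) = 1 + 2 * ENNReal.ofReal (3 / 4) := by
    rw [← ENNReal.ofReal_ofNat 2, ← ENNReal.ofReal_mul zero_le_two, ← ENNReal.ofReal_one,
      ← ENNReal.ofReal_add zero_le_one (by norm_num)]
    norm_num
  simp_rw [hpt]
  rw [lintegral_add_left measurable_const, lintegral_const_mul _ hgm.ennreal_ofReal,
    symMass_lintegral_gauge hdim hKc hKconv hK0, setLIntegral_one, h52]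
  ring

end Vale.Agent.Lib.P243
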