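import Mathlib
import Vale.Agent.Lib.P243.VolFinal
import Vale.Agent.Lib.P243.Indexed

open MeasureTheory Set

namespace Vale.Agent.Lib.P243

variable {E : Type*} [NormedAddCommGroup E] [InnerProductSpace ℝ E] [MeasurableSpace E]
  [BorelSpace E] [FiniteDimensional ℝ E]

theorem relArea_single (K : Set E) (u : E) (B : Set ↥(ℝ ∙ u)ᗮ) :
    relArea K u (fun _ : Fin 1 => B) =
      volume B / volume ((ℝ ∙ u)ᗮ.orthogonalProjectionOnto '' K) := by
  simp [relArea]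

/-- The volume inequality for an indexed family of cylinders. -/
theorem volume_sigma_indexed (hdim : Module.finrank ℝ E = 3) (K : Set E) (hKc : IsCompact K)
    (hKconv : Convex ℝ K) (hKint : (interior K).Nonempty) {m : ℕ} (u : Fin m → E)
    (hu : ∀ i, u i ≠ 0) (B : ∀ i, Set ↥(ℝ ∙ u i)ᗮ)
    (hcov : K ⊆ ⋃ i, (ℝ ∙ u i)ᗮ.orthogonalProjectionOnto ⁻¹' B i)
    (σ : Fin m → ℝ) (hσ : ∀ i, 0 ≤ σ i ∧ σ i ≤ 1) :
    (1 : ENNReal) ≤ ∑ i, (ENNReal.ofReal (3 * (1 - σ i)) *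
      (volume (B i) / volume ((ℝ ∙ u i)ᗮ.orthogonalProjectionOnto '' K)) +
      ENNReal.ofReal (σ i ^ 3)) := by
  have hcov' : K ⊆ ⋃ i, ⋃ _ : Fin 1, (ℝ ∙ u i)ᗮ.orthogonalProjectionOnto ⁻¹' B i := by
    intro x hx
    obtain ⟨i, hi⟩ := mem_iUnion.mp (hcov hx)
    exact mem_iUnion.mpr ⟨i, mem_iUnion.mpr ⟨0, hi⟩⟩
  have h := volume_sigma hdim K hKc hKconv hKint u hu (n := fun _ => 1)
    (fun i _ => B i) hcov' σ hσ
  simp only [relArea_single] at h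
  exact h

/-- The sharp volume inequality for an indexed family of cylinders. -/
theorem volume_sharp_indexed (hdim : Module.finrank ℝ E = 3) (K : Set E) (hKc : IsCompact K)
    (hKconv : Convex ℝ K) (hKint : (interior K).Nonempty) {m : ℕ} (u : Fin m → E)
    (hu : ∀ i, u i ≠ 0) (B : ∀ i, Set ↥(ℝ ∙ u i)ᗮ)
    (hcov : K ⊆ ⋃ i, (ℝ ∙ u i)ᗮ.orthogonalProjectionOnto ⁻¹' B i)
    (hle : ∀ i, volume (B i) ≤ volume ((ℝ ∙ u i)ᗮ.orthogonalProjectionOnto '' K)) :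
    1 + 2 * ∑ i, (volume (B i) /
        volume ((ℝ ∙ u i)ᗮ.orthogonalProjectionOnto '' K)).toReal ^ (3 / 2 : ℝ) ≤
      3 * ∑ i, (volume (B i) / volume ((ℝ ∙ u i)ᗮ.orthogonalProjectionOnto '' K)).toReal := by
  have hcov' : K ⊆ ⋃ i, ⋃ _ : Fin 1, (ℝ ∙ u i)ᗮ.orthogonalProjectionOnto ⁻¹' B i := by
    intro x hx
    obtain ⟨i, hi⟩ := mem_iUnion.mp (hcov hx)
    exact mem_iUnion.mpr ⟨i, mem_iUnion.mpr ⟨0, hi⟩⟩
  have hle' : ∀ i, relArea K (u i) (fun _ : Fin 1 => B i) ≤ 1 := by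
    intro i
    rw [relArea_single]
    exact ENNReal.div_le_of_le_mul (by rw [one_mul]; exact hle i)
  have h := volume_sharp hdim K hKc hKconv hKint u hu (n := fun _ => 1)
    (fun i _ => B i) hcov' hle'
  simp only [relArea_single] at h
  exact h

/-- Regrouping an indexed family of cylinders whose axes take at most `d` directions into `d`
families of cylinders with a common axis direction each. -/
theorem regroup (K : Set E) (hKne : K.Nonempty) {m : ℕ} (u : Fin m → E)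
    (hu : ∀ i, u i ≠ 0) (B : ∀ i, Set ↥(ℝ ∙ u i)ᗮ)
    (hcov : K ⊆ ⋃ i, (ℝ ∙ u i)ᗮ.orthogonalProjectionOnto ⁻¹' B i)
    {d : ℕ} (v : Fin d → E) (hdir : ∀ i, ∃ j, u i ∈ ℝ ∙ v j) :
    ∃ (v' : Fin d → E) (_ : ∀ j, v' j ≠ 0) (B'' : (j : Fin d) → Fin m → Set ↥(ℝ ∙ v' j)ᗮ),
      (K ⊆ ⋃ j, ⋃ k, (ℝ ∙ v' j)ᗮ.orthogonalProjectionOnto ⁻¹' B'' j k) ∧
      ∑ j, relArea K (v' j) (B'' j) =
        ∑ i, volume (B i) / volume ((ℝ ∙ u i)ᗮ.orthogonalProjectionOnto '' K) := by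
  classical
  choose g hg using hdir
  obtain ⟨x₀, hx₀⟩ := hKne
  obtain ⟨i₀, -⟩ := mem_iUnion.mp (hcov hx₀)
  have hvg : ∀ i, v (g i) ≠ 0 := by
    intro i h0
    have := hg i
    rw [h0, Submodule.span_zero_singleton, Submodule.mem_bot] at this
    exact hu i this
  refine ⟨fun j => if v j = 0 then u i₀ else v j, ?_, ?_⟩
  · intro j
    by_cases h : v j = 0
    · simp only [if_pos h]; exact hu i₀
    · simp only [if_neg h]; exact h
  have hv'g : ∀ i, (if v (g i) = 0 then u i₀ else v (g i)) = v (g i) := fun i => if_neg (hvg i)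
  have hU : ∀ i, (ℝ ∙ u i)ᗮ = (ℝ ∙ (if v (g i) = 0 then u i₀ else v (g i)))ᗮ := by
    intro i
    rw [hv'g i, span_eq_of_mem (hu i) (hg i)]
  refine ⟨fun j k => if g k = j then
    castSet (ℝ ∙ u k)ᗮ (ℝ ∙ (if v j = 0 then u i₀ else v j))ᗮ (B k) else ∅, ?_, ?_⟩
  · intro x hx
    obtain ⟨i, hi⟩ := mem_iUnion.mp (hcov hx)
    refine mem_iUnion.mpr ⟨g i, mem_iUnion.mpr ⟨i, ?_⟩⟩
    simp only [mem_preimage, if_true]
    exact (proj_mem_castSet (hU i) (B i) x).mpr hi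
  · have hterm : ∀ j k, volume (if g k = j then
        castSet (ℝ ∙ u k)ᗮ (ℝ ∙ (if v j = 0 then u i₀ else v j))ᗮ (B k) else ∅) /
        volume ((ℝ ∙ (if v j = 0 then u i₀ else v j))ᗮ.orthogonalProjectionOnto '' K) =
        if g k = j then volume (B k) / volume ((ℝ ∙ u k)ᗮ.orthogonalProjectionOnto '' K)
          else 0 := by
      intro j k
      by_cases h : g k = j
      · subst h
        simp only [if_true]
        rw [volume_castSet (hU k), volume_proj_image_congr (hU k)]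
      · simp only [if_neg h, measure_empty, ENNReal.zero_div]
    simp only [relArea, div_eq_mul_inv, Finset.sum_mul]
    simp only [← div_eq_mul_inv]
    rw [Finset.sum_comm]
    apply Finset.sum_congr rfl
    intro k _
    rw [Finset.sum_congr rfl (fun j _ => hterm j k)]
    simp

/-- Relative form of the explicit bound for an indexed family of cylinders whose axes take at
most `d` directions, with a free parameter. -/
theorem many_dir_indexed_sigma (hdim : Module.finrank ℝ E = 3) (K : Set E) (hKc : IsCompact K)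
    (hKconv : Convex ℝ K) (hKint : (interior K).Nonempty) {m : ℕ} (u : Fin m → E)
    (hu : ∀ i, u i ≠ 0) (B : ∀ i, Set ↥(ℝ ∙ u i)ᗮ)
    (hcov : K ⊆ ⋃ i, (ℝ ∙ u i)ᗮ.orthogonalProjectionOnto ⁻¹' B i)
    {d : ℕ} (v : Fin d → E) (hdir : ∀ i, ∃ j, u i ∈ ℝ ∙ v j) {s : ℝ} (hs0 : 0 ≤ s)
    (hs1 : s < 1) :
    ENNReal.ofReal ((1 - d * s ^ 3) / (3 * (1 - s))) ≤
      ∑ i, volume (B i) / volume ((ℝ ∙ u i)ᗮ.orthogonalProjectionOnto '' K) := by
  obtain ⟨x₀, hx₀⟩ := hKint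
  obtain ⟨v', hv', B'', hcov'', hsum⟩ :=
    regroup K ⟨x₀, interior_subset hx₀⟩ u hu B hcov v hdir
  rw [← hsum]
  have hU := volume_uniform hdim K hKc hKconv ⟨x₀, hx₀⟩ v' hv' B'' hcov'' hs0 hs1.le
  have ha : 0 < 3 * (1 - s) := by linarith
  apply le_of_affine_bound ha (by positivity) hU
  rw [div_mul_cancel₀ _ ha.ne']

/-- Relative form of the explicit bound for an indexed family of cylinders whose axes take at
most `d` directions. -/
theorem many_dir_indexed (hdim : Module.finrank ℝ E = 3) (K : Set E) (hKc : IsCompact K)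
    (hKconv : Convex ℝ K) (hKint : (interior K).Nonempty) {m : ℕ} (u : Fin m → E)
    (hu : ∀ i, u i ≠ 0) (B : ∀ i, Set ↥(ℝ ∙ u i)ᗮ)
    (hcov : K ⊆ ⋃ i, (ℝ ∙ u i)ᗮ.orthogonalProjectionOnto ⁻¹' B i)
    {d : ℕ} (v : Fin d → E) (hdir : ∀ i, ∃ j, u i ∈ ℝ ∙ v j) :
    ENNReal.ofReal (1 / 3 + 2 / (9 * (√(3 * (d : ℝ)) - 1))) ≤
      ∑ i, volume (B i) / volume ((ℝ ∙ u i)ᗮ.orthogonalProjectionOnto '' K) := by
  obtain ⟨x₀, hx₀⟩ := hKint
  obtain ⟨v', hv', B'', hcov'', hsum⟩ :=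
    regroup K ⟨x₀, interior_subset hx₀⟩ u hu B hcov v hdir
  rw [← hsum]
  exact many_dir_rel hdim K hKc hKconv ⟨x₀, hx₀⟩ v' hv' B'' hcov''

/-- From the relative form to the half-area form, for an indexed family with unit axes. -/
theorem abs_of_rel_indexed (K : Set E) (hKc : IsCompact K) (hKne : K.Nonempty) {m : ℕ}
    (u : Fin m → E) (hu : ∀ i, ‖u i‖ = 1) (B : ∀ i, Set ↥(ℝ ∙ u i)ᗮ)
    (hcov : K ⊆ ⋃ i, (ℝ ∙ u i)ᗮ.orthogonalProjectionOnto ⁻¹' B i) {c : ENNReal}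
    (hc : c ≤ ∑ i, volume (B i) / volume ((ℝ ∙ u i)ᗮ.orthogonalProjectionOnto '' K)) :
    c * (⨅ e : {e : E // ‖e‖ = 1}, volume ((ℝ ∙ (e : E))ᗮ.orthogonalProjectionOnto '' K)) ≤
      ∑ i, volume (B i) := by
  set A := ⨅ e : {e : E // ‖e‖ = 1}, volume ((ℝ ∙ (e : E))ᗮ.orthogonalProjectionOnto '' K)
    with hA
  have hAle : ∀ i, A ≤ volume ((ℝ ∙ u i)ᗮ.orthogonalProjectionOnto '' K) := fun i =>
    iInf_le (fun e : {e : E // ‖e‖ = 1} =>
      volume ((ℝ ∙ (e : E))ᗮ.orthogonalProjectionOnto '' K)) ⟨u i, hu i⟩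
  by_cases hA0 : A = 0
  · rw [hA0, mul_zero]
    exact zero_le
  obtain ⟨x₀, hx₀⟩ := hKne
  obtain ⟨i₀, -⟩ := mem_iUnion.mp (hcov hx₀)
  have hfin : volume ((ℝ ∙ u i₀)ᗮ.orthogonalProjectionOnto '' K) ≠ ⊤ :=
    (hKc.image ((ℝ ∙ u i₀)ᗮ.orthogonalProjectionOnto).continuous).measure_lt_top.ne
  have hAfin : A ≠ ⊤ := ne_top_of_le_ne_top hfin (hAle i₀)
  have h1 : c ≤ (∑ i, volume (B i)) / A := by
    calc c ≤ ∑ i, volume (B i) / volume ((ℝ ∙ u i)ᗮ.orthogonalProjectionOnto '' K) := hc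
      _ ≤ ∑ i, volume (B i) / A :=
        Finset.sum_le_sum fun i _ => ENNReal.div_le_div_left (hAle i) _
      _ = (∑ i, volume (B i)) / A := by
        simp only [div_eq_mul_inv, Finset.sum_mul]
  exact (ENNReal.le_div_iff_mul_le (Or.inl hA0) (Or.inl hAfin)).mp h1

end Vale.Agent.Lib.P243
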