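import Mathlib
import Vale.Agent.Lib.P243.SymCoord
import Vale.Agent.Lib.P243.SymMass
import Vale.Agent.Lib.P243.VolTransfer
import Vale.Agent.Lib.P243.VolIndexed

open MeasureTheory Set
open scoped Pointwise

namespace Vale.Agent.Lib.P243

/-- The gauge of the preimage of a set under a linear equivalence. -/
theorem gauge_preimage_equiv {F G : Type*} [AddCommGroup F] [Module ℝ F] [AddCommGroup G]
    [Module ℝ G] (Ξ : F ≃ₗ[ℝ] G) (S : Set G) (p : F) :
    gauge (Ξ ⁻¹' S) p = gauge S (Ξ p) := by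
  rw [gauge_def', gauge_def']
  congr 1
  ext r
  simp only [Set.mem_ofPred_eq, mem_preimage, map_smul]

variable {E : Type*} [NormedAddCommGroup E] [InnerProductSpace ℝ E] [MeasurableSpace E]
  [BorelSpace E] [FiniteDimensional ℝ E]

/-- The weighted volume bound for one cylinder and a centrally symmetric convex body: the
integral of `1 + 2 gauge K` over the part of `K` inside the cylinder with axis direction `u`
and base `B` is at most `6 vol K |B| / |proj K|`. -/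
theorem sym_general (hdim : Module.finrank ℝ E = 3) (K : Set E) (hKc : IsCompact K)
    (hKconv : Convex ℝ K) (hKint : (interior K).Nonempty) (hsym : ∀ x ∈ K, -x ∈ K)
    (u : E) (hu : u ≠ 0) (B : Set ↥(ℝ ∙ u)ᗮ) (hB : MeasurableSet B) :
    ∫⁻ x in K ∩ (ℝ ∙ u)ᗮ.orthogonalProjectionOnto ⁻¹' B, ENNReal.ofReal (1 + 2 * gauge K x) ≤
      6 * volume K * (volume B / volume ((ℝ ∙ u)ᗮ.orthogonalProjectionOnto '' K)) := by
  have hfr : Module.finrank ℝ ↥(ℝ ∙ u)ᗮ = 2 := by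
    have hfact : Fact (Module.finrank ℝ E = 2 + 1) := ⟨hdim⟩
    exact Submodule.finrank_orthogonal_span_singleton hu
  have hfr2 : Module.finrank ℝ (ℝ × ℝ) = Module.finrank ℝ ↥(ℝ ∙ u)ᗮ := by
    rw [hfr]; simp
  let ψ : (ℝ × ℝ) ≃L[ℝ] ↥(ℝ ∙ u)ᗮ := ContinuousLinearEquiv.ofFinrankEq hfr2
  have hinj : Function.Injective (cylMap u (ψ : (ℝ × ℝ) →ₗ[ℝ] ↥(ℝ ∙ u)ᗮ)) :=
    cylMap_injective hu ψ.injective
  have hsurj : Function.Surjective (cylMap u (ψ : (ℝ × ℝ) →ₗ[ℝ] ↥(ℝ ∙ u)ᗮ)) :=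
    (LinearMap.injective_iff_surjective_of_finrank_eq_finrank (by simp [hdim])).mp hinj
  let Ξl : ((ℝ × ℝ) × ℝ) ≃ₗ[ℝ] E :=
    LinearEquiv.ofBijective (cylMap u (ψ : (ℝ × ℝ) →ₗ[ℝ] ↥(ℝ ∙ u)ᗮ)) ⟨hinj, hsurj⟩
  let Ξ : ((ℝ × ℝ) × ℝ) ≃L[ℝ] E := Ξl.toContinuousLinearEquiv
  have hΞ : ∀ p, (ℝ ∙ u)ᗮ.orthogonalProjectionOnto (Ξ p) = ψ p.1 := fun p =>
    cylMap_proj u (ψ : (ℝ × ℝ) →ₗ[ℝ] ↥(ℝ ∙ u)ᗮ) p
  set K' : Set ((ℝ × ℝ) × ℝ) := Ξ ⁻¹' K with hK'
  have hK'c : IsCompact K' := Ξ.toHomeomorph.isCompact_preimage.mpr hKc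
  have hK'conv : Convex ℝ K' :=
    hKconv.linear_preimage (cylMap u (ψ : (ℝ × ℝ) →ₗ[ℝ] ↥(ℝ ∙ u)ᗮ))
  have hK'int : (interior K').Nonempty := by
    have hpi : interior (Ξ ⁻¹' K) = Ξ ⁻¹' interior K :=
      (Ξ.toHomeomorph.preimage_interior K).symm
    rw [hK', hpi]
    obtain ⟨x, hx⟩ := hKint
    refine ⟨Ξ.symm x, ?_⟩
    show Ξ (Ξ.symm x) ∈ interior K
    rw [Ξ.apply_symm_apply]
    exact hx
  have hK'sym : ∀ p ∈ K', -p ∈ K' := by
    intro p hp
    show Ξ (-p) ∈ K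
    rw [map_neg]
    exact hsym _ hp
  set B' : Set (ℝ × ℝ) := ψ ⁻¹' B with hB'
  have hB'm : MeasurableSet B' := ψ.continuous.measurable hB
  have hmain := sym_coord hK'c hK'conv hK'int hK'sym hB'm
  have hset : K' ∩ Prod.fst ⁻¹' B' = Ξ ⁻¹' (K ∩ (ℝ ∙ u)ᗮ.orthogonalProjectionOnto ⁻¹' B) := by
    ext p
    simp only [mem_inter_iff, mem_preimage, hK', hB', hΞ]
  have hproj : Prod.fst '' K' = ψ ⁻¹' ((ℝ ∙ u)ᗮ.orthogonalProjectionOnto '' K) := by
    ext q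
    constructor
    · rintro ⟨p, hp, rfl⟩
      exact ⟨Ξ p, hp, hΞ p⟩
    · rintro ⟨k, hk, hkq⟩
      obtain ⟨p, rfl⟩ := Ξ.surjective k
      rw [hΞ] at hkq
      exact ⟨p, hk, ψ.injective hkq⟩
  have hHaar : (volume : Measure ((ℝ × ℝ) × ℝ)).IsAddHaarMeasure := by
    rw [Measure.volume_eq_prod]
    infer_instance
  obtain ⟨cE, hcE0, hcEt, hcE⟩ := exists_scale_gen (volume : Measure ((ℝ × ℝ) × ℝ))
    (volume : Measure E) Ξ
  obtain ⟨cF, hcF0, hcFt, hcF⟩ := exists_scale_gen (volume : Measure (ℝ × ℝ))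
    (volume : Measure ↥(ℝ ∙ u)ᗮ) ψ
  have hπm : Measurable ((ℝ ∙ u)ᗮ.orthogonalProjectionOnto : E → ↥(ℝ ∙ u)ᗮ) :=
    ((ℝ ∙ u)ᗮ.orthogonalProjectionOnto).continuous.measurable
  have hPm : MeasurableSet ((ℝ ∙ u)ᗮ.orthogonalProjectionOnto '' K) :=
    (hKc.image ((ℝ ∙ u)ᗮ.orthogonalProjectionOnto).continuous).measurableSet
  have e2 : volume K' = cE * volume K := hcE K hKc.measurableSet
  have e3 : volume B' = cF * volume B := hcF B hB
  have e4 : volume (Prod.fst '' K') =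
      cF * volume ((ℝ ∙ u)ᗮ.orthogonalProjectionOnto '' K) := by
    rw [hproj]; exact hcF _ hPm
  -- the weighted integral
  have h0int : (0 : E) ∈ interior K := zero_mem_interior_of_symm hKconv hKint hsym
  have h0nhds : K ∈ nhds (0 : E) := mem_interior_iff_mem_nhds.mp h0int
  have hFm : Measurable (fun x : E => ENNReal.ofReal (1 + 2 * gauge K x)) :=
    ENNReal.measurable_ofReal.comp
      ((continuous_const.add (continuous_const.mul (continuous_gauge hKconv h0nhds))).measurable)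
  have hAm : MeasurableSet (K ∩ (ℝ ∙ u)ᗮ.orthogonalProjectionOnto ⁻¹' B) :=
    hKc.measurableSet.inter (hπm hB)
  have hmap : Measure.map Ξ (volume : Measure ((ℝ × ℝ) × ℝ)) = cE • (volume : Measure E) := by
    ext S hS
    rw [Measure.map_apply Ξ.continuous.measurable hS, Measure.smul_apply, smul_eq_mul]
    exact hcE S hS
  have e1 : ∫⁻ p in K' ∩ Prod.fst ⁻¹' B', ENNReal.ofReal (1 + 2 * gauge K' p) =
      cE * ∫⁻ x in K ∩ (ℝ ∙ u)ᗮ.orthogonalProjectionOnto ⁻¹' B,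
        ENNReal.ofReal (1 + 2 * gauge K x) := by
    have hg : ∀ p, gauge K' p = gauge K (Ξ p) := fun p => gauge_preimage_equiv Ξl K p
    simp only [hg]
    rw [hset, ← setLIntegral_map hAm hFm Ξ.continuous.measurable, hmap,
      Measure.restrict_smul, lintegral_smul_measure, smul_eq_mul]
  rw [e1, e2, e3, e4] at hmain
  have hP0 : volume ((ℝ ∙ u)ᗮ.orthogonalProjectionOnto '' K) ≠ ⊤ :=
    (hKc.image ((ℝ ∙ u)ᗮ.orthogonalProjectionOnto).continuous).measure_lt_top.ne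
  have hrhs : 6 * (cE * volume K) /
      (cF * volume ((ℝ ∙ u)ᗮ.orthogonalProjectionOnto '' K)) * (cF * volume B) =
      cE * (6 * volume K *
        (volume B / volume ((ℝ ∙ u)ᗮ.orthogonalProjectionOnto '' K))) := by
    simp only [div_eq_mul_inv]
    rw [ENNReal.mul_inv (Or.inl hcF0) (Or.inl hcFt)]
    calc 6 * (cE * volume K) *
          (cF⁻¹ * (volume ((ℝ ∙ u)ᗮ.orthogonalProjectionOnto '' K))⁻¹) * (cF * volume B)
        = cE * (6 * volume K *
          (volume B * (volume ((ℝ ∙ u)ᗮ.orthogonalProjectionOnto '' K))⁻¹)) * (cF⁻¹ * cF) := by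
          ring
      _ = cE * (6 * volume K *
          (volume B * (volume ((ℝ ∙ u)ᗮ.orthogonalProjectionOnto '' K))⁻¹)) := by
          rw [ENNReal.inv_mul_cancel hcF0 hcFt, mul_one]
  rw [hrhs] at hmain
  exact (ENNReal.mul_le_mul_iff_right hcE0 hcEt).mp hmain

/-- Centrally symmetric convex bodies: every finite covering by cylinders has directionwise
relative area at least `5 / 12`. -/
theorem sym_indexed (hdim : Module.finrank ℝ E = 3) (K : Set E) (hKc : IsCompact K)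
    (hKconv : Convex ℝ K) (hKint : (interior K).Nonempty) (hsym : ∀ x ∈ K, -x ∈ K)
    {m : ℕ} (u : Fin m → E) (hu : ∀ i, u i ≠ 0) (B : ∀ i, Set ↥(ℝ ∙ u i)ᗮ)
    (hcov : K ⊆ ⋃ i, (ℝ ∙ u i)ᗮ.orthogonalProjectionOnto ⁻¹' B i) :
    ENNReal.ofReal (5 / 12) ≤
      ∑ i, volume (B i) / volume ((ℝ ∙ u i)ᗮ.orthogonalProjectionOnto '' K) := by
  have h0int : (0 : E) ∈ interior K := zero_mem_interior_of_symm hKconv hKint hsym
  have hmass := lintegral_gauge_body hdim K hKc hKconv h0int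
  have hVpos : volume K ≠ 0 :=
    (lt_of_lt_of_le (isOpen_interior.measure_pos volume hKint) (measure_mono interior_subset)).ne'
  have hVfin : volume K ≠ ⊤ := hKc.measure_lt_top.ne
  have hcov' : K ⊆ ⋃ i, (K ∩ (ℝ ∙ u i)ᗮ.orthogonalProjectionOnto ⁻¹'
      (toMeasurable volume (B i))) := by
    intro x hx
    obtain ⟨i, hi⟩ := mem_iUnion.mp (hcov hx)
    exact mem_iUnion.mpr ⟨i, hx, subset_toMeasurable _ _ hi⟩
  have h1 : ∫⁻ x in K, ENNReal.ofReal (1 + 2 * gauge K x) ≤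
      ∑ i, ∫⁻ x in K ∩ (ℝ ∙ u i)ᗮ.orthogonalProjectionOnto ⁻¹' (toMeasurable volume (B i)),
        ENNReal.ofReal (1 + 2 * gauge K x) := by
    calc ∫⁻ x in K, ENNReal.ofReal (1 + 2 * gauge K x)
        ≤ ∫⁻ x in ⋃ i, (K ∩ (ℝ ∙ u i)ᗮ.orthogonalProjectionOnto ⁻¹'
            (toMeasurable volume (B i))), ENNReal.ofReal (1 + 2 * gauge K x) :=
          lintegral_mono_set hcov'
      _ ≤ ∑' i, ∫⁻ x in K ∩ (ℝ ∙ u i)ᗮ.orthogonalProjectionOnto ⁻¹'
            (toMeasurable volume (B i)), ENNReal.ofReal (1 + 2 * gauge K x) :=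
          lintegral_iUnion_le _ _
      _ = ∑ i, ∫⁻ x in K ∩ (ℝ ∙ u i)ᗮ.orthogonalProjectionOnto ⁻¹'
            (toMeasurable volume (B i)), ENNReal.ofReal (1 + 2 * gauge K x) :=
          tsum_fintype _
  have h2 : ∀ i, ∫⁻ x in K ∩ (ℝ ∙ u i)ᗮ.orthogonalProjectionOnto ⁻¹'
      (toMeasurable volume (B i)), ENNReal.ofReal (1 + 2 * gauge K x) ≤
      6 * volume K * (volume (B i) / volume ((ℝ ∙ u i)ᗮ.orthogonalProjectionOnto '' K)) := by
    intro i
    have h := sym_general hdim K hKc hKconv hKint hsym (u i) (hu i) _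
      (measurableSet_toMeasurable volume (B i))
    rwa [measure_toMeasurable] at h
  have h3 : ENNReal.ofReal (5 / 2) * volume K ≤ volume K * (6 * ∑ i, volume (B i) /
      volume ((ℝ ∙ u i)ᗮ.orthogonalProjectionOnto '' K)) := by
    rw [← hmass]
    refine le_trans h1 ?_
    rw [Finset.mul_sum, Finset.mul_sum]
    refine Finset.sum_le_sum fun i _ => ?_
    refine le_trans (h2 i) (le_of_eq ?_)
    ring
  have h4 : ENNReal.ofReal (5 / 2) ≤ 6 * ∑ i, volume (B i) /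
      volume ((ℝ ∙ u i)ᗮ.orthogonalProjectionOnto '' K) := by
    rw [mul_comm (ENNReal.ofReal (5 / 2))] at h3
    exact (ENNReal.mul_le_mul_iff_right hVpos hVfin).mp h3
  have h5 : ENNReal.ofReal (5 / 12) * 6 = ENNReal.ofReal (5 / 2) := by
    rw [show (6 : ENNReal) = ENNReal.ofReal 6 by simp, ← ENNReal.ofReal_mul (by norm_num)]
    norm_num
  have h6 : (6 : ENNReal) * ENNReal.ofReal (5 / 12) ≤ 6 * ∑ i, volume (B i) /
      volume ((ℝ ∙ u i)ᗮ.orthogonalProjectionOnto '' K) := by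
    rw [mul_comm, h5]; exact h4
  exact (ENNReal.mul_le_mul_iff_right (by norm_num) (by norm_num)).mp h6

end Vale.Agent.Lib.P243
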