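import Mathlib
import Vale.Agent.Lib.P243.VolBM2

/-!
A planar area bound for the Minkowski combination of a centrally symmetric convex set with a
segment through its centre, used for the chord profile of a centrally symmetric convex body.
-/

open MeasureTheory Set

namespace Vale.Agent.Lib.P243

/-- The vertical sections of a centrally symmetric planar convex set which misses the point
`(0, r a)` have length at most `2 r |a|`. -/
theorem symroof_secLen_le {Q : Set (ℝ × ℝ)} (hQc : Convex ℝ Q) (hsym : ∀ p ∈ Q, -p ∈ Q)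
    {a r : ℝ} (hr : 0 < r) (hra : ((0 : ℝ), r * a) ∉ Q) (x : ℝ) :
    secLen Q x ≤ 2 * r * |a| := by
  have hdiam : Metric.ediam (Prod.mk x ⁻¹' Q) ≤ ENNReal.ofReal (2 * r * |a|) := by
    apply Metric.ediam_le
    intro z1 hz1 z2 hz2
    rw [edist_dist]
    apply ENNReal.ofReal_le_ofReal
    rw [Real.dist_eq]
    by_contra hcon
    push Not at hcon
    have h1 : (x, z1) ∈ Q := hz1
    have h2 : (-x, -z2) ∈ Q := by
      have := hsym (x, z2) hz2
      simpa using this
    have hmid : ((0 : ℝ), (z1 - z2) / 2) ∈ Q := by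
      have := hQc h1 h2 (by norm_num : (0 : ℝ) ≤ 1 / 2) (by norm_num : (0 : ℝ) ≤ 1 / 2)
        (by norm_num)
      have e : ((1 : ℝ) / 2) • (x, z1) + ((1 : ℝ) / 2) • (-x, -z2) = ((0 : ℝ), (z1 - z2) / 2) := by
        ext
        · simp
        · simp only [Prod.smul_mk, Prod.mk_add_mk, smul_eq_mul]
          ring
      rw [e] at this
      exact this
    have hmid' : ((0 : ℝ), -((z1 - z2) / 2)) ∈ Q := by
      have := hsym _ hmid
      simpa using this
    obtain ⟨u, hu⟩ : ∃ u : ℝ, u = (z1 - z2) / 2 := ⟨_, rfl⟩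
    rw [← hu] at hmid hmid'
    have hu_abs : r * |a| < |u| := by
      rw [hu, abs_div, abs_two]
      linarith
    have hupos : 0 < |u| := lt_of_le_of_lt (by positivity) hu_abs
    have hune : u ≠ 0 := abs_pos.mp hupos
    have hratio : |r * a / u| ≤ 1 := by
      rw [abs_div, abs_mul, abs_of_pos hr, div_le_one hupos]
      exact hu_abs.le
    have hl := abs_le.mp hratio
    apply hra
    have := hQc hmid hmid' (by linarith : (0 : ℝ) ≤ (1 + r * a / u) / 2)
      (by linarith : (0 : ℝ) ≤ (1 - r * a / u) / 2) (by ring)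
    have e : ((1 + r * a / u) / 2) • ((0 : ℝ), u) + ((1 - r * a / u) / 2) • ((0 : ℝ), -u)
        = ((0 : ℝ), r * a) := by
      ext
      · simp
      · simp only [Prod.smul_mk, Prod.mk_add_mk, smul_eq_mul]
        field_simp
        ring
    rw [e] at this
    exact this
  have hvol : volume (Prod.mk x ⁻¹' Q) ≤ ENNReal.ofReal (2 * r * |a|) :=
    (Real.volume_le_diam _).trans hdiam
  exact ENNReal.toReal_le_of_le_ofReal (by positivity) hvol

theorem symroof_secLen_zero {Q : Set (ℝ × ℝ)} {x : ℝ} (hx : x ∉ Prod.fst '' Q) :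
    secLen Q x = 0 := by
  have : Prod.mk x ⁻¹' Q = ∅ := by
    ext z
    simp only [mem_preimage, mem_empty_iff_false, iff_false]
    intro hz
    exact hx ⟨(x, z), hz, rfl⟩
  simp [secLen, this]

theorem symroof_fst_measurable {Q : Set (ℝ × ℝ)} (hQc : Convex ℝ Q) :
    MeasurableSet (Prod.fst '' Q) :=
  (hQc.linear_image (LinearMap.fst ℝ ℝ ℝ)).ordConnected.measurableSet

/-- The area of a centrally symmetric planar convex set which misses the point `(0, r a)` is at
most `2 r |a|` times the length of its horizontal shadow. -/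
theorem symroof_area_le {Q : Set (ℝ × ℝ)} (hQc : Convex ℝ Q) (hQb : Bornology.IsBounded Q)
    (hQm : MeasurableSet Q) (hsym : ∀ p ∈ Q, -p ∈ Q) {a r : ℝ} (hr : 0 < r)
    (hra : ((0 : ℝ), r * a) ∉ Q) :
    (volume Q).toReal ≤ 2 * r * |a| * (volume (Prod.fst '' Q)).toReal := by
  have hDm : MeasurableSet (Prod.fst '' Q) := symroof_fst_measurable hQc
  have hDfin : volume (Prod.fst '' Q) < ⊤ := hQb.image_fst.measure_lt_top
  have hind : Integrable (indicator (Prod.fst '' Q) (fun _ : ℝ => 2 * r * |a|)) := by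
    rw [integrable_indicator_iff hDm]
    exact integrableOn_const hDfin.ne
  rw [← secLen_integral hQm hQb]
  calc ∫ x, secLen Q x ≤ ∫ x, indicator (Prod.fst '' Q) (fun _ : ℝ => 2 * r * |a|) x := by
        apply integral_mono (secLen_integrable hQm hQb) hind
        intro x
        by_cases hx : x ∈ Prod.fst '' Q
        · rw [indicator_of_mem hx]
          exact symroof_secLen_le hQc hsym hr hra x
        · rw [indicator_of_notMem hx, symroof_secLen_zero hx]
    _ = 2 * r * |a| * (volume (Prod.fst '' Q)).toReal := by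
        rw [integral_indicator hDm, setIntegral_const, smul_eq_mul, measureReal_def]
        ring

/-- The planar area bound when the segment is vertical. -/
theorem roof_axis {Q S : Set (ℝ × ℝ)} (hQc : Convex ℝ Q) (hQb : Bornology.IsBounded Q)
    (hQm : MeasurableSet Q) (hsym : ∀ p ∈ Q, -p ∈ Q) {a r : ℝ} (hr : 0 < r)
    (hra : ((0 : ℝ), r * a) ∉ Q) {s : ℝ} (hs0 : 0 ≤ s) (hs1 : s ≤ 1) (hSm : MeasurableSet S)
    (hSb : Bornology.IsBounded S)
    (hmix : ∀ p ∈ Q, ∀ q : ℝ, |q| ≤ |a| → ((1 - s) * p.1, (1 - s) * p.2 + s * q) ∈ S) :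
    ((1 - s) ^ 2 + s * (1 - s) / r) * (volume Q).toReal ≤ (volume S).toReal := by
  rcases hs1.eq_or_lt with h1 | h1
  · subst h1
    simp
  have h1s : 0 < 1 - s := by linarith
  have hDm : MeasurableSet (Prod.fst '' Q) := symroof_fst_measurable hQc
  have hDfin : volume (Prod.fst '' Q) < ⊤ := hQb.image_fst.measure_lt_top
  have hpt : ∀ x : ℝ, (1 - s) * secLen Q x +
      indicator (Prod.fst '' Q) (fun _ : ℝ => s * (2 * |a|)) x ≤ secLen S ((1 - s) * x + 0) := by
    intro x
    by_cases hx : x ∈ Prod.fst '' Q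
    · rw [indicator_of_mem hx]
      have hne : (Prod.mk x ⁻¹' Q).Nonempty := by
        obtain ⟨p, hp, hpx⟩ := hx
        refine ⟨p.2, ?_⟩
        show (x, p.2) ∈ Q
        rw [← hpx]
        exact hp
      have hbm := bm_one (W := Prod.mk ((1 - s) * x + 0) ⁻¹' S) (convex_section hQc x)
        (section_bounded hQb x) hne (convex_Icc (-|a|) |a|) (Metric.isBounded_Icc _ _)
        (nonempty_Icc.mpr (by linarith [abs_nonneg a])) hs0 hs1 (by
          intro p hp q hq
          have := hmix (x, p) hp q (abs_le.mpr hq)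
          show ((1 - s) * x + 0, (1 - s) * p + s * q) ∈ S
          rw [add_zero]
          exact this)
      rw [Real.volume_Icc] at hbm
      have hfin : volume (Prod.mk ((1 - s) * x + 0) ⁻¹' S) ≠ ⊤ :=
        (section_bounded hSb _).measure_lt_top.ne
      have hfinQ : volume (Prod.mk x ⁻¹' Q) ≠ ⊤ := (section_bounded hQb _).measure_lt_top.ne
      have := ENNReal.toReal_mono hfin hbm
      rw [ENNReal.toReal_add (ENNReal.mul_ne_top ENNReal.ofReal_ne_top hfinQ)
        (ENNReal.mul_ne_top ENNReal.ofReal_ne_top ENNReal.ofReal_ne_top), ENNReal.toReal_mul,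
        ENNReal.toReal_mul, ENNReal.toReal_ofReal h1s.le, ENNReal.toReal_ofReal hs0,
        ENNReal.toReal_ofReal (by linarith [abs_nonneg a])] at this
      have e : |a| - -|a| = 2 * |a| := by ring
      rw [e] at this
      exact this
    · rw [indicator_of_notMem hx, symroof_secLen_zero hx, mul_zero, add_zero]
      exact secLen_nonneg _ _
  have hfQ := secLen_integrable hQm hQb
  have hind : Integrable (indicator (Prod.fst '' Q) (fun _ : ℝ => s * (2 * |a|))) := by
    rw [integrable_indicator_iff hDm]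
    exact integrableOn_const hDfin.ne
  have hgS : Integrable (fun x => secLen S ((1 - s) * x + 0)) :=
    integrable_comp_affine (secLen_integrable hSm hSb) h1s 0
  have hint : ∫ x, ((1 - s) * secLen Q x +
      indicator (Prod.fst '' Q) (fun _ : ℝ => s * (2 * |a|)) x) ≤
      ∫ x, secLen S ((1 - s) * x + 0) :=
    integral_mono_ae ((hfQ.const_mul (1 - s)).add hind) hgS (Filter.Eventually.of_forall hpt)
  rw [integral_add (hfQ.const_mul (1 - s)) hind, integral_const_mul,
    integral_comp_affine _ h1s, secLen_integral hQm hQb, secLen_integral hSm hSb,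
    integral_indicator hDm, setIntegral_const, smul_eq_mul, measureReal_def] at hint
  have harea := symroof_area_le hQc hQb hQm hsym hr hra
  obtain ⟨A, hA⟩ : ∃ A : ℝ, A = (volume Q).toReal := ⟨_, rfl⟩
  obtain ⟨B, hB⟩ : ∃ B : ℝ, B = (volume S).toReal := ⟨_, rfl⟩
  obtain ⟨w, hw⟩ : ∃ w : ℝ, w = (volume (Prod.fst '' Q)).toReal := ⟨_, rfl⟩
  rw [← hA, ← hB, ← hw] at hint
  rw [← hA, ← hw] at harea
  rw [← hA, ← hB]
  have h2 : A / r ≤ 2 * |a| * w := by
    rw [div_le_iff₀ hr]
    linarith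
  have h3 : (1 - s) * ((1 - s) * A + s * (A / r)) ≤ B := by
    have h4 : (1 - s) * A + s * (A / r) ≤ (1 - s)⁻¹ * B := by
      have := mul_le_mul_of_nonneg_left h2 hs0
      linarith
    calc (1 - s) * ((1 - s) * A + s * (A / r)) ≤ (1 - s) * ((1 - s)⁻¹ * B) :=
          mul_le_mul_of_nonneg_left h4 h1s.le
      _ = B := mul_inv_cancel_left₀ h1s.ne' B
  calc ((1 - s) ^ 2 + s * (1 - s) / r) * A = (1 - s) * ((1 - s) * A + s * (A / r)) := by
        field_simp
    _ ≤ B := h3

/-- Every vector of the plane is carried onto the vertical axis by a linear automorphism. -/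
theorem exists_axis_equiv (y : ℝ × ℝ) :
    ∃ (L : (ℝ × ℝ) ≃ₗ[ℝ] (ℝ × ℝ)) (a : ℝ), L y = ((0 : ℝ), a) := by
  by_cases h : y.1 = 0
  · refine ⟨LinearEquiv.refl ℝ (ℝ × ℝ), y.2, ?_⟩
    ext
    · simpa using h
    · simp
  · refine ⟨((LinearEquiv.refl ℝ ℝ).skewProd (LinearEquiv.refl ℝ ℝ)
      ((-(y.2 / y.1)) • (LinearMap.id : ℝ →ₗ[ℝ] ℝ))).trans (LinearEquiv.prodComm ℝ ℝ ℝ), y.1, ?_⟩
    ext
    · simp only [LinearEquiv.trans_apply, LinearEquiv.skewProd_apply, LinearEquiv.refl_apply,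
        LinearMap.smul_apply, LinearMap.id_coe, id_eq, smul_eq_mul, LinearEquiv.prodComm_apply,
        Prod.swap_prod_mk]
      field_simp
      ring
    · simp

/-- The planar area bound: if `Q` is a centrally symmetric bounded convex set in the plane which
misses the point `r y`, and `S` contains all points `(1 - s) p + s θ y` with `p` in `Q` and
`|θ| ≤ 1`, then the area of `S` is at least `(1 - s)^2 + s (1 - s) / r` times the area of `Q`. -/
theorem roof_planar {Q S : Set (ℝ × ℝ)} (hQc : Convex ℝ Q) (hQb : Bornology.IsBounded Q)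
    (hQm : MeasurableSet Q) (hsym : ∀ p ∈ Q, -p ∈ Q) {y : ℝ × ℝ} {r : ℝ} (hr : 0 < r)
    (hry : r • y ∉ Q) {s : ℝ} (hs0 : 0 ≤ s) (hs1 : s ≤ 1) (hSm : MeasurableSet S)
    (hSb : Bornology.IsBounded S)
    (hmix : ∀ p ∈ Q, ∀ θ : ℝ, |θ| ≤ 1 → (1 - s) • p + (s * θ) • y ∈ S) :
    ((1 - s) ^ 2 + s * (1 - s) / r) * (volume Q).toReal ≤ (volume S).toReal := by
  obtain ⟨L, a, hLy⟩ := exists_axis_equiv y
  have hLc : Continuous L := L.toLinearMap.continuous_of_finiteDimensional
  have hLsc : Continuous L.symm := L.symm.toLinearMap.continuous_of_finiteDimensional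
  have himg : ∀ T : Set (ℝ × ℝ), Bornology.IsBounded T → Bornology.IsBounded (L '' T) :=
    fun T hT => (hT.isCompact_closure.image hLc).isBounded.subset (image_mono subset_closure)
  have hmeas : ∀ T : Set (ℝ × ℝ), MeasurableSet T → MeasurableSet (L '' T) := by
    intro T hT
    rw [LinearEquiv.image_eq_preimage_symm]
    exact hLsc.measurable hT
  have hdet : LinearMap.det (L : (ℝ × ℝ) →ₗ[ℝ] (ℝ × ℝ)) ≠ 0 := (LinearEquiv.isUnit_det' L).ne_zero
  have hdpos : 0 < |LinearMap.det (L : (ℝ × ℝ) →ₗ[ℝ] (ℝ × ℝ))| := abs_pos.mpr hdet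
  have hvol : ∀ T : Set (ℝ × ℝ), (volume (L '' T)).toReal =
      |LinearMap.det (L : (ℝ × ℝ) →ₗ[ℝ] (ℝ × ℝ))| * (volume T).toReal := by
    intro T
    have := Measure.addHaar_image_linearMap volume (L : (ℝ × ℝ) →ₗ[ℝ] (ℝ × ℝ)) T
    have e : (L : (ℝ × ℝ) →ₗ[ℝ] (ℝ × ℝ)) '' T = L '' T := rfl
    rw [e] at this
    rw [this, ENNReal.toReal_mul, ENNReal.toReal_ofReal (abs_nonneg _)]
  have hsym' : ∀ p ∈ L '' Q, -p ∈ L '' Q := by
    rintro _ ⟨p, hp, rfl⟩
    exact ⟨-p, hsym p hp, map_neg L p⟩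
  have hra' : ((0 : ℝ), r * a) ∉ L '' Q := by
    rintro ⟨p, hp, hpe⟩
    have e : L (r • y) = ((0 : ℝ), r * a) := by
      rw [map_smul, hLy]
      ext <;> simp
    rw [← e] at hpe
    have := L.injective hpe
    rw [this] at hp
    exact hry hp
  have hmix' : ∀ p ∈ L '' Q, ∀ q : ℝ, |q| ≤ |a| →
      ((1 - s) * p.1, (1 - s) * p.2 + s * q) ∈ L '' S := by
    rintro _ ⟨p, hp, rfl⟩ q hq
    have hθ : |q / a| ≤ 1 := by
      rw [abs_div]
      exact div_le_one_of_le₀ hq (abs_nonneg a)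
    refine ⟨_, hmix p hp (q / a) hθ, ?_⟩
    rw [map_add, map_smul, map_smul, hLy]
    have hqa : s * (q / a) * a = s * q := by
      by_cases ha : a = 0
      · have hq0 : q = 0 := by
          rw [ha, abs_zero] at hq
          exact abs_eq_zero.mp (le_antisymm hq (abs_nonneg q))
        rw [ha, hq0]
        simp
      · field_simp
    ext
    · simp
    · simp only [Prod.smul_mk, smul_eq_mul, Prod.snd_add, Prod.smul_snd]
      rw [hqa]
  have hmain := roof_axis (hQc.linear_image (L : (ℝ × ℝ) →ₗ[ℝ] (ℝ × ℝ))) (himg Q hQb)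
    (hmeas Q hQm) hsym' hr hra' hs0 hs1 (hmeas S hSm) (himg S hSb) hmix'
  have e : (L : (ℝ × ℝ) →ₗ[ℝ] (ℝ × ℝ)) '' Q = L '' Q := rfl
  rw [e, hvol Q, hvol S] at hmain
  have h5 : |LinearMap.det (L : (ℝ × ℝ) →ₗ[ℝ] (ℝ × ℝ))| *
      (((1 - s) ^ 2 + s * (1 - s) / r) * (volume Q).toReal) ≤
      |LinearMap.det (L : (ℝ × ℝ) →ₗ[ℝ] (ℝ × ℝ))| * (volume S).toReal := by
    calc |LinearMap.det (L : (ℝ × ℝ) →ₗ[ℝ] (ℝ × ℝ))| *
          (((1 - s) ^ 2 + s * (1 - s) / r) * (volume Q).toReal)
        = ((1 - s) ^ 2 + s * (1 - s) / r) *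
          (|LinearMap.det (L : (ℝ × ℝ) →ₗ[ℝ] (ℝ × ℝ))| * (volume Q).toReal) := by ring
      _ ≤ _ := hmain
  exact le_of_mul_le_mul_left h5 hdpos

end Vale.Agent.Lib.P243
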