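import Mathlib
import Vale.Agent.Lib.P243.VolLorenz
import Vale.Agent.Lib.P243.SymRoofPlanar

/-!
The roof lemma for centrally symmetric convex bodies in the coordinate model: if the chord of
`K` over the base point `y` has length `m` and `r y` lies outside the shadow `P` of `K`, then
the volume of `K` is at least `m |P| (1/3 + 1/(6 r))`.
-/

open MeasureTheory Set

namespace Vale.Agent.Lib.P243

variable {K : Set ((ℝ × ℝ) × ℝ)}

/-- The chord function of a centrally symmetric set is even. -/
theorem chordLen_neg (hsym : ∀ p ∈ K, -p ∈ K) (y : ℝ × ℝ) : chordLen K (-y) = chordLen K y := by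
  have h : Prod.mk (-y) ⁻¹' K = Neg.neg ⁻¹' (Prod.mk y ⁻¹' K) := by
    ext z
    simp only [mem_preimage]
    constructor
    · intro hz
      have := hsym _ hz
      simpa using this
    · intro hz
      have := hsym _ hz
      simpa using this
  unfold chordLen
  rw [h, Measure.measure_preimage_neg]

/-- The shadow of a centrally symmetric set is centrally symmetric. -/
theorem proj_neg_mem (hsym : ∀ p ∈ K, -p ∈ K) {y : ℝ × ℝ} (hy : y ∈ Prod.fst '' K) :
    -y ∈ Prod.fst '' K := by
  obtain ⟨p, hp, rfl⟩ := hy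
  exact ⟨-p, hsym p hp, rfl⟩

/-- On the segment from `-y` to `y` the chords of a centrally symmetric convex body are at least
as long as the chord over `y`. -/
theorem chordLen_segment (hKc : IsCompact K) (hKconv : Convex ℝ K) (hsym : ∀ p ∈ K, -p ∈ K)
    {y : ℝ × ℝ} (hy : y ∈ Prod.fst '' K) {θ : ℝ} (hθ : |θ| ≤ 1) :
    θ • y ∈ Prod.fst '' K ∧ chordLen K y ≤ chordLen K (θ • y) := by
  have hl := abs_le.mp hθ
  have hny := proj_neg_mem hsym hy
  have e : (1 - (1 + θ) / 2) • (-y) + ((1 + θ) / 2) • y = θ • y := by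
    rw [smul_neg, ← neg_smul, ← add_smul]
    congr 1
    ring
  constructor
  · rw [← e]
    exact proj_convex hKconv hny hy (by linarith) (by linarith) (by ring)
  · have := chordLen_concave hKc hKconv hny hy (θ := (1 + θ) / 2) (by linarith) (by linarith)
    rw [e, chordLen_neg hsym] at this
    have e2 : (1 - (1 + θ) / 2) * chordLen K y + (1 + θ) / 2 * chordLen K y = chordLen K y := by
      ring
    rw [e2] at this
    exact this

/-- The level sets of the chord function of a centrally symmetric convex body: if the chord over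
`y` has length `m` and `r y` is outside the shadow, the set of base points with chord longer than
`s m` has area at least `(1 - s)^2 + s (1 - s) / r` times the area of the shadow. -/
theorem symroof_level (hKc : IsCompact K) (hKconv : Convex ℝ K) (hKint : (interior K).Nonempty)
    (hsym : ∀ p ∈ K, -p ∈ K) {y : ℝ × ℝ} (hy : y ∈ Prod.fst '' K) {r : ℝ} (hr : 0 < r)
    (hry : r • y ∉ Prod.fst '' K) {s : ℝ} (hs0 : 0 ≤ s) (hs1 : s < 1) :
    ((1 - s) ^ 2 + s * (1 - s) / r) * (volume (Prod.fst '' K)).toReal ≤
      levelArea K (s * chordLen K y) := by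
  rw [← levelArea_zero hKc hKconv hKint]
  show ((1 - s) ^ 2 + s * (1 - s) / r) * (volume (supLevel K 0)).toReal ≤
    (volume (supLevel K (s * chordLen K y))).toReal
  refine roof_planar (y := y) (supLevel_convex hKc hKconv 0) (supLevel_bounded hKc 0)
    (supLevel_measurable hKc 0) ?_ hr ?_ hs0 hs1.le (supLevel_measurable hKc _)
    (supLevel_bounded hKc _) ?_
  · intro p hp
    refine ⟨proj_neg_mem hsym hp.1, ?_⟩
    rw [chordLen_neg hsym]
    exact hp.2
  · intro h
    exact hry h.1
  · intro p hp θ hθ
    obtain ⟨hw, hwc⟩ := chordLen_segment hKc hKconv hsym hy hθ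
    have hq := chordLen_concave hKc hKconv hp.1 hw hs0 hs1.le
    rw [mul_smul]
    refine ⟨proj_convex hKconv hp.1 hw (by linarith) hs0 (by ring), ?_⟩
    have hp2 : 0 < chordLen K p := hp.2
    have h1 : 0 < (1 - s) * chordLen K p := mul_pos (by linarith) hp2
    have h2 : s * chordLen K y ≤ s * chordLen K (θ • y) := mul_le_mul_of_nonneg_left hwc hs0
    linarith

theorem symroof_integral_quadratic (A B C m : ℝ) :
    ∫ t in (0 : ℝ)..m, (A + B * t + C * t ^ 2) = A * m + B * m ^ 2 / 2 + C * m ^ 3 / 3 := by
  have hderiv : ∀ t ∈ uIcc (0 : ℝ) m,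
      HasDerivAt (fun t : ℝ => A * t + B * t ^ 2 / 2 + C * t ^ 3 / 3) (A + B * t + C * t ^ 2) t := by
    intro t _
    have h1 : HasDerivAt (fun t : ℝ => A * t) A t := by
      simpa using (hasDerivAt_id t).const_mul A
    have h2 : HasDerivAt (fun t : ℝ => B * t ^ 2 / 2) (B * t) t := by
      have := (((hasDerivAt_id t).pow 2).const_mul B).div_const 2
      refine this.congr_deriv ?_
      simp
      ring
    have h3 : HasDerivAt (fun t : ℝ => C * t ^ 3 / 3) (C * t ^ 2) t := by
      have := (((hasDerivAt_id t).pow 3).const_mul C).div_const 3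
      refine this.congr_deriv ?_
      simp
      ring
    exact (h1.add h2).add h3
  have hcont : Continuous fun t : ℝ => A + B * t + C * t ^ 2 := by fun_prop
  rw [intervalIntegral.integral_eq_sub_of_hasDerivAt hderiv (hcont.intervalIntegrable _ _)]
  ring

/-- The roof lemma: a centrally symmetric convex body `K` whose chord over the base point `y`
has length `m`, and whose shadow `P` does not contain `r y`, has volume at least
`m |P| (1/3 + 1/(6 r))`. -/
theorem roof (hK : IsCompact K) (hconv : Convex ℝ K) (hint : (interior K).Nonempty)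
    (hsym : ∀ p ∈ K, -p ∈ K) {y : ℝ × ℝ} (hy : y ∈ Prod.fst '' K) {r : ℝ} (hr : 0 < r)
    (hry : r • y ∉ Prod.fst '' K) :
    chordLen K y * (volume (Prod.fst '' K)).toReal * (1 / 3 + 1 / (6 * r)) ≤
      (volume K).toReal := by
  obtain ⟨M, hMpos, hM⟩ := chordLen_lt hK
  obtain ⟨m, hm⟩ : ∃ m : ℝ, m = chordLen K y := ⟨_, rfl⟩
  obtain ⟨P, hP⟩ : ∃ P : ℝ, P = (volume (Prod.fst '' K)).toReal := ⟨_, rfl⟩
  rw [← hm, ← hP]
  have hm0 : 0 ≤ m := by
    rw [hm]
    exact chordLen_nonneg K y
  have hVfin : volume K ≠ ⊤ := hK.measure_lt_top.ne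
  rcases hm0.eq_or_lt with h | hmpos
  · rw [← h, zero_mul, zero_mul]
    exact ENNReal.toReal_nonneg
  have hmM : m < M := by
    rw [hm]
    exact hM y
  have hVint : (volume K).toReal = ∫ t in (0 : ℝ)..M, levelArea K t := by
    have h1 : volume K = ∫⁻ t in Ioi 0, ENNReal.ofReal (levelArea K t) := by
      rw [volume_eq_lintegral_chord hK, lintegral_chord_layer hK volume]
      apply setLIntegral_congr_fun measurableSet_Ioi
      intro t ht
      show volume {y | t < chordLen K y} = ENNReal.ofReal (levelArea K t)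
      rw [ofReal_levelArea hK, supLevel_eq K (le_of_lt ht)]
    rw [lintegral_Ioi_levelArea hK hM hMpos.le le_rfl] at h1
    rw [h1, ENNReal.toReal_ofReal]
    exact intervalIntegral.integral_nonneg hMpos.le (fun t _ => levelArea_nonneg K t)
  have hii : ∀ a b : ℝ, IntervalIntegrable (levelArea K) volume a b :=
    fun a b => (levelArea_antitone hK).intervalIntegrable
  have hsplit : ∫ t in (0 : ℝ)..M, levelArea K t =
      (∫ t in (0 : ℝ)..m, levelArea K t) + ∫ t in m..M, levelArea K t :=
    (intervalIntegral.integral_add_adjacent_intervals (hii 0 m) (hii m M)).symm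
  have htail : 0 ≤ ∫ t in m..M, levelArea K t :=
    intervalIntegral.integral_nonneg hmM.le (fun t _ => levelArea_nonneg K t)
  have hpoly : ∀ t : ℝ, ((1 - t / m) ^ 2 + t / m * (1 - t / m) / r) * P =
      P + P * (1 / (m * r) - 2 / m) * t + P * (1 / m ^ 2 - 1 / (m ^ 2 * r)) * t ^ 2 := by
    intro t
    field_simp
    ring
  have hgcont : Continuous fun t : ℝ =>
      P + P * (1 / (m * r) - 2 / m) * t + P * (1 / m ^ 2 - 1 / (m ^ 2 * r)) * t ^ 2 := by
    fun_prop
  have hle : ∫ t in (0 : ℝ)..m,
      (P + P * (1 / (m * r) - 2 / m) * t + P * (1 / m ^ 2 - 1 / (m ^ 2 * r)) * t ^ 2) ≤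
      ∫ t in (0 : ℝ)..m, levelArea K t := by
    apply intervalIntegral.integral_mono_on hmpos.le (hgcont.intervalIntegrable _ _) (hii 0 m)
    intro t ht
    rw [← hpoly t]
    rcases ht.2.eq_or_lt with h | h
    · rw [h, div_self hmpos.ne']
      simp only [sub_self, ne_eq, OfNat.ofNat_ne_zero, not_false_eq_true, zero_pow, mul_zero,
        zero_div, add_zero, zero_mul]
      exact levelArea_nonneg K m
    · have hs1 : t / m < 1 := (div_lt_one hmpos).mpr h
      have hs0 : 0 ≤ t / m := div_nonneg ht.1 hmpos.le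
      have := symroof_level hK hconv hint hsym hy hr hry hs0 hs1
      rw [← hm, ← hP, div_mul_cancel₀ t hmpos.ne'] at this
      exact this
  rw [symroof_integral_quadratic] at hle
  have hval : P * m + P * (1 / (m * r) - 2 / m) * m ^ 2 / 2 +
        P * (1 / m ^ 2 - 1 / (m ^ 2 * r)) * m ^ 3 / 3 = m * P * (1 / 3 + 1 / (6 * r)) := by
    field_simp
    ring
  linarith

end Vale.Agent.Lib.P243
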