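import Mathlib
import Vale.Agent.Lib.P243.CoplanarCoord
import Vale.Agent.Lib.P243.BallPlanar

open MeasureTheory Set
open scoped ENNReal

namespace Vale.Agent.Lib.P243

/-- One summand: if `τ * κ ≤ W` with `τ, κ > 0` then `τ * (v / W) ≤ v / κ`. -/
theorem symsub_term (v : ℝ≥0∞) (t k W : ℝ) (ht : 0 < t) (hk : 0 < k) (hW : t * k ≤ W) :
    ENNReal.ofReal t * (v / ENNReal.ofReal W) ≤ v / ENNReal.ofReal k := by
  have h1 : v / ENNReal.ofReal W ≤ v / ENNReal.ofReal (t * k) :=
    ENNReal.div_le_div_left (ENNReal.ofReal_le_ofReal hW) v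
  have ht0 : ENNReal.ofReal t ≠ 0 := (ENNReal.ofReal_pos.mpr ht).ne'
  have htt : ENNReal.ofReal t ≠ ⊤ := ENNReal.ofReal_ne_top
  have h2 : ENNReal.ofReal t * (v / ENNReal.ofReal (t * k)) = v / ENNReal.ofReal k := by
    rw [ENNReal.ofReal_mul ht.le, ← mul_div_assoc, ENNReal.mul_div_mul_left _ _ ht0 htt]
  calc ENNReal.ofReal t * (v / ENNReal.ofReal W)
      ≤ ENNReal.ofReal t * (v / ENNReal.ofReal (t * k)) := by gcongr
    _ = v / ENNReal.ofReal k := h2

/-- Slicing lemma: the cylinders are the preimages of the sets `B i` under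
`(t, x, y) ↦ (t, a i * x + b i * y)`. Suppose the shadow of `K` in direction `i` has area at
most `κ i`, and for every level `z` with `τ z > 0` the section `fiber K z` contains a compact
convex centrally symmetric set whose width in every direction `i` is at least `τ z * κ i`.
Then the relative areas of the bases sum to at least the integral of `τ`. -/
theorem symsub_coord {K : Set (ℝ × ℝ × ℝ)} {ι : Type*} [Fintype ι]
    (a b : ι → ℝ) (hab : ∀ i, a i ^ 2 + b i ^ 2 = 1) (B : ι → Set (ℝ × ℝ))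
    (hB : ∀ i, MeasurableSet (B i))
    (hcov : ∀ p ∈ K, ∃ i, (p.1, a i * p.2.1 + b i * p.2.2) ∈ B i)
    (κ : ι → ℝ) (hκ : ∀ i, 0 < κ i)
    (hshadow : ∀ i, volume (dirShadow (a i) (b i) K) ≤ ENNReal.ofReal (κ i))
    (τ : ℝ → ℝ) (hτm : Measurable τ)
    (hτ : ∀ z, 0 < τ z → ∃ Q : Set (ℝ × ℝ), IsCompact Q ∧ Convex ℝ Q ∧ Q.Nonempty ∧
      (∃ c0 : ℝ × ℝ, ∀ q ∈ Q, (2 : ℝ) • c0 - q ∈ Q) ∧ Q ⊆ fiber K z ∧
      ∀ i, τ z * κ i ≤ sSup ((fun q : ℝ × ℝ => a i * q.1 + b i * q.2) '' Q) -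
        sInf ((fun q : ℝ × ℝ => a i * q.1 + b i * q.2) '' Q)) :
    ∫⁻ z, ENNReal.ofReal (τ z) ≤ ∑ i, volume (B i) / volume (dirShadow (a i) (b i) K) := by
  -- the pointwise bound
  have hpt : ∀ z, ENNReal.ofReal (τ z) ≤ ∑ i, volume (slice (B i) z) / ENNReal.ofReal (κ i) := by
    intro z
    rcases le_or_gt (τ z) 0 with hz | hz
    · rw [ENNReal.ofReal_of_nonpos hz]
      exact zero_le
    · obtain ⟨Q, hQc, hQconv, hQne, ⟨c0, hsym⟩, hQsub, hw⟩ := hτ z hz
      have hball := ball_planar hQc hQconv hQne c0 hsym a b hab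
        (fun i => slice (B i) z) (fun p hp => hcov (z, p) (hQsub hp))
        (fun i => by
          have h := hw i
          have h2 := mul_pos hz (hκ i)
          linarith)
      calc ENNReal.ofReal (τ z) = ENNReal.ofReal (τ z) * 1 := (mul_one _).symm
        _ ≤ ENNReal.ofReal (τ z) * ∑ i, volume (slice (B i) z) / ENNReal.ofReal
            (sSup ((fun p : ℝ × ℝ => a i * p.1 + b i * p.2) '' Q) -
              sInf ((fun p : ℝ × ℝ => a i * p.1 + b i * p.2) '' Q)) := by
            gcongr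
        _ = ∑ i, ENNReal.ofReal (τ z) * (volume (slice (B i) z) / ENNReal.ofReal
            (sSup ((fun p : ℝ × ℝ => a i * p.1 + b i * p.2) '' Q) -
              sInf ((fun p : ℝ × ℝ => a i * p.1 + b i * p.2) '' Q))) := Finset.mul_sum _ _ _
        _ ≤ ∑ i, volume (slice (B i) z) / ENNReal.ofReal (κ i) :=
            Finset.sum_le_sum (fun i _ => symsub_term _ _ _ _ hz (hκ i) (hw i))
  -- integration
  have hint : ∫⁻ z, ∑ i, volume (slice (B i) z) / ENNReal.ofReal (κ i)
      = ∑ i, volume (B i) / ENNReal.ofReal (κ i) := by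
    rw [lintegral_finsetSum _ (fun i _ => (measurable_vol_slice (hB i)).div_const _)]
    refine Finset.sum_congr rfl (fun i _ => ?_)
    simp only [div_eq_mul_inv]
    rw [lintegral_mul_const _ (measurable_vol_slice (hB i)), ← vol_eq_lintegral_slice' (hB i)]
  calc ∫⁻ z, ENNReal.ofReal (τ z)
      ≤ ∫⁻ z, ∑ i, volume (slice (B i) z) / ENNReal.ofReal (κ i) := lintegral_mono hpt
    _ = ∑ i, volume (B i) / ENNReal.ofReal (κ i) := hint
    _ ≤ ∑ i, volume (B i) / volume (dirShadow (a i) (b i) K) :=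
        Finset.sum_le_sum (fun i _ => ENNReal.div_le_div_left (hshadow i) _)

end Vale.Agent.Lib.P243
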