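import Mathlib

/-!
# A one-dimensional tail bound for a profile whose square root is star-concave
-/

open MeasureTheory Set
open scoped ENNReal

namespace Vale.Agent.Lib.P243

/-- The integral of the cone profile `P * (1 - t / h) ^ 2` over `(a, b]`. -/
lemma lintegral_cone (P h a b : ℝ) (hP : 0 ≤ P) (hh : 0 < h) (hab : a ≤ b) :
    ∫⁻ t in Ioc a b, ENNReal.ofReal (P * (1 - t / h) ^ 2)
      = ENNReal.ofReal (P * h / 3 * ((1 - a / h) ^ 3 - (1 - b / h) ^ 3)) := by
  have hcont : Continuous (fun t : ℝ => P * (1 - t / h) ^ 2) := by fun_prop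
  rw [← ofReal_integral_eq_lintegral_ofReal hcont.integrableOn_Ioc
    (Filter.Eventually.of_forall (fun t => by positivity))]
  congr 1
  rw [← intervalIntegral.integral_of_le hab]
  have hderiv : ∀ t ∈ uIcc a b,
      HasDerivAt (fun t : ℝ => -(P * h / 3) * (1 - t / h) ^ 3) (P * (1 - t / h) ^ 2) t := by
    intro t _
    have h1 : HasDerivAt (fun t : ℝ => 1 - t / h) (-(1 / h)) t := by
      simpa using ((hasDerivAt_id t).div_const h).const_sub 1
    have h2 : HasDerivAt (fun t : ℝ => -(P * h / 3) * (1 - t / h) ^ 3)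
        (-(P * h / 3) * (3 * (1 - t / h) ^ 2 * (-(1 / h)))) t := by
      simpa using (h1.pow 3).const_mul (-(P * h / 3))
    have e : -(P * h / 3) * (3 * (1 - t / h) ^ 2 * (-(1 / h))) = P * (1 - t / h) ^ 2 := by
      field_simp
    rw [e] at h2
    exact h2
  rw [intervalIntegral.integral_eq_sub_of_hasDerivAt hderiv (hcont.intervalIntegrable _ _)]
  ring

theorem tail_bound (m : ℝ → ℝ≥0∞) (hanti : Antitone m)
    (hP0 : m 0 ≠ 0) (hPtop : m 0 ≠ ⊤)
    (hVtop : ∫⁻ t in Ioi (0:ℝ), m t ≠ ⊤)
    (hstar : ∀ t₁ t₂ : ℝ, 0 ≤ t₁ → t₁ ≤ t₂ → m t₂ ≠ 0 →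
        (t₂ - t₁) * √(m 0).toReal + t₁ * √(m t₂).toReal ≤ t₂ * √(m t₁).toReal)
    (σ : ℝ) (hσ0 : 0 ≤ σ) (hσ1 : σ ≤ 1) :
    ∫⁻ t in Ioi (3 * (1 - σ) * (∫⁻ t in Ioi (0:ℝ), m t).toReal / (m 0).toReal), m t
      ≤ ENNReal.ofReal (σ ^ 3) * ∫⁻ t in Ioi (0:ℝ), m t := by
  set P : ℝ := (m 0).toReal with hPdef
  set I : ℝ≥0∞ := ∫⁻ t in Ioi (0:ℝ), m t with hIdef
  set V : ℝ := I.toReal with hVdef
  have hPpos : 0 < P := ENNReal.toReal_pos hP0 hPtop
  have hV0 : 0 ≤ V := ENNReal.toReal_nonneg
  have hIV : I = ENNReal.ofReal V := (ENNReal.ofReal_toReal hVtop).symm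
  have hmtop : ∀ t, 0 ≤ t → m t ≠ ⊤ := fun t ht => ne_top_of_le_ne_top hPtop (hanti ht)
  have hmf : ∀ t, 0 ≤ t → m t = ENNReal.ofReal (m t).toReal :=
    fun t ht => (ENNReal.ofReal_toReal (hmtop t ht)).symm
  have hσ3 : 0 ≤ σ ^ 3 := by positivity
  have hRHS : ENNReal.ofReal (σ ^ 3) * I = ENNReal.ofReal (V * σ ^ 3) := by
    rw [hIV, ← ENNReal.ofReal_mul hσ3, mul_comm]
  rw [hRHS]
  rcases eq_or_lt_of_le hV0 with hVz | hVpos
  · have hκ : 3 * (1 - σ) * V / P = 0 := by
      rw [← hVz]
      simp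
    have hI0 : I = 0 := by
      rw [hIV, ← hVz]
      simp
    rw [hκ, ← hIdef, hI0]
    simp
  · set h : ℝ := 3 * V / P with hhdef
    have hhpos : 0 < h := by positivity
    set κ : ℝ := 3 * (1 - σ) * V / P with hκdef
    have hκh : κ = (1 - σ) * h := by
      rw [hκdef, hhdef]
      ring
    have hκ0 : 0 ≤ κ := by
      rw [hκh]
      exact mul_nonneg (by linarith) hhpos.le
    have hκle : κ ≤ h := by
      rw [hκh]
      nlinarith
    have hPh : P * h / 3 = V := by
      rw [hhdef]
      field_simp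
    have h1κ : 1 - κ / h = σ := by
      rw [hκh]
      field_simp
      ring
    set c : ℝ → ℝ := fun t => P * (max 0 (1 - t / h)) ^ 2 with hc
    have hc0 : ∀ s, 0 ≤ c s := fun s => mul_nonneg hPpos.le (sq_nonneg _)
    have hsqrtc : ∀ t, Real.sqrt (c t) = Real.sqrt P * max 0 (1 - t / h) := by
      intro t
      simp only [hc]
      rw [Real.sqrt_mul hPpos.le, Real.sqrt_sq (le_max_left _ _)]
    have hdich : (∀ t, 0 < t → t ≤ κ → c t ≤ (m t).toReal) ∨
        (∀ t, κ ≤ t → (m t).toReal ≤ c t) := by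
      by_contra hcon
      push Not at hcon
      obtain ⟨⟨t, ht0, htκ, hlt⟩, ⟨t', ht'κ, hlt'⟩⟩ := hcon
      have htt' : t ≤ t' := le_trans htκ ht'κ
      have ht'0 : 0 < t' := lt_of_lt_of_le ht0 htt'
      have hmt' : m t' ≠ 0 := by
        intro h0
        rw [h0] at hlt'
        simp only [ENNReal.toReal_zero] at hlt'
        linarith [hc0 t']
      have hs := hstar t t' ht0.le htt' hmt'
      have h1 : Real.sqrt (c t') < Real.sqrt (m t').toReal := Real.sqrt_lt_sqrt (hc0 t') hlt'
      have h2 : Real.sqrt (m t).toReal < Real.sqrt (c t) :=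
        Real.sqrt_lt_sqrt ENNReal.toReal_nonneg hlt
      rw [hsqrtc] at h1 h2
      have hconv : t' * max 0 (1 - t / h) ≤ (t' - t) + t * max 0 (1 - t' / h) := by
        rcases le_total (1 - t / h) 0 with hle | hle
        · rw [max_eq_left hle]
          have : 0 ≤ t * max 0 (1 - t' / h) := mul_nonneg ht0.le (le_max_left _ _)
          linarith
        · rw [max_eq_right hle]
          have h3 : t * (1 - t' / h) ≤ t * max 0 (1 - t' / h) :=
            mul_le_mul_of_nonneg_left (le_max_right _ _) ht0.le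
          have h4 : t' * (1 - t / h) = (t' - t) + t * (1 - t' / h) := by
            field_simp
            ring
          linarith
      have hsP : 0 < Real.sqrt P := Real.sqrt_pos.mpr hPpos
      have h5 : t * (Real.sqrt P * max 0 (1 - t' / h)) < t * Real.sqrt (m t').toReal :=
        mul_lt_mul_of_pos_left h1 ht0
      have h6 : t' * Real.sqrt (m t).toReal < t' * (Real.sqrt P * max 0 (1 - t / h)) :=
        mul_lt_mul_of_pos_left h2 ht'0
      have h7 := mul_le_mul_of_nonneg_left hconv hsP.le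
      have h8 : t' * (Real.sqrt P * max 0 (1 - t / h))
          = Real.sqrt P * (t' * max 0 (1 - t / h)) := by ring
      have h9 : Real.sqrt P * (t' - t + t * max 0 (1 - t' / h))
          = (t' - t) * Real.sqrt P + t * (Real.sqrt P * max 0 (1 - t' / h)) := by ring
      linarith
    have hcq : ∀ t, t ≤ h → c t = P * (1 - t / h) ^ 2 := by
      intro t ht
      have h0 : 0 ≤ 1 - t / h := by
        rw [sub_nonneg, div_le_one hhpos]
        exact ht
      simp only [hc, max_eq_right h0]
    have hcz : ∀ t, h ≤ t → c t = 0 := by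
      intro t ht
      have h0 : 1 - t / h ≤ 0 := by
        rw [sub_nonpos, le_div_iff₀ hhpos]
        linarith
      simp only [hc, max_eq_left h0]
      simp
    have hsplit : I = (∫⁻ t in Ioc 0 κ, m t) + ∫⁻ t in Ioi κ, m t := by
      rw [hIdef, ← Ioc_union_Ioi_eq_Ioi hκ0,
        lintegral_union measurableSet_Ioi (Ioc_disjoint_Ioi le_rfl)]
    rcases hdich with hi | hii
    · have hcone := lintegral_cone P h 0 κ hPpos.le hhpos hκ0
      rw [hPh, h1κ] at hcone
      have hcone' : ∫⁻ t in Ioc 0 κ, ENNReal.ofReal (P * (1 - t / h) ^ 2)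
          = ENNReal.ofReal (V * (1 - σ ^ 3)) := by
        rw [hcone]
        congr 1
        simp
      have hlow : ENNReal.ofReal (V * (1 - σ ^ 3)) ≤ ∫⁻ t in Ioc 0 κ, m t := by
        rw [← hcone']
        apply setLIntegral_mono' measurableSet_Ioc
        intro t ht
        rw [hmf t ht.1.le]
        apply ENNReal.ofReal_le_ofReal
        rw [← hcq t (le_trans ht.2 hκle)]
        exact hi t ht.1 ht.2
      have h1σ : 0 ≤ V * (1 - σ ^ 3) := by
        apply mul_nonneg hV0
        have : σ ^ 3 ≤ 1 := pow_le_one₀ hσ0 hσ1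
        linarith
      have hsum : ENNReal.ofReal V
          = ENNReal.ofReal (V * (1 - σ ^ 3)) + ENNReal.ofReal (V * σ ^ 3) := by
        rw [← ENNReal.ofReal_add h1σ (mul_nonneg hV0 hσ3)]
        congr 1
        ring
      have hle : ENNReal.ofReal (V * (1 - σ ^ 3)) + ∫⁻ t in Ioi κ, m t
          ≤ ENNReal.ofReal (V * (1 - σ ^ 3)) + ENNReal.ofReal (V * σ ^ 3) := by
        rw [← hsum, ← hIV, hsplit]
        exact add_le_add_left hlow _
      exact (ENNReal.add_le_add_iff_left ENNReal.ofReal_ne_top).mp hle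
    · have hcone := lintegral_cone P h κ h hPpos.le hhpos hκle
      rw [hPh, h1κ] at hcone
      have hcone' : ∫⁻ t in Ioc κ h, ENNReal.ofReal (P * (1 - t / h) ^ 2)
          = ENNReal.ofReal (V * σ ^ 3) := by
        rw [hcone]
        congr 1
        rw [div_self hhpos.ne']
        simp
      calc ∫⁻ t in Ioi κ, m t ≤ ∫⁻ t in Ioi κ, ENNReal.ofReal (c t) := by
            apply setLIntegral_mono' measurableSet_Ioi
            intro t ht
            rw [hmf t (le_trans hκ0 (le_of_lt ht))]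
            exact ENNReal.ofReal_le_ofReal (hii t (le_of_lt ht))
        _ = (∫⁻ t in Ioc κ h, ENNReal.ofReal (c t)) + ∫⁻ t in Ioi h, ENNReal.ofReal (c t) := by
            rw [← Ioc_union_Ioi_eq_Ioi hκle,
              lintegral_union measurableSet_Ioi (Ioc_disjoint_Ioi le_rfl)]
        _ = (∫⁻ t in Ioc κ h, ENNReal.ofReal (P * (1 - t / h) ^ 2)) + 0 := by
            congr 1
            · apply setLIntegral_congr_fun measurableSet_Ioc
              intro t ht
              simp only [hcq t ht.2]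
            · rw [setLIntegral_congr_fun (g := fun _ => 0) measurableSet_Ioi
                (fun t ht => by simp only [hcz t (le_of_lt ht)]; simp)]
              simp
        _ = ENNReal.ofReal (V * σ ^ 3) := by rw [add_zero, hcone']

end Vale.Agent.Lib.P243
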