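import Mathlib

open scoped ENNReal

namespace Vale.Agent.Lib.P243

theorem bound_of_tangent (m : ℕ) (hm : 1 ≤ m) (R : ℝ≥0∞)
    (h : ∀ s : ℝ, 0 ≤ s → s ≤ 1 →
      1 ≤ ENNReal.ofReal (3 * (1 - s)) * R + (m : ℝ≥0∞) * ENNReal.ofReal (s ^ 3)) :
    ENNReal.ofReal (1 / 3 + 2 / (9 * (√(3 * (m : ℝ)) - 1))) ≤ R := by
  by_cases hR : R = ⊤
  · rw [hR]
    exact le_top
  have hm' : (1 : ℝ) ≤ m := by exact_mod_cast hm
  have h3m : (3 : ℝ) ≤ 3 * (m : ℝ) := by linarith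
  have ht2 : √(3 * (m : ℝ)) ^ 2 = 3 * (m : ℝ) := Real.sq_sqrt (by linarith)
  have ht1 : 1 < √(3 * (m : ℝ)) := by
    rw [show (1 : ℝ) = √1 by simp]
    exact Real.sqrt_lt_sqrt (by norm_num) (by linarith)
  set t := √(3 * (m : ℝ)) with ht
  have htpos : 0 < t := by linarith
  have hs0 : (0 : ℝ) ≤ 1 / t := by positivity
  have hs1 : 1 / t ≤ 1 := by
    rw [div_le_one htpos]
    linarith
  have hh := h (1 / t) hs0 hs1
  rw [← ENNReal.ofReal_toReal hR, ← ENNReal.ofReal_natCast m,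
    ← ENNReal.ofReal_mul (by linarith : (0 : ℝ) ≤ 3 * (1 - 1 / t)),
    ← ENNReal.ofReal_mul (by positivity : (0 : ℝ) ≤ (m : ℝ)),
    ← ENNReal.ofReal_add (mul_nonneg (by linarith) ENNReal.toReal_nonneg) (by positivity),
    ENNReal.one_le_ofReal] at hh
  rw [ENNReal.ofReal_le_iff_le_toReal hR]
  set r := R.toReal with hr
  have hm3 : (m : ℝ) * (1 / t) ^ 3 = 1 / (3 * t) := by
    have : (m : ℝ) = t ^ 2 / 3 := by rw [ht2]; ring
    rw [this]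
    field_simp
  rw [hm3] at hh
  have ht1' : 0 < t - 1 := by linarith
  have key : 1 / 3 + 2 / (9 * (t - 1)) = (3 * t - 1) / (9 * (t - 1)) := by
    field_simp
    ring
  rw [key, div_le_iff₀ (by positivity)]
  have h1 : 3 * (1 - 1 / t) * r = 3 * (t - 1) * r / t := by
    field_simp
  rw [h1] at hh
  have h2 : 1 ≤ (3 * (t - 1) * r + 1 / 3) / t := by
    have : 3 * (t - 1) * r / t + 1 / (3 * t) = (3 * (t - 1) * r + 1 / 3) / t := by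
      field_simp
    rw [← this]
    exact hh
  rw [le_div_iff₀ htpos] at h2
  nlinarith

theorem sqrt_of_tangent (ρ₁ ρ₂ : ℝ≥0∞)
    (h : ∀ s₁ s₂ : ℝ, 0 ≤ s₁ → s₁ ≤ 1 → 0 ≤ s₂ → s₂ ≤ 1 →
      1 ≤ (ENNReal.ofReal (3 * (1 - s₁)) * ρ₁ + ENNReal.ofReal (s₁ ^ 3)) +
          (ENNReal.ofReal (3 * (1 - s₂)) * ρ₂ + ENNReal.ofReal (s₂ ^ 3))) :
    1 ≤ ρ₁ ^ (1 / 2 : ℝ) + ρ₂ ^ (1 / 2 : ℝ) := by
  have hhalf : (0 : ℝ) < 1 / 2 := by norm_num
  by_cases h1 : 1 ≤ ρ₁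
  · exact le_trans (ENNReal.one_le_rpow h1 hhalf) le_self_add
  by_cases h2 : 1 ≤ ρ₂
  · exact le_trans (ENNReal.one_le_rpow h2 hhalf) le_add_self
  rw [not_le] at h1 h2
  obtain ⟨r₁, hr1, e1⟩ : ∃ r₁ : ℝ, 0 ≤ r₁ ∧ ρ₁ = ENNReal.ofReal r₁ :=
    ⟨ρ₁.toReal, ENNReal.toReal_nonneg, (ENNReal.ofReal_toReal (ne_top_of_lt h1)).symm⟩
  obtain ⟨r₂, hr2, e2⟩ : ∃ r₂ : ℝ, 0 ≤ r₂ ∧ ρ₂ = ENNReal.ofReal r₂ :=
    ⟨ρ₂.toReal, ENNReal.toReal_nonneg, (ENNReal.ofReal_toReal (ne_top_of_lt h2)).symm⟩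
  subst e1 e2
  rw [ENNReal.ofReal_lt_one] at h1 h2
  have ha2 : √r₁ ^ 2 = r₁ := Real.sq_sqrt hr1
  have hb2 : √r₂ ^ 2 = r₂ := Real.sq_sqrt hr2
  have ha0 : 0 ≤ √r₁ := Real.sqrt_nonneg _
  have hb0 : 0 ≤ √r₂ := Real.sqrt_nonneg _
  rw [ENNReal.ofReal_rpow_of_nonneg hr1 (le_of_lt hhalf),
    ENNReal.ofReal_rpow_of_nonneg hr2 (le_of_lt hhalf), ← Real.sqrt_eq_rpow, ← Real.sqrt_eq_rpow,
    ← ENNReal.ofReal_add ha0 hb0, ENNReal.one_le_ofReal]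
  by_contra hcon
  rw [not_le] at hcon
  generalize √r₁ = a at ha2 ha0 hcon
  generalize √r₂ = b at hb2 hb0 hcon
  have hs10 : 0 ≤ a + (1 - a - b) / 2 := by linarith
  have hs20 : 0 ≤ b + (1 - a - b) / 2 := by linarith
  have ha1 : a < 1 := by nlinarith
  have hb1 : b < 1 := by nlinarith
  have hs11 : a + (1 - a - b) / 2 ≤ 1 := by linarith
  have hs21 : b + (1 - a - b) / 2 ≤ 1 := by linarith
  have hh := h (a + (1 - a - b) / 2) (b + (1 - a - b) / 2) hs10 hs11 hs20 hs21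
  rw [← ENNReal.ofReal_mul (by linarith), ← ENNReal.ofReal_mul (by linarith),
    ← ENNReal.ofReal_add (mul_nonneg (by linarith) hr1) (by positivity),
    ← ENNReal.ofReal_add (mul_nonneg (by linarith) hr2) (by positivity),
    ← ENNReal.ofReal_add
      (add_nonneg (mul_nonneg (by linarith) hr1) (by positivity))
      (add_nonneg (mul_nonneg (by linarith) hr2) (by positivity)),
    ENNReal.one_le_ofReal] at hh
  set s := a + (1 - a - b) / 2 with hs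
  have hs2 : b + (1 - a - b) / 2 = 1 - s := by rw [hs]; ring
  rw [hs2] at hh hs20 hs21
  have hsa : a < s := by rw [hs]; linarith
  have hsb : b < 1 - s := by rw [hs]; linarith
  have hr1lt : r₁ < s ^ 2 := by rw [← ha2]; nlinarith
  have hr2lt : r₂ < (1 - s) ^ 2 := by rw [← hb2]; nlinarith
  have hs_pos : 0 < s := by linarith
  have hs_lt : 0 < 1 - s := by linarith
  have hid : 3 * (1 - s) * s ^ 2 + s ^ 3 + (3 * (1 - (1 - s)) * (1 - s) ^ 2 + (1 - s) ^ 3) = 1 := by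
    ring
  have hlt1 : 3 * (1 - s) * r₁ < 3 * (1 - s) * s ^ 2 :=
    mul_lt_mul_of_pos_left hr1lt (by linarith)
  have hlt2 : 3 * (1 - (1 - s)) * r₂ < 3 * (1 - (1 - s)) * (1 - s) ^ 2 :=
    mul_lt_mul_of_pos_left hr2lt (by linarith)
  linarith

theorem master_of_tangent {ι : Type*} [Fintype ι] (ρ : ι → ℝ≥0∞) (hρ : ∀ i, ρ i ≤ 1)
    (h : ∀ σ : ι → ℝ, (∀ i, 0 ≤ σ i ∧ σ i ≤ 1) →
      1 ≤ ∑ i, (ENNReal.ofReal (3 * (1 - σ i)) * ρ i + ENNReal.ofReal (σ i ^ 3))) :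
    1 + 2 * ∑ i, ρ i ^ (3 / 2 : ℝ) ≤ 3 * ∑ i, ρ i := by
  have hne : ∀ i, ρ i ≠ ⊤ := fun i => ne_top_of_le_ne_top ENNReal.one_ne_top (hρ i)
  have hr0 : ∀ i, 0 ≤ (ρ i).toReal := fun i => ENNReal.toReal_nonneg
  have hr1 : ∀ i, (ρ i).toReal ≤ 1 := fun i => by
    have := ENNReal.toReal_mono ENNReal.one_ne_top (hρ i)
    simpa using this
  have hρr : ∀ i, ρ i = ENNReal.ofReal (ρ i).toReal :=
    fun i => (ENNReal.ofReal_toReal (hne i)).symm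
  have hσ : ∀ i, 0 ≤ √((ρ i).toReal) ∧ √((ρ i).toReal) ≤ 1 := fun i =>
    ⟨Real.sqrt_nonneg _, by
      rw [show (1 : ℝ) = √1 by simp]
      exact Real.sqrt_le_sqrt (hr1 i)⟩
  have hσ2 : ∀ i, √((ρ i).toReal) ^ 2 = (ρ i).toReal := fun i => Real.sq_sqrt (hr0 i)
  have hh := h (fun i => √((ρ i).toReal)) hσ
  have hterm : ∀ i, ENNReal.ofReal (3 * (1 - √((ρ i).toReal))) * ρ i
      + ENNReal.ofReal (√((ρ i).toReal) ^ 3)
      = ENNReal.ofReal (3 * (ρ i).toReal - 2 * ((ρ i).toReal * √((ρ i).toReal))) := by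
    intro i
    have h3 : √((ρ i).toReal) ^ 3 = (ρ i).toReal * √((ρ i).toReal) := by
      nth_rewrite 2 [← hσ2 i]
      ring
    have hnn : 0 ≤ 3 * (1 - √((ρ i).toReal)) := by linarith [(hσ i).2]
    have hmul : ENNReal.ofReal (3 * (1 - √((ρ i).toReal))) * ρ i
        = ENNReal.ofReal (3 * (1 - √((ρ i).toReal)) * (ρ i).toReal) := by
      rw [ENNReal.ofReal_mul hnn, ENNReal.ofReal_toReal (hne i)]
    rw [hmul, ← ENNReal.ofReal_add (mul_nonneg hnn (hr0 i)) (pow_nonneg (hσ i).1 3), h3]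
    congr 1
    ring
  have hnn : ∀ i, 0 ≤ 3 * (ρ i).toReal - 2 * ((ρ i).toReal * √((ρ i).toReal)) := by
    intro i
    have := mul_le_of_le_one_right (hr0 i) (hσ i).2
    linarith [hr0 i]
  have hh2 : 1 ≤ ∑ i, (3 * (ρ i).toReal - 2 * ((ρ i).toReal * √((ρ i).toReal))) := by
    rw [Finset.sum_congr rfl (fun i _ => hterm i),
      ← ENNReal.ofReal_sum_of_nonneg (fun i _ => hnn i), ENNReal.one_le_ofReal] at hh
    exact hh
  have hpow : ∀ i, ρ i ^ (3 / 2 : ℝ) = ENNReal.ofReal ((ρ i).toReal * √((ρ i).toReal)) := by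
    intro i
    have e : (3 / 2 : ℝ) = 1 + 1 / 2 := by norm_num
    have hreal : (ρ i).toReal ^ (3 / 2 : ℝ) = (ρ i).toReal * √((ρ i).toReal) := by
      rw [e, Real.rpow_add' (hr0 i) (by norm_num), Real.rpow_one, ← Real.sqrt_eq_rpow]
    calc ρ i ^ (3 / 2 : ℝ) = (ENNReal.ofReal (ρ i).toReal) ^ (3 / 2 : ℝ) := by
          rw [ENNReal.ofReal_toReal (hne i)]
      _ = ENNReal.ofReal ((ρ i).toReal ^ (3 / 2 : ℝ)) :=
          ENNReal.ofReal_rpow_of_nonneg (hr0 i) (by norm_num)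
      _ = ENNReal.ofReal ((ρ i).toReal * √((ρ i).toReal)) := by rw [hreal]
  have hsum1 : ∑ i, ρ i ^ (3 / 2 : ℝ)
      = ENNReal.ofReal (∑ i, (ρ i).toReal * √((ρ i).toReal)) := by
    rw [Finset.sum_congr rfl (fun i _ => hpow i),
      ← ENNReal.ofReal_sum_of_nonneg (fun i _ => mul_nonneg (hr0 i) (hσ i).1)]
  have hsum2 : ∑ i, ρ i = ENNReal.ofReal (∑ i, (ρ i).toReal) := by
    rw [ENNReal.ofReal_sum_of_nonneg (fun i _ => hr0 i)]
    exact Finset.sum_congr rfl (fun i _ => hρr i)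
  have hS1 : 0 ≤ ∑ i, (ρ i).toReal * √((ρ i).toReal) :=
    Finset.sum_nonneg (fun i _ => mul_nonneg (hr0 i) (hσ i).1)
  rw [hsum1, hsum2, show (1 : ℝ≥0∞) = ENNReal.ofReal 1 by simp,
    show (2 : ℝ≥0∞) = ENNReal.ofReal 2 by simp, show (3 : ℝ≥0∞) = ENNReal.ofReal 3 by simp,
    ← ENNReal.ofReal_mul (by norm_num), ← ENNReal.ofReal_mul (by norm_num),
    ← ENNReal.ofReal_add (by norm_num) (mul_nonneg (by norm_num) hS1)]
  apply ENNReal.ofReal_le_ofReal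
  rw [Finset.sum_sub_distrib, ← Finset.mul_sum, ← Finset.mul_sum] at hh2
  linarith

end Vale.Agent.Lib.P243
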