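import Mathlib

open MeasureTheory Set
open scoped ENNReal

namespace Vale.Agent.Lib.P243

/-- The tent function with base `[l, r]` and apex `(m, 1)`; it is `0` outside the open interval
`(l, r)`. -/
noncomputable def tentFn (l m r z : ℝ) : ℝ :=
  if z ≤ l ∨ r ≤ z then 0 else if z ≤ m then (z - l) / (m - l) else (r - z) / (r - m)

theorem tentFn_nonneg {l m r : ℝ} (hlm : l ≤ m) (hmr : m ≤ r) (z : ℝ) :
    0 ≤ tentFn l m r z := by
  have _h3 := hlm
  have _h4 := hmr
  unfold tentFn
  split_ifs with h1 h2
  · exact le_rfl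
  · push Not at h1
    exact div_nonneg (by linarith [h1.1]) (by linarith [hlm, h1.1])
  · push Not at h1
    exact div_nonneg (by linarith [h1.2]) (by linarith [hmr])

theorem tentFn_le_one {l m r : ℝ} (hlm : l ≤ m) (hmr : m ≤ r) (z : ℝ) :
    tentFn l m r z ≤ 1 := by
  unfold tentFn
  split_ifs with h1 h2
  · exact zero_le_one
  · exact div_le_one_of_le₀ (by linarith) (by linarith)
  · push Not at h2
    exact div_le_one_of_le₀ (by linarith) (by linarith)

theorem tentFn_pos {l m r z : ℝ} (hlm : l ≤ m) (hmr : m ≤ r) (hz : l < z) (hz' : z < r) :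
    0 < tentFn l m r z := by
  unfold tentFn
  have h1 : ¬ (z ≤ l ∨ r ≤ z) := by
    push Not
    exact ⟨hz, hz'⟩
  rw [if_neg h1]
  have _h3 := hlm
  have _h4 := hmr
  split_ifs with h2
  · exact div_pos (by linarith) (by linarith)
  · push Not at h2
    exact div_pos (by linarith) (by linarith)

theorem tentFn_pos_iff_mem {l m r z : ℝ} (hlm : l ≤ m) (hmr : m ≤ r)
    (h : 0 < tentFn l m r z) : l < z ∧ z < r := by
  have _h3 := hlm
  have _h4 := hmr
  by_contra hn
  have h1 : z ≤ l ∨ r ≤ z := by
    by_contra h2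
    push Not at h2
    exact hn h2
  unfold tentFn at h
  rw [if_pos h1] at h
  exact lt_irrefl _ h

theorem tentFn_mul_left {l m r z : ℝ} (hlm : l ≤ m) (hmr : m ≤ r) (hz : l ≤ z) (hz' : z ≤ r) :
    tentFn l m r z * (m - l) ≤ z - l := by
  have _h3 := hlm
  have _h4 := hmr
  unfold tentFn
  split_ifs with h1 h2
  · rw [zero_mul]
    linarith
  · push Not at h1
    have hpos : 0 < m - l := by linarith [h1.1]
    rw [div_mul_cancel₀ _ (ne_of_gt hpos)]
  · push Not at h1 h2
    have hpos : 0 < r - m := by linarith [h1.2]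
    rw [div_mul_eq_mul_div, div_le_iff₀ hpos]
    nlinarith [mul_nonneg (sub_nonneg.mpr h2.le) (sub_nonneg.mpr (le_trans hz hz'))]

theorem tentFn_mul_right {l m r z : ℝ} (hlm : l ≤ m) (hmr : m ≤ r) (hz : l ≤ z)
    (hz' : z ≤ r) : tentFn l m r z * (r - m) ≤ r - z := by
  have _h3 := hlm
  have _h4 := hmr
  unfold tentFn
  split_ifs with h1 h2
  · rw [zero_mul]
    linarith
  · push Not at h1
    have hpos : 0 < m - l := by linarith [h1.1]
    rw [div_mul_eq_mul_div, div_le_iff₀ hpos]
    nlinarith [mul_nonneg (sub_nonneg.mpr h2) (sub_nonneg.mpr (le_trans hz hz'))]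
  · push Not at h1 h2
    have hpos : 0 < r - m := by linarith [h1.2]
    rw [div_mul_cancel₀ _ (ne_of_gt hpos)]

/-- Inside the open interval, the tent value is the largest `t` with both slope constraints. -/
theorem le_tentFn {l m r z t : ℝ} (hz : l < z) (hz' : z < r)
    (h1 : t * (m - l) ≤ z - l) (h2 : t * (r - m) ≤ r - z) : t ≤ tentFn l m r z := by
  unfold tentFn
  have h0 : ¬ (z ≤ l ∨ r ≤ z) := by
    push Not
    exact ⟨hz, hz'⟩
  rw [if_neg h0]
  split_ifs with h3
  · have hpos : 0 < m - l := by linarith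
    rw [le_div_iff₀ hpos]
    exact h1
  · push Not at h3
    have hpos : 0 < r - m := by linarith
    rw [le_div_iff₀ hpos]
    exact h2

theorem measurable_tentFn (l m r : ℝ) : Measurable (tentFn l m r) := by
  have hs1 : MeasurableSet {z : ℝ | z ≤ l ∨ r ≤ z} :=
    (measurableSet_Iic (a := l)).union (measurableSet_Ici (a := r))
  have hs2 : MeasurableSet {z : ℝ | z ≤ m} := measurableSet_Iic (a := m)
  have hf1 : Measurable (fun z : ℝ => (z - l) / (m - l)) :=
    (measurable_id.sub_const l).div_const (m - l)
  have hf2 : Measurable (fun z : ℝ => (r - z) / (r - m)) :=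
    (measurable_id.const_sub r).div_const (r - m)
  exact Measurable.ite hs1 measurable_const (Measurable.ite hs2 hf1 hf2)

theorem tentFn_eq_zero_of_notMem {l m r z : ℝ} (h : ¬ (l < z ∧ z < r)) :
    tentFn l m r z = 0 := by
  have h1 : z ≤ l ∨ r ≤ z := by
    by_contra h2
    push Not at h2
    exact h h2
  unfold tentFn
  rw [if_pos h1]

theorem integrable_tentFn {l m r : ℝ} (hlm : l ≤ m) (hmr : m ≤ r) :
    Integrable (tentFn l m r) volume := by
  have hsupp : Function.support (tentFn l m r) ⊆ Ioo l r := by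
    intro z hz
    by_contra hzn
    exact hz (tentFn_eq_zero_of_notMem hzn)
  rw [← integrableOn_iff_integrable_of_support_subset hsupp]
  refine Measure.integrableOn_of_bounded (M := 1) measure_Ioo_lt_top.ne
    (measurable_tentFn l m r).aestronglyMeasurable ?_
  refine Filter.Eventually.of_forall (fun z => ?_)
  rw [Real.norm_eq_abs, abs_of_nonneg (tentFn_nonneg hlm hmr z)]
  exact tentFn_le_one hlm hmr z

theorem integral_left_piece (l m : ℝ) : ∫ z in l..m, (z - l) / (m - l) = (m - l) / 2 := by
  rw [intervalIntegral.integral_div, intervalIntegral.integral_sub (f := fun x => x)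
    (g := fun _ => l) (continuous_id.intervalIntegrable _ _)
    (continuous_const.intervalIntegrable _ _),
    integral_id, intervalIntegral.integral_const, smul_eq_mul]
  by_cases h : m - l = 0
  · rw [h]
    simp
  · field_simp
    ring

theorem integral_right_piece (m r : ℝ) : ∫ z in m..r, (r - z) / (r - m) = (r - m) / 2 := by
  rw [intervalIntegral.integral_div, intervalIntegral.integral_sub (f := fun _ => r)
    (g := fun x => x) (continuous_const.intervalIntegrable _ _)
    (continuous_id.intervalIntegrable _ _),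
    integral_id, intervalIntegral.integral_const, smul_eq_mul]
  by_cases h : r - m = 0
  · rw [h]
    simp
  · field_simp
    ring

theorem integral_tentFn {l m r : ℝ} (hlm : l ≤ m) (hmr : m ≤ r) (hlr : l < r) :
    ∫ z, tentFn l m r z = (r - l) / 2 := by
  have hint := integrable_tentFn hlm hmr
  have h0 : ∫ z, tentFn l m r z = ∫ z in l..r, tentFn l m r z := by
    rw [intervalIntegral.integral_of_le hlr.le]
    refine (setIntegral_eq_integral_of_forall_compl_eq_zero (fun z hz => ?_)).symm
    refine tentFn_eq_zero_of_notMem (fun h => hz ⟨h.1, h.2.le⟩)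
  have h1 : ∫ z in l..m, tentFn l m r z = ∫ z in l..m, (z - l) / (m - l) := by
    rw [intervalIntegral.integral_of_le hlm, intervalIntegral.integral_of_le hlm,
      integral_Ioc_eq_integral_Ioo, integral_Ioc_eq_integral_Ioo]
    refine setIntegral_congr_fun measurableSet_Ioo (fun z hz => ?_)
    have hn : ¬ (z ≤ l ∨ r ≤ z) := by
      push Not
      exact ⟨hz.1, lt_of_lt_of_le hz.2 hmr⟩
    show tentFn l m r z = (z - l) / (m - l)
    unfold tentFn
    rw [if_neg hn, if_pos hz.2.le]
  have h2 : ∫ z in m..r, tentFn l m r z = ∫ z in m..r, (r - z) / (r - m) := by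
    rw [intervalIntegral.integral_of_le hmr, intervalIntegral.integral_of_le hmr,
      integral_Ioc_eq_integral_Ioo, integral_Ioc_eq_integral_Ioo]
    refine setIntegral_congr_fun measurableSet_Ioo (fun z hz => ?_)
    have hn : ¬ (z ≤ l ∨ r ≤ z) := by
      push Not
      exact ⟨lt_of_le_of_lt hlm hz.1, hz.2⟩
    show tentFn l m r z = (r - z) / (r - m)
    unfold tentFn
    rw [if_neg hn, if_neg (not_le.mpr hz.1)]
  rw [h0, ← intervalIntegral.integral_add_adjacent_intervals (b := m)
    hint.intervalIntegrable hint.intervalIntegrable, h1, h2, integral_left_piece,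
    integral_right_piece]
  ring

/-- The area under a tent with base `[l, r]` and height `1`. -/
theorem lintegral_tentFn {l m r : ℝ} (hlm : l ≤ m) (hmr : m ≤ r) (hlr : l < r) :
    ∫⁻ z, ENNReal.ofReal (tentFn l m r z) = ENNReal.ofReal ((r - l) / 2) := by
  rw [← ofReal_integral_eq_lintegral_ofReal (integrable_tentFn hlm hmr)
    (Filter.Eventually.of_forall (tentFn_nonneg hlm hmr)), integral_tentFn hlm hmr hlr]

end Vale.Agent.Lib.P243
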