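import Mathlib
import Vale.Agent.Lib.P243.Core

open MeasureTheory Set
open scoped ENNReal

namespace Vale.Agent.Lib.P243

/-- The point of the segment from `P 0` to `P 3` at the level `z` (last two coordinates). -/
noncomputable def tetO (P : Fin 4 → ℝ × ℝ × ℝ) (z : ℝ) : ℝ × ℝ :=
  (P 0).2 + ((z - (P 0).1) / ((P 3).1 - (P 0).1)) • ((P 3).2 - (P 0).2)

/-- The horizontal offset of the vertex `P k` from the line through `P 0` and `P 3`. -/
noncomputable def tetD (P : Fin 4 → ℝ × ℝ × ℝ) (k : Fin 4) : ℝ × ℝ :=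
  (P k).2 - (P 0).2 - (((P k).1 - (P 0).1) / ((P 3).1 - (P 0).1)) • ((P 3).2 - (P 0).2)

/-- Points of the convex hull of a finite family are convex combinations of the family. -/
theorem ts_hull_repr {F : Type*} [AddCommGroup F] [Module ℝ F] {κ : Type*} [Fintype κ]
    (q : κ → F) {x : F} (hx : x ∈ convexHull ℝ (Set.range q)) :
    ∃ lam : κ → ℝ, (∀ k, 0 ≤ lam k) ∧ ∑ k, lam k = 1 ∧ ∑ k, lam k • q k = x := by
  classical
  have hconv : Convex ℝ {x : F | ∃ lam : κ → ℝ, (∀ k, 0 ≤ lam k) ∧ ∑ k, lam k = 1 ∧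
      ∑ k, lam k • q k = x} := by
    rintro x ⟨lam, h0, h1, rfl⟩ y ⟨mu, g0, g1, rfl⟩ a b ha hb hab
    refine ⟨fun k => a * lam k + b * mu k,
      fun k => add_nonneg (mul_nonneg ha (h0 k)) (mul_nonneg hb (g0 k)), ?_, ?_⟩
    · rw [Finset.sum_add_distrib, ← Finset.mul_sum, ← Finset.mul_sum, h1, g1]
      linarith
    · simp only [add_smul, mul_smul, Finset.sum_add_distrib, Finset.smul_sum]
  refine convexHull_min ?_ hconv hx
  rintro _ ⟨i, rfl⟩
  refine ⟨Pi.single i 1, fun k => ?_, ?_, ?_⟩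
  · by_cases h : k = i
    · subst h
      simp
    · simp [h]
  · simp
  · simp [Pi.single_apply]

/-- The scalar identity behind the barycentric description of a section. -/
theorem ts_coord {H h0 h1 h2 h3 p0 p1 p2 p3 l0 l1 l2 l3 z : ℝ} (hH : H ≠ 0)
    (hHdef : H = h3 - h0) (hsum : l0 + l1 + l2 + l3 = 1)
    (hz : l0 * h0 + l1 * h1 + l2 * h2 + l3 * h3 = z) :
    l0 * p0 + l1 * p1 + l2 * p2 + l3 * p3 =
      p0 + (z - h0) / H * (p3 - p0) + l1 * (p1 - p0 - (h1 - h0) / H * (p3 - p0)) +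
        l2 * (p2 - p0 - (h2 - h0) / H * (p3 - p0)) := by
  have hl0 : l0 = 1 - l1 - l2 - l3 := by linarith
  subst hl0
  subst hz
  subst hHdef
  field_simp
  ring

/-- Sections of a tetrahedron by the planes `p.1 = z`, in the coordinates given by the
barycentric weights `x, y` of the vertices `P 1, P 2`. -/
theorem tetra_fiber_iff (P : Fin 4 → ℝ × ℝ × ℝ) (hH : (P 0).1 < (P 3).1) (z : ℝ)
    (q : ℝ × ℝ) :
    q ∈ fiber (convexHull ℝ (Set.range P)) z ↔
      ∃ x y : ℝ, 0 ≤ x ∧ 0 ≤ y ∧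
        x * ((P 1).1 - (P 0).1) + y * ((P 2).1 - (P 0).1) ≤ z - (P 0).1 ∧
        x * ((P 3).1 - (P 1).1) + y * ((P 3).1 - (P 2).1) ≤ (P 3).1 - z ∧
        q = tetO P z + x • tetD P 1 + y • tetD P 2 := by
  have hHpos : 0 < (P 3).1 - (P 0).1 := by linarith
  have hHne : (P 3).1 - (P 0).1 ≠ 0 := ne_of_gt hHpos
  constructor
  · intro hq
    have hq' : (z, q) ∈ convexHull ℝ (Set.range P) := hq
    obtain ⟨lam, l0, l1, hsum⟩ := ts_hull_repr P hq'
    rw [Fin.sum_univ_four] at l1 hsum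
    have hz : lam 0 * (P 0).1 + lam 1 * (P 1).1 + lam 2 * (P 2).1 + lam 3 * (P 3).1 = z := by
      have := congrArg Prod.fst hsum
      simpa using this
    have hq2 : lam 0 • (P 0).2 + lam 1 • (P 1).2 + lam 2 • (P 2).2 + lam 3 • (P 3).2 = q := by
      have := congrArg Prod.snd hsum
      simpa using this
    refine ⟨lam 1, lam 2, l0 1, l0 2, ?_, ?_, ?_⟩
    · have h3 : 0 ≤ lam 3 * ((P 3).1 - (P 0).1) := mul_nonneg (l0 3) hHpos.le
      have e : z - (P 0).1 = lam 1 * ((P 1).1 - (P 0).1) + lam 2 * ((P 2).1 - (P 0).1)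
          + lam 3 * ((P 3).1 - (P 0).1) := by
        have hl0 : lam 0 = 1 - lam 1 - lam 2 - lam 3 := by linarith
        rw [← hz, hl0]
        ring
      linarith
    · have h3 : 0 ≤ lam 0 * ((P 3).1 - (P 0).1) := mul_nonneg (l0 0) hHpos.le
      have e : (P 3).1 - z = lam 0 * ((P 3).1 - (P 0).1) + lam 1 * ((P 3).1 - (P 1).1)
          + lam 2 * ((P 3).1 - (P 2).1) := by
        have hl3 : lam 3 = 1 - lam 0 - lam 1 - lam 2 := by linarith
        rw [← hz, hl3]
        ring
      linarith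
    · rw [← hq2]
      have c1 := ts_coord (p0 := (P 0).2.1) (p1 := (P 1).2.1) (p2 := (P 2).2.1)
        (p3 := (P 3).2.1) hHne rfl l1 hz
      have c2 := ts_coord (p0 := (P 0).2.2) (p1 := (P 1).2.2) (p2 := (P 2).2.2)
        (p3 := (P 3).2.2) hHne rfl l1 hz
      refine Prod.ext ?_ ?_
      · simpa [tetO, tetD] using c1
      · simpa [tetO, tetD] using c2
  · rintro ⟨x, y, hx, hy, h1, h2, rfl⟩
    obtain ⟨l3, hl3⟩ : ∃ l3 : ℝ, l3 = (z - (P 0).1 - x * ((P 1).1 - (P 0).1)
        - y * ((P 2).1 - (P 0).1)) / ((P 3).1 - (P 0).1) := ⟨_, rfl⟩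
    have hl3' : l3 * ((P 3).1 - (P 0).1) = z - (P 0).1 - x * ((P 1).1 - (P 0).1)
        - y * ((P 2).1 - (P 0).1) := by
      rw [hl3]
      field_simp
    have hl3nn : 0 ≤ l3 := by
      rw [hl3]
      exact div_nonneg (by linarith) hHpos.le
    have hl0nn : 0 ≤ 1 - x - y - l3 := by
      by_contra hneg
      have hneg' : 1 - x - y - l3 < 0 := not_le.mp hneg
      have := mul_neg_of_neg_of_pos hneg' hHpos
      nlinarith
    have hsum1 : (1 - x - y - l3) + x + y + l3 = 1 := by ring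
    have hz : (1 - x - y - l3) * (P 0).1 + x * (P 1).1 + y * (P 2).1 + l3 * (P 3).1 = z := by
      nlinarith
    have hmem : (1 - x - y - l3) • P 0 + x • P 1 + y • P 2 + l3 • P 3
        ∈ convexHull ℝ (Set.range P) := by
      have hc := convex_convexHull ℝ (Set.range P)
      have hP : ∀ k, P k ∈ convexHull ℝ (Set.range P) :=
        fun k => subset_convexHull ℝ _ (Set.mem_range_self k)
      have key := hc.sum_mem (t := Finset.univ) (w := ![1 - x - y - l3, x, y, l3]) (z := P)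
        (by
          intro k _
          fin_cases k <;> simp [hl0nn, hx, hy, hl3nn])
        (by
          rw [Fin.sum_univ_four]
          simp
          linarith)
        (fun k _ => hP k)
      rw [Fin.sum_univ_four] at key
      simpa using key
    have heq : (1 - x - y - l3) • P 0 + x • P 1 + y • P 2 + l3 • P 3
        = (z, tetO P z + x • tetD P 1 + y • tetD P 2) := by
      have c1 := ts_coord (p0 := (P 0).2.1) (p1 := (P 1).2.1) (p2 := (P 2).2.1)
        (p3 := (P 3).2.1) hHne rfl hsum1 hz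
      have c2 := ts_coord (p0 := (P 0).2.2) (p1 := (P 1).2.2) (p2 := (P 2).2.2)
        (p3 := (P 3).2.2) hHne rfl hsum1 hz
      refine Prod.ext ?_ (Prod.ext ?_ ?_)
      · simpa using hz
      · simpa [tetO, tetD] using c1
      · simpa [tetO, tetD] using c2
    show (z, tetO P z + x • tetD P 1 + y • tetD P 2) ∈ convexHull ℝ (Set.range P)
    rw [← heq]
    exact hmem

end Vale.Agent.Lib.P243
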