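import Mathlib
import Vale.Agent.Lib.P243.TentFn
import Vale.Agent.Lib.P243.TetraSlice

open MeasureTheory Set
open scoped ENNReal

namespace Vale.Agent.Lib.P243

/-- Two parameters in `[0, g]` whose values of a linear term differ by `g` times the absolute
value of its coefficient. -/
theorem tb_choose (g : ℝ) (hg : 0 ≤ g) (c : ℝ) :
    ∃ xp xm : ℝ, xp ∈ Set.Icc 0 g ∧ xm ∈ Set.Icc 0 g ∧ xp * c - xm * c = g * |c| := by
  rcases le_total 0 c with hc | hc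
  · exact ⟨g, 0, ⟨hg, le_refl g⟩, ⟨le_refl 0, hg⟩, by rw [abs_of_nonneg hc]; ring⟩
  · exact ⟨0, g, ⟨le_refl 0, hg⟩, ⟨hg, le_refl g⟩, by rw [abs_of_nonpos hc]; ring⟩

/-- The centrally symmetric parallelogram inside the section of a tetrahedron at the level `z`:
both barycentric weights of `P 1, P 2` range over `[0, g]`, where `g` is half the tent value
with apex at the level of the midpoint of `P 1, P 2`. Its width in the direction of the form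
`c * x + d * y` is `g` times the sum of the absolute offsets. -/
theorem tetra_box (P : Fin 4 → ℝ × ℝ × ℝ) (hlo1 : (P 0).1 ≤ (P 1).1)
    (hlo2 : (P 0).1 ≤ (P 2).1) (hhi1 : (P 1).1 ≤ (P 3).1) (hhi2 : (P 2).1 ≤ (P 3).1)
    (hH : (P 0).1 < (P 3).1) (z : ℝ) (hz : (P 0).1 < z) (hz' : z < (P 3).1) :
    ∃ Q : Set (ℝ × ℝ), IsCompact Q ∧ Convex ℝ Q ∧ Q.Nonempty ∧
      (∃ c0 : ℝ × ℝ, ∀ q ∈ Q, (2 : ℝ) • c0 - q ∈ Q) ∧
      Q ⊆ fiber (convexHull ℝ (Set.range P)) z ∧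
      ∀ c d : ℝ,
        tentFn (P 0).1 (((P 1).1 + (P 2).1) / 2) (P 3).1 z / 2 *
            (|c * (tetD P 1).1 + d * (tetD P 1).2| + |c * (tetD P 2).1 + d * (tetD P 2).2|) ≤
          sSup ((fun q : ℝ × ℝ => c * q.1 + d * q.2) '' Q) -
            sInf ((fun q : ℝ × ℝ => c * q.1 + d * q.2) '' Q) := by
  obtain ⟨g, hgdef⟩ :
      ∃ g : ℝ, g = tentFn (P 0).1 (((P 1).1 + (P 2).1) / 2) (P 3).1 z / 2 := ⟨_, rfl⟩
  have hlm : (P 0).1 ≤ ((P 1).1 + (P 2).1) / 2 := by linarith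
  have hmr : ((P 1).1 + (P 2).1) / 2 ≤ (P 3).1 := by linarith
  have hg0 : 0 ≤ g := by
    rw [hgdef]
    exact div_nonneg (tentFn_nonneg hlm hmr z) (by norm_num)
  have hL := tentFn_mul_left hlm hmr hz.le hz'.le
  have hR := tentFn_mul_right hlm hmr hz.le hz'.le
  have htg : tentFn (P 0).1 (((P 1).1 + (P 2).1) / 2) (P 3).1 z = 2 * g := by
    rw [hgdef]
    ring
  rw [htg] at hL hR
  rw [← hgdef]
  obtain ⟨Φ, hΦ⟩ : ∃ Φ : ℝ × ℝ → ℝ × ℝ,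
      Φ = fun p => tetO P z + p.1 • tetD P 1 + p.2 • tetD P 2 := ⟨_, rfl⟩
  have hΦc : Continuous Φ := by
    rw [hΦ]
    fun_prop
  have hΦ1 : ∀ p, (Φ p).1 = (tetO P z).1 + p.1 * (tetD P 1).1 + p.2 * (tetD P 2).1 := by
    intro p
    rw [hΦ]
    simp
  have hΦ2 : ∀ p, (Φ p).2 = (tetO P z).2 + p.1 * (tetD P 1).2 + p.2 * (tetD P 2).2 := by
    intro p
    rw [hΦ]
    simp
  refine ⟨Φ '' (Set.Icc 0 g ×ˢ Set.Icc 0 g), ?_, ?_, ?_, ?_, ?_, ?_⟩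
  · exact (isCompact_Icc.prod isCompact_Icc).image hΦc
  · rintro _ ⟨p, hp, rfl⟩ _ ⟨p', hp', rfl⟩ a b ha hb hab
    refine ⟨a • p + b • p', ((convex_Icc 0 g).prod (convex_Icc 0 g)) hp hp' ha hb hab, ?_⟩
    have hab' : a = 1 - b := by linarith
    apply Prod.ext
    · simp only [hΦ1, Prod.fst_add, Prod.smul_fst, Prod.snd_add, Prod.smul_snd, smul_eq_mul]
      rw [hab']
      ring
    · simp only [hΦ2, Prod.fst_add, Prod.smul_fst, Prod.snd_add, Prod.smul_snd, smul_eq_mul]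
      rw [hab']
      ring
  · exact ⟨Φ (0, 0), (0, 0), ⟨⟨le_refl 0, hg0⟩, ⟨le_refl 0, hg0⟩⟩, rfl⟩
  · refine ⟨tetO P z + (g / 2) • (tetD P 1 + tetD P 2), ?_⟩
    rintro _ ⟨p, hp, rfl⟩
    obtain ⟨⟨h1, h2⟩, ⟨h3, h4⟩⟩ := hp
    refine ⟨(g - p.1, g - p.2), ⟨⟨by linarith, by linarith⟩, ⟨by linarith, by linarith⟩⟩, ?_⟩
    apply Prod.ext
    · simp only [hΦ1, Prod.fst_sub, Prod.smul_fst, Prod.fst_add, smul_eq_mul]
      ring
    · simp only [hΦ2, Prod.snd_sub, Prod.smul_snd, Prod.snd_add, smul_eq_mul]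
      ring
  · rintro _ ⟨p, hp, rfl⟩
    obtain ⟨⟨h1, h2⟩, ⟨h3, h4⟩⟩ := hp
    rw [tetra_fiber_iff P hH z]
    refine ⟨p.1, p.2, h1, h3, ?_, ?_, ?_⟩
    · nlinarith [mul_le_mul_of_nonneg_right h2 (sub_nonneg.mpr hlo1),
        mul_le_mul_of_nonneg_right h4 (sub_nonneg.mpr hlo2)]
    · nlinarith [mul_le_mul_of_nonneg_right h2 (sub_nonneg.mpr hhi1),
        mul_le_mul_of_nonneg_right h4 (sub_nonneg.mpr hhi2)]
    · rw [hΦ]
  · intro c d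
    obtain ⟨xp, xm, hxp, hxm, hx⟩ := tb_choose g hg0 (c * (tetD P 1).1 + d * (tetD P 1).2)
    obtain ⟨yp, ym, hyp, hym, hy⟩ := tb_choose g hg0 (c * (tetD P 2).1 + d * (tetD P 2).2)
    have hcont : Continuous (fun q : ℝ × ℝ => c * q.1 + d * q.2) := by fun_prop
    have hcomp : IsCompact ((fun q : ℝ × ℝ => c * q.1 + d * q.2) ''
        (Φ '' (Set.Icc 0 g ×ˢ Set.Icc 0 g))) :=
      ((isCompact_Icc.prod isCompact_Icc).image hΦc).image hcont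
    have h1 : c * (Φ (xp, yp)).1 + d * (Φ (xp, yp)).2
        ≤ sSup ((fun q : ℝ × ℝ => c * q.1 + d * q.2) '' (Φ '' (Set.Icc 0 g ×ˢ Set.Icc 0 g))) :=
      le_csSup hcomp.bddAbove ⟨Φ (xp, yp), ⟨(xp, yp), ⟨hxp, hyp⟩, rfl⟩, rfl⟩
    have h2 : sInf ((fun q : ℝ × ℝ => c * q.1 + d * q.2) '' (Φ '' (Set.Icc 0 g ×ˢ Set.Icc 0 g)))
        ≤ c * (Φ (xm, ym)).1 + d * (Φ (xm, ym)).2 :=
      csInf_le hcomp.bddBelow ⟨Φ (xm, ym), ⟨(xm, ym), ⟨hxm, hym⟩, rfl⟩, rfl⟩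
    rw [hΦ1, hΦ2] at h1 h2
    simp only at h1 h2
    nlinarith

end Vale.Agent.Lib.P243
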