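import Mathlib
import Vale.Agent.Lib.P243.TetraTheta

/-!
Cylinders with central axis directions for a tetrahedron.

A corollary of the face-measure bound (file `TetraTheta`): if the axis directions of finitely
many cylinders covering a tetrahedron are written in barycentric form `∑ l, c l • p l` with
`∑ l, c l = 0`, and every coefficient satisfies `∑ l', |c l'| ≤ 8 * |c l|`, then the relative
areas of the bases add up to at least `1 / 2`.
-/

open MeasureTheory Set

namespace Vale.Agent.Lib.P243

variable {E : Type*} [NormedAddCommGroup E] [InnerProductSpace ℝ E] [MeasurableSpace E]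
  [BorelSpace E] [FiniteDimensional ℝ E]

/-- Central directions: let the cylinders with nonzero axis directions
`u i = ∑ l, c i l • p l`, where `∑ l, c i l = 0`, and bases `B i` cover the convex hull of the
four points `p l`, which has nonempty interior. If `∑ l', |c i l'| ≤ 8 * |c i l|` for all `i`
and `l`, then the relative areas of the bases add up to at least `1 / 2`. -/
theorem tetra_central_indexed (hdim : Module.finrank ℝ E = 3) (p : Fin 4 → E)
    (hint : (interior (convexHull ℝ (Set.range p))).Nonempty) {m : ℕ} (u : Fin m → E)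
    (hu0 : ∀ i, u i ≠ 0)
    (c : Fin m → Fin 4 → ℝ) (hc0 : ∀ i, ∑ l, c i l = 0) (hcu : ∀ i, u i = ∑ l, c i l • p l)
    (hcen : ∀ i l, ∑ l', |c i l'| ≤ 8 * |c i l|)
    (B : ∀ i, Set ↥(ℝ ∙ u i)ᗮ)
    (hcov : convexHull ℝ (Set.range p) ⊆
      ⋃ i, (ℝ ∙ u i)ᗮ.orthogonalProjectionOnto ⁻¹' B i) :
    (1 / 2 : ENNReal) ≤
      ∑ i, volume (B i) /
        volume ((ℝ ∙ u i)ᗮ.orthogonalProjectionOnto '' convexHull ℝ (Set.range p)) := by
  have hcne : ∀ i l, c i l ≠ 0 := by
    intro i l hl
    have h0 : ∑ l', |c i l'| ≤ 0 := by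
      have := hcen i l
      rwa [hl, abs_zero, mul_zero] at this
    have hall : ∀ l', c i l' = 0 := by
      intro l'
      have hnn : ∀ k ∈ Finset.univ, 0 ≤ |c i k| := fun k _ => abs_nonneg _
      have hle : |c i l'| ≤ ∑ k, |c i k| :=
        Finset.single_le_sum hnn (Finset.mem_univ l')
      have : |c i l'| ≤ 0 := le_trans hle h0
      exact abs_eq_zero.mp (le_antisymm this (abs_nonneg _))
    apply hu0 i
    rw [hcu i]
    simp [hall]
  have hθ : ∀ i j k, 0 < c i j → c i k < 0 →
      (∑ l, |c i l|) / 2 * (1 / c i j + 1 / (-(c i k))) ≤ (fun _ : Fin m => (8 : ℝ)) i := by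
    intro i j k hj hk
    have hk' : 0 < -(c i k) := by linarith
    have h1 : (∑ l, |c i l|) / c i j ≤ 8 := by
      rw [div_le_iff₀ hj]
      have := hcen i j
      rwa [abs_of_pos hj] at this
    have h2 : (∑ l, |c i l|) / (-(c i k)) ≤ 8 := by
      rw [div_le_iff₀ hk']
      have := hcen i k
      rwa [abs_of_neg hk] at this
    have he : (∑ l, |c i l|) / 2 * (1 / c i j + 1 / (-(c i k))) =
        ((∑ l, |c i l|) / c i j + (∑ l, |c i l|) / (-(c i k))) / 2 := by
      field_simp
    rw [he]
    show ((∑ l, |c i l|) / c i j + (∑ l, |c i l|) / (-(c i k))) / 2 ≤ 8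
    linarith
  have h := tetra_theta_indexed hdim p hint u c hc0 hcu hcne (fun _ => 8) hθ B hcov
  have h8 : ENNReal.ofReal 8 = 8 := by simp
  simp only [h8] at h
  rw [← Finset.mul_sum] at h
  have h48 : (8 : ENNReal) * (1 / 2) = 4 := by
    have h82 : (8 : ENNReal) = 4 * 2 := by norm_num
    rw [h82, mul_assoc, mul_one_div, ENNReal.div_self (by norm_num) (by norm_num), mul_one]
  have h' : (8 : ENNReal) * (1 / 2) ≤ 8 * ∑ i, volume (B i) /
      volume ((ℝ ∙ u i)ᗮ.orthogonalProjectionOnto '' convexHull ℝ (Set.range p)) := by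
    rwa [h48]
  exact (ENNReal.mul_le_mul_iff_right (by norm_num) (by norm_num)).mp h'

end Vale.Agent.Lib.P243
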