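import Mathlib
import Vale.Agent.Lib.P243.CoplanarCoord
import Vale.Agent.Lib.P243.TentFn
import Vale.Agent.Lib.P243.TetraSlice

open MeasureTheory Set
open scoped ENNReal

namespace Vale.Agent.Lib.P243

theorem tetraShadow_max_add_max (c : ℝ) : max c 0 + max (-c) 0 = |c| := by
  rcases le_total 0 c with h | h
  · rw [max_eq_left h, max_eq_right (by linarith), abs_of_nonneg h, add_zero]
  · rw [max_eq_right h, max_eq_left (by linarith), abs_of_nonpos h, zero_add]

theorem tetraShadow_mul_le {a A c : ℝ} (ha : 0 ≤ a) (haA : a ≤ A) : a * c ≤ A * max c 0 := by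
  have h1 : a * c ≤ a * max c 0 := mul_le_mul_of_nonneg_left (le_max_left _ _) ha
  have h2 : a * max c 0 ≤ A * max c 0 := mul_le_mul_of_nonneg_right haA (le_max_right _ _)
  linarith

theorem tetraShadow_le_mul {a A c : ℝ} (ha : 0 ≤ a) (haA : a ≤ A) :
    -(A * max (-c) 0) ≤ a * c := by
  have h := tetraShadow_mul_le (c := -c) ha haA
  rw [mul_neg] at h
  linarith

/-- Between the lowest and the highest level, the slice of the shadow lies in an interval whose
length is controlled by the two tent functions. -/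
theorem tetraShadow_slice_subset (P : Fin 4 → ℝ × ℝ × ℝ) (hlo1 : (P 0).1 ≤ (P 1).1)
    (hlo2 : (P 0).1 ≤ (P 2).1) (hhi1 : (P 1).1 ≤ (P 3).1) (hhi2 : (P 2).1 ≤ (P 3).1)
    (hH : (P 0).1 < (P 3).1) (c d : ℝ) {z : ℝ} (hz : (P 0).1 < z) (hz' : z < (P 3).1) :
    slice (dirShadow c d (convexHull ℝ (Set.range P))) z ⊆
      Icc (c * (tetO P z).1 + d * (tetO P z).2 -
            (tentFn (P 0).1 (P 1).1 (P 3).1 z * max (-(c * (tetD P 1).1 + d * (tetD P 1).2)) 0 +
             tentFn (P 0).1 (P 2).1 (P 3).1 z * max (-(c * (tetD P 2).1 + d * (tetD P 2).2)) 0))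
          (c * (tetO P z).1 + d * (tetO P z).2 +
            (tentFn (P 0).1 (P 1).1 (P 3).1 z * max (c * (tetD P 1).1 + d * (tetD P 1).2) 0 +
             tentFn (P 0).1 (P 2).1 (P 3).1 z * max (c * (tetD P 2).1 + d * (tetD P 2).2) 0)) := by
  intro x hx
  rw [slice_dirShadow] at hx
  obtain ⟨q, hq, rfl⟩ := hx
  rw [tetra_fiber_iff P hH] at hq
  obtain ⟨a, b, ha, hb, h1, h2, rfl⟩ := hq
  have hb1 : 0 ≤ b * ((P 2).1 - (P 0).1) := mul_nonneg hb (by linarith)
  have hb2 : 0 ≤ b * ((P 3).1 - (P 2).1) := mul_nonneg hb (by linarith)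
  have ha1 : 0 ≤ a * ((P 1).1 - (P 0).1) := mul_nonneg ha (by linarith)
  have ha2 : 0 ≤ a * ((P 3).1 - (P 1).1) := mul_nonneg ha (by linarith)
  have haA : a ≤ tentFn (P 0).1 (P 1).1 (P 3).1 z :=
    le_tentFn hz hz' (by linarith) (by linarith)
  have hbB : b ≤ tentFn (P 0).1 (P 2).1 (P 3).1 z :=
    le_tentFn hz hz' (by linarith) (by linarith)
  have e : c * (tetO P z + a • tetD P 1 + b • tetD P 2).1 +
      d * (tetO P z + a • tetD P 1 + b • tetD P 2).2 =
      c * (tetO P z).1 + d * (tetO P z).2 + (a * (c * (tetD P 1).1 + d * (tetD P 1).2) +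
        b * (c * (tetD P 2).1 + d * (tetD P 2).2)) := by
    simp only [Prod.fst_add, Prod.snd_add, Prod.smul_fst, Prod.smul_snd, smul_eq_mul]
    ring
  have u1 := tetraShadow_mul_le (c := c * (tetD P 1).1 + d * (tetD P 1).2) ha haA
  have u2 := tetraShadow_mul_le (c := c * (tetD P 2).1 + d * (tetD P 2).2) hb hbB
  have l1 := tetraShadow_le_mul (c := c * (tetD P 1).1 + d * (tetD P 1).2) ha haA
  have l2 := tetraShadow_le_mul (c := c * (tetD P 2).1 + d * (tetD P 2).2) hb hbB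
  refine ⟨?_, ?_⟩
  · show _ ≤ c * (tetO P z + a • tetD P 1 + b • tetD P 2).1 +
      d * (tetO P z + a • tetD P 1 + b • tetD P 2).2
    rw [e]
    linarith
  · show c * (tetO P z + a • tetD P 1 + b • tetD P 2).1 +
      d * (tetO P z + a • tetD P 1 + b • tetD P 2).2 ≤ _
    rw [e]
    linarith

/-- Outside the closed range of levels the slice of the shadow is empty. -/
theorem tetraShadow_slice_empty (P : Fin 4 → ℝ × ℝ × ℝ) (hlo1 : (P 0).1 ≤ (P 1).1)
    (hlo2 : (P 0).1 ≤ (P 2).1) (hhi1 : (P 1).1 ≤ (P 3).1) (hhi2 : (P 2).1 ≤ (P 3).1)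
    (hH : (P 0).1 < (P 3).1) (c d : ℝ) {z : ℝ} (hz : z < (P 0).1 ∨ (P 3).1 < z) :
    slice (dirShadow c d (convexHull ℝ (Set.range P))) z = ∅ := by
  rw [slice_dirShadow, Set.image_eq_empty, Set.eq_empty_iff_forall_notMem]
  intro q hq
  rw [tetra_fiber_iff P hH] at hq
  obtain ⟨a, b, ha, hb, h1, h2, -⟩ := hq
  have hb1 : 0 ≤ b * ((P 2).1 - (P 0).1) := mul_nonneg hb (by linarith)
  have hb2 : 0 ≤ b * ((P 3).1 - (P 2).1) := mul_nonneg hb (by linarith)
  have ha1 : 0 ≤ a * ((P 1).1 - (P 0).1) := mul_nonneg ha (by linarith)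
  have ha2 : 0 ≤ a * ((P 3).1 - (P 1).1) := mul_nonneg ha (by linarith)
  rcases hz with hz | hz
  · linarith
  · linarith

/-- Area bound for the shadows of a tetrahedron whose vertices `P 0` and `P 3` are lowest and
highest: the shadow along a horizontal direction, measured by the form `c * x + d * y`, has
area at most half the height times the sum of the absolute offsets of `P 1` and `P 2`. -/
theorem tetra_shadow_le (P : Fin 4 → ℝ × ℝ × ℝ) (hlo1 : (P 0).1 ≤ (P 1).1)
    (hlo2 : (P 0).1 ≤ (P 2).1) (hhi1 : (P 1).1 ≤ (P 3).1) (hhi2 : (P 2).1 ≤ (P 3).1)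
    (hH : (P 0).1 < (P 3).1) (c d : ℝ) :
    volume (dirShadow c d (convexHull ℝ (Set.range P))) ≤
      ENNReal.ofReal (((P 3).1 - (P 0).1) / 2 *
        (|c * (tetD P 1).1 + d * (tetD P 1).2| + |c * (tetD P 2).1 + d * (tetD P 2).2|)) := by
  have hK : IsCompact (convexHull ℝ (Set.range P)) :=
    Set.Finite.isCompact_convexHull (𝕜 := ℝ) (Set.finite_range P)
  have hS : IsCompact (dirShadow c d (convexHull ℝ (Set.range P))) := dirShadow_compact hK c d
  rw [vol_eq_lintegral_slice' hS.measurableSet]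
  have hae : ∀ᵐ z ∂(volume : Measure ℝ), z ∉ ({(P 0).1, (P 3).1} : Set ℝ) :=
    (Set.toFinite _).countable.ae_notMem volume
  have hA0 : ∀ z, 0 ≤ tentFn (P 0).1 (P 1).1 (P 3).1 z := tentFn_nonneg hlo1 hhi1
  have hB0 : ∀ z, 0 ≤ tentFn (P 0).1 (P 2).1 (P 3).1 z := tentFn_nonneg hlo2 hhi2
  have hle : ∫⁻ z, volume (slice (dirShadow c d (convexHull ℝ (Set.range P))) z) ≤
      ∫⁻ z, (ENNReal.ofReal |c * (tetD P 1).1 + d * (tetD P 1).2| *
          ENNReal.ofReal (tentFn (P 0).1 (P 1).1 (P 3).1 z) +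
        ENNReal.ofReal |c * (tetD P 2).1 + d * (tetD P 2).2| *
          ENNReal.ofReal (tentFn (P 0).1 (P 2).1 (P 3).1 z)) := by
    apply lintegral_mono_ae
    filter_upwards [hae] with z hzn
    have hz0 : z ≠ (P 0).1 := fun h => hzn (by rw [h]; exact Set.mem_insert _ _)
    have hz3 : z ≠ (P 3).1 := fun h => hzn (by rw [h]; exact Set.mem_insert_of_mem _ rfl)
    by_cases hin : (P 0).1 < z ∧ z < (P 3).1
    · obtain ⟨hz, hz'⟩ := hin
      refine (measure_mono (tetraShadow_slice_subset P hlo1 hlo2 hhi1 hhi2 hH c d hz hz')).trans ?_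
      rw [Real.volume_Icc, ← ENNReal.ofReal_mul (abs_nonneg _), ← ENNReal.ofReal_mul (abs_nonneg _),
        ← ENNReal.ofReal_add (mul_nonneg (abs_nonneg _) (hA0 z)) (mul_nonneg (abs_nonneg _) (hB0 z))]
      apply ENNReal.ofReal_le_ofReal
      rw [← tetraShadow_max_add_max (c * (tetD P 1).1 + d * (tetD P 1).2),
        ← tetraShadow_max_add_max (c * (tetD P 2).1 + d * (tetD P 2).2)]
      apply le_of_eq
      ring
    · have hout : z < (P 0).1 ∨ (P 3).1 < z := by
        by_contra hcon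
        rw [not_or, not_lt, not_lt] at hcon
        exact hin ⟨lt_of_le_of_ne hcon.1 (Ne.symm hz0), lt_of_le_of_ne hcon.2 hz3⟩
      rw [tetraShadow_slice_empty P hlo1 hlo2 hhi1 hhi2 hH c d hout, measure_empty]
      exact zero_le
  refine hle.trans (le_of_eq ?_)
  have mA : Measurable fun z => ENNReal.ofReal (tentFn (P 0).1 (P 1).1 (P 3).1 z) :=
    (measurable_tentFn _ _ _).ennreal_ofReal
  have mB : Measurable fun z => ENNReal.ofReal (tentFn (P 0).1 (P 2).1 (P 3).1 z) :=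
    (measurable_tentFn _ _ _).ennreal_ofReal
  rw [lintegral_add_left (mA.const_mul _), lintegral_const_mul _ mA, lintegral_const_mul _ mB,
    lintegral_tentFn hlo1 hhi1 hH, lintegral_tentFn hlo2 hhi2 hH,
    ← ENNReal.ofReal_mul (abs_nonneg _), ← ENNReal.ofReal_mul (abs_nonneg _),
    ← ENNReal.ofReal_add (mul_nonneg (abs_nonneg _) (by linarith))
      (mul_nonneg (abs_nonneg _) (by linarith))]
  congr 1
  ring

end Vale.Agent.Lib.P243
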