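import Mathlib
import Vale.Agent.Lib.P243.SymSubCoord
import Vale.Agent.Lib.P243.TentFn
import Vale.Agent.Lib.P243.TetraSlice
import Vale.Agent.Lib.P243.TetraShadow
import Vale.Agent.Lib.P243.TetraBox

open MeasureTheory Set
open scoped ENNReal

namespace Vale.Agent.Lib.P243

/-- Coordinate form: a tetrahedron with lowest vertex `P 0` and highest vertex `P 3` (first
coordinate), covered by cylinders that are preimages of the sets `B i` under
`(t, x, y) ↦ (t, a i * x + b i * y)`. The relative areas of the bases sum to at least `1 / 2`. -/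
theorem tetra_coord (P : Fin 4 → ℝ × ℝ × ℝ) (hlo1 : (P 0).1 ≤ (P 1).1)
    (hlo2 : (P 0).1 ≤ (P 2).1) (hhi1 : (P 1).1 ≤ (P 3).1) (hhi2 : (P 2).1 ≤ (P 3).1)
    (hH : (P 0).1 < (P 3).1)
    {ι : Type*} [Fintype ι] (a b : ι → ℝ) (hab : ∀ i, a i ^ 2 + b i ^ 2 = 1)
    (B : ι → Set (ℝ × ℝ)) (hB : ∀ i, MeasurableSet (B i))
    (hcov : ∀ p ∈ convexHull ℝ (Set.range P), ∃ i, (p.1, a i * p.2.1 + b i * p.2.2) ∈ B i)
    (hpos : ∀ i, volume (dirShadow (a i) (b i) (convexHull ℝ (Set.range P))) ≠ 0) :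
    (1 / 2 : ℝ≥0∞) ≤
      ∑ i, volume (B i) / volume (dirShadow (a i) (b i) (convexHull ℝ (Set.range P))) := by
  obtain ⟨H, hHdef⟩ : ∃ H : ℝ, H = (P 3).1 - (P 0).1 := ⟨_, rfl⟩
  have hHpos : 0 < H := by
    rw [hHdef]
    linarith
  obtain ⟨m, hm⟩ : ∃ m : ℝ, m = ((P 1).1 + (P 2).1) / 2 := ⟨_, rfl⟩
  have hlm : (P 0).1 ≤ m := by
    rw [hm]
    linarith
  have hmr : m ≤ (P 3).1 := by
    rw [hm]
    linarith
  obtain ⟨s, hs⟩ : ∃ s : ι → ℝ, s = fun i =>
      |a i * (tetD P 1).1 + b i * (tetD P 1).2| + |a i * (tetD P 2).1 + b i * (tetD P 2).2| :=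
    ⟨_, rfl⟩
  have hshadow : ∀ i, volume (dirShadow (a i) (b i) (convexHull ℝ (Set.range P))) ≤
      ENNReal.ofReal (H / 2 * s i) := by
    intro i
    have h := tetra_shadow_le P hlo1 hlo2 hhi1 hhi2 hH (a i) (b i)
    rw [hHdef, hs]
    exact h
  have hκ : ∀ i, 0 < H / 2 * s i := by
    intro i
    by_contra hle
    push Not at hle
    have h0 : volume (dirShadow (a i) (b i) (convexHull ℝ (Set.range P))) ≤ 0 := by
      have h := hshadow i
      rwa [ENNReal.ofReal_of_nonpos hle] at h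
    exact hpos i (nonpos_iff_eq_zero.mp h0)
  have hτm : Measurable (fun z => tentFn (P 0).1 m (P 3).1 z / H) :=
    (measurable_tentFn _ _ _).div_const H
  have hτ : ∀ z, 0 < tentFn (P 0).1 m (P 3).1 z / H →
      ∃ Q : Set (ℝ × ℝ), IsCompact Q ∧ Convex ℝ Q ∧ Q.Nonempty ∧
        (∃ c0 : ℝ × ℝ, ∀ q ∈ Q, (2 : ℝ) • c0 - q ∈ Q) ∧
        Q ⊆ fiber (convexHull ℝ (Set.range P)) z ∧
        ∀ i, tentFn (P 0).1 m (P 3).1 z / H * (H / 2 * s i) ≤
          sSup ((fun q : ℝ × ℝ => a i * q.1 + b i * q.2) '' Q) -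
            sInf ((fun q : ℝ × ℝ => a i * q.1 + b i * q.2) '' Q) := by
    intro z hz
    have hz0 : 0 < tentFn (P 0).1 m (P 3).1 z := by
      have h := mul_pos hz hHpos
      rwa [div_mul_cancel₀ _ hHpos.ne'] at h
    obtain ⟨hz1, hz2⟩ := tentFn_pos_iff_mem hlm hmr hz0
    obtain ⟨Q, hQc, hQconv, hQne, hQsym, hQsub, hQw⟩ :=
      tetra_box P hlo1 hlo2 hhi1 hhi2 hH z hz1 hz2
    refine ⟨Q, hQc, hQconv, hQne, hQsym, hQsub, fun i => ?_⟩
    have h := hQw (a i) (b i)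
    rw [← hm] at h
    have e : tentFn (P 0).1 m (P 3).1 z / H * (H / 2 * s i)
        = tentFn (P 0).1 m (P 3).1 z / 2 * s i := by
      field_simp
    rw [e, hs]
    exact h
  have hmain := symsub_coord a b hab B hB hcov (fun i => H / 2 * s i) hκ hshadow
    (fun z => tentFn (P 0).1 m (P 3).1 z / H) hτm hτ
  refine le_trans (le_of_eq ?_) hmain
  have hint := lintegral_tentFn hlm hmr hH
  have e1 : ∀ z, ENNReal.ofReal (tentFn (P 0).1 m (P 3).1 z / H)
      = ENNReal.ofReal (1 / H) * ENNReal.ofReal (tentFn (P 0).1 m (P 3).1 z) := by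
    intro z
    rw [← ENNReal.ofReal_mul (by positivity)]
    congr 1
    field_simp
  simp only [e1]
  rw [lintegral_const_mul' _ _ ENNReal.ofReal_ne_top, hint, ← ENNReal.ofReal_mul (by positivity)]
  have e2 : 1 / H * (((P 3).1 - (P 0).1) / 2) = 1 / 2 := by
    rw [← hHdef]
    field_simp
  rw [e2, ENNReal.ofReal_div_of_pos (by norm_num : (0 : ℝ) < 2), ENNReal.ofReal_one,
    ENNReal.ofReal_ofNat]

end Vale.Agent.Lib.P243
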