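import Mathlib
import Vale.Agent.Lib.P243.CoplanarReduce
import Vale.Agent.Lib.P243.TetraCopCoord

open MeasureTheory Set
open scoped ENNReal

namespace Vale.Agent.Lib.P243

/-- A permutation of `Fin 4` sending `0` and `3` to two prescribed distinct indices. -/
theorem exists_perm_fin4 (i0 i1 : Fin 4) (h : i0 ≠ i1) :
    ∃ σ : Equiv.Perm (Fin 4), σ 0 = i0 ∧ σ 3 = i1 := by
  have hτ0 : Equiv.swap (0 : Fin 4) i0 0 = i0 := Equiv.swap_apply_left 0 i0
  have hj0 : (Equiv.swap (0 : Fin 4) i0).symm i1 ≠ 0 := by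
    intro h0
    apply h
    have h1 : Equiv.swap (0 : Fin 4) i0 ((Equiv.swap (0 : Fin 4) i0).symm i1) = i1 :=
      Equiv.apply_symm_apply _ _
    rw [h0, hτ0] at h1
    exact h1
  refine ⟨(Equiv.swap 3 ((Equiv.swap (0 : Fin 4) i0).symm i1)).trans (Equiv.swap 0 i0), ?_, ?_⟩
  · have h2 : Equiv.swap (3 : Fin 4) ((Equiv.swap (0 : Fin 4) i0).symm i1) 0 = 0 :=
      Equiv.swap_apply_of_ne_of_ne (by decide) (Ne.symm hj0)
    rw [Equiv.trans_apply, h2, hτ0]
  · have h3 : Equiv.swap (3 : Fin 4) ((Equiv.swap (0 : Fin 4) i0).symm i1) 3 =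
        (Equiv.swap (0 : Fin 4) i0).symm i1 := Equiv.swap_apply_left _ _
    rw [Equiv.trans_apply, h3, Equiv.apply_symm_apply]

/-- A linear chart pulls the convex hull of finitely many points back to the convex hull of
their preimages. -/
theorem preimage_convexHull_range {E : Type*} [NormedAddCommGroup E] [InnerProductSpace ℝ E]
    (Φ : (ℝ × ℝ × ℝ) ≃L[ℝ] E) (p : Fin 4 → E) :
    Φ ⁻¹' convexHull ℝ (Set.range p) = convexHull ℝ (Set.range (fun k => Φ.symm (p k))) := by
  have hlin : IsLinearMap ℝ (fun x : E => Φ.symm x) := ⟨Φ.symm.map_add, Φ.symm.map_smul⟩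
  rw [← Φ.image_symm_eq_preimage, Set.range_comp' (fun x : E => Φ.symm x) p]
  exact hlin.image_convexHull (Set.range p)

/-- The set of points with a prescribed inner product against `n` contains the convex hull of
any of its subsets. -/
theorem convexHull_subset_level {E : Type*} [NormedAddCommGroup E] [InnerProductSpace ℝ E]
    (p : Fin 4 → E) (n : E) (c : ℝ) (hc : ∀ k, inner ℝ (p k) n = c) :
    convexHull ℝ (Set.range p) ⊆ {x : E | inner ℝ x n = c} := by
  apply convexHull_min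
  · rintro _ ⟨k, rfl⟩
    exact hc k
  · intro x hx y hy s t _ _ hst
    have hx' : inner ℝ x n = c := hx
    have hy' : inner ℝ y n = c := hy
    show inner ℝ (s • x + t • y) n = c
    rw [inner_add_left, real_inner_smul_left, real_inner_smul_left, hx', hy', ← add_mul, hst,
      one_mul]

variable {E : Type*} [NormedAddCommGroup E] [InnerProductSpace ℝ E] [FiniteDimensional ℝ E]
  [MeasurableSpace E] [BorelSpace E]

/-- Tetrahedron covered by cylinders whose axes are all orthogonal to one unit vector `n`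
(parallel to one plane, any plane): the relative areas of the bases sum to at least `1 / 2`. -/
theorem tetra_coplanar (hdim : Module.finrank ℝ E = 3) (p : Fin 4 → E)
    (hint : (interior (convexHull ℝ (Set.range p))).Nonempty)
    {ι : Type*} [Fintype ι] (u : ι → E) (hu : ∀ i, ‖u i‖ = 1)
    (B : ∀ i, Set ↥(ℝ ∙ u i)ᗮ)
    (hcov : convexHull ℝ (Set.range p) ⊆
      ⋃ i, (ℝ ∙ u i)ᗮ.orthogonalProjectionOnto ⁻¹' B i)
    {n : E} (hn : ‖n‖ = 1) (hperp : ∀ i, inner ℝ (u i) n = 0) :
    (1 / 2 : ℝ≥0∞) ≤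
      ∑ i, volume (B i) /
        volume ((ℝ ∙ u i)ᗮ.orthogonalProjectionOnto '' convexHull ℝ (Set.range p)) := by
  classical
  have hKc : IsCompact (convexHull ℝ (Set.range p)) :=
    Set.Finite.isCompact_convexHull (𝕜 := ℝ) (Set.finite_range p)
  obtain ⟨Φ, a, b, B', hΦ, hab, hBm, hBv, hcov', hshadow, hpos⟩ :=
    coplanar_reduce hdim hKc hint u hu B hcov hn hperp
  have hpre := preimage_convexHull_range Φ p
  have hh : ∀ k, (Φ.symm (p k)).1 = inner ℝ (p k) n := by
    intro k
    rw [← hΦ (Φ.symm (p k)), Φ.apply_symm_apply]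
  obtain ⟨i0, hi0⟩ := Finite.exists_min (fun k : Fin 4 => inner ℝ (p k) n)
  obtain ⟨i1, hi1⟩ := Finite.exists_max (fun k : Fin 4 => inner ℝ (p k) n)
  have hlt : inner ℝ (p i0) n < inner ℝ (p i1) n := by
    by_contra hcon
    have hcon' : inner ℝ (p i1) n ≤ inner ℝ (p i0) n := not_lt.mp hcon
    have hconst : ∀ k, inner ℝ (p k) n = inner ℝ (p i0) n := fun k =>
      le_antisymm ((hi1 k).trans hcon') (hi0 k)
    have hKsub := convexHull_subset_level p n (inner ℝ (p i0) n) hconst
    obtain ⟨x, hx⟩ := hint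
    have hxK : x ∈ convexHull ℝ (Set.range p) := interior_subset hx
    obtain ⟨i, -⟩ := Set.mem_iUnion.mp (hcov hxK)
    apply hpos i
    rw [← hshadow i]
    apply measure_mono_null (t := ({inner ℝ (p i0) n} : Set ℝ) ×ˢ (Set.univ : Set ℝ))
    · rintro _ ⟨q, hq, rfl⟩
      refine ⟨?_, Set.mem_univ _⟩
      have h1 : inner ℝ (Φ q) n = inner ℝ (p i0) n := hKsub hq
      rw [hΦ q] at h1
      exact h1
    · rw [Measure.volume_eq_prod, Measure.prod_prod]
      simp
  have hne : i0 ≠ i1 := by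
    rintro rfl
    exact lt_irrefl _ hlt
  obtain ⟨σ, hσ0, hσ3⟩ := exists_perm_fin4 i0 i1 hne
  have hrange : Set.range (fun k => Φ.symm (p (σ k))) = Set.range (fun k => Φ.symm (p k)) :=
    σ.surjective.range_comp (fun k => Φ.symm (p k))
  have hPK : Φ ⁻¹' convexHull ℝ (Set.range p) =
      convexHull ℝ (Set.range (fun k => Φ.symm (p (σ k)))) := by
    rw [hpre, hrange]
  have hP1 : ∀ k, ((fun k => Φ.symm (p (σ k))) k).1 = inner ℝ (p (σ k)) n := fun k => hh (σ k)
  have key := tetra_coord (fun k => Φ.symm (p (σ k)))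
    (by rw [hP1, hP1, hσ0]; exact hi0 _) (by rw [hP1, hP1, hσ0]; exact hi0 _)
    (by rw [hP1, hP1, hσ3]; exact hi1 _) (by rw [hP1, hP1, hσ3]; exact hi1 _)
    (by rw [hP1, hP1, hσ0, hσ3]; exact hlt) a b hab B' hBm
    (by rw [← hPK]; exact hcov')
    (by intro i; rw [← hPK, hshadow i]; exact hpos i)
  refine key.trans (le_of_eq ?_)
  apply Finset.sum_congr rfl
  intro i _
  rw [← hPK, hshadow i, hBv i]

end Vale.Agent.Lib.P243
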