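import Mathlib
import Vale.Agent.Lib.P243.TetraCoord
import Vale.Agent.Lib.P243.MChord
import Vale.Agent.Lib.P243.TetraTheta

/-!
Cylinders whose axes join two opposite edges of a tetrahedron.

If finitely many cylinders cover a tetrahedron and every axis is parallel to a segment joining
a point of one edge to a point of the opposite edge, then the relative areas of the bases of
the cylinders add up to at least `1 / 2`.  The proof applies the chord comparison principle
with fibre measures (file `MChord`) to thin slabs next to the middle section of the tetrahedron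
between the two edges.
-/

open MeasureTheory Set

namespace Vale.Agent.Lib.P243

/-- The limit argument in extended nonnegative reals. -/
theorem cross_limit {V R : ENNReal} (hV0 : V ≠ 0) (hVt : V ≠ ⊤)
    (h : ∀ e : ℝ, 0 < e → e < 1 / 2 →
      ENNReal.ofReal (3 / 2 * (e - e ^ 2)) * V ≤ 3 * V * (ENNReal.ofReal e * R)) :
    (1 / 2 : ENNReal) ≤ R := by
  rcases eq_or_ne R ⊤ with hR | hR
  · rw [hR]
    exact le_top
  have hv : 0 < V.toReal := ENNReal.toReal_pos hV0 hVt
  have key : ∀ e : ℝ, 0 < e → e < 1 / 2 → (1 - e) / 2 ≤ R.toReal := by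
    intro e he he2
    have h1 := h e he he2
    have ht : 3 * V * (ENNReal.ofReal e * R) ≠ ⊤ :=
      ENNReal.mul_ne_top (ENNReal.mul_ne_top (by simp) hVt)
        (ENNReal.mul_ne_top ENNReal.ofReal_ne_top hR)
    have h2 := ENNReal.toReal_mono ht h1
    have hee : 0 ≤ 3 / 2 * (e - e ^ 2) := by nlinarith
    rw [ENNReal.toReal_mul, ENNReal.toReal_mul, ENNReal.toReal_mul, ENNReal.toReal_mul,
      ENNReal.toReal_ofReal he.le, ENNReal.toReal_ofReal hee] at h2
    have h3 : (3 : ENNReal).toReal = 3 := by simp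
    rw [h3] at h2
    by_contra hlt
    push Not at hlt
    nlinarith [mul_pos (mul_pos hv he) (sub_pos.mpr hlt)]
  have hr : (1 / 2 : ℝ) ≤ R.toReal := by
    by_contra hlt
    push Not at hlt
    have hR0 : 0 ≤ R.toReal := ENNReal.toReal_nonneg
    have h5 := key ((1 - 2 * R.toReal) / 4) (by linarith) (by linarith)
    linarith
  have hfin := (ENNReal.ofReal_le_iff_le_toReal hR).mpr hr
  have hhalf : ENNReal.ofReal (1 / 2) = 1 / 2 := by
    rw [ENNReal.ofReal_div_of_pos (by norm_num : (0 : ℝ) < 2), ENNReal.ofReal_one,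
      ENNReal.ofReal_ofNat]
  rwa [hhalf] at hfin

variable {E : Type*} [NormedAddCommGroup E] [InnerProductSpace ℝ E] [MeasurableSpace E]
  [BorelSpace E] [FiniteDimensional ℝ E]

omit [MeasurableSpace E] [BorelSpace E] [FiniteDimensional ℝ E] in
/-- The barycentric coordinates of a point of an edge of a tetrahedron. -/
theorem cross_segment_coord (b : AffineBasis (Fin 4) ℝ E) (j k : Fin 4) {q : E}
    (hq : q ∈ segment ℝ (b j) (b k)) :
    ∃ α β : ℝ, 0 ≤ α ∧ 0 ≤ β ∧ α + β = 1 ∧
      ∀ l, b.coord l q = α * (if l = j then 1 else 0) + β * (if l = k then 1 else 0) := by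
  obtain ⟨α, β, hα, hβ, hαβ, rfl⟩ := hq
  refine ⟨α, β, hα, hβ, hαβ, fun l => ?_⟩
  rw [Convex.combo_affine_apply hαβ, b.coord_apply, b.coord_apply]
  simp only [smul_eq_mul]

omit [MeasurableSpace E] [BorelSpace E] [FiniteDimensional ℝ E] in
/-- Along a segment joining two opposite edges of a tetrahedron, the sum of the barycentric
coordinates belonging to the second edge grows from zero to one. -/
theorem cross_slope (b : AffineBasis (Fin 4) ℝ E) (σ : Equiv.Perm (Fin 4)) {q q' : E}
    (hq : q ∈ segment ℝ (b (σ 0)) (b (σ 1))) (hq' : q' ∈ segment ℝ (b (σ 2)) (b (σ 3))) :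
    (b.coord (σ 2)).linear (q' - q) + (b.coord (σ 3)).linear (q' - q) = 1 := by
  obtain ⟨α, β, -, -, -, hc⟩ := cross_segment_coord b (σ 0) (σ 1) hq
  obtain ⟨α', β', -, -, hαβ', hc'⟩ := cross_segment_coord b (σ 2) (σ 3) hq'
  have h20 : σ 2 ≠ σ 0 := σ.injective.ne (by decide)
  have h21 : σ 2 ≠ σ 1 := σ.injective.ne (by decide)
  have h30 : σ 3 ≠ σ 0 := σ.injective.ne (by decide)
  have h31 : σ 3 ≠ σ 1 := σ.injective.ne (by decide)
  have h23 : σ 2 ≠ σ 3 := σ.injective.ne (by decide)
  have e2 : (b.coord (σ 2)).linear (q' - q) = b.coord (σ 2) q' - b.coord (σ 2) q :=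
    (b.coord (σ 2)).linearMap_vsub q' q
  have e3 : (b.coord (σ 3)).linear (q' - q) = b.coord (σ 3) q' - b.coord (σ 3) q :=
    (b.coord (σ 3)).linearMap_vsub q' q
  have c2 : b.coord (σ 2) q = 0 := by
    rw [hc (σ 2), if_neg h20, if_neg h21]
    ring
  have c3 : b.coord (σ 3) q = 0 := by
    rw [hc (σ 3), if_neg h30, if_neg h31]
    ring
  have c2' : b.coord (σ 2) q' = α' := by
    rw [hc' (σ 2), if_pos rfl, if_neg h23]
    ring
  have c3' : b.coord (σ 3) q' = β' := by
    rw [hc' (σ 3), if_neg h23.symm, if_pos rfl]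
    ring
  rw [e2, e3, c2, c3, c2', c3']
  linarith

/-- The slab of a tetrahedron between the middle section separating two opposite edges and a
parallel section at barycentric distance `e` has volume at least `3 / 2 * (e - e ^ 2)` times
the volume of the tetrahedron. -/
theorem cross_slab_volume (hdim : Module.finrank ℝ E = 3) (b : AffineBasis (Fin 4) ℝ E)
    (σ : Equiv.Perm (Fin 4)) {e : ℝ} (he : 0 < e) (he2 : e < 1 / 2) :
    ENNReal.ofReal (3 / 2 * (e - e ^ 2)) * volume (convexHull ℝ (range b)) ≤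
      volume {x | x ∈ convexHull ℝ (range b) ∧
        1 / 2 - e ≤ b.coord (σ 2) x + b.coord (σ 3) x ∧
        b.coord (σ 2) x + b.coord (σ 3) x ≤ 1 / 2} := by
  obtain ⟨c, -, -, hc⟩ := bary_scale hdim b σ
  have hT : convexHull ℝ (range b) =
      {x : E | ((b.coord (σ 2) x, b.coord (σ 3) x), b.coord (σ 1) x) ∈ stdTet} := by
    rw [b.convexHull_eq_nonneg_coord]
    ext x
    have hsum := b.sum_coord_apply_eq_one x
    rw [perm_sum σ (fun j => b.coord j x)] at hsum
    show (∀ j, 0 ≤ b.coord j x) ↔ 0 ≤ b.coord (σ 2) x ∧ 0 ≤ b.coord (σ 3) x ∧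
      0 ≤ b.coord (σ 1) x ∧ b.coord (σ 2) x + b.coord (σ 3) x + b.coord (σ 1) x ≤ 1
    rw [perm_forall σ (fun j => 0 ≤ b.coord j x)]
    constructor
    · rintro ⟨h0, h1, h2, h3⟩
      exact ⟨h2, h3, h1, by linarith⟩
    · rintro ⟨h2, h3, h1, h4⟩
      exact ⟨by linarith, h1, h2, h3⟩
  obtain ⟨P, hP⟩ : ∃ P : Set (ℝ × ℝ),
      P = triSet (1 / 2) ∩ {q : ℝ × ℝ | 1 / 2 - e ≤ q.1 + q.2} := ⟨_, rfl⟩
  have hPm : MeasurableSet P := by
    rw [hP]
    exact (triSet_closed _).measurableSet.inter
      (isClosed_le continuous_const (continuous_fst.add continuous_snd)).measurableSet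
  have hPvol : ENNReal.ofReal ((e - e ^ 2) / 2) ≤ volume P := by
    have hsub : triSet (1 / 2) ⊆ P ∪ triSet (1 / 2 - e) := by
      intro q hq
      by_cases h : 1 / 2 - e ≤ q.1 + q.2
      · left
        rw [hP]
        exact ⟨hq, h⟩
      · right
        push Not at h
        exact ⟨hq.1, hq.2.1, h.le⟩
    have h1 : volume (triSet (1 / 2)) ≤ volume P + volume (triSet (1 / 2 - e)) :=
      le_trans (measure_mono hsub) (measure_union_le P (triSet (1 / 2 - e)))
    rw [volume_triSet (by norm_num : (0 : ℝ) ≤ 1 / 2),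
      volume_triSet (by linarith : (0 : ℝ) ≤ 1 / 2 - e)] at h1
    have h2 : ENNReal.ofReal ((e - e ^ 2) / 2) + ENNReal.ofReal ((1 / 2 - e) ^ 2 / 2) =
        ENNReal.ofReal ((1 / 2) ^ 2 / 2) := by
      rw [← ENNReal.ofReal_add (by nlinarith) (by positivity)]
      congr 1
      ring
    rw [← h2] at h1
    exact (ENNReal.add_le_add_iff_right ENNReal.ofReal_ne_top).mp h1
  have hW : {x : E | ((b.coord (σ 2) x, b.coord (σ 3) x), b.coord (σ 1) x) ∈
        P ×ˢ Icc (0 : ℝ) (1 / 2)} ⊆
      {x | x ∈ convexHull ℝ (range b) ∧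
        1 / 2 - e ≤ b.coord (σ 2) x + b.coord (σ 3) x ∧
        b.coord (σ 2) x + b.coord (σ 3) x ≤ 1 / 2} := by
    rintro x ⟨hxP, hx1⟩
    rw [hP] at hxP
    obtain ⟨⟨h2, h3, h23⟩, hlow⟩ := hxP
    have hsum := b.sum_coord_apply_eq_one x
    rw [perm_sum σ (fun j => b.coord j x)] at hsum
    have h1u : b.coord (σ 1) x ≤ 1 / 2 := hx1.2
    have h1l : 0 ≤ b.coord (σ 1) x := hx1.1
    have h23' : b.coord (σ 2) x + b.coord (σ 3) x ≤ 1 / 2 := h23
    have hlow' : 1 / 2 - e ≤ b.coord (σ 2) x + b.coord (σ 3) x := hlow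
    have h2' : 0 ≤ b.coord (σ 2) x := h2
    have h3' : 0 ≤ b.coord (σ 3) x := h3
    refine ⟨?_, hlow', h23'⟩
    rw [b.convexHull_eq_nonneg_coord]
    exact (perm_forall σ (fun j => 0 ≤ b.coord j x)).mpr ⟨by linarith, h1l, h2', h3'⟩
  calc ENNReal.ofReal (3 / 2 * (e - e ^ 2)) * volume (convexHull ℝ (range b))
      = ENNReal.ofReal (3 / 2 * (e - e ^ 2)) * (c * ENNReal.ofReal (1 / 6)) := by
        rw [hT, hc _ stdTet_closed.measurableSet, volume_stdTet]
    _ = c * (ENNReal.ofReal ((e - e ^ 2) / 2) * ENNReal.ofReal (1 / 2)) := by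
        rw [mul_left_comm, ← ENNReal.ofReal_mul (by nlinarith),
          ← ENNReal.ofReal_mul (by nlinarith)]
        congr 2
        ring
    _ ≤ c * (volume P * ENNReal.ofReal (1 / 2)) := by
        gcongr
    _ = volume {x : E | ((b.coord (σ 2) x, b.coord (σ 3) x), b.coord (σ 1) x) ∈
          P ×ˢ Icc (0 : ℝ) (1 / 2)} := by
        rw [hc _ (hPm.prod measurableSet_Icc), Measure.volume_eq_prod (ℝ × ℝ) ℝ,
          Measure.prod_prod, Real.volume_Icc, sub_zero]
    _ ≤ volume {x | x ∈ convexHull ℝ (range b) ∧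
          1 / 2 - e ≤ b.coord (σ 2) x + b.coord (σ 3) x ∧
          b.coord (σ 2) x + b.coord (σ 3) x ≤ 1 / 2} := measure_mono hW

/-- Cylinders joining two opposite edges of a tetrahedron: let the cylinders with axis
directions `u i` and bases `B i` (arbitrary subsets of the planes orthogonal to `u i`) cover
the convex hull of four points with nonempty interior. If every axis is parallel to a segment
joining a point of the edge `p (σ 0) p (σ 1)` to a point of the opposite edge
`p (σ 2) p (σ 3)`, then the areas of the bases divided by the areas of the corresponding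
orthogonal projections of the tetrahedron add up to at least `1 / 2`. -/
theorem tetra_cross_indexed (hdim : Module.finrank ℝ E = 3) (p : Fin 4 → E)
    (hint : (interior (convexHull ℝ (Set.range p))).Nonempty) (σ : Equiv.Perm (Fin 4))
    {m : ℕ} (u : Fin m → E) (hu0 : ∀ i, u i ≠ 0)
    (hcross : ∀ i, ∃ q ∈ segment ℝ (p (σ 0)) (p (σ 1)), ∃ q' ∈ segment ℝ (p (σ 2)) (p (σ 3)),
      u i ∈ ℝ ∙ (q' - q))
    (B : ∀ i, Set ↥(ℝ ∙ u i)ᗮ)
    (hcov : convexHull ℝ (Set.range p) ⊆
      ⋃ i, (ℝ ∙ u i)ᗮ.orthogonalProjectionOnto ⁻¹' B i) :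
    (1 / 2 : ENNReal) ≤
      ∑ i, volume (B i) /
        volume ((ℝ ∙ u i)ᗮ.orthogonalProjectionOnto '' convexHull ℝ (Set.range p)) := by
  have htop : affineSpan ℝ (Set.range p) = ⊤ :=
    interior_convexHull_nonempty_iff_affineSpan_eq_top.mp hint
  have hind : AffineIndependent ℝ p := by
    rw [affineIndependent_iff_finrank_vectorSpan_eq ℝ p (n := 3) (by simp),
      ← direction_affineSpan, htop, AffineSubspace.direction_top, finrank_top, hdim]
  let b : AffineBasis (Fin 4) ℝ E := ⟨p, hind, htop⟩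
  have hb : Set.range b = Set.range p := rfl
  have hTc : IsCompact (convexHull ℝ (Set.range p)) := (Set.finite_range p).isCompact_convexHull ℝ
  have hTconv : Convex ℝ (convexHull ℝ (Set.range p)) := convex_convexHull ℝ _
  have hV0 : volume (convexHull ℝ (Set.range p)) ≠ 0 :=
    (lt_of_lt_of_le (isOpen_interior.measure_pos volume hint)
      (measure_mono interior_subset)).ne'
  have hVt : volume (convexHull ℝ (Set.range p)) ≠ ⊤ := hTc.measure_lt_top.ne
  apply cross_limit hV0 hVt
  intro e he he2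
  obtain ⟨S, hS⟩ : ∃ S : Set E, S = {x | x ∈ convexHull ℝ (Set.range p) ∧
      1 / 2 - e ≤ b.coord (σ 2) x + b.coord (σ 3) x ∧
      b.coord (σ 2) x + b.coord (σ 3) x ≤ 1 / 2} := ⟨_, rfl⟩
  have hSm : MeasurableSet S := by
    have hc : ∀ j, Continuous (b.coord j) := fun j => (b.coord j).continuous_of_finiteDimensional
    have : S = convexHull ℝ (Set.range p) ∩
        ({x : E | 1 / 2 - e ≤ b.coord (σ 2) x + b.coord (σ 3) x} ∩
          {x : E | b.coord (σ 2) x + b.coord (σ 3) x ≤ 1 / 2}) := by
      rw [hS]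
      rfl
    rw [this]
    exact hTc.measurableSet.inter
      ((isClosed_le continuous_const ((hc _).add (hc _))).measurableSet.inter
        (isClosed_le ((hc _).add (hc _)) continuous_const).measurableSet)
  have hST : S ⊆ convexHull ℝ (Set.range p) := by
    intro x hx
    rw [hS] at hx
    exact hx.1
  have hchord : ∀ i, ∃ L : ℝ, 0 < L ∧
      (∃ x ∈ convexHull ℝ (Set.range p), x + L • u i ∈ convexHull ℝ (Set.range p)) ∧
      ∀ x : E, volume {t : ℝ | x + t • u i ∈ S} ≤ ENNReal.ofReal (e * L) := by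
    intro i
    obtain ⟨q, hq, q', hq', hu⟩ := hcross i
    obtain ⟨a, ha⟩ := Submodule.mem_span_singleton.mp hu
    have ha0 : a ≠ 0 := by
      intro h0
      rw [h0, zero_smul] at ha
      exact hu0 i ha.symm
    have hqT : q ∈ convexHull ℝ (Set.range p) :=
      hTconv.segment_subset (subset_convexHull ℝ _ (mem_range_self _))
        (subset_convexHull ℝ _ (mem_range_self _)) hq
    have hqT' : q' ∈ convexHull ℝ (Set.range p) :=
      hTconv.segment_subset (subset_convexHull ℝ _ (mem_range_self _))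
        (subset_convexHull ℝ _ (mem_range_self _)) hq'
    have hslope : (b.coord (σ 2)).linear (u i) + (b.coord (σ 3)).linear (u i) = a := by
      rw [← ha, map_smul, map_smul, smul_eq_mul, smul_eq_mul, ← mul_add,
        cross_slope b σ hq hq', mul_one]
    refine ⟨|a|⁻¹, inv_pos.mpr (abs_pos.mpr ha0), ?_, ?_⟩
    · rcases lt_or_gt_of_ne ha0 with hneg | hpos
      · refine ⟨q', hqT', ?_⟩
        have e1 : |a|⁻¹ * a = -1 := by
          rw [abs_of_neg hneg]
          field_simp
        have e2 : q' + |a|⁻¹ • u i = q := by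
          rw [← ha, smul_smul, e1, neg_one_smul]
          abel
        rw [e2]
        exact hqT
      · refine ⟨q, hqT, ?_⟩
        have e1 : |a|⁻¹ * a = 1 := by
          rw [abs_of_pos hpos]
          exact inv_mul_cancel₀ ha0
        have e2 : q + |a|⁻¹ • u i = q' := by
          rw [← ha, smul_smul, e1, one_smul]
          abel
        rw [e2]
        exact hqT'
    · intro x
      obtain ⟨w, hw⟩ : ∃ w : ℝ, w = b.coord (σ 2) x + b.coord (σ 3) x := ⟨_, rfl⟩
      have hsub : {t : ℝ | x + t • u i ∈ S} ⊆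
          Metric.closedBall ((1 / 2 - e / 2 - w) / a) (e / 2 * |a|⁻¹) := by
        intro t ht
        have ht' : x + t • u i ∈ S := ht
        rw [hS] at ht'
        obtain ⟨-, h1, h2⟩ := ht'
        have hf : b.coord (σ 2) (x + t • u i) + b.coord (σ 3) (x + t • u i) = w + t * a := by
          rw [coord_add_smul, coord_add_smul, hw, ← hslope]
          ring
        rw [hf] at h1 h2
        rw [Metric.mem_closedBall, Real.dist_eq]
        have e1 : t - (1 / 2 - e / 2 - w) / a = (w + t * a - (1 / 2 - e / 2)) / a := by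
          field_simp
          ring
        rw [e1, abs_div, div_eq_mul_inv]
        refine mul_le_mul_of_nonneg_right ?_ (inv_nonneg.mpr (abs_nonneg a))
        rw [abs_le]
        constructor <;> linarith
      calc volume {t : ℝ | x + t • u i ∈ S}
          ≤ volume (Metric.closedBall ((1 / 2 - e / 2 - w) / a) (e / 2 * |a|⁻¹)) :=
            measure_mono hsub
        _ = ENNReal.ofReal (e * |a|⁻¹) := by
            rw [Real.volume_closedBall]
            congr 1
            ring
  have h1 := chord_principle_meas hdim (convexHull ℝ (Set.range p)) hTc hTconv hint S hSm u hu0 B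
    (hST.trans hcov) (fun _ => e) (fun _ => he.le) hchord
  have h2 := cross_slab_volume hdim b σ he he2
  rw [hb, ← hS] at h2
  calc ENNReal.ofReal (3 / 2 * (e - e ^ 2)) * volume (convexHull ℝ (Set.range p))
      ≤ volume S := h2
    _ ≤ 3 * volume (convexHull ℝ (Set.range p)) *
          ∑ i, ENNReal.ofReal e * (volume (B i) /
            volume ((ℝ ∙ u i)ᗮ.orthogonalProjectionOnto '' convexHull ℝ (Set.range p))) := h1
    _ = 3 * volume (convexHull ℝ (Set.range p)) *
          (ENNReal.ofReal e * ∑ i, volume (B i) /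
            volume ((ℝ ∙ u i)ᗮ.orthogonalProjectionOnto '' convexHull ℝ (Set.range p))) := by
        congr 1
        rw [Finset.mul_sum]

end Vale.Agent.Lib.P243
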