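import Mathlib
import Vale.Agent.Lib.P243.TetraCoord
import Vale.Agent.Lib.P243.MChord
import Vale.Agent.Lib.P243.TetraTheta
import Vale.Agent.Lib.P243.ConeChord

/-!
Cylinders whose axes are transversal to one face of a tetrahedron.

An application of the chord comparison principle with fibre measures (file `MChord`) to the
thin slab next to the face opposite to a vertex `p j` of a tetrahedron: if the axis directions
are `u i = ∑ l, c i l • p l` and the barycentric slope `c i j` of every axis is at least the
fraction `ρ` of the half sum of the absolute values of all its slopes, then the relative base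
areas add up to at least `ρ`.
-/

open MeasureTheory Set

namespace Vale.Agent.Lib.P243

variable {E : Type*} [NormedAddCommGroup E] [InnerProductSpace ℝ E] [MeasurableSpace E]
  [BorelSpace E] [FiniteDimensional ℝ E]

/-- The slab of barycentric width `e` next to the face opposite to the vertex `j` of a
tetrahedron fills all but `(1 - e) ^ 3` of it. -/
theorem vertex_slab_volume (hdim : Module.finrank ℝ E = 3) (b : AffineBasis (Fin 4) ℝ E)
    (j : Fin 4) {e : ℝ} (he1 : e < 1) :
    volume (convexHull ℝ (range b)) ≤
      volume {x | x ∈ convexHull ℝ (range b) ∧ b.coord j x ≤ e} +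
        ENNReal.ofReal ((1 - e) ^ 3) * volume (convexHull ℝ (range b)) := by
  have hr : 0 < 1 - e := by linarith
  have hsub : convexHull ℝ (range b) ⊆
      {x | x ∈ convexHull ℝ (range b) ∧ b.coord j x ≤ e} ∪
        {x | x ∈ convexHull ℝ (range b) ∧ 1 - (1 - e) ≤ b.coord j x} := by
    intro x hxT
    by_cases hx : b.coord j x ≤ e
    · exact Or.inl ⟨hxT, hx⟩
    · right
      push Not at hx
      exact ⟨hxT, by linarith⟩
  calc volume (convexHull ℝ (range b))
      ≤ volume {x | x ∈ convexHull ℝ (range b) ∧ b.coord j x ≤ e} +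
        volume {x | x ∈ convexHull ℝ (range b) ∧ 1 - (1 - e) ≤ b.coord j x} :=
        le_trans (measure_mono hsub) (measure_union_le _ _)
    _ ≤ volume {x | x ∈ convexHull ℝ (range b) ∧ b.coord j x ≤ e} +
        ENNReal.ofReal ((1 - e) ^ 3) * volume (convexHull ℝ (range b)) :=
        add_le_add le_rfl (corner_le hdim b j hr)

/-- Tetrahedron, one vertex dominant for every axis: let the cylinders with axis directions
`u i = ∑ l, c i l • p l` (where `∑ l, c i l = 0`) and bases `B i` cover the convex hull of the
four points `p l`, which has nonempty interior. If for a fixed vertex `j` and every axis the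
absolute value of the barycentric slope `c i j` is at least `ρ` times the half sum of the
absolute values of all slopes of the axis, then the areas of the bases divided by the areas of
the corresponding orthogonal projections of the tetrahedron add up to at least `ρ`. -/
theorem tetra_vertex_indexed (hdim : Module.finrank ℝ E = 3) (p : Fin 4 → E)
    (hint : (interior (convexHull ℝ (Set.range p))).Nonempty) (j : Fin 4) (ρ : ℝ) (hρ : 0 < ρ)
    {m : ℕ} (u : Fin m → E)
    (c : Fin m → Fin 4 → ℝ) (hc0 : ∀ i, ∑ l, c i l = 0) (hcu : ∀ i, u i = ∑ l, c i l • p l)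
    (hdom : ∀ i, ρ * ∑ l, |c i l| ≤ 2 * |c i j|)
    (hu0 : ∀ i, u i ≠ 0)
    (B : ∀ i, Set ↥(ℝ ∙ u i)ᗮ)
    (hcov : convexHull ℝ (Set.range p) ⊆
      ⋃ i, (ℝ ∙ u i)ᗮ.orthogonalProjectionOnto ⁻¹' B i) :
    ENNReal.ofReal ρ ≤
      ∑ i, volume (B i) /
        volume ((ℝ ∙ u i)ᗮ.orthogonalProjectionOnto '' convexHull ℝ (Set.range p)) := by
  have htop : affineSpan ℝ (Set.range p) = ⊤ :=
    interior_convexHull_nonempty_iff_affineSpan_eq_top.mp hint
  have hind : AffineIndependent ℝ p := by
    rw [affineIndependent_iff_finrank_vectorSpan_eq ℝ p (n := 3) (by simp),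
      ← direction_affineSpan, htop, AffineSubspace.direction_top, finrank_top, hdim]
  let b : AffineBasis (Fin 4) ℝ E := ⟨p, hind, htop⟩
  have hb : Set.range b = Set.range p := rfl
  have hTc : IsCompact (convexHull ℝ (Set.range p)) := (Set.finite_range p).isCompact_convexHull ℝ
  have hTconv : Convex ℝ (convexHull ℝ (Set.range p)) := convex_convexHull ℝ _
  have hV0 : volume (convexHull ℝ (Set.range p)) ≠ 0 :=
    (lt_of_lt_of_le (isOpen_interior.measure_pos volume hint)
      (measure_mono interior_subset)).ne'
  have hVt : volume (convexHull ℝ (Set.range p)) ≠ ⊤ := hTc.measure_lt_top.ne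
  have hlin : ∀ i l, (b.coord l).linear (u i) = c i l := by
    intro i l
    rw [hcu i]
    exact theta_coord_linear b (c i) (hc0 i) l
  have hX : ∀ i, 0 < (∑ l, |c i l|) / 2 := by
    intro i
    have hex : ∃ l, c i l ≠ 0 := by
      by_contra hno
      push Not at hno
      apply hu0 i
      rw [hcu i]
      exact Finset.sum_eq_zero fun l _ => by rw [hno l, zero_smul]
    obtain ⟨l, hl⟩ := hex
    have : 0 < ∑ l, |c i l| :=
      Finset.sum_pos' (fun l _ => abs_nonneg (c i l)) ⟨l, Finset.mem_univ l, abs_pos.mpr hl⟩
    linarith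
  have hcj : ∀ i, ρ * ((∑ l, |c i l|) / 2) ≤ |c i j| := by
    intro i
    have := hdom i
    linarith
  have hcjpos : ∀ i, 0 < |c i j| := fun i => lt_of_lt_of_le (mul_pos hρ (hX i)) (hcj i)
  apply rho_limit hV0 hVt hρ
  intro e he he1
  obtain ⟨S, hS⟩ : ∃ S : Set E,
      S = {x | x ∈ convexHull ℝ (Set.range p) ∧ b.coord j x ≤ e} := ⟨_, rfl⟩
  have hSm : MeasurableSet S := by
    have hc : Continuous (b.coord j) := (b.coord j).continuous_of_finiteDimensional
    have : S = convexHull ℝ (Set.range p) ∩ {x : E | b.coord j x ≤ e} := by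
      rw [hS]
      rfl
    rw [this]
    exact hTc.measurableSet.inter (isClosed_le hc continuous_const).measurableSet
  have hST : S ⊆ convexHull ℝ (Set.range p) := by
    intro x hx
    rw [hS] at hx
    exact hx.1
  have hchord : ∀ i, ∃ L : ℝ, 0 < L ∧
      (∃ x ∈ convexHull ℝ (Set.range p), x + L • u i ∈ convexHull ℝ (Set.range p)) ∧
      ∀ x : E, volume {t : ℝ | x + t • u i ∈ S} ≤ ENNReal.ofReal (e / ρ * L) := by
    intro i
    refine ⟨((∑ l, |c i l|) / 2)⁻¹, inv_pos.mpr (hX i), ?_, ?_⟩
    · have := theta_chord b (c i) (hc0 i) (hX i)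
      rw [hb] at this
      rw [hcu i]
      exact this
    · intro x
      have hsub : {t : ℝ | x + t • u i ∈ S} ⊆
          {t : ℝ | 0 ≤ b.coord j x + t * c i j ∧ b.coord j x + t * c i j ≤ e} := by
        intro t ht
        have ht' : x + t • u i ∈ S := ht
        rw [hS] at ht'
        obtain ⟨htT, hte⟩ := ht'
        rw [← hb, b.convexHull_eq_nonneg_coord] at htT
        have h0 : 0 ≤ b.coord j (x + t • u i) := htT j
        rw [coord_add_smul, hlin] at h0 hte
        exact ⟨h0, hte⟩
      refine le_trans (measure_mono hsub) ?_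
      refine le_trans (Real.volume_le_diam _) (Metric.ediam_le ?_)
      intro t ht t' ht'
      rw [edist_dist, Real.dist_eq]
      apply ENNReal.ofReal_le_ofReal
      obtain ⟨h1, h2⟩ := ht
      obtain ⟨h3, h4⟩ := ht'
      have h5 : |t - t'| * |c i j| ≤ e := by
        rw [← abs_mul, abs_le]
        constructor <;> linarith
      have h6 : |t - t'| * (ρ * ((∑ l, |c i l|) / 2)) ≤ |t - t'| * |c i j| :=
        mul_le_mul_of_nonneg_left (hcj i) (abs_nonneg _)
      have hXi := hX i
      have h7 : e / ρ * ((∑ l, |c i l|) / 2)⁻¹ = e / (ρ * ((∑ l, |c i l|) / 2)) := by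
        rw [div_mul_eq_mul_div, ← div_eq_mul_inv, div_div, mul_comm]
      rw [h7, le_div_iff₀ (mul_pos hρ hXi)]
      linarith
  have h1 := chord_principle_meas hdim (convexHull ℝ (Set.range p)) hTc hTconv hint S hSm u hu0 B
    (hST.trans hcov) (fun _ => e / ρ) (fun _ => div_nonneg he.le hρ.le) hchord
  have h2 := vertex_slab_volume hdim b j he1
  rw [hb, ← hS] at h2
  calc volume (convexHull ℝ (Set.range p))
      ≤ volume S + ENNReal.ofReal ((1 - e) ^ 3) * volume (convexHull ℝ (Set.range p)) := h2
    _ ≤ 3 * volume (convexHull ℝ (Set.range p)) *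
          (ENNReal.ofReal (e / ρ) * ∑ i, volume (B i) /
            volume ((ℝ ∙ u i)ᗮ.orthogonalProjectionOnto '' convexHull ℝ (Set.range p))) +
        ENNReal.ofReal ((1 - e) ^ 3) * volume (convexHull ℝ (Set.range p)) := by
        refine add_le_add (le_trans h1 (le_of_eq ?_)) le_rfl
        congr 1
        rw [Finset.mul_sum]

end Vale.Agent.Lib.P243
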