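import Mathlib
import Vale.Agent.Lib.P243.TetraCoord
import Vale.Agent.Lib.P243.MChord
import Vale.Agent.Lib.P243.TetraTheta
import Vale.Agent.Lib.P243.TetraVertex
import Vale.Agent.Lib.P243.TetraCross

/-!
Local form of the covering bound for tetrahedra: around every direction there is a
neighbourhood of directions such that every covering of the tetrahedron by cylinders whose
axes all lie in that neighbourhood has total relative base area at least `1 / 2`.
-/

open MeasureTheory Set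

namespace Vale.Agent.Lib.P243

variable {E : Type*} [NormedAddCommGroup E] [InnerProductSpace ℝ E] [MeasurableSpace E]
  [BorelSpace E] [FiniteDimensional ℝ E]


/-- Four real numbers of equal absolute value `a > 0` adding up to zero: two distinct ones
are equal to `a`. -/
theorem tetraLocalAux_two_pos (c : Fin 4 → ℝ) (a : ℝ) (ha : 0 < a) (habs : ∀ l, |c l| = a)
    (hsum : ∑ l, c l = 0) : ∃ j k : Fin 4, j ≠ k ∧ c j = a ∧ c k = a := by
  rw [Fin.sum_univ_four] at hsum
  have h : ∀ l, c l = a ∨ c l = -a := fun l => (abs_eq ha.le).mp (habs l)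
  rcases h 0 with h0 | h0 <;> rcases h 1 with h1 | h1 <;> rcases h 2 with h2 | h2 <;>
    rcases h 3 with h3 | h3
  all_goals first
    | exact ⟨0, 1, by decide, h0, h1⟩
    | exact ⟨0, 2, by decide, h0, h2⟩
    | exact ⟨0, 3, by decide, h0, h3⟩
    | exact ⟨1, 2, by decide, h1, h2⟩
    | exact ⟨1, 3, by decide, h1, h3⟩
    | exact ⟨2, 3, by decide, h2, h3⟩
    | (exfalso; rw [h0, h1, h2, h3] at hsum; linarith)

/-- Four real numbers, none of which carries more than a quarter of the total absolute value,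
and not all zero, adding up to zero: after a permutation the first two are negative and the
last two are positive. -/
theorem tetraLocalAux_signs (c : Fin 4 → ℝ) (hne : ∃ l, c l ≠ 0) (hsum : ∑ l, c l = 0)
    (hq : ∀ j, 4 * |c j| ≤ ∑ l, |c l|) :
    ∃ σ : Equiv.Perm (Fin 4), c (σ 0) < 0 ∧ c (σ 1) < 0 ∧ 0 < c (σ 2) ∧ 0 < c (σ 3) := by
  obtain ⟨S, hS⟩ : ∃ S : ℝ, S = ∑ l, |c l| := ⟨_, rfl⟩
  rw [← hS] at hq
  have hS4 : S = |c 0| + |c 1| + |c 2| + |c 3| := by rw [hS, Fin.sum_univ_four]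
  have hSpos : 0 < S := by
    obtain ⟨l, hl⟩ := hne
    rw [hS]
    exact Finset.sum_pos' (fun l _ => abs_nonneg (c l)) ⟨l, Finset.mem_univ l, abs_pos.mpr hl⟩
  have habs : ∀ l, |c l| = S / 4 := by
    have h0 := hq 0
    have h1 := hq 1
    have h2 := hq 2
    have h3 := hq 3
    intro l
    fin_cases l <;> simp only [Fin.zero_eta, Fin.mk_one, Fin.reduceFinMk] <;> linarith
  have ha : 0 < S / 4 := by linarith
  obtain ⟨j, k, hjk, hj, hk⟩ := tetraLocalAux_two_pos c (S / 4) ha habs hsum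
  obtain ⟨σ, hσ2, hσ3⟩ := exists_perm_two_three j k hjk
  have hps := perm_sum σ c
  rw [hsum, hσ2, hσ3, hj, hk] at hps
  have e0 : c (σ 0) = S / 4 ∨ c (σ 0) = -(S / 4) := (abs_eq ha.le).mp (habs (σ 0))
  have e1 : c (σ 1) = S / 4 ∨ c (σ 1) = -(S / 4) := (abs_eq ha.le).mp (habs (σ 1))
  refine ⟨σ, ?_, ?_, ?_, ?_⟩
  · rcases e0 with e0 | e0 <;> rcases e1 with e1 | e1 <;> linarith
  · rcases e0 with e0 | e0 <;> rcases e1 with e1 | e1 <;> linarith
  · rw [hσ2, hj]; exact ha
  · rw [hσ3, hk]; exact ha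

/-- Local form, with the two covering bounds it rests on as hypotheses: `HV` is the bound for
coverings all of whose axes have a common dominant vertex, `HC` is the bound for coverings all
of whose axes are parallel to segments joining the same two opposite edges. Around every
direction there is a neighbourhood of directions such that every covering with all axes in it
has relative area at least `1 / 2`. -/
theorem tetra_local_of (hdim : Module.finrank ℝ E = 3) (p : Fin 4 → E)
    (hint : (interior (convexHull ℝ (Set.range p))).Nonempty)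
    (HV : ∀ (j : Fin 4) (ρ : ℝ), 0 < ρ → ∀ (m : ℕ) (u : Fin m → E)
      (c : Fin m → Fin 4 → ℝ), (∀ i, ∑ l, c i l = 0) → (∀ i, u i = ∑ l, c i l • p l) →
      (∀ i, ρ * ∑ l, |c i l| ≤ 2 * |c i j|) → (∀ i, u i ≠ 0) →
      ∀ B : ∀ i, Set ↥(ℝ ∙ u i)ᗮ,
        convexHull ℝ (Set.range p) ⊆
          ⋃ i, (ℝ ∙ u i)ᗮ.orthogonalProjectionOnto ⁻¹' B i →
        ENNReal.ofReal ρ ≤
          ∑ i, volume (B i) /
            volume ((ℝ ∙ u i)ᗮ.orthogonalProjectionOnto '' convexHull ℝ (Set.range p)))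
    (HC : ∀ (σ : Equiv.Perm (Fin 4)) (m : ℕ) (u : Fin m → E), (∀ i, u i ≠ 0) →
      (∀ i, ∃ q ∈ segment ℝ (p (σ 0)) (p (σ 1)), ∃ q' ∈ segment ℝ (p (σ 2)) (p (σ 3)),
        u i ∈ ℝ ∙ (q' - q)) →
      ∀ B : ∀ i, Set ↥(ℝ ∙ u i)ᗮ,
        convexHull ℝ (Set.range p) ⊆
          ⋃ i, (ℝ ∙ u i)ᗮ.orthogonalProjectionOnto ⁻¹' B i →
        (1 / 2 : ENNReal) ≤
          ∑ i, volume (B i) /
            volume ((ℝ ∙ u i)ᗮ.orthogonalProjectionOnto '' convexHull ℝ (Set.range p)))
    (u0 : E) (hu0 : u0 ≠ 0) :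
    ∃ ε : ℝ, 0 < ε ∧ ∀ (m : ℕ) (u : Fin m → E), (∀ i, u i ≠ 0) →
      (∀ i, ∃ t : ℝ, ‖t • u i - u0‖ < ε) →
      ∀ B : ∀ i, Set ↥(ℝ ∙ u i)ᗮ,
        convexHull ℝ (Set.range p) ⊆
          ⋃ i, (ℝ ∙ u i)ᗮ.orthogonalProjectionOnto ⁻¹' B i →
        (1 / 2 : ENNReal) ≤
          ∑ i, volume (B i) /
            volume ((ℝ ∙ u i)ᗮ.orthogonalProjectionOnto '' convexHull ℝ (Set.range p)) := by
  have htop : affineSpan ℝ (Set.range p) = ⊤ :=
    interior_convexHull_nonempty_iff_affineSpan_eq_top.mp hint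
  have hind : AffineIndependent ℝ p := by
    rw [affineIndependent_iff_finrank_vectorSpan_eq ℝ p (n := 3) (by simp),
      ← direction_affineSpan, htop, AffineSubspace.direction_top, finrank_top, hdim]
  let b : AffineBasis (Fin 4) ℝ E := ⟨p, hind, htop⟩
  have hbp : ∀ l, b l = p l := fun l => rfl
  -- the barycentric slopes
  obtain ⟨cc, hcc⟩ : ∃ cc : Fin 4 → E → ℝ, cc = fun l w => (b.coord l).linear w := ⟨_, rfl⟩
  have hcont : ∀ l, Continuous (cc l) := by
    intro l
    rw [hcc]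
    exact (b.coord l).linear.continuous_of_finiteDimensional
  have hsum0 : ∀ w, ∑ l, cc l w = 0 := by
    intro w
    rw [hcc]
    exact sum_coord_linear b w
  have hcomb : ∀ w, w = ∑ l, cc l w • p l := by
    intro w
    rw [hcc]
    exact (sum_coord_linear_smul b w).symm
  have hsmul : ∀ l (t : ℝ) (w : E), cc l (t • w) = t * cc l w := by
    intro l t w
    rw [hcc]
    simp
  have hne0 : ∃ l, cc l u0 ≠ 0 := by
    by_contra hno
    push Not at hno
    apply hu0
    rw [hcomb u0]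
    simp [hno]
  by_cases hcase : ∃ j, ∑ l, |cc l u0| < 4 * |cc j u0|
  · -- a dominant vertex
    obtain ⟨j, hj⟩ := hcase
    have hgc : Continuous fun w => 4 * |cc j w| - ∑ l, |cc l w| :=
      (continuous_const.mul (hcont j).abs).sub
        (continuous_finsetSum _ fun l _ => (hcont l).abs)
    have hopen : IsOpen {w : E | 0 < 4 * |cc j w| - ∑ l, |cc l w|} :=
      isOpen_lt continuous_const hgc
    have hmem : u0 ∈ {w : E | 0 < 4 * |cc j w| - ∑ l, |cc l w|} := by
      show 0 < 4 * |cc j u0| - ∑ l, |cc l u0|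
      linarith
    obtain ⟨ε, hε, hball⟩ := Metric.isOpen_iff.mp hopen u0 hmem
    refine ⟨ε, hε, ?_⟩
    intro m u hune hclose B hcov
    have hdom : ∀ i, (1 / 2 : ℝ) * ∑ l, |cc l (u i)| ≤ 2 * |cc j (u i)| := by
      intro i
      obtain ⟨t, ht⟩ := hclose i
      have hin : t • u i ∈ Metric.ball u0 ε := by
        rw [Metric.mem_ball, dist_eq_norm]
        exact ht
      have hg : 0 < 4 * |cc j (t • u i)| - ∑ l, |cc l (t • u i)| := hball hin
      have hfac : 4 * |cc j (t • u i)| - ∑ l, |cc l (t • u i)|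
          = |t| * (4 * |cc j (u i)| - ∑ l, |cc l (u i)|) := by
        simp only [hsmul, abs_mul]
        rw [← Finset.mul_sum]
        ring
      rw [hfac] at hg
      have hX : 0 < 4 * |cc j (u i)| - ∑ l, |cc l (u i)| := by
        by_contra hneg
        have := mul_nonpos_of_nonneg_of_nonpos (abs_nonneg t) (not_lt.mp hneg)
        linarith
      linarith
    have hres := HV j (1 / 2) (by norm_num) m u
      (fun i l => cc l (u i)) (fun i => hsum0 (u i)) (fun i => hcomb (u i)) hdom hune B hcov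
    have h12 : ENNReal.ofReal (1 / 2) = (1 / 2 : ENNReal) := by
      rw [ENNReal.ofReal_div_of_pos (by norm_num), ENNReal.ofReal_one, ENNReal.ofReal_ofNat]
    rw [h12] at hres
    exact hres
  · -- two against two
    push Not at hcase
    obtain ⟨σ, hs0, hs1, hs2, hs3⟩ := tetraLocalAux_signs (fun l => cc l u0) hne0 (hsum0 u0) hcase
    have hopen : IsOpen {w : E | cc (σ 0) w < 0 ∧ cc (σ 1) w < 0 ∧ 0 < cc (σ 2) w ∧
        0 < cc (σ 3) w} := by
      have h0 : IsOpen {w : E | cc (σ 0) w < 0} := isOpen_lt (hcont _) continuous_const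
      have h1 : IsOpen {w : E | cc (σ 1) w < 0} := isOpen_lt (hcont _) continuous_const
      have h2 : IsOpen {w : E | 0 < cc (σ 2) w} := isOpen_lt continuous_const (hcont _)
      have h3 : IsOpen {w : E | 0 < cc (σ 3) w} := isOpen_lt continuous_const (hcont _)
      exact h0.inter (h1.inter (h2.inter h3))
    obtain ⟨ε, hε, hball⟩ := Metric.isOpen_iff.mp hopen u0 ⟨hs0, hs1, hs2, hs3⟩
    refine ⟨ε, hε, ?_⟩
    intro m u hune hclose B hcov
    have hcross : ∀ i, ∃ q ∈ segment ℝ (p (σ 0)) (p (σ 1)),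
        ∃ q' ∈ segment ℝ (p (σ 2)) (p (σ 3)), u i ∈ ℝ ∙ (q' - q) := by
      intro i
      obtain ⟨t, ht⟩ := hclose i
      have hin : t • u i ∈ Metric.ball u0 ε := by
        rw [Metric.mem_ball, dist_eq_norm]
        exact ht
      obtain ⟨w, hw⟩ : ∃ w : E, w = t • u i := ⟨_, rfl⟩
      rw [← hw] at hin
      obtain ⟨w0, w1, w2, w3⟩ := hball hin
      have hps := perm_sum σ (fun l => cc l w)
      rw [hsum0 w] at hps
      obtain ⟨S', hS'⟩ : ∃ S' : ℝ, S' = cc (σ 2) w + cc (σ 3) w := ⟨_, rfl⟩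
      have hSpos : 0 < S' := by rw [hS']; linarith
      have hSne : S' ≠ 0 := hSpos.ne'
      have hneg : -(cc (σ 0) w) + -(cc (σ 1) w) = S' := by rw [hS']; linarith
      have hwv : w = cc (σ 0) w • p (σ 0) + cc (σ 1) w • p (σ 1) + cc (σ 2) w • p (σ 2)
          + cc (σ 3) w • p (σ 3) := by
        have h1 := hcomb w
        rw [← Equiv.sum_comp σ (fun l => cc l w • p l), Fin.sum_univ_four] at h1
        exact h1
      have ht0 : t ≠ 0 := by
        intro h0
        rw [h0, zero_smul] at hw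
        rw [hw, hcc] at w2
        simp at w2
      refine ⟨(-(cc (σ 0) w) / S') • p (σ 0) + (-(cc (σ 1) w) / S') • p (σ 1),
        ⟨-(cc (σ 0) w) / S', -(cc (σ 1) w) / S', div_nonneg (by linarith) hSpos.le,
          div_nonneg (by linarith) hSpos.le, ?_, rfl⟩,
        (cc (σ 2) w / S') • p (σ 2) + (cc (σ 3) w / S') • p (σ 3),
        ⟨cc (σ 2) w / S', cc (σ 3) w / S', div_nonneg w2.le hSpos.le,
          div_nonneg w3.le hSpos.le, ?_, rfl⟩, ?_⟩
      · rw [← add_div, hneg, div_self hSne]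
      · rw [← add_div, ← hS', div_self hSne]
      · rw [Submodule.mem_span_singleton]
        refine ⟨t⁻¹ * S', ?_⟩
        have hdiff : (cc (σ 2) w / S') • p (σ 2) + (cc (σ 3) w / S') • p (σ 3)
            - ((-(cc (σ 0) w) / S') • p (σ 0) + (-(cc (σ 1) w) / S') • p (σ 1))
            = S'⁻¹ • w := by
          conv_rhs => rw [hwv]
          simp only [smul_add, smul_smul, div_eq_inv_mul]
          module
        rw [hdiff, smul_smul, mul_assoc, mul_inv_cancel₀ hSne, mul_one, hw, smul_smul,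
          inv_mul_cancel₀ ht0, one_smul]
    exact HC σ m u hune hcross B hcov

/-- LEAF L. Local form: around every direction there is a neighbourhood of directions such
that every covering with all axes in it has relative area at least `1 / 2`. -/
theorem tetra_local (hdim : Module.finrank ℝ E = 3) (p : Fin 4 → E)
    (hint : (interior (convexHull ℝ (Set.range p))).Nonempty) (u0 : E) (hu0 : u0 ≠ 0) :
    ∃ ε : ℝ, 0 < ε ∧ ∀ (m : ℕ) (u : Fin m → E), (∀ i, u i ≠ 0) →
      (∀ i, ∃ t : ℝ, ‖t • u i - u0‖ < ε) →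
      ∀ B : ∀ i, Set ↥(ℝ ∙ u i)ᗮ,
        convexHull ℝ (Set.range p) ⊆
          ⋃ i, (ℝ ∙ u i)ᗮ.orthogonalProjectionOnto ⁻¹' B i →
        (1 / 2 : ENNReal) ≤
          ∑ i, volume (B i) /
            volume ((ℝ ∙ u i)ᗮ.orthogonalProjectionOnto '' convexHull ℝ (Set.range p)) :=
  tetra_local_of hdim p hint
    (fun j ρ hρ _ u c h1 h2 h3 h4 B hcov =>
      tetra_vertex_indexed hdim p hint j ρ hρ u c h1 h2 h3 h4 B hcov)
    (fun σ _ u h1 h2 B hcov => tetra_cross_indexed hdim p hint σ u h1 h2 B hcov) u0 hu0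

end Vale.Agent.Lib.P243
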