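import Mathlib
import Vale.Agent.Lib.P243.MidSymGen

open MeasureTheory Set
open scoped ENNReal

namespace Vale.Agent.Lib.P243

variable {E : Type*} [NormedAddCommGroup E] [InnerProductSpace ℝ E] [FiniteDimensional ℝ E]
  [MeasurableSpace E] [BorelSpace E]

/-- Barycentric representation of the points of the convex hull of a finite family. -/
theorem tm_hull_repr {F : Type*} [AddCommGroup F] [Module ℝ F] {κ : Type*} [Fintype κ]
    (q : κ → F) {x : F} (hx : x ∈ convexHull ℝ (Set.range q)) :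
    ∃ lam : κ → ℝ, (∀ k, 0 ≤ lam k) ∧ ∑ k, lam k = 1 ∧ ∑ k, lam k • q k = x := by
  classical
  have hconv : Convex ℝ {x : F | ∃ lam : κ → ℝ, (∀ k, 0 ≤ lam k) ∧ ∑ k, lam k = 1 ∧
      ∑ k, lam k • q k = x} := by
    rintro x ⟨lam, h0, h1, rfl⟩ y ⟨mu, g0, g1, rfl⟩ a b ha hb hab
    refine ⟨fun k => a * lam k + b * mu k,
      fun k => add_nonneg (mul_nonneg ha (h0 k)) (mul_nonneg hb (g0 k)), ?_, ?_⟩
    · rw [Finset.sum_add_distrib, ← Finset.mul_sum, ← Finset.mul_sum, h1, g1]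
      linarith
    · simp only [add_smul, mul_smul, Finset.sum_add_distrib, Finset.smul_sum]
  refine convexHull_min ?_ hconv hx
  rintro _ ⟨i, rfl⟩
  refine ⟨Pi.single i 1, fun k => ?_, ?_, ?_⟩
  · by_cases h : k = i
    · subst h
      simp
    · simp [h]
  · simp
  · simp [Pi.single_apply]

omit [FiniteDimensional ℝ E] [MeasurableSpace E] [BorelSpace E] in
/-- The points of the tetrahedron in barycentric coordinates, and their heights. -/
theorem tm_inner (p : Fin 4 → E) (σ : Equiv.Perm (Fin 4)) (n : E) {α β : ℝ}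
    (h0 : inner ℝ (p (σ 0)) n = α) (h1 : inner ℝ (p (σ 1)) n = α)
    (h2 : inner ℝ (p (σ 2)) n = β) (h3 : inner ℝ (p (σ 3)) n = β) {x : E}
    (hx : x ∈ convexHull ℝ (Set.range p)) :
    ∃ lam : Fin 4 → ℝ, (∀ k, 0 ≤ lam k) ∧ lam 0 + lam 1 + lam 2 + lam 3 = 1 ∧
      lam 0 • p (σ 0) + lam 1 • p (σ 1) + lam 2 • p (σ 2) + lam 3 • p (σ 3) = x ∧
      inner ℝ x n = (lam 0 + lam 1) * α + (lam 2 + lam 3) * β := by
  have hr : Set.range (fun k => p (σ k)) = Set.range p := σ.surjective.range_comp p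
  rw [← hr] at hx
  obtain ⟨lam, l0, l1, hsum⟩ := tm_hull_repr (fun k => p (σ k)) hx
  rw [Fin.sum_univ_four] at l1 hsum
  refine ⟨lam, l0, l1, hsum, ?_⟩
  rw [← hsum, inner_add_left (𝕜 := ℝ), inner_add_left (𝕜 := ℝ), inner_add_left (𝕜 := ℝ),
    real_inner_smul_left, real_inner_smul_left, real_inner_smul_left, real_inner_smul_left,
    h0, h1, h2, h3]
  ring

/-- Tetrahedron, all axes parallel to the plane spanned by two opposite edges. -/
theorem tetra_midplane (hdim : Module.finrank ℝ E = 3) (p : Fin 4 → E)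
    (hint : (interior (convexHull ℝ (Set.range p))).Nonempty) (σ : Equiv.Perm (Fin 4))
    {ι : Type*} [Fintype ι] (u : ι → E) (hu : ∀ i, ‖u i‖ = 1)
    (B : ∀ i, Set ↥(ℝ ∙ u i)ᗮ)
    (hcov : convexHull ℝ (Set.range p) ⊆
      ⋃ i, (ℝ ∙ u i)ᗮ.orthogonalProjectionOnto ⁻¹' B i)
    {n : E} (hn : ‖n‖ = 1) (hperp : ∀ i, inner ℝ (u i) n = 0)
    (h01 : inner ℝ (p (σ 0) - p (σ 1)) n = 0) (h23 : inner ℝ (p (σ 2) - p (σ 3)) n = 0) :
    (1 / 2 : ℝ≥0∞) ≤
      ∑ i, volume (B i) /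
        volume ((ℝ ∙ u i)ᗮ.orthogonalProjectionOnto '' convexHull ℝ (Set.range p)) := by
  have hKc : IsCompact (convexHull ℝ (Set.range p)) := (Set.finite_range p).isCompact_convexHull ℝ
  have hKconv : Convex ℝ (convexHull ℝ (Set.range p)) := convex_convexHull ℝ _
  obtain ⟨α, e0⟩ : ∃ α : ℝ, inner ℝ (p (σ 0)) n = α := ⟨_, rfl⟩
  obtain ⟨β, e2⟩ : ∃ β : ℝ, inner ℝ (p (σ 2)) n = β := ⟨_, rfl⟩
  have e1 : inner ℝ (p (σ 1)) n = α := by
    rw [inner_sub_left (𝕜 := ℝ), e0] at h01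
    linarith
  have e3 : inner ℝ (p (σ 3)) n = β := by
    rw [inner_sub_left (𝕜 := ℝ), e2] at h23
    linarith
  have hrepr : ∀ x ∈ convexHull ℝ (Set.range p), ∃ lam : Fin 4 → ℝ, (∀ k, 0 ≤ lam k) ∧
      lam 0 + lam 1 + lam 2 + lam 3 = 1 ∧
      lam 0 • p (σ 0) + lam 1 • p (σ 1) + lam 2 • p (σ 2) + lam 3 • p (σ 3) = x ∧
      inner ℝ x n = (lam 0 + lam 1) * α + (lam 2 + lam 3) * β :=
    fun x hx => tm_inner p σ n e0 e1 e2 e3 hx
  have hnn : inner ℝ n n = 1 := by
    rw [real_inner_self_eq_norm_sq, hn]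
    norm_num
  have hne : α ≠ β := by
    intro hab
    obtain ⟨x, hx⟩ := hint
    obtain ⟨ε, hε, hball⟩ := Metric.isOpen_iff.mp isOpen_interior x hx
    have hxK : x ∈ convexHull ℝ (Set.range p) := interior_subset hx
    have hyK : x + (ε / 2) • n ∈ convexHull ℝ (Set.range p) := by
      apply interior_subset
      apply hball
      rw [Metric.mem_ball, dist_eq_norm, add_sub_cancel_left, norm_smul, hn, mul_one,
        Real.norm_eq_abs, abs_of_pos (by linarith)]
      linarith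
    obtain ⟨lam, -, l1, -, hi⟩ := hrepr x hxK
    obtain ⟨mu, -, m1, -, hj⟩ := hrepr _ hyK
    rw [inner_add_left (𝕜 := ℝ), real_inner_smul_left, hnn] at hj
    rw [← hab] at hi hj
    have hi' : inner ℝ x n = α := by
      rw [hi]
      linear_combination α * l1
    have hj' : inner ℝ x n + ε / 2 * 1 = α := by
      rw [hj]
      linear_combination α * m1
    linarith
  have hlo : ∀ x ∈ convexHull ℝ (Set.range p), min α β ≤ inner ℝ x n := by
    intro x hx
    obtain ⟨lam, l0, l1, -, hi⟩ := hrepr x hx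
    have hs : 0 ≤ lam 0 + lam 1 := add_nonneg (l0 0) (l0 1)
    have ht : 0 ≤ lam 2 + lam 3 := add_nonneg (l0 2) (l0 3)
    have hst : (lam 0 + lam 1) + (lam 2 + lam 3) = 1 := by linarith
    rw [hi]
    calc min α β = (lam 0 + lam 1) * min α β + (lam 2 + lam 3) * min α β := by
          rw [← add_mul, hst, one_mul]
      _ ≤ (lam 0 + lam 1) * α + (lam 2 + lam 3) * β :=
          add_le_add (mul_le_mul_of_nonneg_left (min_le_left _ _) hs)
            (mul_le_mul_of_nonneg_left (min_le_right _ _) ht)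
  have hhi : ∀ x ∈ convexHull ℝ (Set.range p), inner ℝ x n ≤ max α β := by
    intro x hx
    obtain ⟨lam, l0, l1, -, hi⟩ := hrepr x hx
    have hs : 0 ≤ lam 0 + lam 1 := add_nonneg (l0 0) (l0 1)
    have ht : 0 ≤ lam 2 + lam 3 := add_nonneg (l0 2) (l0 3)
    have hst : (lam 0 + lam 1) + (lam 2 + lam 3) = 1 := by linarith
    rw [hi]
    calc (lam 0 + lam 1) * α + (lam 2 + lam 3) * β
        ≤ (lam 0 + lam 1) * max α β + (lam 2 + lam 3) * max α β :=
          add_le_add (mul_le_mul_of_nonneg_left (le_max_left _ _) hs)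
            (mul_le_mul_of_nonneg_left (le_max_right _ _) ht)
      _ = max α β := by rw [← add_mul, hst, one_mul]
  have hv0 : p (σ 0) ∈ convexHull ℝ (Set.range p) :=
    subset_convexHull ℝ _ (Set.mem_range_self _)
  have hv2 : p (σ 2) ∈ convexHull ℝ (Set.range p) :=
    subset_convexHull ℝ _ (Set.mem_range_self _)
  obtain ⟨x₀, hx₀K, hx₀⟩ : ∃ x₀ ∈ convexHull ℝ (Set.range p), inner ℝ x₀ n = min α β := by
    rcases le_total α β with h | h
    · exact ⟨p (σ 0), hv0, by rw [e0, min_eq_left h]⟩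
    · exact ⟨p (σ 2), hv2, by rw [e2, min_eq_right h]⟩
  obtain ⟨x₁, hx₁K, hx₁⟩ : ∃ x₁ ∈ convexHull ℝ (Set.range p), inner ℝ x₁ n = max α β := by
    rcases le_total α β with h | h
    · exact ⟨p (σ 2), hv2, by rw [e2, max_eq_right h]⟩
    · exact ⟨p (σ 0), hv0, by rw [e0, max_eq_left h]⟩
  obtain ⟨c, hcdef⟩ : ∃ c : E, c = (1 / 4 : ℝ) • (p (σ 0) + p (σ 1) + p (σ 2) + p (σ 3)) :=
    ⟨_, rfl⟩
  have hc : 2 * inner ℝ c n = min α β + max α β := by
    rw [min_add_max, hcdef, real_inner_smul_left, inner_add_left (𝕜 := ℝ),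
      inner_add_left (𝕜 := ℝ), inner_add_left (𝕜 := ℝ), e0, e1, e2, e3]
    ring
  have hsym : ∀ x ∈ convexHull ℝ (Set.range p), 2 * inner ℝ x n = min α β + max α β →
      (2 : ℝ) • c - x ∈ convexHull ℝ (Set.range p) := by
    intro x hx hmid
    rw [min_add_max] at hmid
    obtain ⟨lam, l0, l1, hsum, hi⟩ := hrepr x hx
    rw [hi] at hmid
    have hprod : (2 * (lam 0 + lam 1) - 1) * (α - β) = 0 := by
      linear_combination hmid - 2 * β * l1
    have hs : lam 0 + lam 1 = 1 / 2 := by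
      rcases mul_eq_zero.mp hprod with h | h
      · linarith
      · exact absurd (sub_eq_zero.mp h) hne
    have ht : lam 2 + lam 3 = 1 / 2 := by linarith
    have hk4 : ∀ k : Fin 4, k = 0 ∨ k = 1 ∨ k = 2 ∨ k = 3 := by decide
    have hle : ∀ k, lam k ≤ 1 / 2 := by
      intro k
      rcases hk4 k with rfl | rfl | rfl | rfl <;> linarith [l0 0, l0 1, l0 2, l0 3]
    refine mem_convexHull_of_exists_fintype (fun k => 1 / 2 - lam k) (fun k => p (σ k))
      (fun k => by linarith [hle k]) ?_ (fun k => Set.mem_range_self _) ?_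
    · rw [Fin.sum_univ_four]
      linarith
    · rw [Fin.sum_univ_four, ← hsum, hcdef]
      module
  have hmain := midsym_coplanar hdim hKc hKconv hint u hu B hcov hn hperp (min α β) (max α β)
    hlo hhi x₀ x₁ hx₀K hx₁K hx₀ hx₁ c hc hsym
  exact hmain

end Vale.Agent.Lib.P243
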